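import Mathlib

/-!
# R226 / Alex : Alexandrov's theorem for semiconcave functions

A relation `Γ` with `⟪p - p', x - x'⟫ ≤ C ‖x - x'‖²` is parametrised by the Lipschitz map `(C + 1) x - p ↦ x` (Minty).
By the theorems of Rademacher and Sard this map is differentiable with invertible derivative above almost every `x`.
-/

set_option autoImplicit false

namespace Crest.Agent.R226.Alex

open MeasureTheory MeasureTheory.Measure Set Filter Topology Module Asymptotics
open scoped NNReal ENNReal RealInnerProductSpace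

variable {E : Type*} [NormedAddCommGroup E] [InnerProductSpace ℝ E]

/-- `p` is a supergradient of `f` at `x` relative to `U`, with semiconcavity constant `C` -/
def SupG (U : Set E) (C : ℝ) (f : E → ℝ) (x p : E) : Prop :=
  ∀ y ∈ U, f y ≤ f x + ⟪p, y - x⟫ + C / 2 * ‖y - x‖ ^ 2

variable {U : Set E} {C K : ℝ} {f : E → ℝ} {q : E → E} {x p : E}

theorem SupG.mono {y p' : E} (h : SupG U C f x p) (h' : SupG U C f y p') (hx : x ∈ U) (hy : y ∈ U) :
    ⟪p - p', x - y⟫ ≤ C * ‖x - y‖ ^ 2 := by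
  have h1 := h y hy
  have h2 := h' x hx
  rw [← neg_sub x y, inner_neg_right, norm_neg] at h1
  rw [inner_sub_left]
  linarith

theorem abs_sub_le_of_supG (hq : ∀ x ∈ U, SupG U C f x (q x) ∧ ‖q x‖ ≤ K) {y : E} (hx : x ∈ U) (hy : y ∈ U) :
    |f y - f x| ≤ K * ‖y - x‖ + C / 2 * ‖y - x‖ ^ 2 := by
  have h1 := (hq x hx).1 y hy
  have h2 := (hq y hy).1 x hx
  have h3 := (real_inner_le_norm (q x) (y - x)).trans (mul_le_mul_of_nonneg_right (hq x hx).2 (norm_nonneg _))
  have h4 := (real_inner_le_norm (q y) (x - y)).trans (mul_le_mul_of_nonneg_right (hq y hy).2 (norm_nonneg _))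
  rw [norm_sub_rev x y] at h2 h4
  rw [abs_le]
  constructor <;> linarith

theorem continuousOn_of_supG (hq : ∀ x ∈ U, SupG U C f x (q x) ∧ ‖q x‖ ≤ K) : ContinuousOn f U := fun x hx => by
  rw [ContinuousWithinAt, tendsto_iff_norm_sub_tendsto_zero]
  refine squeeze_zero' (Eventually.of_forall fun _ => norm_nonneg _)
    (eventually_nhdsWithin_of_forall fun y hy => abs_sub_le_of_supG hq hx hy) ?_
  exact ((by fun_prop : Continuous fun y : E => K * ‖y - x‖ + C / 2 * ‖y - x‖ ^ 2).tendsto' x 0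
    (by simp)).mono_left nhdsWithin_le_nhds

/-- integration of a bound for supergradients along a segment -/
theorem le_of_segment (hq : ∀ x ∈ U, SupG U C f x (q x) ∧ ‖q x‖ ≤ K) {a h : E} {α β : ℝ}
    (hU : ∀ t ∈ Icc (0 : ℝ) 1, a + t • h ∈ U) (hb : ∀ t ∈ Icc (0 : ℝ) 1, ⟪q (a + t • h), h⟫ ≤ α + β * t) :
    f (a + h) ≤ f a + α + β / 2 := by
  have key := image_le_of_liminf_slope_right_le_deriv_boundary (f := fun t : ℝ => f (a + t • h)) (a := 0) (b := 1)
    ((continuousOn_of_supG hq).comp (by fun_prop) hU) (B := fun t => f a + α * t + β / 2 * t ^ 2)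
    (B' := fun t => α + β * t) (by simp) (by fun_prop) (fun t _ => by
      have := (((hasDerivAt_id t).const_mul α).const_add (f a)).add (((hasDerivAt_id t).pow 2).const_mul (β / 2))
      refine (this.congr_deriv ?_).hasDerivWithinAt
      simp only [id]
      push_cast
      ring) (fun t ht r hr => by
      refine Eventually.frequently ?_
      have e1 : ∀ᶠ z in 𝓝[>] t, α + β * t + C / 2 * (z - t) * ‖h‖ ^ 2 < r :=
        (((by fun_prop : Continuous fun z : ℝ => α + β * t + C / 2 * (z - t) * ‖h‖ ^ 2).tendsto' t (α + β * t)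
          (by simp)).mono_left nhdsWithin_le_nhds).eventually (gt_mem_nhds hr)
      filter_upwards [e1, Ioo_mem_nhdsGT ht.2] with z h1 h2
      have h3 : 0 < z - t := sub_pos.2 h2.1
      have h4 := (hq _ (hU t (Ico_subset_Icc_self ht))).1 _ (hU z ⟨ht.1.trans h2.1.le, h2.2.le⟩)
      have e2 : a + z • h - (a + t • h) = (z - t) • h := by rw [sub_smul]; abel
      rw [e2, real_inner_smul_right, norm_smul, Real.norm_of_nonneg h3.le] at h4
      have h5 := mul_le_mul_of_nonneg_left (hb t (Ico_subset_Icc_self ht)) h3.le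
      have h6 := mul_lt_mul_of_pos_left h1 h3
      rw [slope_def_field, div_lt_iff₀ h3]
      nlinarith) (right_mem_Icc.2 zero_le_one)
  simpa using key

/-- second order expansion from the differentiability of a selection of supergradients -/
theorem taylor_of_hasFDerivAt (hU : U ∈ 𝓝 x) (hq : ∀ x ∈ U, SupG U C f x (q x) ∧ ‖q x‖ ≤ K) {A : E →L[ℝ] E}
    (hA : HasFDerivAt q A x) :
    (fun y => f y - f x - ⟪q x, y - x⟫ - 1 / 2 * ⟪A (y - x), y - x⟫) =o[𝓝 x] fun y => ‖y - x‖ ^ 2 := by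
  refine IsLittleO.of_bound fun ε hε => ?_
  obtain ⟨r, hr, hr'⟩ := Metric.mem_nhds_iff.1 (inter_mem hU (hA.isLittleO.bound hε))
  filter_upwards [Metric.ball_mem_nhds x hr] with y hy
  rw [mem_ball_iff_norm] at hy
  set h := y - x with hh
  have hb : ∀ t ∈ Icc (0 : ℝ) 1, x + t • h ∈ U ∧ |⟪q (x + t • h), h⟫ - ⟪q x, h⟫ - t * ⟪A h, h⟫| ≤ ε * ‖h‖ ^ 2 := by
    intro t ht
    have n1 : ‖t • h‖ ≤ ‖h‖ := by
      rw [norm_smul, Real.norm_of_nonneg ht.1]
      exact mul_le_of_le_one_left (norm_nonneg _) ht.2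
    obtain ⟨h1, h2⟩ := hr' (show x + t • h ∈ Metric.ball x r by
      rw [mem_ball_iff_norm, add_sub_cancel_left]
      exact n1.trans_lt hy)
    refine ⟨h1, ?_⟩
    simp only [mem_ofPred_eq, add_sub_cancel_left, map_smul] at h2
    have h3 := abs_real_inner_le_norm (q (x + t • h) - q x - t • A h) h
    rw [inner_sub_left, inner_sub_left, real_inner_smul_left] at h3
    refine h3.trans ?_
    rw [sq, ← mul_assoc]
    exact mul_le_mul_of_nonneg_right (h2.trans (mul_le_mul_of_nonneg_left n1 hε.le)) (norm_nonneg _)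
  have u1 := le_of_segment hq (a := x) (h := h) (α := ⟪q x, h⟫ + ε * ‖h‖ ^ 2) (β := ⟪A h, h⟫)
    (fun t ht => (hb t ht).1) fun t ht => by linarith [(abs_le.1 (hb t ht).2).2]
  have e1 : ∀ t : ℝ, x + h + t • -h = x + (1 - t) • h := fun t => by rw [sub_smul, one_smul, smul_neg]; abel
  have m1 : ∀ t ∈ Icc (0 : ℝ) 1, 1 - t ∈ Icc (0 : ℝ) 1 := fun t ht => ⟨by linarith [ht.2], by linarith [ht.1]⟩
  have u2 := le_of_segment hq (a := x + h) (h := -h) (α := -⟪q x, h⟫ - ⟪A h, h⟫ + ε * ‖h‖ ^ 2) (β := ⟪A h, h⟫)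
    (fun t ht => by rw [e1]; exact (hb _ (m1 t ht)).1) fun t ht => by
      rw [e1, inner_neg_right]
      linarith [(abs_le.1 (hb _ (m1 t ht)).2).1]
  have e2 : x + h = y := by rw [hh]; abel
  rw [add_neg_cancel_right, e2] at u2
  rw [e2] at u1
  rw [Real.norm_eq_abs, Real.norm_of_nonneg (sq_nonneg _), abs_le]
  constructor <;> linarith

/-- the limit of the supergradient inequality at the second order -/
theorem quad_le (hU : U ∈ 𝓝 x) (hq : ∀ x ∈ U, SupG U C f x (q x) ∧ ‖q x‖ ≤ K) {A : E →L[ℝ] E}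
    (hA : HasFDerivAt q A x) (u v : E) :
    1 / 2 * ⟪A v, v⟫ ≤ 1 / 2 * ⟪A u, u⟫ + ⟪A u, v - u⟫ + C / 2 * ‖v - u‖ ^ 2 := by
  have tl : ∀ w : E, Tendsto (fun t : ℝ => x + t • w) (𝓝[>] 0) (𝓝 x) := fun w =>
    ((by fun_prop : Continuous fun t : ℝ => x + t • w).tendsto' 0 x (by simp)).mono_left nhdsWithin_le_nhds
  have t1 : ∀ w : E, Tendsto (fun t : ℝ => (f (x + t • w) - f x - t * ⟪q x, w⟫ - t ^ 2 * (1 / 2 * ⟪A w, w⟫)) / t ^ 2)
      (𝓝[>] 0) (𝓝 0) := fun w => by
    refine IsLittleO.tendsto_div_nhds_zero ?_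
    have h1 := (taylor_of_hasFDerivAt hU hq hA).comp_tendsto (tl w)
    refine (h1.congr_left fun t => ?_).trans_isBigO (IsBigO.of_bound (‖w‖ ^ 2) (Eventually.of_forall fun t => ?_))
    · simp only [Function.comp, add_sub_cancel_left, map_smul, real_inner_smul_left, real_inner_smul_right]
      ring
    · simp only [Function.comp, add_sub_cancel_left, norm_smul, norm_pow, norm_norm, mul_pow, norm_mul]
      exact (mul_comm _ _).le
  have t2 : Tendsto (fun t : ℝ => ⟪q (x + t • u) - q x - t • A u, v - u⟫ / t) (𝓝[>] 0) (𝓝 0) := by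
    refine IsLittleO.tendsto_div_nhds_zero ?_
    have h1 := hA.isLittleO.comp_tendsto (tl u)
    have h2 : (fun t : ℝ => ⟪q (x + t • u) - q x - t • A u, v - u⟫) =O[𝓝[>] 0]
        ((fun x' => q x' - q x - A (x' - x)) ∘ fun t : ℝ => x + t • u) :=
      IsBigO.of_bound ‖v - u‖ (Eventually.of_forall fun t => by
        simp only [Function.comp, add_sub_cancel_left, map_smul]
        rw [mul_comm]
        exact norm_inner_le_norm _ _)
    refine (h2.trans_isLittleO h1).trans_isBigO (IsBigO.of_bound ‖u‖ (Eventually.of_forall fun t => ?_))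
    simp only [Function.comp, add_sub_cancel_left, norm_smul]
    exact (mul_comm _ _).le
  have t3 := ((t1 u).add t2).sub (t1 v)
  rw [add_zero, sub_zero] at t3
  have t4 : 1 / 2 * ⟪A v, v⟫ - (1 / 2 * ⟪A u, u⟫ + ⟪A u, v - u⟫ + C / 2 * ‖v - u‖ ^ 2) ≤ 0 := by
    refine ge_of_tendsto t3 ?_
    filter_upwards [(tl u).eventually hU, (tl v).eventually hU, self_mem_nhdsWithin] with t h1 h2 ht
    have ht' : (0 : ℝ) < t := ht
    have h3 := (hq _ h1).1 _ h2
    have e : x + t • v - (x + t • u) = t • (v - u) := by rw [smul_sub]; abel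
    rw [e, real_inner_smul_right, norm_smul, Real.norm_of_nonneg ht'.le, mul_pow] at h3
    rw [inner_sub_left, inner_sub_left, real_inner_smul_left, ← mul_div_mul_right _ t ht'.ne', ← sq, ← add_div,
      ← sub_div, le_div_iff₀ (pow_pos ht' 2)]
    have e2 : ⟪q x, v - u⟫ = ⟪q x, v⟫ - ⟪q x, u⟫ := inner_sub_right _ _ _
    rw [e2]
    linarith
  linarith

theorem inner_self_le (hU : U ∈ 𝓝 x) (hq : ∀ x ∈ U, SupG U C f x (q x) ∧ ‖q x‖ ≤ K) {A : E →L[ℝ] E}
    (hA : HasFDerivAt q A x) (v : E) : ⟪A v, v⟫ ≤ C * ‖v‖ ^ 2 := by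
  have := quad_le hU hq hA 0 v
  simp only [map_zero, inner_zero_left, sub_zero] at this
  linarith

theorem symm_of_hasFDerivAt (hU : U ∈ 𝓝 x) (hq : ∀ x ∈ U, SupG U C f x (q x) ∧ ‖q x‖ ≤ K) {A : E →L[ℝ] E}
    (hA : HasFDerivAt q A x) (u w : E) : ⟪A u, w⟫ = ⟪u, A w⟫ := by
  have key : ∀ u w : E, ⟪A w, u⟫ ≤ ⟪A u, w⟫ := fun u w => by
    have t1 : Tendsto (fun s : ℝ => ⟪A u, w⟫ + s * (C * ‖w‖ ^ 2 - ⟪A w, w⟫)) (𝓝[>] 0) (𝓝 ⟪A u, w⟫) :=
      ((by fun_prop : Continuous fun s : ℝ => ⟪A u, w⟫ + s * (C * ‖w‖ ^ 2 - ⟪A w, w⟫)).tendsto' 0 _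
        (by simp)).mono_left nhdsWithin_le_nhds
    refine ge_of_tendsto t1 (eventually_nhdsWithin_of_forall fun s hs => ?_)
    have hs' : (0 : ℝ) < s := hs
    have h1 := quad_le hU hq hA u (u + s • w)
    simp only [add_sub_cancel_left, map_add, map_smul, inner_add_left, inner_add_right, real_inner_smul_left,
      real_inner_smul_right, norm_smul, Real.norm_of_nonneg hs'.le, mul_pow] at h1
    refine le_of_mul_le_mul_left ?_ hs'
    nlinarith
  rw [real_inner_comm (A w) u]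
  exact le_antisymm (key w u) (key u w)

theorem hasGradientAt_of_hasFDerivAt (hU : U ∈ 𝓝 x) (hq : ∀ x ∈ U, SupG U C f x (q x) ∧ ‖q x‖ ≤ K)
    {A : E →L[ℝ] E} (hA : HasFDerivAt q A x) : HasFDerivAt f (innerSL ℝ (q x)) x := by
  have h0 : (fun y : E => ‖y - x‖ ^ 2) =o[𝓝 x] fun y => y - x := isLittleO_pow_sub_sub x one_lt_two
  have h1 := (taylor_of_hasFDerivAt hU hq hA).trans h0
  have h2 : (fun y => 1 / 2 * ⟪A (y - x), y - x⟫) =o[𝓝 x] fun y => y - x := by
    refine IsBigO.trans_isLittleO (IsBigO.const_mul_left (IsBigO.of_bound ‖A‖ (Eventually.of_forall fun y => ?_)) _) h0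
    rw [Real.norm_of_nonneg (sq_nonneg _), sq, ← mul_assoc]
    exact (norm_inner_le_norm _ _).trans (mul_le_mul_of_nonneg_right (A.le_opNorm _) (norm_nonneg _))
  refine HasFDerivAt.of_isLittleO ((h1.add h2).congr_left fun y => ?_)
  rw [innerSL_apply_apply]
  ring

/-- a supergradient at a point of differentiability is the gradient -/
theorem SupG.eq_of_hasFDerivAt (hU : U ∈ 𝓝 x) {p' : E} (h : SupG U C f x p')
    (hf : HasFDerivAt f (innerSL ℝ p) x) : p' = p := by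
  have h1 : HasFDerivAt (fun y : E => ‖y - x‖ ^ 2) (0 : E →L[ℝ] ℝ) x := by
    simpa using ((hasFDerivAt_id x).sub_const x).norm_sq
  have h2 : HasFDerivAt (fun y : E => ⟪p', y - x⟫) (innerSL ℝ p') x := by
    simp only [inner_sub_right]
    exact (innerSL ℝ p').hasFDerivAt.sub_const ⟪p', x⟫
  have hm : IsLocalMin (fun y => ⟪p', y - x⟫ + C / 2 * ‖y - x‖ ^ 2 - f y) x :=
    (show ∀ᶠ y in 𝓝 x, y ∈ U from hU).mono fun y hy => by
      have := h y hy
      simp only [sub_self, inner_zero_right, norm_zero]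
      linarith
  have h3 := hm.hasFDerivAt_eq_zero ((h2.add (h1.const_mul (C / 2))).sub hf)
  refine ext_inner_right ℝ fun v => ?_
  have h4 := congrArg (fun l : E →L[ℝ] ℝ => l v) h3
  simpa [sub_eq_zero] using h4

variable [FiniteDimensional ℝ E] [MeasurableSpace E] [BorelSpace E] (m : Measure E) [m.IsAddHaarMeasure]

theorem lip_image_null {J : E → E} {L : ℝ≥0} (hJ : LipschitzWith L J) {N : Set E} (hN : m N = 0) :
    m (J '' N) = 0 := by
  have h1 : μH[(finrank ℝ E : ℝ)] N = 0 := absolutelyContinuous_isAddHaarMeasure _ m hN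
  have h2 := hJ.hausdorffMeasure_image_le (d := (finrank ℝ E : ℝ)) (Nat.cast_nonneg _) N
  rw [h1, mul_zero] at h2
  exact absolutelyContinuous_isAddHaarMeasure m (μH[(finrank ℝ E : ℝ)]) (le_antisymm h2 zero_le)

/-- a semi-monotone relation is tangent to a linear graph above almost every point -/
theorem rel_ae {Γ : Set (E × E)} (hΓ : ∀ a ∈ Γ, ∀ b ∈ Γ, ⟪a.2 - b.2, a.1 - b.1⟫ ≤ C * ‖a.1 - b.1‖ ^ 2) :
    ∀ᵐ x ∂m, ∀ p, (x, p) ∈ Γ → ∃ A : E →L[ℝ] E,
      (fun z : E × E => z.2 - p - A (z.1 - x)) =o[𝓝[Γ] (x, p)] fun z => z.1 - x := by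
  let w : E × E → E := fun z => (C + 1) • z.1 - z.2
  have hw : ∀ a ∈ Γ, ∀ b ∈ Γ, ‖a.1 - b.1‖ ≤ ‖w a - w b‖ := fun a ha b hb => by
    have e : w a - w b = (C + 1) • (a.1 - b.1) - (a.2 - b.2) := by simp only [w, smul_sub]; abel
    have h1 := real_inner_le_norm (w a - w b) (a.1 - b.1)
    rw [e, inner_sub_left, real_inner_smul_left, real_inner_self_eq_norm_sq, ← e] at h1
    have h2 := hΓ a ha b hb
    rcases (norm_nonneg (a.1 - b.1)).eq_or_lt with h | h
    · rw [← h]; exact norm_nonneg _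
    · exact le_of_mul_le_mul_right (by nlinarith) h
  have h1 : LipschitzOnWith 1 (fun z => (Function.invFunOn w Γ z).1) (w '' Γ) := by
    refine LipschitzOnWith.of_dist_le_mul ?_
    rintro _ ⟨a, ha, rfl⟩ _ ⟨b, hb, rfl⟩
    have k := hw _ (Function.invFunOn_apply_mem (f := w) ha) _ (Function.invFunOn_apply_mem (f := w) hb)
    rw [Function.invFunOn_apply_eq (f := w) ha, Function.invFunOn_apply_eq (f := w) hb] at k
    simpa only [dist_eq_norm, NNReal.coe_one, one_mul] using k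
  obtain ⟨J, hJ, hJ'⟩ := h1.extend_finite_dimension
  have hJw : ∀ a ∈ Γ, J (w a) = a.1 := fun a ha => by
    have k := hw _ (Function.invFunOn_apply_mem (f := w) ha) a ha
    rw [Function.invFunOn_apply_eq (f := w) ha, sub_self, norm_zero, norm_le_zero_iff, sub_eq_zero] at k
    rw [← hJ' ⟨a, ha, rfl⟩]
    exact k
  have n1 : m (J '' {z | ¬ DifferentiableAt ℝ J z}) = 0 := lip_image_null m hJ (ae_iff.1 hJ.ae_differentiableAt)
  have n2 : m (J '' {z | DifferentiableAt ℝ J z ∧ (fderiv ℝ J z).det = 0}) = 0 :=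
    addHaar_image_eq_zero_of_det_fderivWithin_eq_zero m (f' := fderiv ℝ J)
      (fun z hz => hz.1.hasFDerivAt.hasFDerivWithinAt) fun z hz => hz.2
  filter_upwards [measure_eq_zero_iff_ae_notMem.1 n1, measure_eq_zero_iff_ae_notMem.1 n2] with x a1 a2 p hp
  have d1 : DifferentiableAt ℝ J (w (x, p)) := by
    by_contra h
    exact a1 ⟨_, h, hJw _ hp⟩
  have d2 : (fderiv ℝ J (w (x, p))).det ≠ 0 := fun h => a2 ⟨_, ⟨d1, h⟩, hJw _ hp⟩
  let B := (fderiv ℝ J (w (x, p))).toContinuousLinearEquivOfDetNeZero d2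
  have tw : Tendsto w (𝓝[Γ] (x, p)) (𝓝 (w (x, p))) :=
    ((by fun_prop : Continuous w).tendsto _).mono_left nhdsWithin_le_nhds
  have o1 : (fun z : E × E => z.1 - x - B (w z - w (x, p))) =o[𝓝[Γ] (x, p)] fun z => w z - w (x, p) := by
    refine (d1.hasFDerivAt.isLittleO.comp_tendsto tw).congr' ?_ EventuallyEq.rfl
    refine eventually_nhdsWithin_of_forall fun z hz => ?_
    simp only [Function.comp, hJw z hz, hJw _ hp]
    rfl
  have o2 : (fun z : E × E => w z - w (x, p)) =O[𝓝[Γ] (x, p)] fun z => B (w z - w (x, p)) :=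
    B.isBigO_comp_rev _ _
  have o3 : (fun z : E × E => B (w z - w (x, p))) =O[𝓝[Γ] (x, p)] fun z => z.1 - x :=
    ((o1.trans_isBigO o2).right_isBigO_add').congr_right fun z => add_sub_cancel _ _
  refine ⟨(C + 1) • ContinuousLinearMap.id ℝ E - (B.symm : E →L[ℝ] E), ?_⟩
  have o4 := ((B.symm : E →L[ℝ] E).isBigO_comp _ _).trans_isLittleO (o1.trans_isBigO (o2.trans o3))
  refine o4.congr_left fun z => ?_
  simp only [map_sub, ContinuousLinearEquiv.coe_coe, ContinuousLinearEquiv.symm_apply_apply,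
    _root_.sub_apply, _root_.smul_apply, ContinuousLinearMap.id_apply, w]
  abel

/-- Alexandrov's theorem.  All supergradients of norm at most `K` are covered, not only the selection `q`. -/
theorem alexandrov (hU : IsOpen U) (hq : ∀ x ∈ U, SupG U C f x (q x) ∧ ‖q x‖ ≤ K) :
    ∀ᵐ x ∂m, x ∈ U → ∃ A : E →L[ℝ] E, HasFDerivAt q A x ∧ (∀ u v, ⟪A u, v⟫ = ⟪u, A v⟫) ∧
      (∀ v, ⟪A v, v⟫ ≤ C * ‖v‖ ^ 2) ∧ HasFDerivAt f (innerSL ℝ (q x)) x ∧
      ((fun y => f y - f x - ⟪q x, y - x⟫ - 1 / 2 * ⟪A (y - x), y - x⟫) =o[𝓝 x] fun y => ‖y - x‖ ^ 2) ∧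
      (∀ p, SupG U C f x p → p = q x) ∧
      ∀ ε > 0, ∀ᶠ y in 𝓝 x, ∀ p, SupG U C f y p → ‖p‖ ≤ K → ‖p - q x - A (y - x)‖ ≤ ε * ‖y - x‖ := by
  let Γ : Set (E × E) := {z | z.1 ∈ U ∧ SupG U C f z.1 z.2 ∧ ‖z.2‖ ≤ K}
  filter_upwards [rel_ae m (Γ := Γ) (C := C) fun a ha b hb => ha.2.1.mono hb.2.1 ha.1 hb.1] with x hx hxU
  obtain ⟨A, hA⟩ := hx (q x) ⟨hxU, hq x hxU⟩
  have uniq : ∀ p, (x, p) ∈ Γ → p = q x := fun p hp => by
    have t1 : Tendsto (fun t : ℝ => (x, q x + t • (p - q x))) (𝓝[>] 0) (𝓝[Γ] (x, q x)) := by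
      refine tendsto_nhdsWithin_iff.2 ⟨((by fun_prop : Continuous fun t : ℝ => (x, q x + t • (p - q x))).tendsto' 0 _
        (by simp)).mono_left nhdsWithin_le_nhds, ?_⟩
      filter_upwards [Ioo_mem_nhdsGT zero_lt_one] with t ht
      refine ⟨hxU, fun y hy => ?_, ?_⟩
      · have h1 := mul_le_mul_of_nonneg_left ((hq x hxU).1 y hy) (sub_nonneg.2 ht.2.le)
        have h2 := mul_le_mul_of_nonneg_left (hp.2.1 y hy) ht.1.le
        simp only [inner_add_left, real_inner_smul_left, inner_sub_left] at h2 ⊢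
        linarith
      · exact mem_closedBall_zero_iff.1 ((convex_closedBall (0 : E) K).add_smul_sub_mem
          (mem_closedBall_zero_iff.2 (hq x hxU).2) (mem_closedBall_zero_iff.2 hp.2.2) ⟨ht.1.le, ht.2.le⟩)
    obtain ⟨t, h1, h2⟩ := ((t1.eventually (hA.bound one_pos)).and self_mem_nhdsWithin).exists
    simp only [add_sub_cancel_left, sub_self, map_zero, sub_zero, norm_zero, mul_zero, norm_le_zero_iff,
      smul_eq_zero] at h1
    exact sub_eq_zero.1 (h1.resolve_left (ne_of_gt h2))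
  have hl : comap Prod.fst (𝓝 x) ⊓ 𝓟 Γ ≤ 𝓝[Γ] (x, q x) := by
    have t1 : Tendsto Prod.fst (comap Prod.fst (𝓝 x) ⊓ 𝓟 Γ) (𝓝 x) := tendsto_comap.mono_left inf_le_left
    have t0 : ∀ᶠ z in comap Prod.fst (𝓝 x) ⊓ 𝓟 Γ, z ∈ Γ := mem_inf_of_right (mem_principal_self Γ)
    have t2 : Tendsto Prod.snd (comap Prod.fst (𝓝 x) ⊓ 𝓟 Γ) (𝓝 (q x)) := by
      refine tendsto_of_subseq_tendsto fun ns hns => ?_
      obtain ⟨p, hp, φ, hφ, h1⟩ := (isCompact_closedBall (0 : E) K).tendsto_subseq' (x := fun n => (ns n).2)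
        ((hns.eventually t0).mono fun n hn => mem_closedBall_zero_iff.2 hn.2.2).frequently
      refine ⟨φ, ?_⟩
      have h2 : Tendsto (fun n => (ns (φ n)).1) atTop (𝓝 x) := (t1.comp hns).comp hφ.tendsto_atTop
      have h3 : Tendsto (fun n => f (ns (φ n)).1) atTop (𝓝 (f x)) :=
        ((continuousOn_of_supG hq).continuousAt (hU.mem_nhds hxU)).tendsto.comp h2
      rw [← uniq p ⟨hxU, fun y hy => ?_, mem_closedBall_zero_iff.1 hp⟩]
      · exact h1
      · refine ge_of_tendsto ((h3.add (h1.inner (h2.const_sub y))).add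
          (((h2.const_sub y).norm.pow 2).const_mul (C / 2))) ?_
        exact (hφ.tendsto_atTop.eventually (hns.eventually t0)).mono fun n hn => hn.2.1 y hy
    exact le_inf (t1.prodMk_nhds t2) inf_le_right
  have all : ∀ ε > 0, ∀ᶠ y in 𝓝 x, ∀ p, SupG U C f y p → ‖p‖ ≤ K → ‖p - q x - A (y - x)‖ ≤ ε * ‖y - x‖ := by
    intro ε hε
    have h1 := ((hA.mono hl).bound hε)
    rw [eventually_inf_principal, eventually_comap] at h1
    filter_upwards [h1, hU.mem_nhds hxU] with y hy hyU p h2 h3 using hy (y, p) rfl ⟨hyU, h2, h3⟩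
  have hd : HasFDerivAt q A x := by
    refine HasFDerivAt.of_isLittleO (IsLittleO.of_bound fun ε hε => ?_)
    filter_upwards [all ε hε, hU.mem_nhds hxU] with y hy hyU using hy _ (hq y hyU).1 (hq y hyU).2
  have hn := hU.mem_nhds hxU
  exact ⟨A, hd, symm_of_hasFDerivAt hn hq hd, inner_self_le hn hq hd, hasGradientAt_of_hasFDerivAt hn hq hd,
    taylor_of_hasFDerivAt hn hq hd, fun p hp => hp.eq_of_hasFDerivAt hn (hasGradientAt_of_hasFDerivAt hn hq hd), all⟩

end Crest.Agent.R226.Alex
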