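import Crest.Agent.R226.G5

/-!
# R226 / G6: the injectivity domain

Prefix for auxiliary lemmas: `g6_`.
-/

set_option autoImplicit false
set_option linter.unusedSectionVars false

open scoped ContDiff Manifold Topology
open Bundle Set Filter Metric

noncomputable section

namespace Crest.Agent.R226.G

variable {n : ℕ} {M : Type*} [MetricSpace M] [ChartedSpace (EE n) M] [IsManifold 𝓘(ℝ, EE n) ∞ M]

namespace Riem

variable [CompactSpace M] {R : Riem n M}

theorem InI.smoothAt {a b : M} {ξ : TM n M} (h : R.InI ξ.proj (vecT ξ)) (hd : R.Dom a b ξ) : R.SmoothAt a b ξ :=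
  hd.smoothAt h.nonFocal (.of_forall fun p => R.exists_min p.1 p.2) fun _ he hm => h.unique hm he

theorem g6_near {x : M} {v : EE n} (h : R.InI x v) : ∀ᶠ η in 𝓝 (mkT x v), R.Min η.proj (vecT η) :=
  (InI.smoothAt (ξ := mkT x v) h (R.dom_self _)).eventually_min (R.dom_self _)

theorem g6_of_near {x : M} {v : EE n} (h : ∀ᶠ η in 𝓝 (mkT x v), R.Min η.proj (vecT η)) : R.InI x v := by
  have hc : Continuous fun a : ℝ => mkT x (a • v) := (continuous_mkT x).comp (continuous_id.smul continuous_const)
  have ht : Tendsto (fun a : ℝ => mkT x (a • v)) (𝓝 1) (𝓝 (mkT x v)) := by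
    have := hc.tendsto 1
    rwa [one_smul] at this
  obtain ⟨a, h1, h2⟩ :=
    (((ht.eventually h).filter_mono (nhdsWithin_le_nhds (s := Ioi 1))).and self_mem_nhdsWithin).exists
  exact ⟨a, h2, h1⟩

/-- take `a > 1` with `a • v ∈ I`; `SmoothAt.eventually_min` at `mkT x (a • v)`, `continuous_smulT` -/
theorem isOpen_inI (R : Riem n M) : IsOpen {ξ : TM n M | R.InI ξ.proj (vecT ξ)} := by
  refine isOpen_iff_mem_nhds.2 fun ξ hξ => ?_
  have h : ∀ᶠ η in 𝓝 ξ, R.Min η.proj (vecT η) := g6_near hξ
  filter_upwards [h.eventually_nhds] with η hη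
  exact g6_of_near hη

theorem isOpen_inI_fib (R : Riem n M) (x : M) : IsOpen {v | R.InI x v} := R.isOpen_inI.preimage (continuous_mkT x)

theorem closure_inI_fib (R : Riem n M) (x : M) : closure {v | R.InI x v} = {v | R.Min x v} := by
  refine Subset.antisymm (closure_minimal (fun v hv => InI.min hv) (R.isClosed_min.preimage (continuous_mkT x))) ?_
  intro v hv
  have ht : Tendsto (fun s : ℝ => s • v) (𝓝[<] 1) (𝓝 v) := by
    have : Continuous fun s : ℝ => s • v := continuous_id.smul continuous_const
    have := this.tendsto 1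
    rw [one_smul] at this
    exact this.mono_left nhdsWithin_le_nhds
  refine mem_closure_of_tendsto ht ?_
  filter_upwards [Ioo_mem_nhdsLT (zero_lt_one' ℝ)] with s hs
  exact Min.inI hv hs.1.le hs.2

/-- A non-focal unique minimiser lies in `I`: `Dom.smoothAt`, `eventually_min` along `a ↦ a • v`. -/
theorem Min.inI_of_unique {x : M} {v : EE n} (h : R.Min x v) (hn : R.NonFocal x v)
    (hu : ∀ v', R.exp x v' = R.exp x v → R.Min x v' → v' = v) : R.InI x v := g6_of_near (((R.dom_self (mkT x v)).smoothAt hn (.of_forall fun p => R.exists_min p.1 p.2)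
    fun v' he hm => hu v' he hm).eventually_min (R.dom_self _))

/-- `I` is symmetric under reversal.  `-fin x v` is the unique minimiser from `exp x v` to `x` (reverse, `InI.unique`);
near the pair the cost is smooth; nonfocality of the reversed vector: `Min` holds near `mkT x v`
(`eventually_min`), reversal `η ↦ -(Φ 1 η)` is a homeomorphism of `TM` preserving `Min`, so `Min` holds near the
reversed vector, in particular at `a • (-fin x v)`. -/
theorem InI.rev {x : M} {v : EE n} (h : R.InI x v) : R.InI (R.exp x v) (-R.fin x v) := by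
  have hc : Continuous fun η : TM n M => mkT (R.Φ 1 η).proj ((-1 : ℝ) • vecT (R.Φ 1 η)) :=
    (continuous_smulT (-1)).comp (R.continuous_Φ 1)
  have e : ∀ (y : M) (w : EE n), mkT (R.Φ 1 (mkT y w)).proj ((-1 : ℝ) • vecT (R.Φ 1 (mkT y w))) =
      mkT (R.exp y w) (-R.fin y w) := fun y w => by
    rw [neg_one_smul]
    rfl
  have ht := hc.tendsto (mkT (R.exp x v) (-R.fin x v))
  rw [e, exp_neg_fin, fin_neg_fin, neg_neg] at ht
  refine g6_of_near ?_
  filter_upwards [ht.eventually (g6_near h)] with η hη
  have h1 : R.Min (R.exp η.proj (vecT η)) (-R.fin η.proj (vecT η)) := by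
    have e1 := e η.proj (vecT η)
    rw [mkT_vecT] at e1
    rw [e1] at hη
    exact hη
  have h2 := h1.rev
  rwa [exp_neg_fin, fin_neg_fin, neg_neg] at h2

/-- the cost in normal coordinates at `x` is smooth near `(0, v)` -/
theorem InI.contDiffAt_cst {x : M} {v : EE n} (h : R.InI x v) :
    ContDiffAt ℝ ∞ (fun p : EE n × EE n => cst (R.exp x p.1) (R.exp x p.2)) (0, v) := by
  have hs := (InI.smoothAt (ξ := mkT x v) h (R.dom_self _)).sm
  have hs' : ContDiffAt ℝ ∞ (cc n x (R.exp x v)) (ch n x (R.exp x 0), ch n (R.exp x v) (R.exp x v)) := by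
    rw [exp_zero]
    exact hs
  have m0 : R.exp x 0 ∈ (ch n x).source := by
    rw [exp_zero]
    exact mem_chart_source _ x
  have m1 : R.exp x v ∈ (ch n (R.exp x v)).source := mem_chart_source _ _
  have c0 : ContDiffAt ℝ ∞ (fun p : EE n × EE n => ch n x (R.exp x p.1)) (0, v) :=
    ContDiffAt.comp (g := fun u => ch n x (R.exp x u)) (f := Prod.fst) (0, v) (R.contDiffAt_exp m0) contDiffAt_fst
  have c1 : ContDiffAt ℝ ∞ (fun p : EE n × EE n => ch n (R.exp x v) (R.exp x p.2)) (0, v) :=
    ContDiffAt.comp (g := fun u => ch n (R.exp x v) (R.exp x u)) (f := Prod.snd) (0, v) (R.contDiffAt_exp m1)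
      contDiffAt_snd
  have c2 : ContDiffAt ℝ ∞ (fun p : EE n × EE n =>
      cc n x (R.exp x v) (ch n x (R.exp x p.1), ch n (R.exp x v) (R.exp x p.2))) (0, v) :=
    ContDiffAt.comp (g := cc n x (R.exp x v))
      (f := fun p : EE n × EE n => (ch n x (R.exp x p.1), ch n (R.exp x v) (R.exp x p.2))) (0, v) hs' (c0.prodMk c1)
  refine c2.congr_of_eventuallyEq ?_
  have t0 : ContinuousAt (fun p : EE n × EE n => R.exp x p.1) (0, v) :=
    ((R.continuous_exp x).comp continuous_fst).continuousAt
  have t1 : ContinuousAt (fun p : EE n × EE n => R.exp x p.2) (0, v) :=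
    ((R.continuous_exp x).comp continuous_snd).continuousAt
  filter_upwards [t0.eventually ((ch n x).open_source.mem_nhds m0),
    t1.eventually ((ch n (R.exp x v)).open_source.mem_nhds m1)] with p h0 h1
  simp only [cc, (ch n x).left_inv h0, (ch n (R.exp x v)).left_inv h1]

end Riem

end Crest.Agent.R226.G

end
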