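import Crest.Agent.R226.G4a

/-!
# R226 / G4: no corners, Hopf-Rinow, uniqueness of minimising geodesics

Prefix for auxiliary lemmas: `g4_`.
-/

set_option autoImplicit false
set_option linter.unusedSectionVars false

open scoped ContDiff Manifold Topology
open Bundle Set Filter Metric

noncomputable section

namespace Crest.Agent.R226.G

variable {n : ℕ} {M : Type*} [MetricSpace M] [ChartedSpace (EE n) M] [IsManifold 𝓘(ℝ, EE n) ∞ M]

namespace Riem

variable [CompactSpace M] {R : Riem n M}

/-- Hopf-Rinow.  Induction on `k`: pairs at distance `< (k + 1) r / 2` are joined (`mid` at distance `dist x y - r / 2`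
from `x`, `Rad.ex`, `straight`). -/
theorem exists_min (R : Riem n M) (x y : M) : ∃ v, R.exp x v = y ∧ R.Min x v := by
  obtain ⟨r, hr⟩ := R.exists_rad
  have hr0 := hr.pos
  have key : ∀ k : ℕ, ∀ x y : M, dist x y < (k + 1) * (r / 2) → ∃ v, R.exp x v = y ∧ R.Min x v := by
    intro k
    induction k with
    | zero =>
      intro x y h
      refine hr.ex x y ?_
      simp only [Nat.cast_zero, zero_add, one_mul] at h
      linarith
    | succ k ih =>
      intro x y h
      by_cases hxy : dist x y < r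
      · exact hr.ex x y hxy
      push Not at hxy
      obtain ⟨p, hp1, hp2⟩ := R.mid x y (dist x y - r / 2) (by linarith) (by linarith)
      obtain ⟨v, hv1, hv2⟩ := ih x p (by
        rw [hp1]
        push_cast at h
        linarith)
      obtain ⟨w, hw1, hw2⟩ := hr.ex p y (by rw [hp2]; linarith)
      have hnv : R.nrm x v = dist x y - r / 2 := by
        rw [← hp1, ← hv1]; exact hv2.symm
      have hnw : R.nrm p w = r / 2 := by
        have : dist p (R.exp p w) = R.nrm p w := hw2
        rw [← this, hw1, hp2]; ring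
      have hpos : 0 < R.nrm x v := by rw [hnv]; linarith
      have h0 : v ≠ 0 := by
        rintro rfl
        rw [R.nrm_zero] at hpos
        exact lt_irrefl _ hpos
      subst hv1
      have hs := (Min.straight hv2 h0 hw2 (by rw [hw1, hnv, hnw]; ring)).2
      rw [hw1] at hs
      refine ⟨_, hs.symm, ?_⟩
      change dist x (R.exp x _) = _
      rw [← hs, R.nrm_smul, abs_of_nonneg (by rw [hnw]; positivity), add_mul, one_mul,
        div_mul_cancel₀ _ hpos.ne', hnv, hnw]
      ring
  obtain ⟨k, hk⟩ := exists_nat_gt (dist x y / (r / 2))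
  refine key k x y ?_
  rw [div_lt_iff₀ (by positivity)] at hk
  nlinarith

/-- extension form of `straight` -/
theorem Min.extend {x z : M} {v : EE n} (hv : R.Min x v) (h0 : v ≠ 0)
    (h : dist x z = R.nrm x v + dist (R.exp x v) z) :
    z = R.exp x ((1 + dist (R.exp x v) z / R.nrm x v) • v) := by
  obtain ⟨w, hw1, hw2⟩ := R.exists_min (R.exp x v) z
  have hnw : R.nrm (R.exp x v) w = dist (R.exp x v) z := by
    have : dist (R.exp x v) (R.exp (R.exp x v) w) = R.nrm (R.exp x v) w := hw2
    rw [← this, hw1]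
  have hs := (Min.straight hv h0 hw2 (by rw [hw1, hnw]; exact h)).2
  rw [hw1, hnw] at hs
  exact hs

/-- `straight` for `v'` and `w = (a - 1) • fin x v` gives `fin x v = fin x v'`; `eq_of_fin_eq` -/
theorem InI.unique {x : M} {v v' : EE n} (h : R.InI x v) (h' : R.Min x v') (he : R.exp x v' = R.exp x v) : v' = v := by
  have hm : dist x (R.exp x v) = R.nrm x v := h.min
  have hm' : dist x (R.exp x v') = R.nrm x v' := h'
  have hn : R.nrm x v' = R.nrm x v := by rw [← hm, ← hm', he]
  by_cases h0 : v' = 0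
  · rw [h0, R.nrm_zero] at hn
    rw [h0, (R.nrm_eq_zero).1 hn.symm]
  obtain ⟨a, ha, hav⟩ := h
  have ha0 : 0 < a := by linarith
  have hpos : 0 < R.nrm x v := hn ▸ R.nrm_pos x h0
  have hexp : R.exp (R.exp x v) ((a - 1) • R.fin x v) = R.exp x (a • v) := by
    rw [R.exp_fin]; congr 2; ring
  have hnw : R.nrm (R.exp x v) ((a - 1) • R.fin x v) = (a - 1) * R.nrm x v := by
    rw [R.nrm_smul, R.nrm_fin, abs_of_pos (by linarith)]
  have hna : R.nrm x (a • v) = a * R.nrm x v := by rw [R.nrm_smul, abs_of_pos ha0]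
  have hw : R.Min (R.exp x v) ((a - 1) • R.fin x v) := by
    change dist _ _ = _
    have := hav.dist_eq (s := a⁻¹) (t := 1) (by positivity) (inv_le_one_of_one_le₀ ha.le) le_rfl
    rw [smul_smul, inv_mul_cancel₀ ha0.ne', one_smul, one_smul, hna] at this
    rw [hexp, hnw, this]
    field_simp
  have hs := (Min.straight h' h0 (w := (a - 1) • R.fin x v) (by rw [he]; exact hw) (by
    have : dist x (R.exp x (a • v)) = R.nrm x (a • v) := hav
    rw [he, hexp, hnw, this, hna, hn]; ring)).1
  rw [he, hnw, hn, mul_div_cancel_right₀ _ hpos.ne'] at hs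
  have hf : R.fin x v = R.fin x v' := smul_right_injective _ (by linarith : a - 1 ≠ 0) hs
  exact R.eq_of_fin_eq he hf.symm

/-- Metric geodesics are geodesics.  For small `t₀` take `u` minimising from `σ 0` to `σ t₀`; `extend` gives
`σ t = exp ((t / t₀) • u)` for `t ≥ t₀`; `t₀⁻¹ • u` does not depend on `t₀` by `Rad.inj`. -/
theorem exists_exp_of_dist (R : Riem n M) {σ : ℝ → M} {T c : ℝ} (hT : 0 < T) (hc : 0 ≤ c)
    (h : ∀ s t, 0 ≤ s → s ≤ t → t ≤ T → dist (σ s) (σ t) = c * (t - s)) :
    ∃ v, R.nrm (σ 0) v = c ∧ ∀ t ∈ Icc 0 T, σ t = R.exp (σ 0) (t • v) := by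
  rcases hc.eq_or_lt with rfl | hc
  · refine ⟨0, R.nrm_zero _, fun t ht => ?_⟩
    have := h 0 t le_rfl ht.1 ht.2
    rw [zero_mul, dist_eq_zero] at this
    rw [smul_zero, R.exp_zero, this]
  obtain ⟨r, hr⟩ := R.exists_rad
  have hr0 := hr.pos
  have key : ∀ s, 0 < s → s ≤ T → ∃ u, R.nrm (σ 0) u = c * s ∧
      ∀ t, s ≤ t → t ≤ T → σ t = R.exp (σ 0) ((t / s) • u) := by
    intro s hs hsT
    obtain ⟨u, hu1, hu2⟩ := R.exists_min (σ 0) (σ s)
    have hn : R.nrm (σ 0) u = c * s := by
      have : dist (σ 0) (R.exp (σ 0) u) = R.nrm (σ 0) u := hu2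
      rw [← this, hu1, h 0 s le_rfl hs.le hsT, sub_zero]
    have h0 : u ≠ 0 := by
      rintro rfl
      rw [R.nrm_zero] at hn
      exact (mul_pos hc hs).ne hn
    refine ⟨u, hn, fun t hst htT => ?_⟩
    have := hu2.extend (z := σ t) h0 (by
      rw [hu1, hn, h 0 t le_rfl (hs.le.trans hst) htT, h s t hs.le hst htT]; ring)
    rw [hu1, hn, h s t hs.le hst htT] at this
    rw [this]
    congr 2
    field_simp
    ring
  set t₁ := min T (r / (2 * c)) with ht₁
  have h1pos : 0 < t₁ := lt_min hT (by positivity)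
  have h1T : t₁ ≤ T := min_le_left _ _
  have h1r : c * t₁ < r := by
    have : t₁ ≤ r / (2 * c) := min_le_right _ _
    have h2 : c * t₁ ≤ c * (r / (2 * c)) := mul_le_mul_of_nonneg_left this hc.le
    have h3 : c * (r / (2 * c)) = r / 2 := by field_simp
    linarith
  obtain ⟨u, hu, hut⟩ := key t₁ h1pos h1T
  refine ⟨t₁⁻¹ • u, ?_, fun t ht => ?_⟩
  · rw [R.nrm_smul, hu, abs_of_pos (by positivity)]
    field_simp
  rcases ht.1.eq_or_lt with rfl | ht0
  · rw [zero_smul, R.exp_zero]
  by_cases htt : t₁ ≤ t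
  · rw [hut t htt ht.2, smul_smul, div_eq_mul_inv]
  push Not at htt
  obtain ⟨u', hu', hut'⟩ := key t ht0 ht.2
  have e1 := hut t₁ le_rfl h1T
  have e2 := hut' t₁ htt.le h1T
  have e3 := hut' t le_rfl ht.2
  rw [div_self h1pos.ne', one_smul] at e1
  rw [div_self ht0.ne', one_smul] at e3
  have e4 : u = (t₁ / t) • u' := by
    refine hr.inj (σ 0) _ _ (by rw [hu]; exact h1r) ?_ (by rw [← e1, ← e2])
    rw [R.nrm_smul, hu', abs_of_pos (by positivity)]
    have : t₁ / t * (c * t) = c * t₁ := by field_simp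
    rw [this]; exact h1r
  rw [e3, e4, smul_smul, smul_smul]
  congr 1
  have : t * t₁⁻¹ * (t₁ / t) = 1 := by field_simp
  rw [this, one_smul]

end Riem

end Crest.Agent.R226.G

end
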