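import Crest.Agent.R226.G1Defs

/-!
# R226 / G8Defs: orthonormal frames (owner helper39, DO NOT CHANGE)

`R.fr x` is a linear isometry from the Euclidean space onto `(T_x M, R.q x)` (an arbitrary choice for every `x`);
`R.expE`, `R.velE` are the maps `exp`, `vel` of `R226/LDefs.lean`.
-/

set_option autoImplicit false
set_option linter.unusedSectionVars false

open scoped ContDiff Manifold Topology
open Bundle Set Filter Metric

noncomputable section

namespace Crest.Agent.R226.G

variable {n : ℕ} {M : Type*} [MetricSpace M] [ChartedSpace (EE n) M] [IsManifold 𝓘(ℝ, EE n) ∞ M]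

namespace Riem

variable (R : Riem n M)

theorem exists_frame (x : M) : ∃ ι : EE n ≃L[ℝ] EE n, ∀ u v, R.q x (ι u) (ι v) = inner ℝ u v := by
  letI : RiemannianBundle (fun p : M => TangentSpace 𝓘(ℝ, EE n) p) := ⟨R.g.toRiemannianMetric⟩
  haveI : FiniteDimensional ℝ (TangentSpace 𝓘(ℝ, EE n) x) := inferInstanceAs (FiniteDimensional ℝ (EE n))
  have hr : Module.finrank ℝ (TangentSpace 𝓘(ℝ, EE n) x) = n := finrank_euclideanSpace_fin (𝕜 := ℝ) (n := n)
  let b : OrthonormalBasis (Fin n) ℝ (TangentSpace 𝓘(ℝ, EE n) x) :=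
    (stdOrthonormalBasis ℝ (TangentSpace 𝓘(ℝ, EE n) x)).reindex (finCongr hr)
  let e : EE n ≃ₗ[ℝ] EE n := b.repr.symm.toLinearEquiv
  exact ⟨e.toContinuousLinearEquiv, fun u v => b.repr.symm.inner_map_map u v⟩

/-- an orthonormal frame at `x` -/
def fr (x : M) : EE n ≃L[ℝ] EE n := (R.exists_frame x).choose

theorem q_fr (x : M) (u v : EE n) : R.q x (R.fr x u) (R.fr x v) = inner ℝ u v := (R.exists_frame x).choose_spec u v

theorem nrm_fr (x : M) (v : EE n) : R.nrm x (R.fr x v) = ‖v‖ := by
  rw [nrm, q_fr, real_inner_self_eq_norm_sq, Real.sqrt_sq (norm_nonneg _)]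

theorem norm_fr_symm (x : M) (v : EE n) : ‖(R.fr x).symm v‖ = R.nrm x v := by
  rw [← R.nrm_fr x, ContinuousLinearEquiv.apply_symm_apply]

theorem inner_fr_symm (x : M) (u v : EE n) : inner ℝ ((R.fr x).symm u) ((R.fr x).symm v) = R.q x u v := by
  rw [← R.q_fr x, ContinuousLinearEquiv.apply_symm_apply, ContinuousLinearEquiv.apply_symm_apply]

/-- the exponential map in the frame -/
def expE (x : M) (v : EE n) : M := R.exp x (R.fr x v)

/-- the final velocity in the frames -/
def velE (x : M) (v : EE n) : EE n := (R.fr (R.expE x v)).symm (R.fin x (R.fr x v))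

end Riem

end Crest.Agent.R226.G

end
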