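import Crest.Agent.R226.G8a
import Crest.Agent.R226.G4
import Crest.Agent.R226.G8Defs

/-!
# R226 / G8b: semiconcavity and the first variation formula at arbitrary pairs

Prefix for auxiliary lemmas: `g8b_`.
-/

set_option autoImplicit false
set_option linter.unusedSectionVars false

open scoped ContDiff Manifold Topology
open Bundle Set Filter Metric

noncomputable section

namespace Crest.Agent.R226.G

variable {n : ℕ} {M : Type*} [MetricSpace M] [ChartedSpace (EE n) M] [IsManifold 𝓘(ℝ, EE n) ∞ M]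

namespace Riem

variable [CompactSpace M] (R : Riem n M)

/-- Semiconcavity.  `D` = diameter, `δ` from `tay_short 1`, `s ∈ (0, 1)` with `s D ≤ δ`.  For `nrm ξ ≤ δ`: `cst_le` through
`exp x (s • p)`, `tay_short`, `Min.dist_eq`.  For `nrm ξ ≥ δ`: `cst ≤ D² / 2`, `|q p ξ| ≤ D nrm ξ` (`abs_q_le`). -/
theorem exists_sc : ∃ L > 0, ∀ x p, R.Min x p → ∀ ξ,
    cst (R.exp x ξ) (R.exp x p) ≤ R.q x p p / 2 - R.q x p ξ + L * R.q x ξ ξ := by
  obtain ⟨C, hC⟩ := Metric.isBounded_iff.1 (isCompact_univ (X := M)).isBounded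
  obtain ⟨D, hD0, hD⟩ : ∃ D : ℝ, 0 < D ∧ ∀ x y : M, dist x y ≤ D :=
    ⟨max C 1, lt_of_lt_of_le one_pos (le_max_right _ _),
      fun x y => (hC (mem_univ x) (mem_univ y)).trans (le_max_left _ _)⟩
  obtain ⟨δ, hδ, ht⟩ := R.tay_short (ε := 1) one_pos
  obtain ⟨s, hs0, hs1, hsD⟩ : ∃ s : ℝ, 0 < s ∧ s < 1 ∧ s * D ≤ δ := by
    refine ⟨min (1 / 2) (δ / D), lt_min (by norm_num) (div_pos hδ hD0),
      lt_of_le_of_lt (min_le_left _ _) (by norm_num), ?_⟩
    calc min (1 / 2) (δ / D) * D ≤ δ / D * D := mul_le_mul_of_nonneg_right (min_le_right _ _) hD0.le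
      _ = δ := div_mul_cancel₀ _ hD0.ne'
  refine ⟨3 / (2 * s) + (D ^ 2 / (2 * δ ^ 2) + D / δ), by positivity, fun x p hp ξ => ?_⟩
  have hpD : R.nrm x p ≤ D := by
    rw [← show dist x (R.exp x p) = R.nrm x p from hp]
    exact hD _ _
  have hq := R.q_nonneg x ξ
  rcases le_total (R.nrm x ξ) δ with hξ | hξ
  · have hsp : R.nrm x (s • p) ≤ δ := by
      rw [R.nrm_smul, abs_of_pos hs0]
      exact (mul_le_mul_of_nonneg_left hpD hs0.le).trans hsD
    have h1 := (abs_le.1 (ht x ξ (s • p) hξ hsp)).2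
    have h2 := cst_le (R.exp x ξ) (R.exp x (s • p)) (R.exp x p) hs0 hs1
    have h3 : cst (R.exp x (s • p)) (R.exp x p) = (1 - s) ^ 2 * R.q x p p / 2 := by
      have h4 := hp.dist_eq hs0.le hs1.le le_rfl
      rw [one_smul] at h4
      rw [cst, h4, mul_pow, R.nrm_sq]
    simp only [map_smul, ContinuousLinearMap.smul_apply, smul_eq_mul] at h1
    have h5 : cst (R.exp x ξ) (R.exp x (s • p)) / s ≤
        s * R.q x p p / 2 - R.q x p ξ + 3 / (2 * s) * R.q x ξ ξ := by
      rw [div_le_iff₀ hs0]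
      have : (s * R.q x p p / 2 - R.q x p ξ + 3 / (2 * s) * R.q x ξ ξ) * s =
          s * (s * R.q x p p) / 2 - s * R.q x p ξ + R.q x ξ ξ / 2 + 1 * R.q x ξ ξ := by
        field_simp
        ring
      rw [this]
      linarith
    have h6 : cst (R.exp x (s • p)) (R.exp x p) / (1 - s) = (1 - s) * R.q x p p / 2 := by
      have : (1 - s) ≠ 0 := (sub_pos.2 hs1).ne'
      rw [h3]
      field_simp
    have h7 : 0 ≤ (D ^ 2 / (2 * δ ^ 2) + D / δ) * R.q x ξ ξ := by positivity
    rw [h6] at h2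
    nlinarith
  · have h1 : cst (R.exp x ξ) (R.exp x p) ≤ D ^ 2 / 2 := by
      rw [cst]
      have := hD (R.exp x ξ) (R.exp x p)
      gcongr
    have h2 : R.q x p ξ ≤ D * R.nrm x ξ :=
      ((le_abs_self _).trans (R.abs_q_le x p ξ)).trans (mul_le_mul_of_nonneg_right hpD (R.nrm_nonneg _ _))
    have h3 : D ^ 2 / 2 ≤ D ^ 2 / (2 * δ ^ 2) * R.q x ξ ξ := by
      rw [← R.nrm_sq]
      calc D ^ 2 / 2 = D ^ 2 / (2 * δ ^ 2) * δ ^ 2 := by field_simp
        _ ≤ _ := by gcongr
    have h4 : D * R.nrm x ξ ≤ D / δ * R.q x ξ ξ := by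
      rw [← R.nrm_sq]
      have := R.nrm_nonneg x ξ
      calc D * R.nrm x ξ = D / δ * (δ * R.nrm x ξ) := by field_simp
        _ ≤ D / δ * (R.nrm x ξ * R.nrm x ξ) := by gcongr
        _ = _ := by ring
    have h5 : 0 ≤ 3 / (2 * s) * R.q x ξ ξ := by positivity
    have h6 := R.q_nonneg x p
    nlinarith

omit [CompactSpace M] in
/-- the scalar product of two tangent vectors with the same base point, in a chart -/
theorem g8b_q_chart {z : M} {η ζ : TM n M} (hη : η.proj ∈ (ch n z).source) (h : ζ.proj = η.proj) :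
    R.q η.proj (vecT η) (vecT ζ) = R.G z (tmChart n z η).1 (tmChart n z η).2 (tmChart n z ζ).2 := by
  rw [tmChart_fst, tmChart_snd z η, tmChart_snd z ζ, h,
    ← chartG_trans R.g (mem_chart_source (EE n) η.proj) hη, chartG_center]
  rfl

/-- Upper semicontinuity of `q(p', γ')` for minimisers `p'` from `γ h = exp x (h • ξ)` to `y`.  Use
`IsCompact.eventually_forall_of_forall_eventually` on `isCompact_min`: near `(0, η)` with
`(η.proj, (Φ 1 η).proj) ≠ (x, y)` the hypothesis fails; otherwise work in the chart at `x`, where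
`q η'.proj (vecT η') (vecT ζ) = G x (tmChart x η').1 (tmChart x η').2 (tmChart x ζ).2` for `ζ.proj = η'.proj` is
continuous (`tmChart_snd`, `chartG_trans`, `chartG_center`). -/
theorem eventually_q_le (x y : M) (ξ : EE n) {m : ℝ} (hm : ∀ p, R.exp x p = y → R.Min x p → R.q x p ξ < m) :
    ∀ᶠ h in 𝓝 (0 : ℝ), ∀ p, R.exp (R.exp x (h • ξ)) p = y → R.Min (R.exp x (h • ξ)) p →
      R.q (R.exp x (h • ξ)) p (vecT (R.Φ h (mkT x ξ))) < m := by
  have hΦ : Continuous fun z : ℝ × TM n M => R.Φ z.1 (mkT x ξ) :=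
    R.flow.cont.comp (continuous_fst.prodMk continuous_const)
  have hΦ0 : R.Φ 0 (mkT x ξ) = mkT x ξ := R.flow.zero _
  have key : ∀ᶠ h in 𝓝 (0 : ℝ), ∀ η ∈ {η : TM n M | R.Min η.proj (vecT η)},
      (R.Φ h (mkT x ξ)).proj = η.proj → (R.Φ 1 η).proj = y →
        R.q η.proj (vecT η) (vecT (R.Φ h (mkT x ξ))) < m := by
    refine R.isCompact_min.eventually_forall_of_forall_eventually fun η hη => ?_
    by_cases h1 : x = η.proj
    swap
    · have ho : IsOpen {z : ℝ × TM n M | (R.Φ z.1 (mkT x ξ)).proj ≠ z.2.proj} :=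
        isOpen_ne_fun (continuous_projT.comp hΦ) (continuous_projT.comp continuous_snd)
      have : (0, η) ∈ {z : ℝ × TM n M | (R.Φ z.1 (mkT x ξ)).proj ≠ z.2.proj} := by
        simp only [mem_setOf_eq, hΦ0]
        exact h1
      filter_upwards [ho.mem_nhds this] with z hz h
      exact absurd h hz
    by_cases h2 : (R.Φ 1 η).proj = y
    swap
    · have ho : IsOpen {z : ℝ × TM n M | (R.Φ 1 z.2).proj ≠ y} :=
        isOpen_ne_fun (continuous_projT.comp ((R.continuous_Φ 1).comp continuous_snd)) continuous_const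
      filter_upwards [ho.mem_nhds (show (0, η) ∈ {z : ℝ × TM n M | (R.Φ 1 z.2).proj ≠ y} from h2)] with z hz _ h
      exact absurd h hz
    have hx : η.proj ∈ (ch n x).source := h1 ▸ mem_chart_source (EE n) x
    have hx' : (R.Φ 0 (mkT x ξ)).proj = η.proj := by rw [hΦ0, ← h1]; rfl
    have c1 : ContinuousAt (fun z : ℝ × TM n M => tmChart n x z.2) (0, η) :=
      ((tmChart n x).continuousAt (mem_tmChart_source.2 hx)).comp_of_eq continuousAt_snd rfl
    have c2 : ContinuousAt (fun z : ℝ × TM n M => tmChart n x (R.Φ z.1 (mkT x ξ))) (0, η) :=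
      ((tmChart n x).continuousAt (mem_tmChart_source.2 (hx' ▸ hx))).comp_of_eq hΦ.continuousAt rfl
    have c3 : ContinuousAt (R.G x) (tmChart n x η).1 := by
      rw [tmChart_fst]
      exact (isLC_chart R.g x).g_smooth.continuousOn.continuousAt
        ((chartAt (EE n) x).open_target.mem_nhds ((chartAt (EE n) x).map_source hx))
    have c4 : ContinuousAt (fun z : ℝ × TM n M =>
        R.G x (tmChart n x z.2).1 (tmChart n x z.2).2 (tmChart n x (R.Φ z.1 (mkT x ξ))).2) (0, η) :=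
      ((c3.comp_of_eq c1.fst rfl).clm_apply c1.snd).clm_apply c2.snd
    have h0 : R.G x (tmChart n x η).1 (tmChart n x η).2 (tmChart n x (R.Φ 0 (mkT x ξ))).2 < m := by
      rw [← R.g8b_q_chart hx hx', hΦ0, vecT_mkT, ← h1]
      refine hm _ ?_ ?_
      · rw [← h2, ← R.exp_vecT, ← h1]
      · have h3 : R.Min η.proj (vecT η) := hη
        rwa [← h1] at h3
    have e1 := c4.eventually_lt continuousAt_const h0
    have e2 : ∀ᶠ z : ℝ × TM n M in 𝓝 (0, η), z.2.proj ∈ (ch n x).source :=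
      (continuous_projT.comp continuous_snd).continuousAt.preimage_mem_nhds
        ((chartAt (EE n) x).open_source.mem_nhds hx)
    filter_upwards [e1, e2] with z hz1 hz2 h _
    rw [R.g8b_q_chart hz2 h]
    exact hz1
  filter_upwards [key] with h hh p hp hmin
  exact hh (mkT (R.exp x (h • ξ)) p) hmin (R.exp_smul x ξ h).symm hp

/-- `p` maximises `q · ξ` on the compact set of minimisers from `x` to `y`; `exists_sc` at `x_h = exp x (h • ξ)` with the
vector `-fin x (h • ξ) = -h • vecT (Φ h _)` (`exp_neg_fin`, `fin_smul`, `nrm_fin`), `eventually_q_le`. -/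
theorem fv (x y : M) (ξ : EE n) {ε : ℝ} (hε : 0 < ε) : ∃ p, R.Min x p ∧ R.exp x p = y ∧ ∀ᶠ h in 𝓝[>] (0 : ℝ),
    cst x y - h * R.q x p ξ - ε * h ≤ cst (R.exp x (h • ξ)) y := by
  have hS : IsCompact {p : EE n | R.exp x p = y ∧ R.Min x p} := by
    refine ((isCompact_closedBall (0 : EE n) (dist x y)).image (R.fr x).continuous).of_isClosed_subset ?_ ?_
    · exact (isClosed_eq (R.continuous_exp x) continuous_const).inter
        (isClosed_eq (continuous_const.dist (R.continuous_exp x)) (R.continuous_nrm x))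
    · rintro p ⟨h1, h2⟩
      refine ⟨(R.fr x).symm p, ?_, (R.fr x).apply_symm_apply p⟩
      rw [mem_closedBall_zero_iff, R.norm_fr_symm, ← show dist x (R.exp x p) = R.nrm x p from h2, h1]
  have hcont : Continuous fun p : EE n => R.q x p ξ := (R.q x).continuous.clm_apply continuous_const
  obtain ⟨p, ⟨hp1, hp2⟩, hmax⟩ := hS.exists_isMaxOn (R.exists_min x y) hcont.continuousOn
  refine ⟨p, hp2, hp1, ?_⟩
  obtain ⟨L, hL, hsc⟩ := R.exists_sc
  have e1 := R.eventually_q_le x y ξ (m := R.q x p ξ + ε / 2) fun p' h1 h2 =>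
    lt_of_le_of_lt (hmax (show p' ∈ {p : EE n | R.exp x p = y ∧ R.Min x p} from ⟨h1, h2⟩)) (by linarith)
  have e2 : ∀ᶠ h in 𝓝 (0 : ℝ), h * (L * R.q x ξ ξ) < ε / 2 := by
    have hc : ContinuousAt (fun h : ℝ => h * (L * R.q x ξ ξ)) 0 := by fun_prop
    exact hc.eventually_lt continuousAt_const (by simpa using hε)
  filter_upwards [nhdsWithin_le_nhds e1, nhdsWithin_le_nhds e2, self_mem_nhdsWithin] with h h1 h2 h3
  have h0 : (0 : ℝ) < h := h3
  obtain ⟨p', hp1', hp2'⟩ := R.exists_min (R.exp x (h • ξ)) y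
  have a1 := h1 p' hp1' hp2'
  have a2 := hsc _ p' hp2' (-R.fin x (h • ξ))
  have a3 := hp2'.cst_eq
  have a4 : R.q (R.exp x (h • ξ)) (-R.fin x (h • ξ)) (-R.fin x (h • ξ)) = h ^ 2 * R.q x ξ ξ := by
    rw [← R.nrm_sq, R.nrm_neg, R.nrm_fin, R.nrm_smul, mul_pow, sq_abs, R.nrm_sq]
  have a5 : R.q (R.exp x (h • ξ)) p' (-R.fin x (h • ξ)) =
      -(h * R.q (R.exp x (h • ξ)) p' (vecT (R.Φ h (mkT x ξ)))) := by
    rw [R.fin_smul, map_neg, map_smul, smul_eq_mul]
  rw [R.exp_neg_fin, hp1', a4, a5, ← a3, hp1'] at a2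
  nlinarith [mul_lt_mul_of_pos_left a1 h0, mul_lt_mul_of_pos_left h2 h0]

end Riem

end Crest.Agent.R226.G

end
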