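import Mathlib

/-!
# rid 226, part L (owner helper85): Loeper's theorem from tangent-level axioms

All tangent spaces are identified with one inner product space `E` by an arbitrary pointwise choice of
linear isometries (no continuity in the base point is used).  `A x q` is the Hessian at `x` of
`c(·, exp x q)` for `q ∈ Inj x`, `P x q = (c0 - A x q)⁻¹`.
-/

set_option autoImplicit false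

open Set Filter Topology
open scoped InnerProductSpace

noncomputable section

namespace Crest.Agent.R226.L

variable {M : Type*} [MetricSpace M] {E : Type} [NormedAddCommGroup E] [InnerProductSpace ℝ E]

/-- the cost `d²/2` -/
def cst (x y : M) : ℝ := dist x y ^ 2 / 2

/-- minimising vectors -/
def MinS (exp : M → E → M) (x : M) : Set E := {v | dist x (exp x v) = ‖v‖}

/-- the injectivity domain -/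
def InjS (exp : M → E → M) (x : M) : Set E := {v | ∃ a : ℝ, 1 < a ∧ a • v ∈ MinS exp x}

/-- `y` is a `c`-supergradient of `Φ` at `x` -/
def Ct (Φ : M → ℝ) (x y : M) : Prop := ∀ z, cst x y - Φ x ≤ cst z y - Φ z

/-- first order axioms -/
structure Geo1 (exp : M → E → M) (vel : M → E → E) (L δ : ℝ) : Prop where
  L_pos : 0 < L
  δ_pos : 0 < δ
  exp_zero : ∀ x, exp x 0 = x
  exp_cont : ∀ x, Continuous (exp x)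
  dist_le : ∀ x v, dist x (exp x v) ≤ ‖v‖
  surj : ∀ x y, ∃ v, exp x v = y ∧ dist x y = ‖v‖
  norm_vel : ∀ x v, ‖vel x v‖ = ‖v‖
  flow : ∀ x v (s : ℝ), exp (exp x v) (s • vel x v) = exp x ((1 + s) • v)
  /-- semiconcavity -/
  sc : ∀ x, ∀ p ∈ MinS exp x, ∀ ξ,
    cst (exp x ξ) (exp x p) ≤ ‖p‖ ^ 2 / 2 - ⟪p, ξ⟫_ℝ + L * ‖ξ‖ ^ 2
  /-- convexity near the diagonal -/
  lc : ∀ x ξ η, ‖ξ‖ ≤ δ → ‖η‖ ≤ δ →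
    ‖η‖ ^ 2 / 2 - ⟪η, ξ⟫_ℝ + ‖ξ‖ ^ 2 / 4 ≤ cst (exp x ξ) (exp x η)
  /-- first variation formula -/
  fv : ∀ x y ξ (ε : ℝ), 0 < ε → ∃ p ∈ MinS exp x, exp x p = y ∧ ∀ᶠ h in 𝓝[>] (0 : ℝ),
    cst x y - h * ⟪p, ξ⟫_ℝ - ε * h ≤ cst (exp x (h • ξ)) y

/-- second order axioms -/
structure Geo2 (exp : M → E → M) (vel : M → E → E) (A P : M → E → E →L[ℝ] E) (c0 L : ℝ) : Prop where
  c0_ge : 2 ≤ c0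
  symm : ∀ x, ∀ q ∈ InjS exp x, ∀ u v, ⟪A x q u, v⟫_ℝ = ⟪u, A x q v⟫_ℝ
  A_le : ∀ x, ∀ q ∈ InjS exp x, ∀ u, ⟪A x q u, u⟫_ℝ ≤ (c0 - 1) * ‖u‖ ^ 2
  A_rad : ∀ x, ∀ q ∈ InjS exp x, A x q q = q
  WP : ∀ x, ∀ q ∈ InjS exp x, ∀ u, c0 • P x q u - A x q (P x q u) = u
  P_lip : ∀ x q q', segment ℝ q q' ⊆ InjS exp x → ∀ e,
    ⟪P x q e, e⟫_ℝ ≤ ⟪P x q' e, e⟫_ℝ + L * ‖q - q'‖ * ‖e‖ ^ 2
  P_sd : ∀ x q η, segment ℝ (q - η) (q + η) ⊆ InjS exp x → ∀ e,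
    ⟪P x (q + η) e, e⟫_ℝ + ⟪P x (q - η) e, e⟫_ℝ ≤ 2 * ⟪P x q e, e⟫_ℝ + L * ‖η‖ ^ 2 * ‖e‖ ^ 2
  /-- the weak MTW condition, integrated along segments -/
  mtw : ∀ x q q', segment ℝ q q' ⊆ InjS exp x → ∀ ξ, ⟪q' - q, ξ⟫_ℝ = 0 → ∀ θ ∈ Icc (0 : ℝ) 1,
    (1 - θ) * ⟪A x q ξ, ξ⟫_ℝ + θ * ⟪A x q' ξ, ξ⟫_ℝ ≤ ⟪A x ((1 - θ) • q + θ • q') ξ, ξ⟫_ℝ
  /-- Taylor expansion, upper bound -/
  tay_up : ∀ x, ∀ q ∈ InjS exp x, ∀ ε : ℝ, 0 < ε → ∀ᶠ ζ in 𝓝 (0 : E),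
    cst (exp x ζ) (exp x q) ≤ ‖q‖ ^ 2 / 2 - ⟪q, ζ⟫_ℝ + ⟪A x q ζ, ζ⟫_ℝ / 2 + ε * ‖ζ‖ ^ 2
  /-- joint Taylor expansion, lower bound; the constant depends only on a lower bound for `A` -/
  tay_lo : ∀ Λ ε : ℝ, 0 < ε → ∃ C : ℝ, ∀ x, ∀ q ∈ InjS exp x,
    (∀ u, -Λ * ‖u‖ ^ 2 ≤ ⟪A x q u, u⟫_ℝ) → ∀ᶠ w in 𝓝 ((0, 0) : E × E),
      ‖q‖ ^ 2 / 2 - ⟪q, w.1⟫_ℝ + ⟪vel x q, w.2⟫_ℝ + ⟪A x q w.1, w.1⟫_ℝ / 2 - ε * ‖w.1‖ ^ 2 -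
        C * ‖w.2‖ ^ 2 ≤ cst (exp x w.1) (exp (exp x q) w.2)
  /-- strict monotonicity along rays -/
  mono : ∀ t0 : ℝ, 0 < t0 → ∀ r : ℝ, 0 < r → ∃ κ : ℝ, 0 < κ ∧ ∀ x, ∀ u ∈ MinS exp x, ∀ t t' : ℝ,
    t0 ≤ t → t + r ≤ t' → t' < 1 → ∀ ζ,
      ⟪A x (t' • u) ζ, ζ⟫_ℝ / t' + κ * ‖ζ‖ ^ 2 ≤ ⟪A x (t • u) ζ, ζ⟫_ℝ / t
  /-- uniform lower bound before the cut point -/
  inner_bd : ∀ t1 : ℝ, t1 < 1 → ∃ Λ : ℝ, ∀ x, ∀ u ∈ MinS exp x, ∀ t ∈ Icc (0 : ℝ) t1, ∀ ζ,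
    -Λ * ‖ζ‖ ^ 2 ≤ ⟪A x (t • u) ζ, ζ⟫_ℝ

end Crest.Agent.R226.L

end
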