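import Crest.Agent.R226.G8Defs
import Crest.Agent.R226.G8b
import Crest.Agent.R226.G6
import Crest.Agent.R226.LDefs

/-!
# R226 / G8: the axioms `Geo1` of `LDefs`

Prefix for auxiliary lemmas: `g8_`.
-/

set_option autoImplicit false
set_option linter.unusedSectionVars false

open scoped ContDiff Manifold Topology
open Bundle Set Filter Metric

noncomputable section

namespace Crest.Agent.R226.G

variable {n : ℕ} {M : Type*} [MetricSpace M] [ChartedSpace (EE n) M] [IsManifold 𝓘(ℝ, EE n) ∞ M]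

namespace Riem

variable [CompactSpace M] (R : Riem n M)

theorem mem_minS {x : M} {v : EE n} : v ∈ L.MinS R.expE x ↔ R.Min x (R.fr x v) := by
  simp only [L.MinS, mem_ofPred_eq, Min, expE, nrm_fr]

theorem mem_injS {x : M} {v : EE n} : v ∈ L.InjS R.expE x ↔ R.InI x (R.fr x v) := by
  simp only [L.InjS, mem_ofPred_eq, InI, mem_minS, map_smul]

theorem geo1 : ∃ K δ, L.Geo1 R.expE R.velE K δ := by
  obtain ⟨K, hL, sc⟩ := R.exists_sc
  obtain ⟨δ, hδ, lc⟩ := R.tay_short (ε := 1 / 4) (by norm_num)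
  refine ⟨K, δ, hL, hδ, fun x => ?_, fun x => (R.continuous_exp x).comp (R.fr x).continuous, fun x v => ?_,
    fun x y => ?_, fun x v => ?_, fun x v s => ?_, fun x p hp ξ => ?_, fun x ξ η hξ hη => ?_, fun x y ξ ε hε => ?_⟩
  · rw [expE, map_zero, exp_zero]
  · rw [← R.nrm_fr x]; exact R.dist_exp_le x _
  · obtain ⟨v, h1, h2⟩ := R.exists_min x y
    refine ⟨(R.fr x).symm v, by rw [expE, ContinuousLinearEquiv.apply_symm_apply, h1], ?_⟩
    rw [norm_fr_symm, ← h2, h1]
  · rw [velE, norm_fr_symm, expE, nrm_fin, nrm_fr]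
  · rw [expE, velE, map_smul, ContinuousLinearEquiv.apply_symm_apply, expE, exp_fin, expE, map_smul]
  · have := sc x _ (R.mem_minS.1 hp) (R.fr x ξ)
    simp only [q_fr, real_inner_self_eq_norm_sq] at this
    exact this
  · have := (abs_le.1 (lc x (R.fr x ξ) (R.fr x η) (by rwa [nrm_fr]) (by rwa [nrm_fr]))).1
    simp only [q_fr, real_inner_self_eq_norm_sq] at this
    show _ ≤ cst (R.exp x (R.fr x ξ)) (R.exp x (R.fr x η))
    linarith
  · obtain ⟨p, h1, h2, h3⟩ := R.fv x y (R.fr x ξ) hε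
    refine ⟨(R.fr x).symm p, R.mem_minS.2 (by rwa [ContinuousLinearEquiv.apply_symm_apply]),
      by rw [expE, ContinuousLinearEquiv.apply_symm_apply, h2], h3.mono fun h hh => ?_⟩
    rw [← R.q_fr x, ContinuousLinearEquiv.apply_symm_apply, expE, map_smul]
    exact hh

end Riem

end Crest.Agent.R226.G

end
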