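import Crest.Agent.R226.LKey

/-! # rid 226, part L: Loeper's theorem, convexity of the injectivity domains, DASM -/

set_option autoImplicit false

open Set Filter Topology Pointwise
open scoped InnerProductSpace

noncomputable section

namespace Crest.Agent.R226.L

variable {M : Type*} [MetricSpace M] {E : Type} [NormedAddCommGroup E] [InnerProductSpace ℝ E]
  {exp : M → E → M} {vel : M → E → E} {A P : M → E → E →L[ℝ] E} {c0 L L' δ : ℝ} {Φ : M → ℝ}
  [CompactSpace M]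

/-- the Hopf–Lax value function -/
def wHL (Φ : M → ℝ) (t : ℝ) (m : M) : ℝ := sInf ((fun z => cst z m / t - Φ z) '' univ)

theorem wHL_cont (hc : Continuous Φ) (t : ℝ) : Continuous (wHL Φ t) :=
  isCompact_univ.continuous_sInf (f := fun m z => cst z m / t - Φ z)
    (((continuous_cst.comp (continuous_snd.prodMk continuous_fst)).div_const t).sub
      (hc.comp continuous_snd))

theorem wHL_le (hc : Continuous Φ) (t : ℝ) (m z : M) : wHL Φ t m ≤ cst z m / t - Φ z :=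
  csInf_le (isCompact_univ.image (((continuous_cst.comp (continuous_id.prodMk
    continuous_const)).div_const t).sub hc)).bddBelow ⟨z, mem_univ z, rfl⟩

omit [CompactSpace M] in
theorem le_wHL {t a : ℝ} {m : M} (h : ∀ z, a ≤ cst z m / t - Φ z) : a ≤ wHL Φ t m :=
  le_csInf ⟨_, m, mem_univ m, rfl⟩ (by rintro _ ⟨z, -, rfl⟩; exact h z)

variable [FiniteDimensional ℝ E]

theorem key_local (G : Geo1 exp vel L δ) (G2 : Geo2 exp vel A P c0 L') (hL' : 0 < L') {t0 t1 : ℝ}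
    (h0 : 0 < t0) (h1 : t1 < 1) :
    ∃ C : ℝ, ∀ (Φ : M → ℝ) (s t : ℝ), Continuous Φ → t0 ≤ t → t < s → s ≤ t1 → PP exp Φ s →
      ∀ x, ∀ v ∈ convexHull ℝ (RS exp Φ x), ∀ᶠ μ in 𝓝 (0 : E),
        wHL Φ t (exp x (t • v)) + t⁻¹ * ⟪vel x (t • v), μ⟫_ℝ - C * ‖μ‖ ^ 2 ≤
          wHL Φ t (exp (exp x (t • v)) μ) := by
  obtain ⟨D, -, hD⟩ := exists_diam (M := M)
  obtain ⟨C, hC⟩ := key_near G G2 hL' h0 h1
  refine ⟨C, fun Φ s t hc ht hts hs hP x v hv => ?_⟩
  have ht0 : 0 < t := h0.trans_le ht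
  set m := exp x (t • v) with hm
  obtain ⟨ρ, hρ, hnear⟩ := Metric.eventually_nhds_iff.1 (hC Φ s t ht hts hs hP x v hv)
  have hK : IsCompact {z : M | ρ ≤ dist x z} :=
    (isClosed_le continuous_const (continuous_const.dist continuous_id)).isCompact
  obtain ⟨γ, hγ, hfar⟩ := hK.exists_forall_le'
    (f := fun z => cst z m / t - Φ z - (t * ‖v‖ ^ 2 / 2 - Φ x)) (a := 0)
    ((((continuous_cst.comp (continuous_id.prodMk continuous_const)).div_const t).sub hc).sub
      continuous_const).continuousOn (fun z hz => by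
      by_contra h
      have h2 : z = x := G.PP_unique hP ht0 hts hv (by linarith [not_lt.1 h])
      have h3 : ρ ≤ dist x z := hz
      rw [h2, dist_self] at h3
      linarith)
  have hw : wHL Φ t m ≤ t * ‖v‖ ^ 2 / 2 - Φ x := by
    refine (wHL_le hc t m x).trans (sub_le_sub_right ?_ _)
    have := G.cst_exp_le x (t • v)
    rw [norm_smul, mul_pow, Real.norm_eq_abs, sq_abs] at this
    rw [div_le_iff₀ ht0]
    linarith
  have e1 : ∀ᶠ μ in 𝓝 (0 : E), t⁻¹ * ⟪vel x (t • v), μ⟫_ℝ - C * ‖μ‖ ^ 2 + |D| * ‖μ‖ / t < γ := by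
    refine ContinuousAt.eventually_lt (by fun_prop) continuousAt_const ?_
    simpa using hγ
  filter_upwards [e1, Metric.ball_mem_nhds (0 : E) hρ] with μ a1 a2
  refine le_wHL fun z => ?_
  rcases lt_or_ge (dist x z) ρ with hz | hz
  · obtain ⟨ζ, rfl, hζ⟩ := G.surj x z
    have := hnear (y := (ζ, μ)) (by
      rw [Prod.dist_eq, dist_zero_right, dist_zero_right, ← hζ]
      exact max_lt hz (mem_ball_zero_iff.1 a2))
    linarith
  · have a3 := hfar z hz
    have a4 := cst_lip hD m (exp m μ) z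
    have a5 : D * dist m (exp m μ) ≤ |D| * ‖μ‖ :=
      mul_le_mul (le_abs_self D) (G.dist_le m μ) dist_nonneg (abs_nonneg D)
    rw [cst_comm m, cst_comm _ z] at a4
    have a6 := div_le_div_of_nonneg_right (a4.trans a5) ht0.le
    rw [sub_div] at a6
    linarith

theorem key_global (G : Geo1 exp vel L δ) (G2 : Geo2 exp vel A P c0 L') (hL' : 0 < L') {t0 t1 : ℝ}
    (h0 : 0 < t0) (h1 : t1 < 1) :
    ∃ C : ℝ, ∀ (Φ : M → ℝ) (s t : ℝ), (∀ x, ∃ y, Ct Φ x y) → t0 ≤ t → t < s → s ≤ t1 →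
      PP exp Φ s → ∀ x, ∀ v ∈ convexHull ℝ (RS exp Φ x), ∀ μ : E,
        t * ‖v‖ ^ 2 / 2 - Φ x + ⟪t⁻¹ • vel x (t • v), μ⟫_ℝ - C * ‖μ‖ ^ 2 ≤
          wHL Φ t (exp (exp x (t • v)) μ) := by
  obtain ⟨C, hC⟩ := key_local G G2 hL' h0 h1
  refine ⟨C, fun Φ s t hΦ ht hts hs hP x v hv μ => ?_⟩
  have hc := ct_continuous hΦ
  have ht0 : 0 < t := h0.trans_le ht
  have hlin : ∀ u : E, Tendsto (fun h : ℝ => h • u) (𝓝 0) (𝓝 0) := fun u =>
    (continuous_id.smul continuous_const).tendsto' 0 0 (zero_smul _ _)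
  have := le_of_local_support (φ := fun τ => wHL Φ t (exp (exp x (t • v)) (τ • μ)))
    (a := t⁻¹ * ⟪vel x (t • v), μ⟫_ℝ) (C := C * ‖μ‖ ^ 2)
    ((wHL_cont hc t).comp ((G.exp_cont _).comp (continuous_id.smul continuous_const))).continuousOn
    (by
      filter_upwards [(hlin μ).eventually (hC Φ s t hc ht hts hs hP x v hv)] with h hh
      rw [real_inner_smul_right, norm_smul, mul_pow, Real.norm_eq_abs, sq_abs] at hh
      rw [zero_smul, G.exp_zero]
      linarith)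
    (fun τ _ => by
      obtain ⟨z, u, hu, hz⟩ := G.exists_foot hΦ ht0 (exp (exp x (t • v)) (τ • μ))
      obtain ⟨p, hp, -, hs'⟩ := G.shift (exp x (t • v)) μ τ
      refine ⟨t⁻¹ * ⟪vel z (t • u), p⟫_ℝ, ?_⟩
      filter_upwards [(hlin p).eventually (hC Φ s t hc ht hts hs hP z u hu)] with h hh
      rw [real_inner_smul_right, norm_smul, mul_pow, Real.norm_eq_abs, sq_abs, hz, hs', hp] at hh
      linarith)
  rw [zero_smul, G.exp_zero, one_smul] at this
  have h2 := le_wHL (G.PP_mono hP ht0 hts x v hv)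
  rw [real_inner_smul_left]
  linarith

theorem PP_step (G : Geo1 exp vel L δ) (G2 : Geo2 exp vel A P c0 L') (hL' : 0 < L') {t0 t1 : ℝ}
    (h0 : 0 < t0) (h1 : t1 < 1) :
    ∃ σ0 : ℝ, 0 < σ0 ∧ ∀ (Φ : M → ℝ) (s t σ : ℝ), (∀ x, ∃ y, Ct Φ x y) → t0 ≤ t → t < s →
      s ≤ t1 → PP exp Φ s → 0 < σ → σ ≤ σ0 → PP exp Φ (t + σ) := by
  obtain ⟨D, -, hD⟩ := exists_diam (M := M)
  obtain ⟨C, hC⟩ := key_global G G2 hL' h0 h1
  obtain ⟨σ0, hσ0, hstep⟩ := G.step C D
  refine ⟨σ0, hσ0, fun Φ s t σ hΦ ht hts hs hP hσ hσ' x v hv z => ?_⟩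
  have hc := ct_continuous hΦ
  have ht0 : 0 < t := h0.trans_le ht
  obtain ⟨p, hp, hp', hsh⟩ := G.shift x v t
  obtain ⟨u, hu, hu'⟩ := G.surj z (exp x ((t + σ) • v))
  have hθ : 0 < t / (t + σ) := by positivity
  have a1 := hstep (wHL Φ t) (exp x (t • v)) p (t * ‖v‖ ^ 2 / 2 - Φ x)
    (hp ▸ hull_norm_le hD hv) (by rw [hp' ht0.ne']; exact hC Φ s t hΦ ht hts hs hP x v hv) σ hσ hσ'
    (exp z ((t / (t + σ)) • u))
  rw [hsh, hp] at a1
  have a2 := wHL_le hc t (exp z ((t / (t + σ)) • u)) z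
  have a3 := G.cst_exp_le z ((t / (t + σ)) • u)
  have a4 := G.dist_ray z u (t / (t + σ)) 1
  rw [one_smul, hu] at a4
  have a5 := cst_le_of_dist a4
  rw [norm_smul, mul_pow, Real.norm_eq_abs, sq_abs] at a3
  rw [mul_pow, sq_abs] at a5
  have a6 := div_le_div_of_nonneg_right a3 ht0.le
  have a7 := div_le_div_of_nonneg_right a5 hσ.le
  have a8 : (t / (t + σ)) ^ 2 * ‖u‖ ^ 2 / 2 / t + (1 - t / (t + σ)) ^ 2 * ‖u‖ ^ 2 / 2 / σ =
      cst z (exp x ((t + σ) • v)) / (t + σ) := by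
    rw [cst, hu']; field_simp; ring
  linarith

theorem PP_one (G : Geo1 exp vel L δ) (G2 : Geo2 exp vel A P c0 L') (hL' : 0 < L')
    (hΦ : ∀ x, ∃ y, Ct Φ x y) : PP exp Φ 1 := by
  obtain ⟨D, -, hD⟩ := exists_diam (M := M)
  obtain ⟨σ1, hσ1, hstep⟩ := G.step L D
  have hsmall : ∀ s, 0 < s → s ≤ σ1 → PP exp Φ s := fun s h0 h1 x v hv z => by
    have := hstep (fun z => -Φ z) x v (-Φ x) (hull_norm_le hD hv)
      (fun μ => by linarith [G.super_of_hull hv μ]) s h0 h1 z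
    linarith
  have hlt : ∀ s, 0 < s → s < 1 → PP exp Φ s := by
    intro t1 h0 h1
    obtain ⟨σ0, hσ0, hst⟩ := PP_step G G2 hL' (half_pos hσ1) h1
    have key : ∀ k : ℕ, ∀ s, 0 < s → s ≤ t1 → s ≤ σ1 + k * (σ0 / 2) → PP exp Φ s := by
      intro k
      induction k with
      | zero => exact fun s a1 _ a3 => hsmall s a1 (by simpa using a3)
      | succ k ih =>
        intro s a1 a2 a3
        rcases le_or_gt s (σ1 + k * (σ0 / 2)) with a4 | a4
        · exact ih s a1 a2 a4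
        have hk : (0 : ℝ) ≤ k * (σ0 / 2) := by positivity
        set s' := σ1 + k * (σ0 / 2) with hs'
        have a5 : max (σ1 / 2) (s' - σ0 / 2) < s' := max_lt (by linarith) (by linarith)
        have := hst Φ s' (max (σ1 / 2) (s' - σ0 / 2)) (s - max (σ1 / 2) (s' - σ0 / 2)) hΦ
          (le_max_left _ _) a5 (by linarith) (ih s' (by linarith) (by linarith) le_rfl)
          (by linarith) (by
            push_cast at a3
            linarith [le_max_right (σ1 / 2) (s' - σ0 / 2)])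
        rwa [add_sub_cancel] at this
    obtain ⟨k, hk⟩ := exists_nat_ge (t1 / (σ0 / 2))
    rw [div_le_iff₀ (half_pos hσ0)] at hk
    exact key k t1 h0 le_rfl (by linarith)
  intro x v hv z
  have c1 : ContinuousAt (fun s : ℝ => s * ‖v‖ ^ 2 / 2 - Φ x) 1 := by fun_prop
  have c2 : ContinuousAt (fun s : ℝ => cst z (exp x (s • v)) / s - Φ z) 1 :=
    ((continuous_cst.comp (continuous_const.prodMk ((G.exp_cont x).comp
      (continuous_id.smul continuous_const)))).continuousAt.div continuousAt_id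
      one_ne_zero).sub continuousAt_const
  refine le_of_tendsto_of_tendsto (b := 𝓝[<] (1 : ℝ)) (c1.tendsto.mono_left nhdsWithin_le_nhds)
    (c2.tendsto.mono_left nhdsWithin_le_nhds) ?_
  filter_upwards [Ioo_mem_nhdsLT (zero_lt_one' ℝ)] with s hs
  exact hlt s hs.1 hs.2 x v hv z

/-- **Loeper's theorem**, hull form. -/
theorem hull_subset (G : Geo1 exp vel L δ) (G2 : Geo2 exp vel A P c0 L') (hL' : 0 < L')
    (hΦ : ∀ x, ∃ y, Ct Φ x y) (x : M) : convexHull ℝ (RS exp Φ x) ⊆ RS exp Φ x := by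
  intro v hv
  have h1 := PP_one G G2 hL' hΦ
  have h2 := G.PP_min h1 one_pos hv
  rw [one_smul] at h2
  refine ⟨h2, fun z => ?_⟩
  have := h1 x v hv z
  rw [one_smul, one_mul, div_one] at this
  rwa [cst_of_min h2]

/-- **Loeper's theorem**: the `c`-superdifferential of a `c`-concave function is `c`-convex. -/
theorem loeper (G : Geo1 exp vel L δ) (G2 : Geo2 exp vel A P c0 L') (hL' : 0 < L')
    (hΦ : ∀ x, ∃ y, Ct Φ x y) (x : M) :
    Convex ℝ {p | p ∈ MinS exp x ∧ Ct Φ x (exp x p)} :=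
  convexHull_eq_self.1 (Subset.antisymm (hull_subset G G2 hL' hΦ x) (subset_convexHull ℝ _))

/-- supergradients are `c`-supergradients. -/
theorem ct_of_super (G : Geo1 exp vel L δ) (G2 : Geo2 exp vel A P c0 L') (hL' : 0 < L')
    (hΦ : ∀ x, ∃ y, Ct Φ x y) (x : M) (u : E)
    (hu : ∀ (ξ : E) (ε : ℝ), 0 < ε → ∀ᶠ h in 𝓝[>] (0 : ℝ),
      Φ (exp x (h • ξ)) ≤ Φ x - h * ⟪u, ξ⟫_ℝ + ε * h) :
    u ∈ MinS exp x ∧ Ct Φ x (exp x u) :=
  hull_subset G G2 hL' hΦ x (G.danskin hΦ x u hu)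

omit [CompactSpace M] in
theorem ct_two (z y0 y1 : M) :
    let Φ : M → ℝ := fun x => min (cst x y0 - cst z y0) (cst x y1 - cst z y1)
    (∀ x, ∃ y, Ct Φ x y) ∧ Ct Φ z y0 ∧ Ct Φ z y1 ∧ Φ z = 0 := by
  intro Φ
  have h0 : ∀ x, Φ x ≤ cst x y0 - cst z y0 := fun x => min_le_left _ _
  have h1 : ∀ x, Φ x ≤ cst x y1 - cst z y1 := fun x => min_le_right _ _
  have hz : Φ z = 0 := by simp [Φ]
  refine ⟨fun x => ?_, fun w => by linarith [h0 w], fun w => by linarith [h1 w], hz⟩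
  rcases min_choice (cst x y0 - cst z y0) (cst x y1 - cst z y1) with h | h
  · exact ⟨y0, fun w => by linarith [h0 w, show Φ x = _ from h]⟩
  · exact ⟨y1, fun w => by linarith [h1 w, show Φ x = _ from h]⟩

/-- minimising vectors form a convex set, and the "double-mountain above sliding-mountain"
maximum principle holds. -/
theorem dasm (G : Geo1 exp vel L δ) (G2 : Geo2 exp vel A P c0 L') (hL' : 0 < L') {z : M}
    {q0 q1 q : E} (h0 : q0 ∈ MinS exp z) (h1 : q1 ∈ MinS exp z) (hq : q ∈ segment ℝ q0 q1) :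
    q ∈ MinS exp z ∧ ∀ y, cst z (exp z q) - cst y (exp z q) ≤
      max (cst z (exp z q0) - cst y (exp z q0)) (cst z (exp z q1) - cst y (exp z q1)) := by
  obtain ⟨a1, a2, a3, a4⟩ := ct_two z (exp z q0) (exp z q1)
  obtain ⟨b1, b2⟩ := (loeper G G2 hL' a1 z).segment_subset ⟨h0, a2⟩ ⟨h1, a3⟩ hq
  refine ⟨b1, fun y => ?_⟩
  have := b2 y
  rw [a4] at this
  rcases min_choice (cst y (exp z q0) - cst z (exp z q0)) (cst y (exp z q1) - cst z (exp z q1))
    with h | h
  · refine le_max_of_le_left ?_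
    simp only [h] at this
    linarith
  · refine le_max_of_le_right ?_
    simp only [h] at this
    linarith

theorem convex_minS (G : Geo1 exp vel L δ) (G2 : Geo2 exp vel A P c0 L') (hL' : 0 < L') (z : M) :
    Convex ℝ (MinS exp z) :=
  convex_iff_segment_subset.2 fun _ h0 _ h1 _ hq => (dasm G G2 hL' h0 h1 hq).1

theorem convex_injS (G : Geo1 exp vel L δ) (G2 : Geo2 exp vel A P c0 L') (hL' : 0 < L') (z : M) :
    Convex ℝ (InjS exp z) := by
  rintro q0 ⟨a0, ha0, h0⟩ q1 ⟨a1, ha1, h1⟩ s t hs ht hst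
  have key : ∀ (q : E) (a b : ℝ), 1 < b → b ≤ a → a • q ∈ MinS exp z → b • q ∈ MinS exp z :=
    fun q a b hb hba h => by
      have ha : 0 < a := by linarith
      have := G.min_smul h (t := b / a) (by positivity) ((div_le_one ha).2 hba)
      rwa [smul_smul, div_mul_cancel₀ _ ha.ne'] at this
  have hm : 1 < min a0 a1 := lt_min ha0 ha1
  refine ⟨min a0 a1, hm, ?_⟩
  have := convex_minS G G2 hL' z (key q0 a0 _ hm (min_le_left _ _) h0)
    (key q1 a1 _ hm (min_le_right _ _) h1) hs ht hst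
  rwa [smul_comm s, smul_comm t, ← smul_add] at this

omit [CompactSpace M] [FiniteDimensional ℝ E] in
theorem Geo2.mono_L (G2 : Geo2 exp vel A P c0 L) (h : L ≤ L') : Geo2 exp vel A P c0 L' :=
  { G2 with
    P_lip := fun x q q' hs e => (G2.P_lip x q q' hs e).trans (by gcongr)
    P_sd := fun x q η hs e => (G2.P_sd x q η hs e).trans (by gcongr) }

omit [CompactSpace M] [FiniteDimensional ℝ E] in
theorem Geo2.pos_L (G2 : Geo2 exp vel A P c0 L) : Geo2 exp vel A P c0 (|L| + 1) ∧ 0 < |L| + 1 :=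
  ⟨G2.mono_L (by linarith [le_abs_self L]), by positivity⟩

end Crest.Agent.R226.L

end
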