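import Crest.Agent.R226.QA2

/-!
# rid 226 / QC (part Q, sub-lead helper74): the integrated MTW condition

Prefix for auxiliary lemmas: `qc_`.
-/

set_option autoImplicit false
set_option maxSynthPendingDepth 3
set_option linter.unusedSectionVars false

open Set Filter Topology
open scoped InnerProductSpace ContDiff

noncomputable section

namespace Crest.Agent.R226.Q

open Crest.Agent.R226.L

variable {M : Type*} [MetricSpace M] {E : Type} [NormedAddCommGroup E] [InnerProductSpace ℝ E] [FiniteDimensional ℝ E]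
  {exp : M → E → M} {vel : M → E → E} {L1 δ c0 L : ℝ} {x : M} {q : E}

theorem qc_line {F G : Type} [NormedAddCommGroup F] [NormedSpace ℝ F] [NormedAddCommGroup G] [NormedSpace ℝ G]
    {g : F → G} {p : F} (hg : ContDiffAt ℝ 2 g p) (T : G →L[ℝ] ℝ) (ξ : F) :
    deriv (deriv fun t : ℝ => T (g (p + t • ξ))) 0 = T (fderiv ℝ (fderiv ℝ g) p ξ ξ) := by
  have hl : ∀ t : ℝ, HasDerivAt (fun t : ℝ => p + t • ξ) ξ t := fun t => by
    simpa using ((hasDerivAt_id t).smul_const ξ).const_add p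
  have ht : Tendsto (fun t : ℝ => p + t • ξ) (𝓝 0) (𝓝 p) := by
    simpa using (hl 0).continuousAt.tendsto
  have e : (deriv fun t : ℝ => T (g (p + t • ξ))) =ᶠ[𝓝 0] fun t : ℝ => T (fderiv ℝ g (p + t • ξ) ξ) := by
    filter_upwards [ht.eventually (hg.eventually (by simp))] with t h
    exact (T.hasFDerivAt.comp_hasDerivAt t
      ((h.differentiableAt (by simp)).hasFDerivAt.comp_hasDerivAt t (hl t))).deriv
  rw [e.deriv_eq]
  have h1 : HasFDerivAt (fderiv ℝ g) (fderiv ℝ (fderiv ℝ g) p) (p + (0 : ℝ) • ξ) := by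
    rw [zero_smul, add_zero]
    exact ((hg.fderiv_right (m := 1) (by norm_num)).differentiableAt (by simp)).hasFDerivAt
  have h2 := h1.comp_hasDerivAt (0 : ℝ) (hl 0)
  exact ((T.comp (ContinuousLinearMap.apply ℝ G ξ)).hasFDerivAt.comp_hasDerivAt (0 : ℝ) h2).deriv

/-- For `f` smooth at `(0, 0)`: the fourth derivative on `(e₁, e₁, e₂, e₂)` is `∂ₛ² ∂ₜ² f` (`iteratedFDeriv_succ_apply_left`
or `iteratedFDeriv_two_apply`, `iteratedFDeriv_succ_eq_comp_left`; `g p = fderiv (fderiv f) p e₂ e₂` is smooth near the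
origin and `iteratedFDeriv 4 f 0 ![e₁, e₁, e₂, e₂] = fderiv (fderiv g) 0 e₁ e₁`). -/
theorem iter4_eq {f : ℝ × ℝ → ℝ} (hf : ContDiffAt ℝ 4 f (0, 0)) :
    iteratedFDeriv ℝ 4 f (0, 0) ![((1 : ℝ), (0 : ℝ)), (1, 0), (0, 1), (0, 1)] =
      deriv (deriv fun s : ℝ => deriv (deriv fun t : ℝ => f (s, t)) 0) 0 := by
  have hD : ContDiffAt ℝ 2 (fderiv ℝ (fderiv ℝ f)) (0, 0) :=
    (hf.fderiv_right (m := 3) (by norm_num)).fderiv_right (m := 2) (by norm_num)
  have h1 := qc_line hD ((ContinuousLinearMap.apply ℝ ℝ ((0 : ℝ), (1 : ℝ))).comp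
    (ContinuousLinearMap.apply ℝ (ℝ × ℝ →L[ℝ] ℝ) ((0 : ℝ), (1 : ℝ)))) ((1 : ℝ), (0 : ℝ))
  have ht : Tendsto (fun s : ℝ => ((s, 0) : ℝ × ℝ)) (𝓝 0) (𝓝 (0, 0)) :=
    (continuous_id.prodMk continuous_const).tendsto 0
  have e : (fun s : ℝ => deriv (deriv fun t : ℝ => f (s, t)) 0) =ᶠ[𝓝 0]
      fun s : ℝ => fderiv ℝ (fderiv ℝ f) (((0 : ℝ), (0 : ℝ)) + s • ((1 : ℝ), (0 : ℝ))) (0, 1) (0, 1) := by
    filter_upwards [ht.eventually (hf.eventually (by simp))] with s h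
    have h2 := qc_line (h.of_le (m := 2) (by norm_num)) (ContinuousLinearMap.id ℝ ℝ) ((0 : ℝ), (1 : ℝ))
    simpa using h2
  rw [e.deriv.deriv_eq]
  refine Eq.trans ?_ h1.symm
  rw [iteratedFDeriv_succ_apply_right, iteratedFDeriv_succ_apply_right, iteratedFDeriv_two_apply]
  rfl

/-- the second derivative along a line -/
theorem deriv2_line {F : Type} [NormedAddCommGroup F] [NormedSpace ℝ F] {f : F → ℝ} {p : F} (hf : ContDiffAt ℝ 2 f p)
    (ξ : F) : deriv (deriv fun t : ℝ => f (p + t • ξ)) 0 = fderiv ℝ (fderiv ℝ f) p ξ ξ := by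
  exact qc_line hf (ContinuousLinearMap.id ℝ ℝ) ξ

/-- for `s` near `0`, `v + s • η ∈ InjS` (`isOpen`) and `∂ₜ² kx (t • ξ, v + s • η) = ⟪A (v + s • η) ξ, ξ⟫` -/
theorem mtw_deriv (h0 : GeoS0 exp vel) (hm : MTWRaw exp) {v ξ η : E} (hv : v ∈ InjS exp x) (ho : ⟪ξ, η⟫_ℝ = 0) :
    deriv (deriv fun s : ℝ => ⟪Aop exp x (v + s • η) ξ, ξ⟫_ℝ) 0 ≤ 0 := by
  have hc : ContDiffAt ℝ 4 (fun p : ℝ × ℝ => kx exp x (p.2 • ξ, v + p.1 • η)) (0, 0) := by
    refine ContDiffAt.comp (g := kx exp x) (f := fun p : ℝ × ℝ => (p.2 • ξ, v + p.1 • η)) _ ?_ (by fun_prop)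
    simpa using (h0.k_smooth x v hv).of_le (m := 4) (ENat.natCast_le_of_coe_top_le_withTop le_rfl 4)
  have h1 := hm x v hv ξ η ho
  have h2 := iter4_eq hc
  have ht : Tendsto (fun s : ℝ => v + s • η) (𝓝 0) (𝓝 v) := by
    have : Continuous fun s : ℝ => v + s • η := by fun_prop
    simpa using this.tendsto 0
  have e : (fun s : ℝ => ⟪Aop exp x (v + s • η) ξ, ξ⟫_ℝ) =ᶠ[𝓝 0]
      fun s : ℝ => deriv (deriv fun t : ℝ => kx exp x (t • ξ, v + s • η)) 0 := by
    filter_upwards [ht.eventually ((h0.isOpen x).mem_nhds hv)] with s h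
    have h3 := deriv2_line ((contDiffAt_k1 h0 h).of_le (m := 2) (ENat.natCast_le_of_coe_top_le_withTop le_rfl 2)) ξ
    simp only [zero_add] at h3
    rw [inner_Aop, h3]
  rw [e.deriv.deriv_eq]
  exact h2.symm.trans_le h1

/-- `a s = ⟪A (q + s • (q' - q)) ξ, ξ⟫` is `C²` at each point of `[0, 1]` (`contDiffAt_Aop`) with `a'' ≤ 0`
(`mtw_deriv` at `v = q + s₀ • (q' - q)`, `deriv_comp_add_const`), `concaveOn_of_deriv2_nonpos`. -/
theorem mtw (h0 : GeoS0 exp vel) (hm : MTWRaw exp) (x : M) (q q' : E) (hq : segment ℝ q q' ⊆ InjS exp x) (ξ : E)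
    (ho : ⟪q' - q, ξ⟫_ℝ = 0) {θ : ℝ} (hθ : θ ∈ Icc (0 : ℝ) 1) :
    (1 - θ) * ⟪Aop exp x q ξ, ξ⟫_ℝ + θ * ⟪Aop exp x q' ξ, ξ⟫_ℝ ≤ ⟪Aop exp x ((1 - θ) • q + θ • q') ξ, ξ⟫_ℝ := by
  set a : ℝ → ℝ := fun s => ⟪Aop exp x (q + s • (q' - q)) ξ, ξ⟫_ℝ with ha
  have hmem : ∀ s ∈ Icc (0 : ℝ) 1, q + s • (q' - q) ∈ InjS exp x := fun s hs => hq (by
    rw [segment_eq_image']
    exact ⟨s, hs, rfl⟩)
  have hc : ∀ s ∈ Icc (0 : ℝ) 1, ContDiffAt ℝ 2 a s := fun s hs => by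
    have h1 : ContDiffAt ℝ 2 (fun s : ℝ => Aop exp x (q + s • (q' - q))) s :=
      ContDiffAt.comp (g := Aop exp x) (f := fun s : ℝ => q + s • (q' - q)) s
        ((contDiffAt_Aop h0 (hmem s hs)).of_le (ENat.natCast_le_of_coe_top_le_withTop le_rfl 2)) (by fun_prop)
    exact (h1.clm_apply contDiffAt_const).inner ℝ contDiffAt_const
  have hcon : ConcaveOn ℝ (Icc (0 : ℝ) 1) a := by
    refine concaveOn_of_deriv2_nonpos' (convex_Icc 0 1)
      (fun s hs => ((hc s hs).differentiableAt (by simp)).differentiableWithinAt)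
      (fun s hs => (((hc s hs).derivWithin (m := 1) (by norm_num)).differentiableAt
        (by simp)).differentiableWithinAt) fun s hs => ?_
    have h1 := mtw_deriv (η := q' - q) (ξ := ξ) h0 hm (hmem s hs) (by rw [real_inner_comm]; exact ho)
    have e : (fun t : ℝ => ⟪Aop exp x (q + s • (q' - q) + t • (q' - q)) ξ, ξ⟫_ℝ) = fun t => a (s + t) := by
      funext t
      simp only [ha, add_smul, add_assoc]
    have e2 : (deriv fun t => a (s + t)) = fun t => deriv a (s + t) := funext fun t => deriv_comp_const_add a s t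
    rw [e, e2, deriv_comp_const_add (deriv a) s 0, add_zero] at h1
    exact h1
  have h2 := hcon.2 (left_mem_Icc.2 zero_le_one) (right_mem_Icc.2 zero_le_one) (sub_nonneg.2 hθ.2) hθ.1
    (by ring)
  have e3 : q + θ • (q' - q) = (1 - θ) • q + θ • q' := by module
  simpa only [ha, smul_eq_mul, mul_zero, zero_add, mul_one, zero_smul, add_zero, one_smul, add_sub_cancel,
    e3] using h2

end Crest.Agent.R226.Q

end
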