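import Crest.Agent.R226.QE

/-!
# rid 226 / QF (part Q, sub-lead helper74): radial shrink estimate and lower bounds for A

Prefix for auxiliary lemmas: `qf_`.
-/

set_option autoImplicit false
set_option maxSynthPendingDepth 3
set_option linter.unusedSectionVars false

open Set Filter Topology
open scoped InnerProductSpace ContDiff

noncomputable section

namespace Crest.Agent.R226.Q

open Crest.Agent.R226.L

variable {M : Type*} [MetricSpace M] {E : Type} [NormedAddCommGroup E] [InnerProductSpace ℝ E] [FiniteDimensional ℝ E]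
  {exp : M → E → M} {vel : M → E → E} {L1 δ c0 L : ℝ} {x : M} {q : E}

theorem qf_deriv_nonpos {g : ℝ → ℝ} {g' t : ℝ} (hg : HasDerivAt g g' t) (h : ∀ᶠ s in 𝓝[>] t, g s ≤ g t) : g' ≤ 0 := by
  have h1 : Tendsto (slope g t) (𝓝[>] t) (𝓝 g') :=
    (hasDerivAt_iff_tendsto_slope.1 hg).mono_left (nhdsWithin_mono _ fun s hs => ne_of_gt hs)
  refine le_of_tendsto h1 ?_
  filter_upwards [h, self_mem_nhdsWithin] with s hs hst
  rw [slope_def_field]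
  exact div_nonpos_of_nonpos_of_nonneg (sub_nonpos.2 hs) (sub_nonneg.2 (le_of_lt hst))

theorem qf_hasDerivAt {T : E → E →L[ℝ] E} {u : E} {t : ℝ} (hT : DifferentiableAt ℝ T (t • u)) (ζ ζ' : E) :
    HasDerivAt (fun s : ℝ => ⟪T (s • u) ζ, ζ'⟫_ℝ) ⟪fderiv ℝ T (t • u) u ζ, ζ'⟫_ℝ t := by
  have h1 : HasDerivAt (fun s : ℝ => s • u) u t := by
    simpa using (hasDerivAt_id t).smul_const u
  have h2 : HasDerivAt (fun s : ℝ => T (s • u)) (fderiv ℝ T (t • u) u) t :=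
    HasFDerivAt.comp_hasDerivAt (f := fun s : ℝ => s • u) t hT.hasFDerivAt h1
  have h3 : HasDerivAt (fun s : ℝ => T (s • u) ζ) (fderiv ℝ T (t • u) u ζ) t := by
    simpa using h2.clm_apply (hasDerivAt_const t ζ)
  simpa using h3.inner ℝ (hasDerivAt_const t ζ')

/-- Divide `ray_key2` by `t' - t` and let `t' → t⁺`: for `a s = ⟪A (s • u) ζ, ζ⟫` (differentiable at `t`,
`contDiffAt_Aop`), `(a / s)' ≤ -‖W ζ‖² / (2 L1 L² t²)`. -/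
theorem deriv_A_le (h1 : Geo1 exp vel L1 δ) (hs : GeoS exp vel c0 L) {u : E} (hu : u ∈ MinS exp x) {t : ℝ} (ht : 0 < t)
    (ht1 : t < 1) (ζ : E) :
    t * ⟪fderiv ℝ (Aop exp x) (t • u) u ζ, ζ⟫_ℝ ≤
      ⟪Aop exp x (t • u) ζ, ζ⟫_ℝ - ‖Wop c0 exp x (t • u) ζ‖ ^ 2 / (2 * L1 * L ^ 2) := by
  have hq : t • u ∈ InjS exp x := inj_smul h1 hu ht.le ht1
  have ha := qf_hasDerivAt ((contDiffAt_Aop hs.toGeoS0 hq).differentiableAt (by simp)) ζ ζ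
  set a' := ⟪fderiv ℝ (Aop exp x) (t • u) u ζ, ζ⟫_ℝ
  set a0 := ⟪Aop exp x (t • u) ζ, ζ⟫_ℝ with ha0
  set k := ‖Wop c0 exp x (t • u) ζ‖ ^ 2 / (2 * L1 * L ^ 2) with hk
  have hL1 := h1.L_pos
  have hL := hs.L_pos
  have hg : HasDerivAt (fun s : ℝ => t * ⟪Aop exp x (s • u) ζ, ζ⟫_ℝ + (s - t) * k - s * a0)
      (t * a' + k - a0) t := by
    have := ((ha.const_mul t).add (((hasDerivAt_id t).sub_const t).mul_const k)).sub
      ((hasDerivAt_id t).mul_const a0)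
    exact this.congr_deriv (by simp)
  have key := qf_deriv_nonpos hg (by
    filter_upwards [Ioo_mem_nhdsGT ht1] with s hs'
    have hs0 : 0 < s := ht.trans hs'.1
    have h2 := ray_key2 h1 hs hu ht hs'.1 hs'.2 ζ
    have h3 := mul_le_mul_of_nonneg_left h2 (mul_pos ht hs0).le
    have e1 : t * s * (⟪Aop exp x (s • u) ζ, ζ⟫_ℝ / s +
        (s - t) / (2 * L1 * L ^ 2 * t * s) * ‖Wop c0 exp x (t • u) ζ‖ ^ 2) =
        t * ⟪Aop exp x (s • u) ζ, ζ⟫_ℝ + (s - t) * k := by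
      rw [hk]
      field_simp
    have e2 : t * s * (a0 / t) = s * a0 := by field_simp
    rw [e1, e2] at h3
    rw [← ha0]
    linarith)
  linarith

/-- differentiate `W (P e) = e` near `q` (`isOpen`, `Wop_Pop`), or `hasFDerivAt_ringInverse` -/
theorem fderiv_Pop (h1 : Geo1 exp vel L1 δ) (h0 : GeoS0 exp vel) (hc : 2 * L1 + 2 ≤ c0) (hq : q ∈ InjS exp x)
    (η e : E) : fderiv ℝ (Pop c0 exp x) q η e = Pop c0 exp x q (fderiv ℝ (Aop exp x) q η (Pop c0 exp x q e)) := by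
  have hA := ((contDiffAt_Aop h0 hq).differentiableAt (by simp)).hasFDerivAt
  have hP := ((contDiffAt_Pop h1 h0 hc hq).differentiableAt (by simp)).hasFDerivAt
  have hW : HasFDerivAt (Wop c0 exp x) (-fderiv ℝ (Aop exp x) q) q := by
    exact hA.const_sub (c0 • (1 : E →L[ℝ] E))
  have hPe := hP.clm_apply (hasFDerivAt_const e q)
  have hWP := hW.clm_apply hPe
  have hev : (fun y => Wop c0 exp x y (Pop c0 exp x y e)) =ᶠ[𝓝 q] fun _ => e := by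
    filter_upwards [(h0.isOpen x).mem_nhds hq] with y hy
    exact Wop_Pop h1 h0 hc hy e
  have h2 := (hWP.congr_of_eventuallyEq hev.symm).unique (hasFDerivAt_const e q)
  have h3 := congrArg (fun T => T η) h2
  simp only [ContinuousLinearMap.add_apply, ContinuousLinearMap.comp_apply, ContinuousLinearMap.flip_apply,
    ContinuousLinearMap.zero_apply, ContinuousLinearMap.comp_zero, zero_add, ContinuousLinearMap.neg_apply] at h3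
  have h4 : Wop c0 exp x q (fderiv ℝ (Pop c0 exp x) q η e) = fderiv ℝ (Aop exp x) q η (Pop c0 exp x q e) := by
    rwa [add_neg_eq_zero] at h3
  rw [← h4, Pop_Wop h1 h0 hc hq]

/-- Radial shrink.  Let `m = ⌈c0⌉₊`, `κ = 1 / (2 L1 L² m)`, `p s = ⟪P (s • u) e, e⟫`.  By `fderiv_Pop`, `Pop_symm`,
`deriv_A_le` with `ζ = P e`, `Aop_le`, `sq_Pop_le`: `s p' ≤ m p - m κ ‖e‖²`, so `(p s - κ ‖e‖²) / s ^ m` is antitone on
`[t, t']` (`antitoneOn_of_deriv_nonpos`). -/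
theorem shrink (h1 : Geo1 exp vel L1 δ) (hs : GeoS exp vel c0 L) (hc : 2 * L1 + 2 ≤ c0) :
    ∃ m : ℕ, 1 ≤ m ∧ ∃ κ : ℝ, 0 < κ ∧ ∀ x, ∀ u ∈ MinS exp x, ∀ t t' : ℝ, 0 < t → t ≤ t' → t' < 1 → ∀ e,
      (t / t') ^ m * ⟪Pop c0 exp x (t' • u) e, e⟫_ℝ + κ * (1 - (t / t') ^ m) * ‖e‖ ^ 2 ≤
        ⟪Pop c0 exp x (t • u) e, e⟫_ℝ := by
  have hL1 := h1.L_pos
  have hL := hs.L_pos
  have hm0 : c0 ≤ (⌈c0⌉₊ : ℝ) := Nat.le_ceil c0
  have hm1 : 1 ≤ ⌈c0⌉₊ := Nat.one_le_ceil_iff.2 (by linarith)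
  obtain ⟨j, hj⟩ : ∃ j, ⌈c0⌉₊ = j + 1 := ⟨⌈c0⌉₊ - 1, by omega⟩
  rw [hj] at hm0
  have hmp : (0 : ℝ) < ((j + 1 : ℕ) : ℝ) := by positivity
  refine ⟨j + 1, by omega, 1 / (2 * L1 * L ^ 2 * ((j + 1 : ℕ) : ℝ)), by positivity, ?_⟩
  intro x u hu t t' ht htt ht' e
  set κ := 1 / (2 * L1 * L ^ 2 * ((j + 1 : ℕ) : ℝ)) with hκ
  have hder : ∀ s ∈ Icc t t', ∃ d, d ≤ 0 ∧
      HasDerivAt (fun s : ℝ => (⟪Pop c0 exp x (s • u) e, e⟫_ℝ - κ * ‖e‖ ^ 2) / s ^ (j + 1)) d s := by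
    intro s hs'
    have hs0 : 0 < s := ht.trans_le hs'.1
    have hs1 : s < 1 := hs'.2.trans_lt ht'
    have hq : s • u ∈ InjS exp x := inj_smul h1 hu hs0.le hs1
    have hp := qf_hasDerivAt ((contDiffAt_Pop h1 hs.toGeoS0 hc hq).differentiableAt (by simp)) e e
    rw [fderiv_Pop h1 hs.toGeoS0 hc hq, Pop_symm h1 hs.toGeoS0 hc hq] at hp
    have h2 := deriv_A_le h1 hs hu hs0 hs1 (Pop c0 exp x (s • u) e)
    rw [Wop_Pop h1 hs.toGeoS0 hc hq] at h2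
    have h3 := Aop_le h1 hs.toGeoS0 hq (Pop c0 exp x (s • u) e)
    have h4 := sq_Pop_le h1 hs.toGeoS0 hc hq e
    refine ⟨_, ?_, (hp.sub_const (κ * ‖e‖ ^ 2)).div (hasDerivAt_pow (j + 1) s) (by positivity)⟩
    refine div_nonpos_of_nonpos_of_nonneg ?_ (by positivity)
    set p' := ⟪fderiv ℝ (Aop exp x) (s • u) u (Pop c0 exp x (s • u) e), Pop c0 exp x (s • u) e⟫_ℝ
    set p := ⟪Pop c0 exp x (s • u) e, e⟫_ℝ
    have h5 : ‖e‖ ^ 2 / (2 * L1 * L ^ 2) = ((j + 1 : ℕ) : ℝ) * (κ * ‖e‖ ^ 2) := by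
      rw [hκ]
      field_simp
    have h6 : 0 ≤ p := le_trans (sq_nonneg _) h4
    have h7 : s * p' - ((j + 1 : ℕ) : ℝ) * (p - κ * ‖e‖ ^ 2) ≤ 0 := by
      have h8 : 2 * L1 * ‖Pop c0 exp x (s • u) e‖ ^ 2 ≤ 2 * L1 * p := by gcongr
      have h9 : 2 * L1 * p ≤ ((j + 1 : ℕ) : ℝ) * p := by
        refine mul_le_mul_of_nonneg_right ?_ h6
        linarith
      rw [h5] at h2
      linarith
    have e1 : p' * s ^ (j + 1) - (p - κ * ‖e‖ ^ 2) * (((j + 1 : ℕ) : ℝ) * s ^ (j + 1 - 1)) =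
        s ^ j * (s * p' - ((j + 1 : ℕ) : ℝ) * (p - κ * ‖e‖ ^ 2)) := by
      rw [Nat.add_sub_cancel]
      ring
    rw [e1]
    exact mul_nonpos_of_nonneg_of_nonpos (by positivity) h7
  have hanti : AntitoneOn (fun s : ℝ => (⟪Pop c0 exp x (s • u) e, e⟫_ℝ - κ * ‖e‖ ^ 2) / s ^ (j + 1)) (Icc t t') := by
    refine antitoneOn_of_deriv_nonpos (convex_Icc t t') (fun s hs' => ?_) (fun s hs' => ?_) fun s hs' => ?_
    · obtain ⟨d, -, hd⟩ := hder s hs'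
      exact hd.continuousAt.continuousWithinAt
    · obtain ⟨d, -, hd⟩ := hder s (interior_subset hs')
      exact hd.differentiableAt.differentiableWithinAt
    · obtain ⟨d, hd0, hd⟩ := hder s (interior_subset hs')
      rw [hd.deriv]
      exact hd0
  have h2 := hanti ⟨le_rfl, htt⟩ ⟨htt, le_rfl⟩ htt
  simp only at h2
  have ht0 : 0 < t' := ht.trans_le htt
  have h3 := mul_le_mul_of_nonneg_left h2 (pow_pos ht (j + 1)).le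
  have e1 : t ^ (j + 1) * ((⟪Pop c0 exp x (t' • u) e, e⟫_ℝ - κ * ‖e‖ ^ 2) / t' ^ (j + 1)) =
      (t / t') ^ (j + 1) * (⟪Pop c0 exp x (t' • u) e, e⟫_ℝ - κ * ‖e‖ ^ 2) := by
    rw [div_pow]
    ring
  have e2 : t ^ (j + 1) * ((⟪Pop c0 exp x (t • u) e, e⟫_ℝ - κ * ‖e‖ ^ 2) / t ^ (j + 1)) =
      ⟪Pop c0 exp x (t • u) e, e⟫_ℝ - κ * ‖e‖ ^ 2 := by
    field_simp
  rw [e1, e2] at h3
  linarith

/-- For `0 < t < 1` take `t' = (1 + t) / 2` in `shrink`: `1 - (t / t') ^ m ≥ 1 - t / t' ≥ (1 - t) / 2`, so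
`⟪P e, e⟫ ≥ κ (1 - t) / 2 ‖e‖²`; with `e = W ζ`: `‖W ζ‖ ≤ 2 ‖ζ‖ / (κ (1 - t))`, `⟪A ζ, ζ⟫ = c0 ‖ζ‖² - ⟪W ζ, ζ⟫`.
For `t = 0` use `0 • u = (1 / 2) • 0` and `0 ∈ MinS`. -/
theorem inner_lin (h1 : Geo1 exp vel L1 δ) (hs : GeoS exp vel c0 L) (hc : 2 * L1 + 2 ≤ c0) :
    ∃ Λ : ℝ, 0 < Λ ∧ ∀ x, ∀ u ∈ MinS exp x, ∀ t ∈ Ico (0 : ℝ) 1, ∀ ζ,
      -(Λ / (1 - t)) * ‖ζ‖ ^ 2 ≤ ⟪Aop exp x (t • u) ζ, ζ⟫_ℝ := by
  obtain ⟨m, hm, κ, hκ, h⟩ := shrink h1 hs hc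
  have hL1 := h1.L_pos
  have main : ∀ x, ∀ u ∈ MinS exp x, ∀ t : ℝ, 0 < t → t < 1 → ∀ ζ,
      -(2 / κ / (1 - t)) * ‖ζ‖ ^ 2 ≤ ⟪Aop exp x (t • u) ζ, ζ⟫_ℝ := by
    intro x u hu t ht ht1 ζ
    have hq : t • u ∈ InjS exp x := inj_smul h1 hu ht.le ht1
    have ht' : 0 < (1 + t) / 2 := by linarith
    have hq' : ((1 + t) / 2) • u ∈ InjS exp x := inj_smul h1 hu ht'.le (by linarith)
    have h2 := h x u hu t ((1 + t) / 2) ht (by linarith) (by linarith) (Wop c0 exp x (t • u) ζ)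
    rw [Pop_Wop h1 hs.toGeoS0 hc hq] at h2
    have h3 : 0 ≤ ⟪Pop c0 exp x (((1 + t) / 2) • u) (Wop c0 exp x (t • u) ζ), Wop c0 exp x (t • u) ζ⟫_ℝ :=
      le_trans (sq_nonneg _) (sq_Pop_le h1 hs.toGeoS0 hc hq' _)
    have r0 : 0 ≤ t / ((1 + t) / 2) := by positivity
    have r1 : t / ((1 + t) / 2) ≤ (1 + t) / 2 := by
      rw [div_le_iff₀ ht']
      nlinarith [sq_nonneg (1 - t)]
    have r2 : (t / ((1 + t) / 2)) ^ m ≤ t / ((1 + t) / 2) :=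
      pow_le_of_le_one r0 (r1.trans (by linarith)) (by omega)
    have r3 : (1 - t) / 2 ≤ 1 - (t / ((1 + t) / 2)) ^ m := by linarith
    have r4 : 0 ≤ (t / ((1 + t) / 2)) ^ m := pow_nonneg r0 m
    set W := Wop c0 exp x (t • u) ζ with hW
    have h4 : κ * ((1 - t) / 2) * ‖W‖ ^ 2 ≤ ⟪ζ, W⟫_ℝ := by
      have h5 : κ * ((1 - t) / 2) * ‖W‖ ^ 2 ≤ κ * (1 - (t / ((1 + t) / 2)) ^ m) * ‖W‖ ^ 2 := by gcongr
      have h6 := mul_nonneg r4 h3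
      linarith
    have hc0 : 0 < κ * ((1 - t) / 2) := mul_pos hκ (by linarith)
    have h5 : ⟪ζ, W⟫_ℝ ≤ ‖ζ‖ * ‖W‖ := real_inner_le_norm _ _
    have h6 : κ * ((1 - t) / 2) * ‖W‖ ≤ ‖ζ‖ := by
      rcases (norm_nonneg W).eq_or_lt with h7 | h7
      · rw [← h7, mul_zero]
        exact norm_nonneg _
      · refine le_of_mul_le_mul_right ?_ h7
        nlinarith
    have h7 : ⟪ζ, W⟫_ℝ ≤ 2 / κ / (1 - t) * ‖ζ‖ ^ 2 := by
      have h8 : ‖W‖ ≤ ‖ζ‖ / (κ * ((1 - t) / 2)) := by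
        rw [le_div_iff₀ hc0]
        linarith
      have h9 : 1 - t ≠ 0 := by linarith
      calc ⟪ζ, W⟫_ℝ ≤ ‖ζ‖ * ‖W‖ := h5
        _ ≤ ‖ζ‖ * (‖ζ‖ / (κ * ((1 - t) / 2))) := by gcongr
        _ = 2 / κ / (1 - t) * ‖ζ‖ ^ 2 := by field_simp
    have h8 : ⟪ζ, W⟫_ℝ = c0 * ‖ζ‖ ^ 2 - ⟪Aop exp x (t • u) ζ, ζ⟫_ℝ := by
      rw [hW, Wop_apply, inner_sub_right, inner_smul_right, real_inner_self_eq_norm_sq, real_inner_comm]
    have h9 : 0 ≤ c0 * ‖ζ‖ ^ 2 := mul_nonneg (by linarith) (sq_nonneg _)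
    linarith
  refine ⟨4 / κ, by positivity, fun x u hu t ht ζ => ?_⟩
  rcases ht.1.eq_or_lt with h0 | h0
  · have hz : (0 : E) ∈ MinS exp x := by
      simp [MinS, h1.exp_zero]
    have h2 := main x 0 hz (1 / 2) (by norm_num) (by norm_num) ζ
    rw [smul_zero] at h2
    rw [← h0, zero_smul]
    refine le_trans (le_of_eq ?_) h2
    ring
  · refine le_trans ?_ (main x u hu t h0 ht.2 ζ)
    have h2 : 0 < 1 - t := by linarith [ht.2]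
    have h3 : 2 / κ / (1 - t) ≤ 4 / κ / (1 - t) := by gcongr; norm_num
    nlinarith [sq_nonneg ‖ζ‖]

theorem inner_bd (h1 : Geo1 exp vel L1 δ) (hs : GeoS exp vel c0 L) (hc : 2 * L1 + 2 ≤ c0) (t1 : ℝ) (ht1 : t1 < 1) :
    ∃ Λ : ℝ, ∀ x, ∀ u ∈ MinS exp x, ∀ t ∈ Icc (0 : ℝ) t1, ∀ ζ, -Λ * ‖ζ‖ ^ 2 ≤ ⟪Aop exp x (t • u) ζ, ζ⟫_ℝ := by
  obtain ⟨Λ, hΛ, h⟩ := inner_lin h1 hs hc
  refine ⟨Λ / (1 - t1), fun x u hu t ht ζ => le_trans ?_ (h x u hu t ⟨ht.1, ht.2.trans_lt ht1⟩ ζ)⟩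
  have h2 : 0 < 1 - t1 := by linarith
  have h3 : Λ / (1 - t) ≤ Λ / (1 - t1) := by
    gcongr
    exact ht.2
  nlinarith [sq_nonneg ‖ζ‖]

end Crest.Agent.R226.Q

end
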