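import Crest.Agent.R226.QB
import Crest.Agent.R226.QC
import Crest.Agent.R226.QF

/-!
# rid 226 / QG (part Q, sub-lead helper74): assembly of Geo2

Prefix for auxiliary lemmas: `qg_`.
-/

set_option autoImplicit false
set_option maxSynthPendingDepth 3
set_option linter.unusedSectionVars false

open Set Filter Topology
open scoped InnerProductSpace ContDiff

noncomputable section

namespace Crest.Agent.R226.Q

open Crest.Agent.R226.L

variable {M : Type*} [MetricSpace M] {E : Type} [NormedAddCommGroup E] [InnerProductSpace ℝ E] [FiniteDimensional ℝ E]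
  {exp : M → E → M} {vel : M → E → E} {L1 δ c0 L : ℝ} {x : M} {q : E}

theorem geo2_of_geoS (h1 : Geo1 exp vel L1 δ) (hs : GeoS exp vel c0 L) (hc : 2 * L1 + 2 ≤ c0) (hm : MTWRaw exp) :
    Geo2 exp vel (Aop exp) (Pop c0 exp) c0 L where
  c0_ge := by linarith [h1.L_pos]
  symm := fun _ _ hq => Aop_symm hs.toGeoS0 hq
  A_le := fun _ _ hq u => (Aop_le h1 hs.toGeoS0 hq u).trans
    (mul_le_mul_of_nonneg_right (by linarith) (sq_nonneg _))
  A_rad := fun _ _ hq => Aop_rad h1 hs.toGeoS0 hq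
  WP := fun _ _ hq u => Wop_Pop h1 hs.toGeoS0 hc hq u
  P_lip := P_lip h1 hs hc
  P_sd := P_sd h1 hs hc
  mtw := fun x q q' hq ξ ho _ hθ => mtw hs.toGeoS0 hm x q q' hq ξ ho hθ
  tay_up := fun _ _ hq _ hε => (tay_k h1 hs.toGeoS0 hq hε).mono fun _ h => by linarith [(abs_le.1 h).2]
  tay_lo := tay_lo h1 hs hc
  mono := mono h1 hs hc
  inner_bd := inner_bd h1 hs hc

end Crest.Agent.R226.Q

end
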