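import Crest.Agent.R226.G7
import Crest.Agent.R226.G8
import Crest.Agent.R226.QG
import Crest.Agent.R226.LMain

/-! # rid 226: assembly lemmas (owner helper85) -/

set_option autoImplicit false
set_option linter.unusedSectionVars false

open scoped ContDiff Manifold Topology
open Bundle Set Filter Metric

noncomputable section

namespace Crest.Agent.R226.G

variable {n : ℕ} {M : Type*} [MetricSpace M] [ChartedSpace (EE n) M] [IsManifold 𝓘(ℝ, EE n) ∞ M]
  [RiemannianBundle (fun p : M => TangentSpace 𝓘(ℝ, EE n) p)]
  [IsRiemannianManifold 𝓘(ℝ, EE n) M] [CompactSpace M] {R : Riem n M}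

open Crest.GeometryTopology.MTW

theorem convex_injDomain (hg : Compat R.g) (x : M) (h : Convex ℝ (L.InjS R.expE x)) :
    Convex ℝ (injDomain n x) := by
  have e : ∀ v : EE n, v ∈ injDomain n x ↔ (R.fr x).symm v ∈ L.InjS R.expE x := fun v => by
    rw [R.mem_injS, ContinuousLinearEquiv.apply_symm_apply]
    exact mem_injDomain_iff hg x v
  intro u hu v hv a b ha hb hab
  exact (e _).2 (h.linear_preimage ((R.fr x).symm : EE n →ₗ[ℝ] EE n) ((e u).1 hu) ((e v).1 hv)
    ha hb hab)

end Crest.Agent.R226.G

end
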