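import Crest.Agent.R226.G0Geo
import Crest.Agent.R226.G0RauchA

/-!
# R226 / G1Defs: a compact Riemannian manifold as instance free data (owner helper39, DO NOT CHANGE)

`Riem n M`: a smooth metric `g`, its geodesic flow, and three facts which say that `dist` is the Riemannian distance.
Tangent vectors at `x` are elements of `EE n` (coordinates in the preferred chart at `x`), with the scalar product
`qT g x`.  In the chart of `a : M` a tangent vector `ξ` has the coordinates `tmChart n a ξ = (y, w)` and squared length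
`chartG g a y w w` (`energy_chart`).
-/

set_option autoImplicit false
set_option linter.unusedSectionVars false

open scoped ContDiff Manifold Topology
open Bundle Set Filter Metric

noncomputable section

namespace Crest.Agent.R226.G

variable {n : ℕ} {M : Type*} [MetricSpace M] [ChartedSpace (EE n) M] [IsManifold 𝓘(ℝ, EE n) ∞ M]

/-- the preferred chart at `a` -/
abbrev ch (n : ℕ) {M : Type*} [MetricSpace M] [ChartedSpace (EE n) M] (a : M) : OpenPartialHomeomorph M (EE n) :=
  chartAt (EE n) a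

/-- The curve `γ` is differentiable at `t` with speed at most `L`. -/
def SpeedLe (g : RM n M) (γ : ℝ → M) (t L : ℝ) : Prop :=
  ContinuousAt γ t ∧ ∃ z : M, γ t ∈ (ch n z).source ∧ ∃ γ' : EE n,
    HasDerivAt (fun r => ch n z (γ r)) γ' t ∧ chartG g z (ch n z (γ t)) γ' γ' ≤ L ^ 2

/-- The function `f` is differentiable at `p` with a gradient of length at most `K`. -/
def GradLe (g : RM n M) (f : M → ℝ) (p : M) (K : ℝ) : Prop :=
  ∃ z : M, p ∈ (ch n z).source ∧ ∃ D : EE n →L[ℝ] ℝ,
    HasFDerivAt (fun y => f ((ch n z).symm y)) D (ch n z p) ∧ ∀ w, D w ^ 2 ≤ K ^ 2 * chartG g z (ch n z p) w w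

variable (n M) in
/-- a Riemannian metric, its geodesic flow, and the link with `dist` -/
structure Riem where
  g : RM n M
  Φ : ℝ → TM n M → TM n M
  flow : IsGeoFlow g Φ
  up : ∀ (γ : ℝ → M) (a b L : ℝ), a ≤ b → 0 ≤ L → (∀ t ∈ Icc a b, SpeedLe g γ t L) → dist (γ a) (γ b) ≤ L * (b - a)
  lip : ∀ (f : M → ℝ) (x y : M) (r K : ℝ), 0 ≤ K → dist x y < r → (∀ p ∈ ball x r, GradLe g f p K) →
    |f y - f x| ≤ K * dist x y
  mid : ∀ (x y : M) (δ : ℝ), 0 ≤ δ → δ ≤ dist x y → ∃ p, dist x p = δ ∧ dist p y = dist x y - δ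

namespace Riem

variable (R : Riem n M)

/-- the exponential map -/
def exp (x : M) (v : EE n) : M := expT R.Φ x v

/-- the scalar product of `T_x M` -/
def q (x : M) : EE n →L[ℝ] EE n →L[ℝ] ℝ := qT R.g x

/-- the length of a tangent vector -/
def nrm (x : M) (v : EE n) : ℝ := √(R.q x v v)

/-- the velocity at time one of the geodesic with initial velocity `v`, a tangent vector at `R.exp x v` -/
def fin (x : M) (v : EE n) : EE n := vecT (R.Φ 1 (mkT x v))

/-- the geodesic with initial velocity `v` is minimising on `[0, 1]` -/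
def Min (x : M) (v : EE n) : Prop := dist x (R.exp x v) = R.nrm x v

/-- the injectivity domain -/
def InI (x : M) (v : EE n) : Prop := ∃ a : ℝ, 1 < a ∧ R.Min x (a • v)

/-- the metric in the chart of `a` -/
abbrev G (a : M) : EE n → EE n →L[ℝ] EE n →L[ℝ] ℝ := chartG R.g a

/-- the time one map of the geodesic flow in the charts of `a` and `b` -/
def fl (a b : M) (p : EE n × EE n) : EE n × EE n := tmChart n b (R.Φ 1 ((tmChart n a).symm p))

/-- the exponential map in the charts of `a` and `b` -/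
def ex (a b : M) (p : EE n × EE n) : EE n := (R.fl a b p).1

/-- half of the squared length in the chart of `a` -/
def en (a : M) (p : EE n × EE n) : ℝ := R.G a p.1 p.2 p.2 / 2

/-- `ξ` starts in the chart of `a` and ends in the chart of `b` -/
def Dom (a b : M) (ξ : TM n M) : Prop := ξ.proj ∈ (ch n a).source ∧ (R.Φ 1 ξ).proj ∈ (ch n b).source

/-- `d exp_x` is injective at `v` -/
def NonFocal (x : M) (v : EE n) : Prop :=
  ∀ w, fderiv ℝ (fun u => ch n (R.exp x v) (R.exp x u)) v w = 0 → w = 0

end Riem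

/-- the cost `d² / 2` -/
def cst (x y : M) : ℝ := dist x y ^ 2 / 2

variable (n) in
/-- the cost in the charts of `a` and `b` -/
def cc (a b : M) (p : EE n × EE n) : ℝ := cst ((ch n a).symm p.1) ((ch n b).symm p.2)

/-- The cost is smooth near `(x, exp_x v)`, `ξ = (x, v)`, with the expected first derivatives, and near this pair the
minimising vector is unique and given by a smooth function `Λ` of the pair (all in the charts of `a`, `b`). -/
structure Riem.SmoothAt (R : Riem n M) (a b : M) (ξ : TM n M) : Prop where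
  sm : ContDiffAt ℝ ∞ (cc n a b) (ch n a ξ.proj, ch n b (R.Φ 1 ξ).proj)
  der : ∀ δx δy, fderiv ℝ (cc n a b) (ch n a ξ.proj, ch n b (R.Φ 1 ξ).proj) (δx, δy) =
    R.G b (ch n b (R.Φ 1 ξ).proj) (tmChart n b (R.Φ 1 ξ)).2 δy - R.G a (ch n a ξ.proj) (tmChart n a ξ).2 δx
  log : ∃ Λ : EE n × EE n → EE n, ContDiffAt ℝ ∞ Λ (ch n a ξ.proj, ch n b (R.Φ 1 ξ).proj) ∧
    Λ (ch n a ξ.proj, ch n b (R.Φ 1 ξ).proj) = (tmChart n a ξ).2 ∧
    (∀ᶠ p in 𝓝 (ch n a ξ.proj, ch n b (R.Φ 1 ξ).proj),
      (R.Φ 1 ((tmChart n a).symm (p.1, Λ p))).proj = (ch n b).symm p.2 ∧ cc n a b p = R.en a (p.1, Λ p)) ∧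
    ∀ᶠ p in 𝓝 (tmChart n a ξ), Λ (p.1, R.ex a b p) = p.2

end Crest.Agent.R226.G

end
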