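import Crest.Agent.R226.G1Defs

/-!
# R226 / G1a: velocities of curves, the metric of a `RiemannianBundle`

Prefix for auxiliary lemmas: `g1a_`.
-/

set_option autoImplicit false
set_option linter.unusedSectionVars false

open scoped ContDiff Manifold Topology
open Bundle Set Filter Metric

noncomputable section

namespace Crest.Agent.R226.G

variable {n : ℕ} {M : Type*} [MetricSpace M] [ChartedSpace (EE n) M] [IsManifold 𝓘(ℝ, EE n) ∞ M]

/-- the velocity of a curve, in the preferred chart at `γ t` -/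
def vel (n : ℕ) [ChartedSpace (EE n) M] (γ : ℝ → M) (t : ℝ) : EE n := mfderiv 𝓘(ℝ, ℝ) 𝓘(ℝ, EE n) γ t (1 : ℝ)

/-- change of chart along a continuous curve -/
theorem g1a_change {γ : ℝ → M} {t : ℝ} (hc : ContinuousAt γ t) {x z : M} (hx : γ t ∈ (ch n x).source)
    (hz : γ t ∈ (ch n z).source) {v : EE n} (h : HasDerivAt (fun s => ch n x (γ s)) v t) :
    HasDerivAt (fun s => ch n z (γ s)) (fderiv ℝ (tr n x z) (ch n x (γ t)) v) t := by
  have h1 : HasFDerivAt (tr n x z) (fderiv ℝ (tr n x z) (ch n x (γ t))) (ch n x (γ t)) :=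
    ((tr_smooth hx hz).differentiableAt (by simp)).hasFDerivAt
  have h2 := h1.comp_hasDerivAt t h
  refine h2.congr_of_eventuallyEq ?_
  filter_upwards [hc.preimage_mem_nhds ((ch n x).open_source.mem_nhds hx)] with s hs
  exact (tr_apply hs).symm

theorem g1a_written (γ : ℝ → M) (t : ℝ) :
    writtenInExtChartAt 𝓘(ℝ, ℝ) 𝓘(ℝ, EE n) t γ = fun s => ch n (γ t) (γ s) := by
  funext s
  simp only [writtenInExtChartAt, mfld_simps]
  try rfl

theorem g1a_mdiff_iff {γ : ℝ → M} {t : ℝ} :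
    MDifferentiableAt 𝓘(ℝ, ℝ) 𝓘(ℝ, EE n) γ t ↔
      ContinuousAt γ t ∧ DifferentiableAt ℝ (fun s => ch n (γ t) (γ s)) t := by
  rw [mdifferentiableAt_iff, g1a_written]
  simp only [mfld_simps, differentiableWithinAt_univ]
  try rfl

theorem g1a_self {γ : ℝ → M} {t : ℝ} (h : MDifferentiableAt 𝓘(ℝ, ℝ) 𝓘(ℝ, EE n) γ t) :
    HasDerivAt (fun s => ch n (γ t) (γ s)) (vel n γ t) t := by
  have h1 := (g1a_mdiff_iff.1 h).2
  have h2 : vel n γ t = fderiv ℝ (fun s => ch n (γ t) (γ s)) t 1 := by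
    unfold vel
    rw [h.mfderiv, g1a_written]
    simp only [mfld_simps, fderivWithin_univ]
    rfl
  rw [h2]
  exact h1.hasFDerivAt.hasDerivAt

/-- In the preferred chart at `γ t` this is the definition of `mfderiv` (`MDifferentiableAt.mfderiv`,
`writtenInExtChartAt`); then `ch z ∘ γ = tr (γ t) z ∘ ch (γ t) ∘ γ` near `t`, `tmChart_snd`. -/
theorem hasDerivAt_chart {γ : ℝ → M} {t : ℝ} (h : MDifferentiableAt 𝓘(ℝ, ℝ) 𝓘(ℝ, EE n) γ t) {z : M}
    (hz : γ t ∈ (ch n z).source) :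
    HasDerivAt (fun s => ch n z (γ s)) (tmChart n z (mkT (γ t) (vel n γ t))).2 t := by
  rw [tmChart_snd]
  exact g1a_change h.continuousAt (mem_chart_source _ _) hz (g1a_self h)

/-- converse -/
theorem vel_of_hasDerivAt {γ : ℝ → M} {t : ℝ} (hc : ContinuousAt γ t) {z : M} (hz : γ t ∈ (ch n z).source)
    {v : EE n} (h : HasDerivAt (fun s => ch n z (γ s)) (tmChart n z (mkT (γ t) v)).2 t) :
    MDifferentiableAt 𝓘(ℝ, ℝ) 𝓘(ℝ, EE n) γ t ∧ vel n γ t = v := by
  have h1 := g1a_change hc hz (mem_chart_source (EE n) (γ t)) h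
  rw [tmChart_snd] at h1
  have h2 : fderiv ℝ (tr n z (γ t)) (ch n z (γ t))
      (fderiv ℝ (tr n (γ t) z) (chartAt (EE n) (γ t) (γ t)) v) = v := by
    rw [fderiv_tr_comp (mem_chart_source (EE n) (γ t)) hz (mem_chart_source (EE n) (γ t)),
      fderiv_tr_self (mem_chart_source (EE n) (γ t))]
  have h3 : HasDerivAt (fun s => ch n (γ t) (γ s)) v t := by
    rw [← h2]
    exact h1
  have h4 : MDifferentiableAt 𝓘(ℝ, ℝ) 𝓘(ℝ, EE n) γ t := g1a_mdiff_iff.2 ⟨hc, h3.differentiableAt⟩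
  exact ⟨h4, (g1a_self h4).unique h3⟩

theorem speedLe_of_mdiff (g : RM n M) {γ : ℝ → M} {t L : ℝ} (h : MDifferentiableAt 𝓘(ℝ, ℝ) 𝓘(ℝ, EE n) γ t)
    (hL : qT g (γ t) (vel n γ t) (vel n γ t) ≤ L ^ 2) : SpeedLe g γ t L := by
  refine ⟨h.continuousAt, γ t, mem_chart_source _ _, vel n γ t, g1a_self h, ?_⟩
  rw [chartG_center]
  exact hL

/-- `SpeedLe` can be read in every chart (`chartG_trans`, chain rule) -/
theorem SpeedLe.chart {g : RM n M} {γ : ℝ → M} {t L : ℝ} (h : SpeedLe g γ t L) {z : M} (hz : γ t ∈ (ch n z).source) :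
    ∃ γ' : EE n, HasDerivAt (fun r => ch n z (γ r)) γ' t ∧ chartG g z (ch n z (γ t)) γ' γ' ≤ L ^ 2 := by
  obtain ⟨hc, x, hx, v, hv, hL⟩ := h
  refine ⟨_, g1a_change hc hx hz hv, ?_⟩
  rw [← chartG_trans g hx hz]
  exact hL

/-- the squared speed of a `C¹` curve is continuous (`ContMDiff.continuous_tangentMap` and `continuous_energy`, or in a
chart with `hasDerivAt_chart`, `energy_chart`) -/
theorem continuous_speed (g : RM n M) {γ : ℝ → M} (h : ContMDiff 𝓘(ℝ, ℝ) 𝓘(ℝ, EE n) 1 γ) :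
    Continuous fun t => qT g (γ t) (vel n γ t) (vel n γ t) := by
  have h1 : Continuous (tangentMap 𝓘(ℝ, ℝ) 𝓘(ℝ, EE n) γ) := h.continuous_tangentMap le_rfl
  have h2 : Continuous fun t : ℝ => (⟨t, (1 : ℝ)⟩ : TangentBundle 𝓘(ℝ, ℝ) ℝ) := by
    have h3 : Continuous fun t : ℝ => (tangentBundleModelSpaceHomeomorph 𝓘(ℝ, ℝ)).symm (t, (1 : ℝ)) :=
      (tangentBundleModelSpaceHomeomorph 𝓘(ℝ, ℝ)).symm.continuous.comp (continuous_id.prodMk continuous_const)
    exact h3
  exact (continuous_energy g).comp (h1.comp h2)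

section bundle

variable [RiemannianBundle (fun p : M => TangentSpace 𝓘(ℝ, EE n) p)]

/-- `g` is the scalar product of the `RiemannianBundle` instance -/
def Compat (g : RM n M) : Prop := ∀ (x : M) (u v : TangentSpace 𝓘(ℝ, EE n) x), qT g x u v = inner ℝ u v

/-- `IsContMDiffRiemannianBundle.exists_contMDiff`; `isVonNBounded`: `RiemannianBundle.g.isVonNBounded` -/
theorem exists_RM [IsContMDiffRiemannianBundle 𝓘(ℝ, EE n) ∞ (EE n) (fun p : M => TangentSpace 𝓘(ℝ, EE n) p)] :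
    ∃ g : RM n M, Compat g := by
  obtain ⟨g, hs, hg⟩ := IsContMDiffRiemannianBundle.exists_contMDiff (IB := 𝓘(ℝ, EE n)) (n := ∞) (F := EE n)
    (E := fun p : M => TangentSpace 𝓘(ℝ, EE n) p)
  refine ⟨⟨g, fun x u v => ?_, fun x u hu => ?_, fun x => ?_, hs⟩, fun x u v => (hg x u v).symm⟩
  · rw [← hg, ← hg, real_inner_comm]
  · rw [← hg]
    exact real_inner_self_pos.2 hu
  · have h1 := (RiemannianBundle.g (E := fun p : M => TangentSpace 𝓘(ℝ, EE n) p)).isVonNBounded x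
    have h2 : {v : TangentSpace 𝓘(ℝ, EE n) x | g x v v < 1} =
        {v | (RiemannianBundle.g (E := fun p : M => TangentSpace 𝓘(ℝ, EE n) p)).inner x v v < 1} := by
      ext v
      simp only [mem_ofPred_eq, ← hg]
      rfl
    rw [h2]
    exact h1

theorem Compat.norm_eq {g : RM n M} (hg : Compat g) (x : M) (u : TangentSpace 𝓘(ℝ, EE n) x) :
    ‖u‖ = √(qT g x u u) := by
  rw [hg, real_inner_self_eq_norm_sq, Real.sqrt_sq (norm_nonneg _)]

/-- the length of a `C¹` curve as an integral of the speed -/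
theorem Compat.pathELength_eq {g : RM n M} (hg : Compat g) {γ : ℝ → M} (h : ContMDiff 𝓘(ℝ, ℝ) 𝓘(ℝ, EE n) 1 γ)
    {a b : ℝ} (hab : a ≤ b) :
    Manifold.pathELength 𝓘(ℝ, EE n) γ a b = ENNReal.ofReal (∫ t in a..b, √(qT g (γ t) (vel n γ t) (vel n γ t))) := by
  have hc : Continuous fun t => √(qT g (γ t) (vel n γ t) (vel n γ t)) := (continuous_speed g h).sqrt
  rw [Manifold.pathELength_eq_lintegral_mfderiv_Ioo, intervalIntegral.integral_of_le hab,
    MeasureTheory.integral_Ioc_eq_integral_Ioo,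
    MeasureTheory.ofReal_integral_eq_lintegral_ofReal
      ((hc.integrableOn_Icc (a := a) (b := b)).mono_set Ioo_subset_Icc_self)
      (Eventually.of_forall fun t => Real.sqrt_nonneg _)]
  refine MeasureTheory.lintegral_congr fun t => ?_
  rw [← ofReal_norm, hg.norm_eq]
  rfl

end bundle

end Crest.Agent.R226.G

end
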