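import Crest.Agent.R226.G1a

/-!
# R226 / G1b: the distance is at most the length

Prefix for auxiliary lemmas: `g1b_`.
-/

set_option autoImplicit false
set_option linter.unusedSectionVars false

open scoped ContDiff Manifold Topology
open Bundle Set Filter Metric

noncomputable section

namespace Crest.Agent.R226.G

variable {n : ℕ} {M : Type*} [MetricSpace M] [ChartedSpace (EE n) M] [IsManifold 𝓘(ℝ, EE n) ∞ M]
  [RiemannianBundle (fun p : M => TangentSpace 𝓘(ℝ, EE n) p)]
  [IsRiemannianManifold 𝓘(ℝ, EE n) M]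

/-- The segment between `y, y'` in the chart: `riemannianEDist_le_pathELength` for `t ↦ (ch z).symm (y + t • (y' - y))`
on `Icc 0 1`; its speed is at most `L` (`vel_of_hasDerivAt`, `energy_chart`, `pathELength_eq_lintegral_mfderiv_Ioo`). -/
theorem Compat.dist_symm_le {g : RM n M} (hg : Compat g) {z : M} {y y' : EE n} {L : ℝ} (hL : 0 ≤ L)
    (h : ∀ p ∈ segment ℝ y y', p ∈ (ch n z).target ∧ chartG g z p (y' - y) (y' - y) ≤ L ^ 2) :
    dist ((ch n z).symm y) ((ch n z).symm y') ≤ L := by
  have hs : ∀ t ∈ Icc (0 : ℝ) 1, y + t • (y' - y) ∈ segment ℝ y y' := fun t ht => by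
    rw [segment_eq_image']; exact ⟨t, ht, rfl⟩
  have hp : ContDiff ℝ 1 fun t : ℝ => y + t • (y' - y) := by fun_prop
  have hγ : ContMDiffOn 𝓘(ℝ, ℝ) 𝓘(ℝ, EE n) 1 (fun t : ℝ => (ch n z).symm (y + t • (y' - y)))
      (Icc 0 1) :=
    (contMDiffOn_chart_symm (I := 𝓘(ℝ, EE n)) (n := 1) (x := z)).comp hp.contMDiff.contMDiffOn
      fun t ht => (h _ (hs t ht)).1
  have h1 := Manifold.riemannianEDist_le_pathELength (x := (ch n z).symm y) (y := (ch n z).symm y')
    hγ (by simp) (by simp) zero_le_one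
  rw [← IsRiemannianManifold.out (I := 𝓘(ℝ, EE n)), Manifold.pathELength_eq_lintegral_mfderiv_Ioo] at h1
  rw [← edist_le_ofReal hL]
  refine h1.trans ((MeasureTheory.setLIntegral_mono' (g := fun _ => ENNReal.ofReal L) measurableSet_Ioo
    fun t ht => ?_).trans (by simp))
  obtain ⟨ht1, ht2⟩ := h _ (hs t (Ioo_subset_Icc_self ht))
  have hm := (ch n z).map_target ht1
  have he := (ch n z).right_inv ht1
  have hc : ContinuousAt (fun t : ℝ => (ch n z).symm (y + t • (y' - y))) t :=
    ContinuousAt.comp (f := fun t : ℝ => y + t • (y' - y)) ((ch n z).continuousAt_symm ht1)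
      hp.continuous.continuousAt
  have e1 := chta_symm hm (y' - y)
  have e2 := (tmChart n z).right_inv (x := (chartAt (EE n) z ((ch n z).symm (y + t • (y' - y))), y' - y))
    (by rw [tmChart_target, he]; exact ⟨ht1, mem_univ _⟩)
  rw [e1] at e2
  have hd : HasDerivAt (fun s : ℝ => ch n z ((ch n z).symm (y + s • (y' - y)))) (y' - y) t := by
    have : HasDerivAt (fun s : ℝ => y + s • (y' - y)) (y' - y) t := by
      simpa using ((hasDerivAt_id t).smul_const (y' - y)).const_add y
    refine this.congr_of_eventuallyEq ?_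
    filter_upwards [hp.continuous.continuousAt.preimage_mem_nhds
      ((ch n z).open_target.mem_nhds ht1)] with s hs' using (ch n z).right_inv hs'
  have hv := (vel_of_hasDerivAt hc hm (by rw [e2]; exact hd)).2
  have hq := chartG_eq g hm (y' - y) (y' - y)
  rw [← hv, he] at hq
  rw [← ofReal_norm_eq_enorm]
  refine ENNReal.ofReal_le_ofReal ?_
  rw [hg.norm_eq]
  exact Real.sqrt_le_iff.2 ⟨hL, hq.symm.le.trans ht2⟩
/-- For `L' > L` and `r` near `t`: `dist (γ t) (γ r) ≤ L' * |r - t|` (apply `dist_symm_le` to `y = ch z (γ t)`,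
`y' = ch z (γ r) = y + (r - t) • (γ' + o(1))`, continuity of `chartG` (`chtm_contOn`)). -/
theorem Compat.eventually_dist_le {g : RM n M} (hg : Compat g) {γ : ℝ → M} {t L L' : ℝ} (h : SpeedLe g γ t L)
    (hL : 0 ≤ L) (hL' : L < L') : ∀ᶠ r in 𝓝 t, dist (γ t) (γ r) ≤ L' * |r - t| := by
  obtain ⟨hc, z, hz, w, hd, hw⟩ := h
  have ht := (ch n z).map_source hz
  have hn : (ch n z).target ×ˢ (univ : Set (EE n)) ∈ 𝓝 (ch n z (γ t), w) :=
    prod_mem_nhds ((ch n z).open_target.mem_nhds ht) univ_mem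
  have h1 : ∀ᶠ q : EE n × EE n in 𝓝 (ch n z (γ t), w), chartG g z q.1 q.2 q.2 < L' ^ 2 :=
    ((chtm_contOn g z).continuousAt hn).eventually_lt continuousAt_const
      (hw.trans_lt (pow_lt_pow_left₀ hL' hL two_ne_zero))
  obtain ⟨ε, hε, hb⟩ := Metric.eventually_nhds_iff_ball.1 (h1.and hn)
  have h2 : ∀ᶠ r in 𝓝[≠] t, slope (fun r => ch n z (γ r)) t r ∈ ball w ε :=
    (hasDerivAt_iff_tendsto_slope.1 hd).eventually (ball_mem_nhds w hε)
  rw [eventually_nhdsWithin_iff] at h2
  filter_upwards [h2, hd.continuousAt.eventually (ball_mem_nhds _ hε),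
    hc.eventually ((ch n z).open_source.mem_nhds hz)] with r h3 h4 h5
  by_cases hr : r = t
  · simp [hr]
  have h6 := h3 hr
  have e : ch n z (γ r) - ch n z (γ t) = (r - t) • slope (fun r => ch n z (γ r)) t r :=
    (sub_smul_slope (fun r => ch n z (γ r)) t r).symm
  have := hg.dist_symm_le (z := z) (y := ch n z (γ t)) (y' := ch n z (γ r)) (L := L' * |r - t|)
    (mul_nonneg (hL.trans hL'.le) (abs_nonneg _)) fun p hp => by
      have hp' : p ∈ ball (ch n z (γ t)) ε :=
        (convex_ball _ _).segment_subset (mem_ball_self hε) h4 hp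
      obtain ⟨k1, k2⟩ := hb (p, slope (fun r => ch n z (γ r)) t r)
        (by rw [← ball_prod_same]; exact ⟨hp', h6⟩)
      refine ⟨k2.1, ?_⟩
      rw [e, map_smul, map_smul, smul_apply, smul_eq_mul, smul_eq_mul, mul_pow, sq_abs]
      have := mul_le_mul_of_nonneg_left k1.le (sq_nonneg (r - t))
      dsimp only at this
      linarith
  rwa [(ch n z).left_inv hz, (ch n z).left_inv h5] at this
/-- `image_le_of_liminf_slope_right_lt_deriv_boundary` (or a supremum argument) for `r ↦ dist (γ a) (γ r)`. -/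
theorem Compat.up {g : RM n M} (hg : Compat g) (γ : ℝ → M) (a b L : ℝ) (hab : a ≤ b) (hL : 0 ≤ L)
    (h : ∀ t ∈ Icc a b, SpeedLe g γ t L) : dist (γ a) (γ b) ≤ L * (b - a) := by
  have := image_le_of_liminf_slope_right_le_deriv_boundary (f := fun r => dist (γ a) (γ r))
    (a := a) (b := b) (B := fun r => L * (r - a)) (B' := fun _ => L)
    (fun t ht => ContinuousAt.continuousWithinAt
      (Tendsto.dist (tendsto_const_nhds (x := γ a)) (h t ht).1)) (by simp) (by fun_prop)
    (fun x _ => by simpa using (((hasDerivAt_id' x).sub_const a).const_mul L).hasDerivWithinAt)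
    (fun x hx r hr => ?_) (right_mem_Icc.2 hab)
  · exact this
  have h1 := hg.eventually_dist_le (h x (Ico_subset_Icc_self hx)) hL
    (show L < (L + r) / 2 by linarith)
  refine Eventually.frequently ?_
  filter_upwards [nhdsWithin_le_nhds h1, self_mem_nhdsWithin] with s h2 h3
  have h4 : 0 < s - x := sub_pos.2 h3
  rw [abs_of_pos h4] at h2
  rw [slope_def_field, div_lt_iff₀ h4]
  have := dist_triangle (γ a) (γ x) (γ s)
  nlinarith
end Crest.Agent.R226.G

end
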