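import Crest.Agent.R226.G1a

/-!
# R226 / G1c: functions with bounded gradient are Lipschitz; intermediate points; existence of `Riem`

Prefix for auxiliary lemmas: `g1c_`.
-/

set_option autoImplicit false
set_option linter.unusedSectionVars false

open scoped ContDiff Manifold Topology
open Bundle Set Filter Metric

noncomputable section

namespace Crest.Agent.R226.G

variable {n : ℕ} {M : Type*} [MetricSpace M] [ChartedSpace (EE n) M] [IsManifold 𝓘(ℝ, EE n) ∞ M]
  [RiemannianBundle (fun p : M => TangentSpace 𝓘(ℝ, EE n) p)]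
  [IsRiemannianManifold 𝓘(ℝ, EE n) M]

/-- almost minimising curves: `exists_lt_locally_constant_of_riemannianEDist_lt`, `Compat.pathELength_eq`,
`riemannianEDist_le_pathELength` on `[s, t]`; `ℓ t = ∫ 0..t speed`. -/
theorem Compat.exists_curve {g : RM n M} (hg : Compat g) (x y : M) {r : ℝ} (hr : dist x y < r) :
    ∃ (γ : ℝ → M) (ℓ : ℝ → ℝ), γ 0 = x ∧ γ 1 = y ∧ ContMDiff 𝓘(ℝ, ℝ) 𝓘(ℝ, EE n) 1 γ ∧ ℓ 0 = 0 ∧ ℓ 1 < r ∧
      (∀ t, HasDerivAt ℓ (√(qT g (γ t) (vel n γ t) (vel n γ t))) t) ∧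
      ∀ s t, s ≤ t → dist (γ s) (γ t) ≤ ℓ t - ℓ s := by
  have h0 : 0 < r := dist_nonneg.trans_lt hr
  have h1 : Manifold.riemannianEDist 𝓘(ℝ, EE n) x y < ENNReal.ofReal r := by
    rw [← IsRiemannianManifold.out, edist_dist]
    exact (ENNReal.ofReal_lt_ofReal_iff h0).2 hr
  obtain ⟨γ, hx, hy, hγ, hl, -, -⟩ := Manifold.exists_lt_locally_constant_of_riemannianEDist_lt h1 zero_lt_one
  have hc : Continuous fun t => √(qT g (γ t) (vel n γ t) (vel n γ t)) := (continuous_speed g hγ).sqrt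
  refine ⟨γ, fun t => ∫ s in (0 : ℝ)..t, √(qT g (γ s) (vel n γ s) (vel n γ s)), hx, hy, hγ, by simp, ?_,
    fun t => (hc.integral_hasStrictDerivAt 0 t).hasDerivAt, fun s t hst => ?_⟩
  · rw [hg.pathELength_eq hγ zero_le_one, ENNReal.ofReal_lt_ofReal_iff h0] at hl
    exact hl
  · have h2 := Manifold.riemannianEDist_le_pathELength (I := 𝓘(ℝ, EE n)) hγ.contMDiffOn rfl rfl hst
    rw [← IsRiemannianManifold.out, edist_dist, hg.pathELength_eq hγ hst, ENNReal.ofReal_le_ofReal_iff
      (intervalIntegral.integral_nonneg hst fun u _ => Real.sqrt_nonneg _)] at h2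
    simp only
    rw [intervalIntegral.integral_interval_sub_left (hc.intervalIntegrable _ _) (hc.intervalIntegrable _ _)]
    exact h2

/-- For `dist x y < r' ≤ r` take the curve of `exists_curve`; it stays in `ball x r`; `|(f ∘ γ)'| ≤ K ℓ'`
(`hasDerivAt_chart`, `energy_chart`), so `K ℓ ± f ∘ γ` are monotone on `[0, 1]`.  Let `r' → dist x y`. -/
theorem Compat.lip {g : RM n M} (hg : Compat g) (f : M → ℝ) (x y : M) (r K : ℝ) (hK : 0 ≤ K) (hr : dist x y < r)
    (h : ∀ p ∈ ball x r, GradLe g f p K) : |f y - f x| ≤ K * dist x y := by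
  have key : ∀ r', dist x y < r' → r' ≤ r → |f y - f x| ≤ K * r' := by
    intro r' h1 h2
    obtain ⟨γ, ℓ, hx, hy, hγ, l0, l1, ld, hd⟩ := hg.exists_curve x y h1
    have hb : ∀ t ∈ Icc (0 : ℝ) 1, γ t ∈ ball x r := by
      intro t ht
      have a1 := hd 0 t ht.1
      have a2 := dist_nonneg.trans (hd t 1 ht.2)
      rw [hx, l0] at a1
      rw [mem_ball, dist_comm]
      linarith
    have hder : ∀ t ∈ Icc (0 : ℝ) 1, ∃ φ' : ℝ, HasDerivAt (fun s => f (γ s) - f x) φ' t ∧
        ‖φ'‖ ≤ K * √(qT g (γ t) (vel n γ t) (vel n γ t)) := by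
      intro t ht
      obtain ⟨z, hz, D, hD, hDK⟩ := h _ (hb t ht)
      have a1 := hasDerivAt_chart (hγ.mdifferentiableAt one_ne_zero (x := t)) hz
      have a2 := hD.comp_hasDerivAt t a1
      have a3 : (fun s => f (γ s)) =ᶠ[𝓝 t] (fun y => f ((ch n z).symm y)) ∘ fun s => ch n z (γ s) := by
        filter_upwards [hγ.continuous.continuousAt.preimage_mem_nhds ((ch n z).open_source.mem_nhds hz)] with s hs
        simp only [Function.comp_apply]
        rw [(ch n z).left_inv hs]
      refine ⟨_, (a2.congr_of_eventuallyEq a3).sub_const (f x), ?_⟩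
      have a4 := hDK (tmChart n z (mkT (γ t) (vel n γ t))).2
      have a5 : qT g (γ t) (vel n γ t) (vel n γ t) = chartG g z (ch n z (γ t))
          (tmChart n z (mkT (γ t) (vel n γ t))).2 (tmChart n z (mkT (γ t) (vel n γ t))).2 :=
        energy_chart g (ξ := mkT (γ t) (vel n γ t)) hz
      rw [← a5] at a4
      rw [Real.norm_eq_abs, ← Real.sqrt_sq hK, ← Real.sqrt_mul (sq_nonneg K)]
      exact Real.abs_le_sqrt a4
    choose! φ' hφ hφ' using hder
    have a6 := image_norm_le_of_norm_deriv_right_le_deriv_boundary (f := fun s => f (γ s) - f x) (f' := φ')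
      (a := 0) (b := 1) (fun t ht => (hφ t ht).continuousAt.continuousWithinAt)
      (fun t ht => (hφ t (Ico_subset_Icc_self ht)).hasDerivWithinAt) (B := fun t => K * ℓ t)
      (by simp [hx, l0]) (fun t => (ld t).const_mul K) (fun t ht => hφ' t (Ico_subset_Icc_self ht))
      (right_mem_Icc.2 zero_le_one)
    simp only [hy, Real.norm_eq_abs] at a6
    exact a6.trans (mul_le_mul_of_nonneg_left l1.le hK)
  have h3 : Tendsto (fun r' => K * r') (𝓝[>] (dist x y)) (𝓝 (K * dist x y)) :=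
    ((continuous_const.mul continuous_id).tendsto _).mono_left nhdsWithin_le_nhds
  refine ge_of_tendsto h3 ?_
  filter_upwards [Ioc_mem_nhdsGT hr] with r' hr'
  exact key r' hr'.1 hr'.2

/-- `exists_curve` and the intermediate value theorem give `p` with `dist x p = δ`, `δ + dist p y < dist x y + ε`;
minimise `dist · y` on the compact sphere. -/
theorem Compat.mid [CompactSpace M] {g : RM n M} (hg : Compat g) (x y : M) (δ : ℝ) (h0 : 0 ≤ δ) (h1 : δ ≤ dist x y) :
    ∃ p, dist x p = δ ∧ dist p y = dist x y - δ := by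
  have key : ∀ ε, 0 < ε → ∃ p ∈ sphere x δ, δ + dist p y < dist x y + ε := by
    intro ε hε
    obtain ⟨γ, ℓ, hx, hy, hγ, l0, l1, -, hd⟩ := hg.exists_curve x y (lt_add_of_pos_right _ hε)
    have hc : ContinuousOn (fun t => dist x (γ t)) (Icc (0 : ℝ) 1) :=
      (continuous_const.dist hγ.continuous).continuousOn
    obtain ⟨t, ht, h2⟩ := intermediate_value_Icc zero_le_one hc
      (show δ ∈ Icc (dist x (γ 0)) (dist x (γ 1)) by rw [hx, hy, dist_self]; exact ⟨h0, h1⟩)
    simp only at h2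
    have a1 := hd 0 t ht.1
    have a2 := hd t 1 ht.2
    rw [hx, l0, h2] at a1
    rw [hy] at a2
    exact ⟨γ t, by rw [mem_sphere, dist_comm, h2], by linarith⟩
  obtain ⟨p₀, hp₀, -⟩ := key 1 one_pos
  obtain ⟨p, hp, hmin⟩ := (isClosed_sphere (x := x) (ε := δ)).isCompact.exists_isMinOn ⟨p₀, hp₀⟩
    (continuous_id.dist continuous_const (g := fun _ => y)).continuousOn
  have h3 : dist x p = δ := by rw [dist_comm]; exact hp
  refine ⟨p, h3, le_antisymm ?_ ?_⟩
  · refine le_of_forall_pos_le_add fun ε hε => ?_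
    obtain ⟨q, hq, h4⟩ := key ε hε
    have h5 : dist p y ≤ dist q y := hmin hq
    linarith
  · have := dist_triangle x p y
    linarith

end Crest.Agent.R226.G

end
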