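import Crest.Agent.R226.G2a0

/-!
# R226 / G2a: elementary properties of `exp`, `nrm`, `Min`

Prefix for auxiliary lemmas: `g2a_`.
-/

set_option autoImplicit false
set_option linter.unusedSectionVars false

open scoped ContDiff Manifold Topology
open Bundle Set Filter Metric

noncomputable section

namespace Crest.Agent.R226.G

variable {n : ℕ} {M : Type*} [MetricSpace M] [ChartedSpace (EE n) M] [IsManifold 𝓘(ℝ, EE n) ∞ M]

namespace Riem

variable (R : Riem n M)

theorem exp_zero (x : M) : R.exp x 0 = x := R.flow.expT_zero x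
theorem exp_smul (x : M) (v : EE n) (s : ℝ) : R.exp x (s • v) = (R.Φ s (mkT x v)).proj := R.flow.expT_smul x v s
theorem continuous_exp (x : M) : Continuous (R.exp x) := R.flow.continuous_expT x
theorem Φ_one (x : M) (v : EE n) : R.Φ 1 (mkT x v) = mkT (R.exp x v) (R.fin x v) := (mkT_vecT _).symm
theorem exp_vecT (ξ : TM n M) : R.exp ξ.proj (vecT ξ) = (R.Φ 1 ξ).proj := rfl

theorem continuous_Φ (t : ℝ) : Continuous (R.Φ t) := by
  exact R.flow.cont.comp (continuous_const.prodMk continuous_id)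

theorem continuous_expT : Continuous fun ξ : TM n M => R.exp ξ.proj (vecT ξ) := by
  exact continuous_projT.comp (R.continuous_Φ 1)

theorem nrm_fin (x : M) (v : EE n) : R.nrm (R.exp x v) (R.fin x v) = R.nrm x v := by
  exact congrArg Real.sqrt (R.flow.energy_eq 1 (mkT x v))

theorem exp_fin (x : M) (v : EE n) (s : ℝ) : R.exp (R.exp x v) (s • R.fin x v) = R.exp x ((1 + s) • v) := by
  rw [R.exp_smul, R.exp_smul, ← R.Φ_one, ← R.flow.add, add_comm]

theorem exp_neg_fin (x : M) (v : EE n) : R.exp (R.exp x v) (-R.fin x v) = x := by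
  rw [← neg_one_smul ℝ (R.fin x v), R.exp_fin, add_neg_cancel, zero_smul, R.exp_zero]

theorem g2a_fin_smul (x : M) (v : EE n) (a : ℝ) : R.fin x (a • v) = a • vecT (R.Φ a (mkT x v)) := by
  have := congrArg vecT (R.flow.smul (mkT x v) a 1)
  rw [mul_one] at this
  exact this

/-- `flow.smul` with `a = -1` -/
theorem fin_neg_fin (x : M) (v : EE n) : R.fin (R.exp x v) (-R.fin x v) = -v := by
  rw [← neg_one_smul ℝ (R.fin x v), R.g2a_fin_smul, ← R.Φ_one, ← R.flow.add, neg_add_cancel, R.flow.zero,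
    vecT_mkT, neg_one_smul]

theorem fin_smul (x : M) (v : EE n) (a : ℝ) : R.fin x (a • v) = a • vecT (R.Φ a (mkT x v)) := by
  exact R.g2a_fin_smul x v a

theorem eq_of_fin_eq {x : M} {v v' : EE n} (h : R.exp x v = R.exp x v') (h' : R.fin x v = R.fin x v') : v = v' := by
  have h1 := R.fin_neg_fin x v
  rw [h, h', R.fin_neg_fin] at h1
  exact (neg_injective h1).symm

theorem fin_ne_zero {x : M} {v : EE n} (hv : v ≠ 0) : R.fin x v ≠ 0 := by
  intro h
  have h1 := R.nrm_fin x v
  rw [h, R.nrm_zero] at h1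
  exact hv (R.nrm_eq_zero.1 h1.symm)

/-- the chart derivative of a geodesic (first component of `flow.sol`) -/
theorem hasDerivAt_exp (x : M) (v : EE n) {t : ℝ} {z : M} (hz : R.exp x (t • v) ∈ (ch n z).source) :
    HasDerivAt (fun s : ℝ => ch n z (R.exp x (s • v))) (tmChart n z (R.Φ t (mkT x v))).2 t := by
  simp only [R.exp_smul] at hz ⊢
  exact chexp_fst ((R.flow.sol (mkT x v) t).2 z hz)

theorem speedLe_exp (x : M) (v : EE n) (t : ℝ) : SpeedLe R.g (fun s : ℝ => R.exp x (s • v)) t (R.nrm x v) := by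
  have hz := mem_chart_source (EE n) (R.exp x (t • v))
  refine ⟨((R.continuous_exp x).comp (continuous_id.smul continuous_const)).continuousAt, _, hz, _,
    R.hasDerivAt_exp x v hz, le_of_eq ?_⟩
  have h1 := R.flow.energy_eq t (mkT x v)
  have hz' : (R.Φ t (mkT x v)).proj ∈ (chartAt (EE n) (R.exp x (t • v))).source := by
    rw [← R.exp_smul]; exact hz
  rw [energy_chart R.g hz', tmChart_fst, ← R.exp_smul] at h1
  rw [R.nrm_sq]
  exact h1

theorem dist_exp_exp_le (x : M) (v : EE n) (s t : ℝ) :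
    dist (R.exp x (s • v)) (R.exp x (t • v)) ≤ |t - s| * R.nrm x v := by
  rcases le_total s t with h | h
  · rw [abs_of_nonneg (sub_nonneg.2 h), mul_comm]
    exact R.up _ s t _ h (R.nrm_nonneg x v) fun r _ => R.speedLe_exp x v r
  · rw [abs_sub_comm, abs_of_nonneg (sub_nonneg.2 h), mul_comm, dist_comm]
    exact R.up _ t s _ h (R.nrm_nonneg x v) fun r _ => R.speedLe_exp x v r

theorem dist_exp_le (x : M) (v : EE n) : dist x (R.exp x v) ≤ R.nrm x v := by
  have := R.dist_exp_exp_le x v 0 1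
  rwa [zero_smul, one_smul, R.exp_zero, sub_zero, abs_one, one_mul] at this

variable {R}

theorem min_zero (x : M) : R.Min x 0 := by
  rw [Min, R.exp_zero, dist_self, R.nrm_zero]

theorem Min.dist_eq {x : M} {v : EE n} (h : R.Min x v) {s t : ℝ} (hs : 0 ≤ s) (hst : s ≤ t) (ht : t ≤ 1) :
    dist (R.exp x (s • v)) (R.exp x (t • v)) = (t - s) * R.nrm x v := by
  have h1 := R.dist_exp_exp_le x v 0 s
  have h2 := R.dist_exp_exp_le x v s t
  have h3 := R.dist_exp_exp_le x v t 1
  rw [zero_smul, R.exp_zero, sub_zero, abs_of_nonneg hs] at h1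
  rw [abs_of_nonneg (sub_nonneg.2 hst)] at h2
  rw [one_smul, abs_of_nonneg (sub_nonneg.2 ht)] at h3
  have h4 := dist_triangle4 x (R.exp x (s • v)) (R.exp x (t • v)) (R.exp x v)
  rw [Min] at h
  linarith

theorem Min.smul {x : M} {v : EE n} (h : R.Min x v) {s : ℝ} (hs : 0 ≤ s) (hs1 : s ≤ 1) : R.Min x (s • v) := by
  have := h.dist_eq le_rfl hs hs1
  rw [zero_smul, R.exp_zero, sub_zero] at this
  rw [Min, this, R.nrm_smul, abs_of_nonneg hs]

theorem Min.rev {x : M} {v : EE n} (h : R.Min x v) : R.Min (R.exp x v) (-R.fin x v) := by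
  rw [Min, R.exp_neg_fin, R.nrm_neg, R.nrm_fin, dist_comm]
  exact h

theorem Min.cst_eq {x : M} {v : EE n} (h : R.Min x v) : cst x (R.exp x v) = R.q x v v / 2 := by
  rw [Min] at h
  rw [cst, h, R.nrm_sq]

theorem Min.inI {x : M} {v : EE n} (h : R.Min x v) {s : ℝ} (hs : 0 ≤ s) (hs1 : s < 1) : R.InI x (s • v) := by
  rcases hs.eq_or_lt with rfl | h0
  · refine ⟨2, by norm_num, ?_⟩
    rw [zero_smul, smul_zero]
    exact min_zero x
  · refine ⟨s⁻¹, (one_lt_inv₀ h0).2 hs1, ?_⟩
    rwa [smul_smul, inv_mul_cancel₀ h0.ne', one_smul]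

theorem InI.min {x : M} {v : EE n} (h : R.InI x v) : R.Min x v := by
  obtain ⟨a, ha, h⟩ := h
  have h0 : 0 < a := zero_lt_one.trans ha
  have := h.smul (inv_pos.2 h0).le (inv_le_one_of_one_le₀ ha.le)
  rwa [smul_smul, inv_mul_cancel₀ h0.ne', one_smul] at this

theorem InI.smul {x : M} {v : EE n} (h : R.InI x v) {s : ℝ} (hs : 0 ≤ s) (hs1 : s ≤ 1) : R.InI x (s • v) := by
  obtain ⟨a, ha, h⟩ := h
  refine ⟨a, ha, ?_⟩
  rw [smul_comm]
  exact h.smul hs hs1

/-- `a` can be taken close to one, with `a • v` still in `I` -/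
theorem InI.eventually {x : M} {v : EE n} (h : R.InI x v) : ∀ᶠ a in 𝓝 (1 : ℝ), R.InI x (a • v) := by
  obtain ⟨a, ha, h⟩ := h
  have h0 : 0 < a := zero_lt_one.trans ha
  filter_upwards [Ioo_mem_nhds zero_lt_one ha] with b hb
  have := h.inI (div_pos hb.1 h0).le ((div_lt_one h0).2 hb.2)
  rwa [smul_smul, div_mul_cancel₀ _ h0.ne'] at this

variable (R)

theorem isClosed_min : IsClosed {ξ : TM n M | R.Min ξ.proj (vecT ξ)} := by
  exact isClosed_eq (continuous_projT.dist R.continuous_expT) R.continuous_nrmT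

/-- closed subset of `{energy ≤ diam²}` (`isCompact_energy_le`) -/
theorem isCompact_min [CompactSpace M] : IsCompact {ξ : TM n M | R.Min ξ.proj (vecT ξ)} := by
  refine (isCompact_energy_le R.g (diam (univ : Set M) ^ 2)).of_isClosed_subset R.isClosed_min fun ξ hξ => ?_
  have h : dist ξ.proj (R.exp ξ.proj (vecT ξ)) = R.nrm ξ.proj (vecT ξ) := hξ
  show energy R.g ξ ≤ _
  rw [R.energy_eq_nrm, ← h]
  exact pow_le_pow_left₀ dist_nonneg
    (dist_le_diam_of_mem isCompact_univ.isBounded (mem_univ _) (mem_univ _)) 2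

end Riem

end Crest.Agent.R226.G

end
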