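import Crest.Agent.R226.G1Defs

/-!
# R226 / G2a0: elementary properties of `exp`, `nrm`, `Min`

Prefix for auxiliary lemmas: `g2a0_`.
-/

set_option autoImplicit false
set_option linter.unusedSectionVars false

open scoped ContDiff Manifold Topology
open Bundle Set Filter Metric

noncomputable section

namespace Crest.Agent.R226.G

variable {n : ℕ} {M : Type*} [MetricSpace M] [ChartedSpace (EE n) M] [IsManifold 𝓘(ℝ, EE n) ∞ M]

namespace Riem

variable (R : Riem n M)

theorem q_symm (x : M) (u v : EE n) : R.q x u v = R.q x v u := qT_symm R.g x u v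
theorem q_pos (x : M) {v : EE n} (hv : v ≠ 0) : 0 < R.q x v v := qT_pos R.g x hv
theorem q_nonneg (x : M) (v : EE n) : 0 ≤ R.q x v v := qT_nonneg R.g x v
theorem nrm_nonneg (x : M) (v : EE n) : 0 ≤ R.nrm x v := Real.sqrt_nonneg _
theorem nrm_sq (x : M) (v : EE n) : R.nrm x v ^ 2 = R.q x v v := Real.sq_sqrt (R.q_nonneg x v)
theorem energy_eq_nrm (ξ : TM n M) : energy R.g ξ = R.nrm ξ.proj (vecT ξ) ^ 2 := (R.nrm_sq _ _).symm

theorem nrm_smul (x : M) (a : ℝ) (v : EE n) : R.nrm x (a • v) = |a| * R.nrm x v := by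
  unfold nrm
  rw [map_smul, map_smul, ContinuousLinearMap.smul_apply, smul_eq_mul, smul_eq_mul, ← mul_assoc,
    Real.sqrt_mul (mul_self_nonneg a), Real.sqrt_mul_self_eq_abs]

theorem nrm_zero (x : M) : R.nrm x 0 = 0 := by
  simp [nrm]

theorem nrm_neg (x : M) (v : EE n) : R.nrm x (-v) = R.nrm x v := by
  simp [nrm]

theorem nrm_pos (x : M) {v : EE n} (hv : v ≠ 0) : 0 < R.nrm x v := by
  exact Real.sqrt_pos.2 (R.q_pos x hv)

theorem nrm_eq_zero {x : M} {v : EE n} : R.nrm x v = 0 ↔ v = 0 := by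
  refine ⟨fun h => by_contra fun hv => (R.nrm_pos x hv).ne' h, ?_⟩
  rintro rfl
  exact R.nrm_zero x

/-- `bilin_cs` -/
theorem abs_q_le (x : M) (u v : EE n) : |R.q x u v| ≤ R.nrm x u * R.nrm x v := by
  refine abs_le_of_sq_le_sq' ?_ (mul_nonneg (R.nrm_nonneg x u) (R.nrm_nonneg x v)) |> abs_le.2
  rw [mul_pow, nrm_sq, nrm_sq]
  have h := discrim_le_zero (a := R.q x u u) (b := 2 * R.q x u v) (c := R.q x v v) fun t => by
    have h1 := R.q_nonneg x (t • u + v)
    simp only [map_add, map_smul, ContinuousLinearMap.add_apply, ContinuousLinearMap.smul_apply, smul_eq_mul,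
      R.q_symm x v u] at h1
    linarith
  rw [discrim] at h
  linarith

theorem nrm_add_le (x : M) (u v : EE n) : R.nrm x (u + v) ≤ R.nrm x u + R.nrm x v := by
  refine (pow_le_pow_iff_left₀ (R.nrm_nonneg _ _) (add_nonneg (R.nrm_nonneg x u) (R.nrm_nonneg x v))
    two_ne_zero).1 ?_
  rw [add_sq, nrm_sq, nrm_sq, nrm_sq]
  simp only [map_add, ContinuousLinearMap.add_apply, R.q_symm x v u]
  linarith [(abs_le.1 (R.abs_q_le x u v)).2]

theorem continuous_nrmT : Continuous fun ξ : TM n M => R.nrm ξ.proj (vecT ξ) := by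
  exact (continuous_energy R.g).sqrt

theorem continuous_nrm (x : M) : Continuous (R.nrm x) := by
  exact ((R.q x).continuous₂.comp (continuous_id.prodMk continuous_id)).sqrt

end Riem
theorem cst_comm (x y : M) : cst x y = cst y x := by
  rw [cst, cst, dist_comm]

theorem continuous_cst : Continuous fun p : M × M => cst p.1 p.2 := by
  unfold cst
  fun_prop

/-- `(A + B)² / 2 ≤ A² / (2 s) + B² / (2 (1 - s))` -/
theorem cst_le (x p y : M) {s : ℝ} (h0 : 0 < s) (h1 : s < 1) : cst x y ≤ cst x p / s + cst p y / (1 - s) := by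
  unfold cst
  have h2 : 0 < 1 - s := sub_pos.2 h1
  have h3 : dist x y ^ 2 ≤ (dist x p + dist p y) ^ 2 := pow_le_pow_left₀ dist_nonneg (dist_triangle x p y) 2
  rw [div_add_div _ _ h0.ne' h2.ne', le_div_iff₀ (mul_pos h0 h2)]
  nlinarith [mul_le_mul_of_nonneg_right h3 (mul_pos h0 h2).le, sq_nonneg (dist x p * (1 - s) - dist p y * s)]

end Crest.Agent.R226.G

end
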