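import Crest.Agent.R226.G2b0

/-!
# R226 / G2b: the flow in charts

Prefix for auxiliary lemmas: `g2b_`.
-/

set_option autoImplicit false
set_option linter.unusedSectionVars false

open scoped ContDiff Manifold Topology
open Bundle Set Filter Metric

noncomputable section

namespace Crest.Agent.R226.G

variable {n : ℕ} {M : Type*} [MetricSpace M] [ChartedSpace (EE n) M] [IsManifold 𝓘(ℝ, EE n) ∞ M]

namespace Riem

variable {R : Riem n M} {a b : M} {ξ : TM n M}

theorem g2b_tm (a x : M) (u : EE n) :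
    tmChart n a (mkT x u) = (ch n a x, fderiv ℝ (tr n x a) (ch n x x) u) :=
  Prod.ext (tmChart_fst a _) (tmChart_snd a _)

theorem g2b_key (R : Riem n M) (b : M) {x : M} (h : x ∈ (ch n a).source) (u : EE n) :
    R.ex a b (ch n a x, fderiv ℝ (tr n x a) (ch n x x) u) = ch n b (R.exp x u) := by
  rw [← g2b_tm]
  exact ex_apply (ξ := mkT x u) h

theorem g2b_inv {x y m : M} (hx : m ∈ (ch n x).source) (hy : m ∈ (ch n y).source) (w : EE n) :
    fderiv ℝ (tr n y x) (ch n y m) (fderiv ℝ (tr n x y) (ch n x m) w) = w := by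
  rw [fderiv_tr_comp hx hy hx, fderiv_tr_self hx]

/-- `ex a a (y, 0) = y` near the point (`proj_zero`), `s ↦ ex a a (y, s • w)` has derivative `w` at `0`
(`hasDerivAt_exp`, `tmChart_smul`, `chta_symm`) -/
theorem fderiv_ex_zero (R : Riem n M) {x : M} (h : x ∈ (ch n a).source) (δx δw : EE n) :
    fderiv ℝ (R.ex a a) (ch n a x, 0) (δx, δw) = δx + δw := by
  have hD : R.Dom a a (mkT x 0) := ⟨h, by rw [R.flow.proj_zero]; exact h⟩
  have hd : HasFDerivAt (R.ex a a) (fderiv ℝ (R.ex a a) (ch n a x, 0)) (ch n a x, 0) := by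
    have := hD.contDiffAt_ex
    rw [g2b_tm, map_zero] at this
    exact (this.differentiableAt (by simp)).hasFDerivAt
  have h1 : fderiv ℝ (R.ex a a) (ch n a x, 0) (δx, 0) = δx := by
    have e1 := hd.comp (ch n a x) (hasFDerivAt_prodMk_left (𝕜 := ℝ) (ch n a x) (0 : EE n))
    have e2 : (R.ex a a ∘ fun y : EE n => (y, (0 : EE n))) =ᶠ[𝓝 (ch n a x)] id := by
      filter_upwards [(ch n a).open_target.mem_nhds ((ch n a).map_source h)] with y hy
      have := R.g2b_key a ((ch n a).map_target hy) 0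
      rw [map_zero, R.exp_zero, (ch n a).right_inv hy] at this
      exact this
    have e3 := e1.unique ((hasFDerivAt_id _).congr_of_eventuallyEq e2)
    exact congrArg (fun L : EE n →L[ℝ] EE n => L δx) e3
  have h2 : fderiv ℝ (R.ex a a) (ch n a x, 0) (0, δw) = δw := by
    have hx := mem_chart_source (EE n) x
    obtain ⟨v, hv⟩ : ∃ v, fderiv ℝ (tr n x a) (ch n x x) v = δw := ⟨_, g2b_inv h hx δw⟩
    have e1 := R.hasDerivAt_exp x v (t := 0) (z := a) (by rw [zero_smul, R.exp_zero]; exact h)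
    rw [R.flow.zero, g2b_tm, hv] at e1
    have e2 : HasDerivAt (fun s : ℝ => (ch n a x, s • δw)) ((0 : EE n), δw) 0 := by
      have := (hasDerivAt_const (0 : ℝ) (ch n a x)).prodMk ((hasDerivAt_id (0 : ℝ)).smul_const δw)
      rwa [one_smul] at this
    have e3 := hd.comp_hasDerivAt_of_eq (0 : ℝ) e2 (by rw [zero_smul])
    refine e3.unique (e1.congr_of_eventuallyEq (Eventually.of_forall fun s => ?_))
    have := R.g2b_key a h (s • v)
    rw [map_smul, hv] at this
    exact this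
  have e : (δx, δw) = (δx, (0 : EE n)) + ((0 : EE n), δw) := by simp
  rw [e, map_add, h1, h2]

/-- `exp x` read in a chart is smooth -/
theorem contDiffAt_exp (R : Riem n M) {x : M} {v : EE n} (h : R.exp x v ∈ (ch n b).source) :
    ContDiffAt ℝ ∞ (fun u => ch n b (R.exp x u)) v := by
  have hD : R.Dom x b (mkT x v) := ⟨mem_chart_source _ x, h⟩
  have h1 := hD.contDiffAt_ex
  rw [tmChart_mkT] at h1
  have h2 := h1.comp v (f := fun u : EE n => (ch n x x, u)) (contDiffAt_const.prodMk contDiffAt_id)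
  refine h2.congr_of_eventuallyEq (Eventually.of_forall fun u => ?_)
  have := ex_apply (R := R) (a := x) (b := b) (ξ := mkT x u) (mem_chart_source _ x)
  rw [tmChart_mkT] at this
  exact this.symm

/-- `u ↦ ch b (exp x u)` is `ex a b (ch a x, L u)` with the invertible `L = fderiv (tr x a) _` (`tmChart_snd`), and
`ch b = tr _ b ∘ ch _` near the end point with invertible derivative (`fderiv_tr_comp`, `fderiv_tr_self`) -/
theorem Dom.nonFocal_iff (h : R.Dom a b ξ) :
    R.NonFocal ξ.proj (vecT ξ) ↔ ∀ w, fderiv ℝ (R.ex a b) (tmChart n a ξ) (0, w) = 0 → w = 0 := by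
  obtain ⟨x, v, rfl⟩ : ∃ x v, ξ = mkT x v := ⟨_, _, (mkT_vecT ξ).symm⟩
  have ha : x ∈ (ch n a).source := h.1
  have hb : R.exp x v ∈ (ch n b).source := h.2
  have hx := mem_chart_source (EE n) x
  have he := mem_chart_source (EE n) (R.exp x v)
  have hd : HasFDerivAt (R.ex a b) (fderiv ℝ (R.ex a b) (tmChart n a (mkT x v)))
      (ch n a x, fderiv ℝ (tr n x a) (ch n x x) v) := by
    rw [← g2b_tm]
    exact (h.contDiffAt_ex.differentiableAt (by simp)).hasFDerivAt
  have e1 := hd.comp v (f := fun u : EE n => (ch n a x, fderiv ℝ (tr n x a) (ch n x x) u))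
    ((hasFDerivAt_const (ch n a x) v).prodMk (fderiv ℝ (tr n x a) (ch n x x)).hasFDerivAt)
  have e2 := ((tr_smooth he hb).differentiableAt (by simp)).hasFDerivAt.comp v
    (f := fun u => ch n (R.exp x v) (R.exp x u)) ((R.contDiffAt_exp he).differentiableAt (by simp)).hasFDerivAt
  have e3 : (R.ex a b ∘ fun u : EE n => (ch n a x, fderiv ℝ (tr n x a) (ch n x x) u)) =ᶠ[𝓝 v]
      (tr n (R.exp x v) b ∘ fun u => ch n (R.exp x v) (R.exp x u)) := by
    filter_upwards [(R.continuous_exp x).continuousAt.preimage_mem_nhds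
      ((ch n (R.exp x v)).open_source.mem_nhds he)] with u hu
    exact (R.g2b_key b ha u).trans (tr_apply hu).symm
  have e4 : ∀ w, fderiv ℝ (R.ex a b) (tmChart n a (mkT x v)) (0, fderiv ℝ (tr n x a) (ch n x x) w) =
      fderiv ℝ (tr n (R.exp x v) b) (ch n (R.exp x v) (R.exp x v))
        (fderiv ℝ (fun u => ch n (R.exp x v) (R.exp x u)) v w) := fun w =>
    congrArg (fun L : EE n →L[ℝ] EE n => L w) (e1.unique (e2.congr_of_eventuallyEq e3))
  change R.NonFocal x v ↔ _
  constructor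
  · intro H w hw
    rw [← g2b_inv ha hx w, e4] at hw
    have e5 := g2b_inv he hb (fderiv ℝ (fun u => ch n (R.exp x v) (R.exp x u)) v (fderiv ℝ (tr n a x) (ch n a x) w))
    rw [hw, map_zero] at e5
    rw [← g2b_inv ha hx w, H _ e5.symm, map_zero]
  · intro H w hw
    have e5 := e4 w
    rw [hw, map_zero] at e5
    rw [← g2b_inv hx ha w, H _ e5, map_zero]

/-- injectivity of `w ↦ fderiv ex p (0, w)` is an open condition in `p` (finite dimension, continuity of `fderiv`;
`ContinuousLinearMap.isOpen_injective`) -/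
theorem isOpen_nonFocal (R : Riem n M) : IsOpen {ξ : TM n M | R.NonFocal ξ.proj (vecT ξ)} := by
  refine isOpen_iff_mem_nhds.2 fun ξ hξ => ?_
  have h := R.dom_self ξ
  generalize ξ.proj = a, (R.Φ 1 ξ).proj = b at h
  have hi : ∀ {ξ : TM n M}, R.Dom a b ξ → (R.NonFocal ξ.proj (vecT ξ) ↔ Function.Injective
      ((fderiv ℝ (R.ex a b) (tmChart n a ξ)).comp (ContinuousLinearMap.inr ℝ (EE n) (EE n)))) := fun h => by
    rw [h.nonFocal_iff, injective_iff_map_eq_zero]
    rfl
  have c1 : ContinuousAt (fderiv ℝ (R.ex a b)) (tmChart n a ξ) :=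
    (h.contDiffAt_ex.fderiv_right (m := 0) (by simp)).continuousAt
  have c2 : ContinuousAt (fun ξ' : TM n M => (fderiv ℝ (R.ex a b) (tmChart n a ξ')).comp
      (ContinuousLinearMap.inr ℝ (EE n) (EE n))) ξ :=
    (c1.comp ((tmChart n a).continuousAt (mem_tmChart_source.2 h.1))).clm_comp continuousAt_const
  filter_upwards [h.eventually_nhds,
    c2.preimage_mem_nhds (ContinuousLinearMap.isOpen_injective.mem_nhds ((hi h).1 hξ))] with ξ' h1 h2
  exact (hi h1).2 h2

theorem nonFocal_zero (R : Riem n M) (x : M) : R.NonFocal x 0 := by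
  have hx := mem_chart_source (EE n) x
  have hD : R.Dom x x (mkT x 0) := ⟨hx, by rw [R.flow.proj_zero]; exact hx⟩
  refine hD.nonFocal_iff.2 fun w hw => ?_
  rwa [tmChart_mkT, R.fderiv_ex_zero hx, zero_add] at hw

/-- fibre balls are a basis of neighbourhoods of the zero section, uniformly: for every `x₀` there are a neighbourhood
`U` of `x₀` and `r > 0` with `mkT x v ∈ N x₀` for `x ∈ U`, `nrm x v < r` (`chtm_coercive` in the chart `tmChart x₀`);
take a finite subcover. -/
theorem tube [CompactSpace M] (R : Riem n M) (N : M → Set (TM n M)) (hN : ∀ x, N x ∈ 𝓝 (mkT x 0)) :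
    ∃ r > 0, ∀ x, ∃ x₀, ∀ v, R.nrm x v < r → mkT x v ∈ N x₀ := by
  have loc : ∀ x₀ : M, ∃ U ∈ 𝓝 x₀, ∃ r > 0, ∀ x ∈ U, ∀ v, R.nrm x v < r → mkT x v ∈ N x₀ := fun x₀ => by
    have hC : IsCompact ({ξ : TM n M | energy R.g ξ ≤ 1} \ interior (N x₀)) :=
      (isCompact_energy_le R.g 1).diff isOpen_interior
    have hφ : Continuous fun ξ : TM n M => (ξ.proj, R.nrm ξ.proj (vecT ξ)) :=
      continuous_projT.prodMk R.continuous_nrmT
    have h1 := (hC.image hφ).isClosed.isOpen_compl.mem_nhds (x := (x₀, (0 : ℝ))) (by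
      rintro ⟨ξ, hξ, e⟩
      obtain ⟨e1, e2⟩ := Prod.ext_iff.1 e
      refine hξ.2 ?_
      rw [← mkT_vecT ξ, R.nrm_eq_zero.1 e2, show ξ.proj = x₀ from e1]
      exact mem_interior_iff_mem_nhds.2 (hN x₀))
    obtain ⟨U, hU, V, hV, hUV⟩ := mem_nhds_prod_iff.1 h1
    obtain ⟨ε, hε, hεV⟩ := Metric.mem_nhds_iff.1 hV
    refine ⟨U, hU, min ε 1, lt_min hε one_pos, fun x hx v hv => interior_subset ?_⟩
    by_contra hc
    have h0 := R.nrm_nonneg x v
    refine hUV (mk_mem_prod hx (hεV (a := R.nrm x v) ?_)) ⟨mkT x v, ⟨?_, hc⟩, rfl⟩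
    · rw [mem_ball_zero_iff, Real.norm_of_nonneg h0]
      exact hv.trans_le (min_le_left _ _)
    · change energy R.g (mkT x v) ≤ 1
      rw [R.energy_eq_nrm]
      exact pow_le_one₀ h0 (hv.le.trans (min_le_right _ _))
  obtain ⟨r, hr, h⟩ := isCompact_univ.induction_on
    (p := fun s : Set M => ∃ r > 0, ∀ x ∈ s, ∃ x₀, ∀ v, R.nrm x v < r → mkT x v ∈ N x₀)
    ⟨1, one_pos, fun x hx => hx.elim⟩ (fun s t hst ⟨r, hr, h⟩ => ⟨r, hr, fun x hx => h x (hst hx)⟩)
    (fun s t ⟨r, hr, h⟩ ⟨r', hr', h'⟩ => ⟨min r r', lt_min hr hr', fun x hx => hx.elim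
      (fun hx => (h x hx).imp fun _ H v hv => H v (hv.trans_le (min_le_left _ _)))
      fun hx => (h' x hx).imp fun _ H v hv => H v (hv.trans_le (min_le_right _ _))⟩)
    fun x₀ _ => by
      obtain ⟨U, hU, r, hr, h⟩ := loc x₀
      exact ⟨U, mem_nhdsWithin_of_mem_nhds hU, r, hr, fun x hx => ⟨x₀, h x hx⟩⟩
  exact ⟨r, hr, fun x => h x (mem_univ x)⟩

end Riem

end Crest.Agent.R226.G

end
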