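import Crest.Agent.R226.G2a

/-!
# R226 / G2b0: the flow in charts

Prefix for auxiliary lemmas: `g2b0_`.
-/

set_option autoImplicit false
set_option linter.unusedSectionVars false

open scoped ContDiff Manifold Topology
open Bundle Set Filter Metric

noncomputable section

namespace Crest.Agent.R226.G

variable {n : ℕ} {M : Type*} [MetricSpace M] [ChartedSpace (EE n) M] [IsManifold 𝓘(ℝ, EE n) ∞ M]

namespace Riem

variable {R : Riem n M} {a b : M} {ξ : TM n M}

theorem fl_apply (h : ξ.proj ∈ (ch n a).source) : R.fl a b (tmChart n a ξ) = tmChart n b (R.Φ 1 ξ) := by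
  unfold fl
  rw [(tmChart n a).left_inv (mem_tmChart_source.2 h)]

theorem ex_apply (h : ξ.proj ∈ (ch n a).source) : R.ex a b (tmChart n a ξ) = ch n b (R.Φ 1 ξ).proj := by
  unfold ex
  rw [fl_apply h, tmChart_fst]

theorem en_apply (h : ξ.proj ∈ (ch n a).source) : R.en a (tmChart n a ξ) = energy R.g ξ / 2 := by
  unfold en
  rw [energy_chart R.g h]

theorem dom_self (R : Riem n M) (ξ : TM n M) : R.Dom ξ.proj (R.Φ 1 ξ).proj ξ :=
  ⟨mem_chart_source _ _, mem_chart_source _ _⟩

theorem Dom.eventually_nhds (h : R.Dom a b ξ) : ∀ᶠ ξ' in 𝓝 ξ, R.Dom a b ξ' := by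
  have h1 : ∀ᶠ ξ' in 𝓝 ξ, ξ'.proj ∈ (ch n a).source :=
    continuous_projT.continuousAt.preimage_mem_nhds ((ch n a).open_source.mem_nhds h.1)
  have h2 : ∀ᶠ ξ' in 𝓝 ξ, (R.Φ 1 ξ').proj ∈ (ch n b).source :=
    (continuous_projT.comp (R.continuous_Φ 1)).continuousAt.preimage_mem_nhds ((ch n b).open_source.mem_nhds h.2)
  exact h1.and h2

theorem Dom.eventually (h : R.Dom a b ξ) :
    ∀ᶠ p in 𝓝 (tmChart n a ξ), p ∈ (tmChart n a).target ∧ R.Dom a b ((tmChart n a).symm p) := by
  have hs : ξ ∈ (tmChart n a).source := mem_tmChart_source.2 h.1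
  have ht := (tmChart n a).map_source hs
  have h1 : ∀ᶠ p in 𝓝 (tmChart n a ξ), p ∈ (tmChart n a).target := (tmChart n a).open_target.mem_nhds ht
  have h2 : Tendsto (tmChart n a).symm (𝓝 (tmChart n a ξ)) (𝓝 ξ) := (tmChart n a).tendsto_symm hs
  exact h1.and (h2.eventually h.eventually_nhds)

theorem Dom.contDiffAt_fl (h : R.Dom a b ξ) : ContDiffAt ℝ ∞ (R.fl a b) (tmChart n a ξ) := by
  have h1 := R.flow.smooth a b ξ 1 h.1 h.2
  have h2 : ContDiffAt ℝ ∞ (fun p : EE n × EE n => ((1 : ℝ), p)) (tmChart n a ξ) :=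
    contDiffAt_const.prodMk contDiffAt_id
  exact h1.comp (tmChart n a ξ) h2

theorem Dom.contDiffAt_ex (h : R.Dom a b ξ) : ContDiffAt ℝ ∞ (R.ex a b) (tmChart n a ξ) := by
  exact h.contDiffAt_fl.fst

theorem contDiffAt_en (R : Riem n M) {p : EE n × EE n} (h : p.1 ∈ (ch n a).target) : ContDiffAt ℝ ∞ (R.en a) p := by
  have L := isLC_chart R.g a
  have h1 : ContDiffAt ℝ ∞ (fun q : EE n × EE n => R.G a q.1) p :=
    (L.g_smooth.contDiffAt (L.isOpen.mem_nhds h)).comp p contDiffAt_fst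
  exact ((h1.clm_apply contDiffAt_snd).clm_apply contDiffAt_snd).div_const 2

theorem fderiv_en_snd (R : Riem n M) {p : EE n × EE n} (h : p.1 ∈ (ch n a).target) (w : EE n) :
    fderiv ℝ (R.en a) p (0, w) = R.G a p.1 p.2 w := by
  have L := isLC_chart R.g a
  have hd : HasFDerivAt (R.en a) (fderiv ℝ (R.en a) p) p :=
    ((R.contDiffAt_en h).differentiableAt (by simp)).hasFDerivAt
  have hc : HasDerivAt (fun t : ℝ => p + t • ((0 : EE n), w)) ((0 : EE n), w) 0 := by
    simpa using ((hasDerivAt_id (0 : ℝ)).smul_const ((0 : EE n), w)).const_add p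
  have h1 : HasDerivAt (fun t : ℝ => R.en a (p + t • ((0 : EE n), w))) (fderiv ℝ (R.en a) p (0, w)) 0 := by
    refine HasFDerivAt.comp_hasDerivAt_of_eq (0 : ℝ) hd hc (by simp)
  have h2 : HasDerivAt (fun t : ℝ => R.en a (p + t • ((0 : EE n), w))) (R.G a p.1 p.2 w) 0 := by
    have e : (fun t : ℝ => R.en a (p + t • ((0 : EE n), w))) =
        fun t : ℝ => R.G a p.1 p.2 p.2 / 2 + t * R.G a p.1 p.2 w + t ^ 2 * (R.G a p.1 w w / 2) := by
      funext t
      have hs : R.G a p.1 w p.2 = R.G a p.1 p.2 w := L.g_symm _ h _ _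
      simp only [en, Prod.fst_add, Prod.smul_mk, smul_zero, add_zero, Prod.snd_add, map_add, map_smul,
        ContinuousLinearMap.add_apply, ContinuousLinearMap.smul_apply, smul_eq_mul, hs]
      ring
    rw [e]
    have := (((hasDerivAt_id (0 : ℝ)).mul_const (R.G a p.1 p.2 w)).const_add (R.G a p.1 p.2 p.2 / 2)).add
      ((hasDerivAt_pow 2 (0 : ℝ)).mul_const (R.G a p.1 w w / 2))
    exact this.congr_deriv (by simp)
  exact h1.unique h2

/-- the chart expression of `Φ (-1)` is a smooth left inverse near the point (`flow.smooth`, `flow.add`) -/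
theorem Dom.fderiv_fl_injective (h : R.Dom a b ξ) : Function.Injective (fderiv ℝ (R.fl a b) (tmChart n a ξ)) := by
  have hs : ξ ∈ (tmChart n a).source := mem_tmChart_source.2 h.1
  have hback : ∀ ζ : TM n M, R.Φ (-1) (R.Φ 1 ζ) = ζ := fun ζ => by
    rw [← R.flow.add, neg_add_cancel, R.flow.zero]
  have h1 := R.flow.smooth b a (R.Φ 1 ξ) (-1) h.2 (by rw [hback]; exact h.1)
  have h2 : ContDiffAt ℝ ∞ (fun p : EE n × EE n => ((-1 : ℝ), p)) (tmChart n b (R.Φ 1 ξ)) :=
    contDiffAt_const.prodMk contDiffAt_id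
  have h3 : ContDiffAt ℝ ∞ (fun p : EE n × EE n => tmChart n a (R.Φ (-1) ((tmChart n b).symm p)))
      (R.fl a b (tmChart n a ξ)) := by
    rw [fl_apply h.1]
    exact h1.comp (tmChart n b (R.Φ 1 ξ)) h2
  have h4 := (h3.differentiableAt (by simp)).hasFDerivAt.comp (tmChart n a ξ)
    (h.contDiffAt_fl.differentiableAt (by simp)).hasFDerivAt
  have h5 : ((fun p : EE n × EE n => tmChart n a (R.Φ (-1) ((tmChart n b).symm p))) ∘ R.fl a b) =ᶠ[𝓝 (tmChart n a ξ)]
      id := by
    filter_upwards [h.eventually] with p hp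
    simp only [Function.comp, fl, id]
    rw [(tmChart n b).left_inv (mem_tmChart_source.2 hp.2.2), hback, (tmChart n a).right_inv hp.1]
  have h6 := (h4.congr_of_eventuallyEq h5.symm).unique (hasFDerivAt_id _)
  intro u v huv
  have hu := congrArg (fun T => T u) h6
  have hv := congrArg (fun T => T v) h6
  simp only [ContinuousLinearMap.comp_apply, ContinuousLinearMap.id_apply] at hu hv
  rw [← hu, ← hv, huv]

end Riem
end Crest.Agent.R226.G

end
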