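import Crest.Agent.R226.G1Defs

/-!
# R226 / G2c0: first variation formula (Gauss lemma)

Prefix for auxiliary lemmas: `g2c0_`.
-/

set_option autoImplicit false
set_option linter.unusedSectionVars false

open scoped ContDiff Manifold Topology
open Bundle Set Filter Metric

noncomputable section

namespace Crest.Agent.R226.G

variable {n : ℕ} {M : Type*} [MetricSpace M] [ChartedSpace (EE n) M] [IsManifold 𝓘(ℝ, EE n) ∞ M]

theorem g2c0_fderiv {E : Type} [NormedAddCommGroup E] [NormedSpace ℝ E] {g : E → E →L[ℝ] E →L[ℝ] ℝ}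
    {Γ : E → E →L[ℝ] E →L[ℝ] E} {U : Set E} (L : IsLC g Γ U) {y : E} (hU : y ∈ U) (w J K : E) :
    fderiv ℝ (fun q : E × E => g q.1 q.2 q.2 / 2) (y, w) (J, K) = g y w (K + Γ y w J) := by
  have hg : DifferentiableAt ℝ g y :=
    (L.g_smooth.contDiffAt (L.isOpen.mem_nhds hU)).differentiableAt (by simp)
  have hg1 := DifferentiableAt.comp (𝕜 := ℝ) ((y, w) : E × E) (g := g) (f := Prod.fst) hg differentiableAt_fst
  have hH0 : DifferentiableAt ℝ (fun q : E × E => g q.1 q.2 q.2) (y, w) :=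
    (hg1.clm_apply differentiableAt_snd).clm_apply differentiableAt_snd
  have hH : DifferentiableAt ℝ (fun q : E × E => g q.1 q.2 q.2 / 2) (y, w) := by
    simpa only [div_eq_mul_inv] using hH0.mul_const (2 : ℝ)⁻¹
  have hc : HasDerivAt (fun r : ℝ => y + r • J) J 0 := by
    simpa using ((hasDerivAt_id (0 : ℝ)).smul_const J).const_add y
  have hw : HasDerivAt (fun r : ℝ => w + r • K) K 0 := by
    simpa using ((hasDerivAt_id (0 : ℝ)).smul_const K).const_add w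
  have h1 := hH.hasFDerivAt.comp_hasDerivAt_of_eq (0 : ℝ) (hc.prodMk hw) (by simp)
  have h2 := (L.hasDerivAt_inner (c := fun r : ℝ => y + r • J) (s := 0) (by simpa using hU) hc hw hw).div_const 2
  have h3 := h1.unique h2
  simp only [zero_smul, add_zero] at h3
  rw [h3, L.g_symm y hU (K + Γ y J w) w, L.Γ_symm y hU J w]
  ring

/-- Calculus in one chart.  `F (s, λ)` is a family of solutions of the geodesic equation; with `(c, c') = F (·, 0)` and
`(J, K) = ∂_λ F`: `d/ds g(c', J) = g(c', K + Γ(c', J)) = D(g(w, w) / 2)(J, K)` (`variational_eq`, `fderiv_spray`,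
`IsLC.hasDerivAt_inner`, `compat`, `Γ_symm`; model: `IsGeoFlow.varT_ode`). -/
theorem first_var {E : Type} [NormedAddCommGroup E] [NormedSpace ℝ E] {g : E → E →L[ℝ] E →L[ℝ] ℝ}
    {Γ : E → E →L[ℝ] E →L[ℝ] E} {U : Set E} (L : IsLC g Γ U) {F : ℝ × ℝ → E × E} {s : ℝ} (hU : (F (s, 0)).1 ∈ U)
    (hF : ContDiffAt ℝ 2 F (s, 0))
    (hode : ∀ᶠ q : ℝ × ℝ in 𝓝 (s, 0), HasDerivAt (fun r => F (r, q.2)) (spray Γ (F q)) q.1) :
    HasDerivAt (fun r => g (F (r, 0)).1 (F (r, 0)).2 (fderiv ℝ F (r, 0) (0, 1)).1)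
      (fderiv ℝ (fun q : E × E => g q.1 q.2 q.2 / 2) (F (s, 0)) (fderiv ℝ F (s, 0) (0, 1))) s := by
  have h0 := hode.self_of_nhds
  have hΓ : DifferentiableAt ℝ Γ (F (s, 0)).1 :=
    (L.Γ_smooth.contDiffAt (L.isOpen.mem_nhds hU)).differentiableAt (by simp)
  obtain ⟨hd, he⟩ := fderiv_spray (w := (F (s, 0)).2) hΓ (fderiv ℝ F (s, 0) (0, 1)).1 (fderiv ℝ F (s, 0) (0, 1)).2
  have h2 := (variational_eq hF hd hode).congr_deriv he
  have a1 : HasDerivAt (fun r => (F (r, 0)).1) (F (s, 0)).2 s := (hasFDerivAt_fst.comp_hasDerivAt s h0 :)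
  have a2 : HasDerivAt (fun r => (F (r, 0)).2) (-Γ (F (s, 0)).1 (F (s, 0)).2 (F (s, 0)).2) s :=
    (hasFDerivAt_snd.comp_hasDerivAt s h0 :)
  have a3 : HasDerivAt (fun r => (fderiv ℝ F (r, 0) (0, 1)).1) (fderiv ℝ F (s, 0) (0, 1)).2 s :=
    (hasFDerivAt_fst.comp_hasDerivAt s h2 :)
  refine (L.hasDerivAt_inner hU a1 a2 a3).congr_deriv ?_
  have e := g2c0_fderiv L hU (F (s, 0)).2 (fderiv ℝ F (s, 0) (0, 1)).1 (fderiv ℝ F (s, 0) (0, 1)).2
  rw [e, neg_add_cancel, map_zero, zero_apply, zero_add]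

end Crest.Agent.R226.G

end
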