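import Crest.Agent.R226.G2b
import Crest.Agent.R226.G2c0

/-!
# R226 / G2c: first variation formula (Gauss lemma)

Prefix for auxiliary lemmas: `g2c_`.
-/

set_option autoImplicit false
set_option linter.unusedSectionVars false

open scoped ContDiff Manifold Topology
open Bundle Set Filter Metric

noncomputable section

namespace Crest.Agent.R226.G

variable {n : ℕ} {M : Type*} [MetricSpace M] [ChartedSpace (EE n) M] [IsManifold 𝓘(ℝ, EE n) ∞ M]

/-- the initial vectors -/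
def g2c_ini (a : M) (ξ : TM n M) (δ : EE n × EE n) (l : ℝ) : TM n M := (tmChart n a).symm (tmChart n a ξ + l • δ)

/-- the family of geodesics in the chart of `z` -/
def g2c_fam (R : Riem n M) (a : M) (ξ : TM n M) (δ : EE n × EE n) (z : M) (q : ℝ × ℝ) : EE n × EE n :=
  tmChart n z (R.Φ q.1 (g2c_ini a ξ δ q.2))

/-- `g(c', J)` in the chart of `z` -/
def g2c_th (R : Riem n M) (a : M) (ξ : TM n M) (δ : EE n × EE n) (z : M) (s : ℝ) : ℝ :=
  R.G z (g2c_fam R a ξ δ z (s, 0)).1 (g2c_fam R a ξ δ z (s, 0)).2 (fderiv ℝ (g2c_fam R a ξ δ z) (s, 0) (0, 1)).1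

theorem g2c_line {E : Type} [NormedAddCommGroup E] [NormedSpace ℝ E] (p δ : E) :
    HasDerivAt (fun l : ℝ => p + l • δ) δ 0 := by
  simpa using ((hasDerivAt_id (0 : ℝ)).smul_const δ).const_add p

theorem g2c_comp_line {E F : Type} [NormedAddCommGroup E] [NormedSpace ℝ E] [NormedAddCommGroup F] [NormedSpace ℝ F]
    {f : E → F} {p : E} (hf : DifferentiableAt ℝ f p) (δ : E) :
    HasDerivAt (fun l : ℝ => f (p + l • δ)) (fderiv ℝ f p δ) 0 :=
  hf.hasFDerivAt.comp_hasDerivAt_of_eq (0 : ℝ) (g2c_line p δ) (by simp)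

theorem g2c_slice {E : Type} [NormedAddCommGroup E] [NormedSpace ℝ E] {F : ℝ × ℝ → E} {s : ℝ}
    (hF : DifferentiableAt ℝ F (s, 0)) : HasDerivAt (fun l : ℝ => F (s, l)) (fderiv ℝ F (s, 0) (0, 1)) 0 :=
  hF.hasFDerivAt.comp_hasDerivAt (0 : ℝ) ((hasDerivAt_const _ _).prodMk (hasDerivAt_id _))

section

variable {R : Riem n M} {a : M} {ξ : TM n M} (ha : ξ.proj ∈ (ch n a).source) (δ : EE n × EE n)
include ha

theorem g2c_ini_zero : g2c_ini a ξ δ 0 = ξ := by
  rw [g2c_ini, zero_smul, add_zero, (tmChart n a).left_inv (mem_tmChart_source.2 ha)]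

theorem g2c_target : ∀ᶠ l : ℝ in 𝓝 0, tmChart n a ξ + l • δ ∈ (tmChart n a).target :=
  (g2c_line (tmChart n a ξ) δ).continuousAt.eventually_mem ((tmChart n a).open_target.mem_nhds (by
    simpa using (tmChart n a).map_source (mem_tmChart_source.2 ha)))

theorem g2c_ini_cont : ContinuousAt (g2c_ini a ξ δ) 0 :=
  ContinuousAt.comp_of_eq ((tmChart n a).continuousAt_symm ((tmChart n a).map_source (mem_tmChart_source.2 ha)))
    (g2c_line (tmChart n a ξ) δ).continuousAt (by simp)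

theorem g2c_fam_zero (z : M) (s : ℝ) : g2c_fam R a ξ δ z (s, 0) = tmChart n z (R.Φ s ξ) := by
  simp only [g2c_fam, g2c_ini_zero ha]

theorem g2c_fam_smooth {z : M} {s : ℝ} (hz : (R.Φ s ξ).proj ∈ (ch n z).source) :
    ContDiffAt ℝ 2 (g2c_fam R a ξ δ z) (s, 0) := by
  have h1 := (R.flow.smooth a z ξ s ha hz).of_le (m := 2) (by norm_cast)
  have h2 : ContDiff ℝ 2 fun q : ℝ × ℝ => ((q.1, tmChart n a ξ + q.2 • δ) : ℝ × (EE n × EE n)) :=
    contDiff_fst.prodMk (contDiff_const.add (contDiff_snd.smul contDiff_const))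
  have h3 := ContDiffAt.comp (s, (0 : ℝ)) (by simpa using h1) h2.contDiffAt
  exact h3

theorem g2c_fam_ev {z : M} {s : ℝ} (hz : (R.Φ s ξ).proj ∈ (ch n z).source) :
    ∀ᶠ q : ℝ × ℝ in 𝓝 (s, 0), (R.Φ q.1 (g2c_ini a ξ δ q.2)).proj ∈ (ch n z).source := by
  have h0 : ContinuousAt (fun q : ℝ × ℝ => g2c_ini a ξ δ q.2) (s, 0) :=
    ContinuousAt.comp_of_eq (g := g2c_ini a ξ δ) (f := Prod.snd) (g2c_ini_cont ha δ) continuousAt_snd rfl
  have h1 : ContinuousAt (fun q : ℝ × ℝ => (R.Φ q.1 (g2c_ini a ξ δ q.2)).proj) (s, 0) :=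
    continuous_projT.continuousAt.comp (R.flow.cont.continuousAt.comp (continuousAt_fst.prodMk h0))
  exact h1.eventually_mem ((ch n z).open_source.mem_nhds (by simpa only [g2c_ini_zero ha] using hz))

theorem g2c_th_indep {z z' : M} {s : ℝ} (hz : (R.Φ s ξ).proj ∈ (ch n z).source)
    (hz' : (R.Φ s ξ).proj ∈ (ch n z').source) : g2c_th R a ξ δ z s = g2c_th R a ξ δ z' s := by
  have hd := (g2c_fam_smooth ha δ hz).differentiableAt (by simp)
  have hd' := (g2c_fam_smooth ha δ hz').differentiableAt (by simp)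
  have hev : (fun q => (g2c_fam R a ξ δ z' q).1) =ᶠ[𝓝 (s, 0)] tr n z z' ∘ fun q => (g2c_fam R a ξ δ z q).1 :=
    (g2c_fam_ev ha δ hz).mono fun q hq => by
      simp only [Function.comp_apply, g2c_fam, tmChart_fst, tr_apply hq]
  have ht : DifferentiableAt ℝ (tr n z z') (g2c_fam R a ξ δ z (s, 0)).1 := by
    rw [g2c_fam_zero ha, tmChart_fst]
    exact (tr_smooth hz hz').differentiableAt (by simp)
  have h1 := (ht.hasFDerivAt.comp (s, (0 : ℝ)) hd.hasFDerivAt.fst).congr_of_eventuallyEq hev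
  have h2 := congrArg (fun L : ℝ × ℝ →L[ℝ] EE n => L (0, 1)) (hd'.hasFDerivAt.fst.unique h1)
  have h3 : (fderiv ℝ (g2c_fam R a ξ δ z') (s, 0) (0, 1)).1 =
      fderiv ℝ (tr n z z') (g2c_fam R a ξ δ z (s, 0)).1 (fderiv ℝ (g2c_fam R a ξ δ z) (s, 0) (0, 1)).1 := h2
  have h4 : (tmChart n z' (R.Φ s ξ)).2 =
      fderiv ℝ (tr n z z') (ch n z (R.Φ s ξ).proj) (tmChart n z (R.Φ s ξ)).2 := by
    rw [tmChart_snd, tmChart_snd, fderiv_tr_comp (mem_chart_source _ _) hz hz']
  unfold g2c_th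
  rw [h3, g2c_fam_zero ha, g2c_fam_zero ha, h4, tmChart_fst, tmChart_fst]
  exact chartG_trans R.g hz hz' _ _

theorem g2c_th_deriv {z : M} {s : ℝ} (hz : (R.Φ s ξ).proj ∈ (ch n z).source) :
    HasDerivAt (g2c_th R a ξ δ z) (fderiv ℝ (R.en a) (tmChart n a ξ) δ) s := by
  have hmem : (g2c_fam R a ξ δ z (s, 0)).1 ∈ (ch n z).target := by
    rw [g2c_fam_zero ha, tmChart_fst]
    exact (ch n z).map_source hz
  have hode : ∀ᶠ q : ℝ × ℝ in 𝓝 (s, 0), HasDerivAt (fun r => g2c_fam R a ξ δ z (r, q.2))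
      (spray (chartΓ R.g z) (g2c_fam R a ξ δ z q)) q.1 :=
    (g2c_fam_ev ha δ hz).mono fun q hq => (R.flow.sol _ q.1).2 z hq
  have h1 := first_var (isLC_chart R.g z) hmem (g2c_fam_smooth ha δ hz) hode
  refine h1.congr_deriv ?_
  have h2 := ((R.contDiffAt_en hmem).differentiableAt (by simp)).hasFDerivAt.comp_hasDerivAt (0 : ℝ)
    (g2c_slice ((g2c_fam_smooth ha δ hz).differentiableAt (by simp)))
  have hp : (tmChart n a ξ).1 ∈ (ch n a).target := by
    rw [tmChart_fst]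
    exact (ch n a).map_source ha
  have h3 := g2c_comp_line ((R.contDiffAt_en hp).differentiableAt (by simp)) δ
  refine h2.unique (h3.congr_of_eventuallyEq ?_)
  have h4 : ∀ᶠ l : ℝ in 𝓝 0, (R.Φ s (g2c_ini a ξ δ l)).proj ∈ (ch n z).source :=
    (continuousAt_const.prodMk continuousAt_id : ContinuousAt (fun l : ℝ => (s, l)) 0).eventually
      (g2c_fam_ev ha δ hz)
  filter_upwards [h4, g2c_target ha δ] with l h5 h6
  have h7 : (g2c_ini a ξ δ l).proj ∈ (ch n a).source := mem_tmChart_source.1 ((tmChart n a).map_target h6)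
  have h8 := Riem.en_apply (R := R) h7
  rw [g2c_ini, (tmChart n a).right_inv h6] at h8
  simp only [Function.comp_apply, g2c_fam]
  rw [Riem.en_apply h5, R.flow.energy_eq, h8, g2c_ini]

theorem g2c_th_sub {b : M} (hb : (R.Φ 1 ξ).proj ∈ (ch n b).source) :
    g2c_th R a ξ δ b 1 - g2c_th R a ξ δ a 0 = fderiv ℝ (R.en a) (tmChart n a ξ) δ := by
  have hd : ∀ s, HasDerivAt (fun r => g2c_th R a ξ δ (R.Φ r ξ).proj r) (fderiv ℝ (R.en a) (tmChart n a ξ) δ) s := by
    intro s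
    have hz : (R.Φ s ξ).proj ∈ (ch n (R.Φ s ξ).proj).source := mem_chart_source _ _
    refine (g2c_th_deriv ha δ hz).congr_of_eventuallyEq ?_
    have hc : ContinuousAt (fun r => (R.Φ r ξ).proj) s := continuous_projT.continuousAt.comp (R.flow.sol ξ s).1
    filter_upwards [hc.eventually_mem ((ch n (R.Φ s ξ).proj).open_source.mem_nhds hz)] with r hr
    exact g2c_th_indep ha δ (mem_chart_source _ _) hr
  obtain ⟨c, -, hc⟩ := exists_hasDerivAt_eq_slope _ (fun _ => fderiv ℝ (R.en a) (tmChart n a ξ) δ) zero_lt_one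
    (fun s _ => (hd s).continuousAt.continuousWithinAt) fun s _ => hd s
  rw [hc, sub_zero, div_one, g2c_th_indep ha δ hb (mem_chart_source _ _),
    g2c_th_indep ha δ (z := a) (s := 0) (by rwa [R.flow.zero]) (mem_chart_source _ _)]

end

/-- First variation formula.  `σ (s, λ) = Φ s ((tmChart a).symm (p + λ • δ))`, `F_z = tmChart z ∘ σ`,
`θ_z s = G z (F_z).1 (F_z).2 (∂_λ F_z).1` does not depend on the chart `z` (as `nrmT_indep`; `tmChart_trans_eventually`,
`chartG_trans`), and its derivative in `s` is `∂_λ (energy (σ (s, λ)) / 2) = ∂_λ en a (p + λ • δ)` (`first_var`,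
`energy_chart`, `flow.energy_eq`), a constant. -/
theorem Riem.Dom.gauss {R : Riem n M} {a b : M} {ξ : TM n M} (h : R.Dom a b ξ) (δ : EE n × EE n) :
    R.G b (ch n b (R.Φ 1 ξ).proj) (tmChart n b (R.Φ 1 ξ)).2 (fderiv ℝ (R.ex a b) (tmChart n a ξ) δ) -
      R.G a (ch n a ξ.proj) (tmChart n a ξ).2 δ.1 = fderiv ℝ (R.en a) (tmChart n a ξ) δ := by
  rw [← g2c_th_sub h.1 δ h.2]
  have h0 : (R.Φ 0 ξ).proj ∈ (ch n a).source := by rw [R.flow.zero]; exact h.1
  have e1 : (fderiv ℝ (g2c_fam R a ξ δ b) (1, 0) (0, 1)).1 = fderiv ℝ (R.ex a b) (tmChart n a ξ) δ := by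
    have h1 := chexp_fst (g2c_slice ((g2c_fam_smooth h.1 δ h.2).differentiableAt (by simp)))
    exact h1.unique (g2c_comp_line (h.contDiffAt_ex.differentiableAt (by simp)) δ)
  have e0 : fderiv ℝ (g2c_fam R a ξ δ a) (0, 0) (0, 1) = δ := by
    have h1 := g2c_slice ((g2c_fam_smooth h.1 δ h0).differentiableAt (by simp))
    refine h1.unique ((g2c_line (tmChart n a ξ) δ).congr_of_eventuallyEq ?_)
    filter_upwards [g2c_target h.1 δ] with l hl
    simp only [g2c_fam, g2c_ini, R.flow.zero, (tmChart n a).right_inv hl]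
  unfold g2c_th
  rw [e1, e0, g2c_fam_zero h.1, g2c_fam_zero h.1, R.flow.zero, tmChart_fst, tmChart_fst]

/-- Gauss lemma (`δ = (0, w)`, `a = x`, `tmChart_mkT`, `tmChart_symm_center`, `chartG_center`, `fderiv_en_snd`) -/
theorem Riem.gauss_exp (R : Riem n M) {x b : M} {v : EE n} (h : R.exp x v ∈ (ch n b).source) (w : EE n) :
    R.G b (ch n b (R.exp x v)) (tmChart n b (R.Φ 1 (mkT x v))).2 (fderiv ℝ (fun u => ch n b (R.exp x u)) v w) =
      R.q x v w := by
  have hD : R.Dom x b (mkT x v) := ⟨mem_chart_source _ x, h⟩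
  have h1 := hD.gauss (0, w)
  have hx : ch n x x ∈ (ch n x).target := (ch n x).map_source (mem_chart_source _ x)
  have hd := hD.contDiffAt_ex.differentiableAt (by simp)
  have hd2 := (R.contDiffAt_exp h).differentiableAt (by simp)
  have e : fderiv ℝ (fun u => ch n b (R.exp x u)) v w = fderiv ℝ (R.ex x b) (tmChart n x (mkT x v)) (0, w) := by
    refine (g2c_comp_line hd2 w).unique ((g2c_comp_line hd (0, w)).congr_of_eventuallyEq (.of_forall fun l => ?_))
    simp only [tmChart_mkT, Prod.smul_mk, smul_zero, Prod.mk_add_mk, add_zero, Riem.ex, Riem.fl, tmChart_symm_center,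
      tmChart_fst]
    rfl
  rw [e]
  rw [map_zero, sub_zero, R.fderiv_en_snd (by rw [tmChart_mkT]; exact hx), tmChart_mkT] at h1
  rw [tmChart_mkT]
  exact h1.trans (chartG_center R.g x v w)

end Crest.Agent.R226.G

end
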