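import Crest.Agent.R226.G2d0

/-!
# R226 / G2d: local inverse of the exponential map, smoothness of the cost

Prefix for auxiliary lemmas: `g2d_`.
-/

set_option autoImplicit false
set_option linter.unusedSectionVars false

open scoped ContDiff Manifold Topology
open Bundle Set Filter Metric

noncomputable section

namespace Crest.Agent.R226.G

variable {n : ℕ} {M : Type*} [MetricSpace M] [ChartedSpace (EE n) M] [IsManifold 𝓘(ℝ, EE n) ∞ M]

namespace Riem

variable {R : Riem n M} {a b : M} {ξ : TM n M}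

/-- If the minimising vector of `(x, y)` is unique, minimising vectors of nearby pairs are close to it: the compact set
`{Min} \ interior N` has a closed image under `η ↦ (η.proj, (Φ 1 η).proj)` which misses `(x, y)`. -/
theorem eventually_min_mem [CompactSpace M]
    (hu : ∀ v, R.exp ξ.proj v = (R.Φ 1 ξ).proj → R.Min ξ.proj v → v = vecT ξ) {N : Set (TM n M)} (hN : N ∈ 𝓝 ξ) :
    ∀ᶠ p : M × M in 𝓝 (ξ.proj, (R.Φ 1 ξ).proj), ∀ v, R.exp p.1 v = p.2 → R.Min p.1 v → mkT p.1 v ∈ N := by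
  have hF : Continuous fun η : TM n M => (η.proj, (R.Φ 1 η).proj) :=
    continuous_projT.prodMk (continuous_projT.comp (R.continuous_Φ 1))
  have hK : IsCompact ({η : TM n M | R.Min η.proj (vecT η)} \ interior N) :=
    R.isCompact_min.diff isOpen_interior
  have hC := (hK.image hF).isClosed
  have h0 : (ξ.proj, (R.Φ 1 ξ).proj) ∈
      ((fun η : TM n M => (η.proj, (R.Φ 1 η).proj)) ''
        ({η : TM n M | R.Min η.proj (vecT η)} \ interior N))ᶜ := by
    rintro ⟨η, ⟨hm, hn⟩, e⟩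
    have e1 : η.proj = ξ.proj := congrArg Prod.fst e
    have e2 : (R.Φ 1 η).proj = (R.Φ 1 ξ).proj := congrArg Prod.snd e
    have hm' : R.Min η.proj (vecT η) := hm
    rw [← R.exp_vecT η] at e2
    rw [e1] at e2 hm'
    have e3 := hu _ e2 hm'
    apply hn
    have : η = ξ := by rw [← mkT_vecT η, e1, e3, mkT_vecT]
    rw [this]
    exact mem_interior_iff_mem_nhds.2 hN
  filter_upwards [hC.isOpen_compl.mem_nhds h0] with p hp v hv hm
  by_contra hn
  exact hp ⟨mkT p.1 v, ⟨hm, fun h => hn (interior_subset h)⟩, Prod.ext rfl hv⟩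

/-- For `p` near the point, `x' = (ch a).symm p.1`, `y' = (ch b).symm p.2` have a minimising vector `v'` with
`tmChart a (mkT x' v')` in the set where `Λ` is a left inverse, so it equals `(p.1, Λ p)`; `Min.cst_eq`, `en_apply`. -/
theorem Dom.smoothAt [CompactSpace M] (h : R.Dom a b ξ) (hn : R.NonFocal ξ.proj (vecT ξ))
    (hex : ∀ᶠ p : M × M in 𝓝 (ξ.proj, (R.Φ 1 ξ).proj), ∃ v, R.exp p.1 v = p.2 ∧ R.Min p.1 v)
    (hu : ∀ v, R.exp ξ.proj v = (R.Φ 1 ξ).proj → R.Min ξ.proj v → v = vecT ξ) : R.SmoothAt a b ξ := by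
  obtain ⟨Λ, h1, h2, h3, h4⟩ := h.exists_log hn
  have hc : ContinuousAt (tmChart n a) ξ := (tmChart n a).continuousAt (mem_tmChart_source.2 h.1)
  have hN : {η : TM n M | R.Dom a b η ∧
      Λ ((tmChart n a η).1, R.ex a b (tmChart n a η)) = (tmChart n a η).2} ∈ 𝓝 ξ :=
    h.eventually_nhds.and (hc.eventually h4)
  have ha := (ch n a).map_source h.1
  have hb := (ch n b).map_source h.2
  have hT : Tendsto (fun p : EE n × EE n => ((ch n a).symm p.1, (ch n b).symm p.2))
      (𝓝 (ch n a ξ.proj, ch n b (R.Φ 1 ξ).proj)) (𝓝 (ξ.proj, (R.Φ 1 ξ).proj)) :=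
    (((ch n a).tendsto_symm h.1).comp continuousAt_fst.tendsto).prodMk_nhds
      (((ch n b).tendsto_symm h.2).comp continuousAt_snd.tendsto)
  have htg : ∀ᶠ p : EE n × EE n in 𝓝 (ch n a ξ.proj, ch n b (R.Φ 1 ξ).proj),
      p.1 ∈ (ch n a).target ∧ p.2 ∈ (ch n b).target :=
    (continuousAt_fst.eventually ((ch n a).open_target.mem_nhds ha)).and
      (continuousAt_snd.eventually ((ch n b).open_target.mem_nhds hb))
  have key : ∀ᶠ p in 𝓝 (ch n a ξ.proj, ch n b (R.Φ 1 ξ).proj),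
      (R.Φ 1 ((tmChart n a).symm (p.1, Λ p))).proj = (ch n b).symm p.2 ∧ cc n a b p = R.en a (p.1, Λ p) := by
    filter_upwards [hT.eventually hex, hT.eventually (eventually_min_mem hu hN), htg] with p ⟨v, hv, hm⟩ hp ht
    obtain ⟨hd, hl⟩ := hp v hv hm
    have e1 : (tmChart n a (mkT ((ch n a).symm p.1) v)).1 = p.1 := by
      rw [tmChart_fst, mkT_proj]
      exact (ch n a).right_inv ht.1
    have e0 : (R.Φ 1 (mkT ((ch n a).symm p.1) v)).proj = (ch n b).symm p.2 := hv
    have e2 : R.ex a b (tmChart n a (mkT ((ch n a).symm p.1) v)) = p.2 := by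
      rw [ex_apply hd.1, e0]
      exact (ch n b).right_inv ht.2
    rw [e1, e2] at hl
    have e3 : (p.1, Λ p) = tmChart n a (mkT ((ch n a).symm p.1) v) := Prod.ext e1.symm hl
    rw [e3, (tmChart n a).left_inv (mem_tmChart_source.2 hd.1), en_apply hd.1]
    refine ⟨e0, ?_⟩
    have e4 := hm.cst_eq
    rw [hv] at e4
    exact e4
  have hev : cc n a b =ᶠ[𝓝 (ch n a ξ.proj, ch n b (R.Φ 1 ξ).proj)] fun p => R.en a (p.1, Λ p) :=
    key.mono fun p hp => hp.2
  refine ⟨?_, fun δx δy => ?_, Λ, h1, h2, key, h4⟩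
  · refine ContDiffAt.congr_of_eventuallyEq ?_ hev
    exact (R.contDiffAt_en (p := (ch n a ξ.proj, Λ (ch n a ξ.proj, ch n b (R.Φ 1 ξ).proj))) ha).comp
      (ch n a ξ.proj, ch n b (R.Φ 1 ξ).proj) (contDiffAt_fst.prodMk h1)
  · rw [hev.fderiv_eq]
    exact h.hasFDerivAt_en_log (h1.differentiableAt (by simp)) h2 h3 δx δy

/-- near a point of smoothness all vectors are minimising (last two fields of `log`) -/
theorem SmoothAt.eventually_min (h : R.SmoothAt a b ξ) (hd : R.Dom a b ξ) : ∀ᶠ η in 𝓝 ξ, R.Min η.proj (vecT η) := by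
  obtain ⟨Λ, -, -, h3, h4⟩ := h.log
  have hc : ContinuousAt (tmChart n a) ξ := (tmChart n a).continuousAt (mem_tmChart_source.2 hd.1)
  have hT : Tendsto (fun η : TM n M => (ch n a η.proj, ch n b (R.Φ 1 η).proj)) (𝓝 ξ)
      (𝓝 (ch n a ξ.proj, ch n b (R.Φ 1 ξ).proj)) :=
    (((ch n a).continuousAt hd.1).tendsto.comp (continuous_projT.tendsto ξ)).prodMk_nhds
      (((ch n b).continuousAt hd.2).tendsto.comp ((continuous_projT.comp (R.continuous_Φ 1)).tendsto ξ))
  filter_upwards [hd.eventually_nhds, hc.eventually h4, hT.eventually h3] with η hη hl ⟨_, he⟩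
  rw [ex_apply hη.1, tmChart_fst] at hl
  have e3 : (ch n a η.proj, Λ (ch n a η.proj, ch n b (R.Φ 1 η).proj)) = tmChart n a η :=
    Prod.ext (tmChart_fst a η).symm hl
  rw [e3, en_apply hη.1, R.energy_eq_nrm] at he
  simp only [cc, cst, (ch n a).left_inv hη.1, (ch n b).left_inv hη.2] at he
  have e4 : dist η.proj (R.Φ 1 η).proj ^ 2 = R.nrm η.proj (vecT η) ^ 2 := by linarith
  exact (pow_left_inj₀ dist_nonneg (R.nrm_nonneg _ _) two_ne_zero).1 e4

end Riem

end Crest.Agent.R226.G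

end
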