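import Crest.Agent.R226.G2c

/-!
# R226 / G2d0: local inverse of the exponential map, smoothness of the cost

Prefix for auxiliary lemmas: `g2d0_`.
-/

set_option autoImplicit false
set_option linter.unusedSectionVars false

open scoped ContDiff Manifold Topology
open Bundle Set Filter Metric

noncomputable section

namespace Crest.Agent.R226.G

variable {n : ℕ} {M : Type*} [MetricSpace M] [ChartedSpace (EE n) M] [IsManifold 𝓘(ℝ, EE n) ∞ M]

namespace Riem

variable {R : Riem n M} {a b : M} {ξ : TM n M}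

theorem g2d0_ift {E : Type} [NormedAddCommGroup E] [NormedSpace ℝ E] [FiniteDimensional ℝ E]
    {f : E × E → E} {p : E × E} (hf : ContDiffAt ℝ ∞ f p)
    (hn : ∀ w, fderiv ℝ f p (0, w) = 0 → w = 0) :
    ∃ Λ : E × E → E, ContDiffAt ℝ ∞ Λ (p.1, f p) ∧ Λ (p.1, f p) = p.2 ∧
      (∀ᶠ q in 𝓝 (p.1, f p), f (q.1, Λ q) = q.2) ∧ ∀ᶠ q in 𝓝 p, Λ (q.1, f q) = q.2 := by
  have : CompleteSpace E := FiniteDimensional.complete ℝ E
  set F : E × E → E × E := fun q => (q.1, f q) with hF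
  have hFc : ContDiffAt ℝ ∞ F p := contDiffAt_fst.prodMk hf
  set D : E × E →L[ℝ] E × E := (ContinuousLinearMap.fst ℝ E E).prod (fderiv ℝ f p) with hD
  have hFd : HasFDerivAt F D p :=
    hasFDerivAt_fst.prodMk (hf.differentiableAt (by simp)).hasFDerivAt
  have hinj : Function.Injective D := by
    rw [injective_iff_map_eq_zero]
    rintro ⟨x, w⟩ h
    have h1 : x = 0 := congrArg Prod.fst h
    have h2 : fderiv ℝ f p (x, w) = 0 := congrArg Prod.snd h
    subst h1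
    rw [hn w h2]
    rfl
  let e : (E × E) ≃L[ℝ] (E × E) :=
    (LinearEquiv.ofInjectiveEndo (D : E × E →ₗ[ℝ] E × E) hinj).toContinuousLinearEquiv
  have hFe : HasFDerivAt F (e : E × E →L[ℝ] E × E) p := by
    have he : (e : E × E →L[ℝ] E × E) = D := ContinuousLinearMap.ext fun _ => rfl
    rw [he]; exact hFd
  have hne : (∞ : WithTop ℕ∞) ≠ 0 := by simp
  have hs := hFc.hasStrictFDerivAt' hFe hne
  refine ⟨fun q => (hFc.localInverse hFe hne q).2, (hFc.to_localInverse hFe hne).snd,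
    congrArg Prod.snd (hFc.localInverse_apply_image hFe hne), ?_, ?_⟩
  · filter_upwards [hs.eventually_right_inverse] with q hq
    have h1 : (hFc.localInverse hFe hne q).1 = q.1 := (Prod.ext_iff.1 hq).1
    have h2 : f (hFc.localInverse hFe hne q) = q.2 := congrArg Prod.snd hq
    rw [← h1]
    exact h2
  · filter_upwards [hs.eventually_left_inverse] with q hq
    exact congrArg Prod.snd hq

/-- inverse function theorem (`ContDiffAt.toOpenPartialHomeomorph`, `ContDiffAt.to_localInverse`; for `∞` use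
`OpenPartialHomeomorph.contDiffAt_symm`) for `p ↦ (p.1, ex a b p)`, whose derivative is injective (`nonFocal_iff`) -/
theorem Dom.exists_log (h : R.Dom a b ξ) (hn : R.NonFocal ξ.proj (vecT ξ)) :
    ∃ Λ : EE n × EE n → EE n, ContDiffAt ℝ ∞ Λ (ch n a ξ.proj, ch n b (R.Φ 1 ξ).proj) ∧
      Λ (ch n a ξ.proj, ch n b (R.Φ 1 ξ).proj) = (tmChart n a ξ).2 ∧
      (∀ᶠ p in 𝓝 (ch n a ξ.proj, ch n b (R.Φ 1 ξ).proj), R.ex a b (p.1, Λ p) = p.2) ∧
      ∀ᶠ p in 𝓝 (tmChart n a ξ), Λ (p.1, R.ex a b p) = p.2 := by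
  have := g2d0_ift h.contDiffAt_ex (h.nonFocal_iff.1 hn)
  rwa [ex_apply h.1, tmChart_fst] at this

/-- Derivative of `p ↦ en a (p.1, Λ p)` for a differentiable right inverse `Λ`: `gauss` at `ξ` with
`δ = (δx, DΛ (δx, δy))`, for which `D ex δ = δy`. -/
theorem Dom.hasFDerivAt_en_log (h : R.Dom a b ξ) {Λ : EE n × EE n → EE n}
    (hd : DifferentiableAt ℝ Λ (ch n a ξ.proj, ch n b (R.Φ 1 ξ).proj))
    (h0 : Λ (ch n a ξ.proj, ch n b (R.Φ 1 ξ).proj) = (tmChart n a ξ).2)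
    (h1 : ∀ᶠ p in 𝓝 (ch n a ξ.proj, ch n b (R.Φ 1 ξ).proj), R.ex a b (p.1, Λ p) = p.2) (δx δy : EE n) :
    fderiv ℝ (fun p : EE n × EE n => R.en a (p.1, Λ p)) (ch n a ξ.proj, ch n b (R.Φ 1 ξ).proj) (δx, δy) =
      R.G b (ch n b (R.Φ 1 ξ).proj) (tmChart n b (R.Φ 1 ξ)).2 δy - R.G a (ch n a ξ.proj) (tmChart n a ξ).2 δx := by
  set p0 : EE n × EE n := (ch n a ξ.proj, ch n b (R.Φ 1 ξ).proj) with hp0
  have e0 : (p0.1, Λ p0) = tmChart n a ξ := Prod.ext rfl h0
  have hm : HasFDerivAt (fun p : EE n × EE n => (p.1, Λ p))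
      ((ContinuousLinearMap.fst ℝ (EE n) (EE n)).prod (fderiv ℝ Λ p0)) p0 :=
    hasFDerivAt_fst.prodMk hd.hasFDerivAt
  have hex : HasFDerivAt (R.ex a b) (fderiv ℝ (R.ex a b) (tmChart n a ξ)) (p0.1, Λ p0) := by
    rw [e0]; exact (h.contDiffAt_ex.differentiableAt (by simp)).hasFDerivAt
  have hen : HasFDerivAt (R.en a) (fderiv ℝ (R.en a) (tmChart n a ξ)) (p0.1, Λ p0) := by
    rw [e0]
    exact ((R.contDiffAt_en (p := tmChart n a ξ) ((ch n a).map_source h.1)).differentiableAt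
      (by simp)).hasFDerivAt
  have h2 := hex.comp p0 hm
  have h3 : HasFDerivAt (R.ex a b ∘ fun p : EE n × EE n => (p.1, Λ p))
      (ContinuousLinearMap.snd ℝ (EE n) (EE n)) p0 := hasFDerivAt_snd.congr_of_eventuallyEq h1
  have h4 : fderiv ℝ (R.ex a b) (tmChart n a ξ) (δx, fderiv ℝ Λ p0 (δx, δy)) = δy :=
    congrArg (fun L : EE n × EE n →L[ℝ] EE n => L (δx, δy)) (h2.unique h3)
  have h5 := h.gauss (δx, fderiv ℝ Λ p0 (δx, δy))
  rw [h4] at h5
  rw [h5]
  exact congrArg (fun L : EE n × EE n →L[ℝ] ℝ => L (δx, δy)) (hen.comp p0 hm).fderiv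

end Riem
end Crest.Agent.R226.G

end
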