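import Crest.Agent.R226.G3a

/-!
# R226 / G3: short geodesics are minimising

Prefix for auxiliary lemmas: `g3_`.
-/

set_option autoImplicit false
set_option linter.unusedSectionVars false

open scoped ContDiff Manifold Topology
open Bundle Set Filter Metric

noncomputable section

namespace Crest.Agent.R226.G

variable {n : ℕ} {M : Type*} [MetricSpace M] [ChartedSpace (EE n) M] [IsManifold 𝓘(ℝ, EE n) ∞ M]

namespace Riem

variable (R : Riem n M)

/-- near the zero section `exp` is injective on fibres (left inverse `Λ`) -/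
theorem exists_inj_nhds (x₀ : M) : ∃ N ∈ 𝓝 (mkT x₀ (0 : EE n)), ∀ x v v', mkT x v ∈ N → mkT x v' ∈ N →
    R.exp x v = R.exp x v' → v = v' := by
  have hd : R.Dom x₀ x₀ (mkT x₀ (0 : EE n)) := by
    refine ⟨mem_chart_source _ x₀, ?_⟩
    change R.exp x₀ 0 ∈ _
    rw [R.exp_zero]
    exact mem_chart_source _ x₀
  obtain ⟨Λ, -, -, -, hΛ⟩ := hd.exists_log (R.nonFocal_zero x₀)
  have hsrc : mkT x₀ (0 : EE n) ∈ (tmChart n x₀).source := mem_tmChart_source.2 (mem_chart_source _ x₀)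
  have h1 := ((tmChart n x₀).continuousAt hsrc).eventually hΛ
  have h2 : ∀ᶠ η in 𝓝 (mkT x₀ (0 : EE n)), η ∈ (tmChart n x₀).source := (tmChart n x₀).open_source.mem_nhds hsrc
  refine ⟨_, h1.and h2, fun x v v' hv hv' he => ?_⟩
  obtain ⟨hv1, hv2⟩ := hv
  obtain ⟨hv1', hv2'⟩ := hv'
  rw [ex_apply (mem_tmChart_source.1 hv2), tmChart_fst] at hv1
  rw [ex_apply (mem_tmChart_source.1 hv2'), tmChart_fst] at hv1'
  have e1 : (R.Φ 1 (mkT x v)).proj = (R.Φ 1 (mkT x v')).proj := he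
  have e2 : tmChart n x₀ (mkT x v) = tmChart n x₀ (mkT x v') := by
    refine Prod.ext (by rw [tmChart_fst, tmChart_fst]; rfl) ?_
    rw [← hv1, ← hv1', e1]
    rfl
  exact congrArg vecT ((tmChart n x₀).injOn hv2 hv2' e2)

/-- the properties of a normal radius -/
structure Rad (r : ℝ) : Prop where
  pos : 0 < r
  ex : ∀ x y, dist x y < r → ∃ v, R.exp x v = y ∧ R.Min x v
  inj : ∀ x v v', R.nrm x v < r → R.nrm x v' < r → R.exp x v = R.exp x v' → v = v'
  min : ∀ x v, R.nrm x v < r → R.Min x v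
  nf : ∀ x v, R.nrm x v < r → R.NonFocal x v
  sm : ∀ a b ξ, R.Dom a b ξ → R.nrm ξ.proj (vecT ξ) < r → R.SmoothAt a b ξ

/-- `ex`: `exists_min_nhds` and compactness (`nhdsSet_diagonal_eq_uniformity` or the Lebesgue number lemma); `inj`, `nf`:
`tube`; `min`: from `ex`, `inj`, `dist_exp_le`; `sm`: `Dom.smoothAt`. -/
theorem exists_rad [CompactSpace M] : ∃ r, R.Rad r := by
  have h1 : ∀ᶠ p : M × M in uniformity M, ∃ v, R.exp p.1 v = p.2 ∧ R.Min p.1 v := by
    rw [← nhdsSet_diagonal_eq_uniformity, eventually_nhdsSet_iff_forall]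
    rintro ⟨x, y⟩ hxy
    obtain rfl : x = y := hxy
    exact R.exists_min_nhds x
  obtain ⟨r₁, hr₁, h1⟩ := Metric.mem_uniformity_dist.1 h1
  choose N hN hN' using R.exists_inj_nhds
  obtain ⟨r₂, hr₂, h2⟩ := R.tube N hN
  obtain ⟨r₃, hr₃, h3⟩ := R.tube (fun _ => {ξ : TM n M | R.NonFocal ξ.proj (vecT ξ)})
    (fun x => R.isOpen_nonFocal.mem_nhds (R.nonFocal_zero x))
  set r := min r₁ (min r₂ r₃) with hr
  have hr1 : r ≤ r₁ := min_le_left _ _
  have hr2 : r ≤ r₂ := (min_le_right _ _).trans (min_le_left _ _)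
  have hr3 : r ≤ r₃ := (min_le_right _ _).trans (min_le_right _ _)
  have hex : ∀ x y, dist x y < r → ∃ v, R.exp x v = y ∧ R.Min x v := fun x y h => h1 (h.trans_le hr1)
  have hinj : ∀ x v v', R.nrm x v < r → R.nrm x v' < r → R.exp x v = R.exp x v' → v = v' := by
    intro x v v' hv hv' he
    obtain ⟨x₀, hx₀⟩ := h2 x
    exact hN' x₀ x v v' (hx₀ v (hv.trans_le hr2)) (hx₀ v' (hv'.trans_le hr2)) he
  have hnf : ∀ x v, R.nrm x v < r → R.NonFocal x v := by
    intro x v hv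
    obtain ⟨x₀, hx₀⟩ := h3 x
    exact hx₀ v (hv.trans_le hr3)
  have huniq : ∀ x v v', R.nrm x v < r → R.exp x v' = R.exp x v → R.Min x v' → v' = v := by
    intro x v v' hv he hm
    refine hinj x v' v ?_ hv he
    have : dist x (R.exp x v') = R.nrm x v' := hm
    rw [← this, he]
    exact (R.dist_exp_le x v).trans_lt hv
  refine ⟨r, lt_min hr₁ (lt_min hr₂ hr₃), hex, hinj, ?_, hnf, ?_⟩
  · intro x v hv
    obtain ⟨v', he, hm⟩ := hex x (R.exp x v) ((R.dist_exp_le x v).trans_lt hv)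
    rw [← huniq x v v' hv he hm]
    exact hm
  · intro a b ξ hd hξ
    refine hd.smoothAt (hnf _ _ hξ) ?_ fun v he hm => huniq _ _ v hξ he hm
    have : ∀ᶠ p : M × M in 𝓝 (ξ.proj, (R.Φ 1 ξ).proj), dist p.1 p.2 < r :=
      continuous_dist.continuousAt.eventually_lt continuousAt_const ((R.dist_exp_le ξ.proj (vecT ξ)).trans_lt hξ)
    exact this.mono fun p hp => hex _ _ hp

end Riem

end Crest.Agent.R226.G

end
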