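import Crest.Agent.R226.G2d

/-!
# R226 / G3a: short geodesics are minimising

Prefix for auxiliary lemmas: `g3a_`.
-/

set_option autoImplicit false
set_option linter.unusedSectionVars false

open scoped ContDiff Manifold Topology
open Bundle Set Filter Metric

noncomputable section

namespace Crest.Agent.R226.G

variable {n : ℕ} {M : Type*} [MetricSpace M] [ChartedSpace (EE n) M] [IsManifold 𝓘(ℝ, EE n) ∞ M]

namespace Riem

variable (R : Riem n M)

theorem g3a_tm_zero {a x : M} : tmChart n a (mkT x (0 : EE n)) = (ch n a x, 0) := by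
  refine Prod.ext (tmChart_fst _ _) ?_
  rw [tmChart_snd, vecT_mkT, map_zero]

/-- everything that is needed at the pair `(x, p)` -/
structure g3a_Good (a : M) (Λ : EE n × EE n → EE n) (x p : M) : Prop where
  hx : x ∈ (ch n a).source
  hp : p ∈ (ch n a).source
  dif : DifferentiableAt ℝ Λ (ch n a x, ch n a p)
  inv : ∀ᶠ r in 𝓝 (ch n a x, ch n a p), R.ex a a (r.1, Λ r) = r.2
  tgt : (ch n a x, Λ (ch n a x, ch n a p)) ∈ (tmChart n a).target
  dom : R.Dom a a ((tmChart n a).symm (ch n a x, Λ (ch n a x, ch n a p)))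
  zero : Λ (ch n a x, ch n a x) = 0

theorem g3a_exists (a : M) : ∃ Λ, ∀ᶠ p : M × M in 𝓝 (a, a), R.g3a_Good a Λ p.1 p.2 := by
  have h0 : (R.Φ 1 (mkT a (0 : EE n))).proj = a := R.flow.proj_zero a 1
  have hd : R.Dom a a (mkT a 0) := ⟨mem_chart_source _ a, by rw [h0]; exact mem_chart_source _ a⟩
  obtain ⟨Λ, h1, h2, h3, h4⟩ := hd.exists_log (R.nonFocal_zero a)
  have h5 := hd.eventually
  rw [h0, mkT_proj] at h1 h2 h3
  rw [g3a_tm_zero] at h2 h4 h5
  have hs : ∀ᶠ x in 𝓝 a, x ∈ (ch n a).source := (ch n a).open_source.mem_nhds (mem_chart_source _ a)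
  have hc : ContinuousAt (ch n a) a := (ch n a).continuousAt (mem_chart_source _ a)
  have t1 : Tendsto (Prod.fst : M × M → M) (𝓝 (a, a)) (𝓝 a) := continuous_fst.tendsto (a, a)
  have t2 : Tendsto (Prod.snd : M × M → M) (𝓝 (a, a)) (𝓝 a) := continuous_snd.tendsto (a, a)
  have hφ : Tendsto (fun p : M × M => (ch n a p.1, ch n a p.2)) (𝓝 (a, a)) (𝓝 (ch n a a, ch n a a)) :=
    (hc.tendsto.comp t1).prodMk_nhds (hc.tendsto.comp t2)
  have hΛ : Tendsto (fun p : M × M => (ch n a p.1, Λ (ch n a p.1, ch n a p.2))) (𝓝 (a, a)) (𝓝 (ch n a a, 0)) :=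
    (hc.tendsto.comp t1).prodMk_nhds (by
      have := h1.continuousAt.tendsto.comp hφ
      rwa [h2] at this)
  have hz : Tendsto (fun p : M × M => (ch n a p.1, (0 : EE n))) (𝓝 (a, a)) (𝓝 (ch n a a, 0)) :=
    (hc.tendsto.comp t1).prodMk_nhds tendsto_const_nhds
  have h6 : ∀ᶠ r in 𝓝 (ch n a a, ch n a a), ContDiffAt ℝ 1 Λ r :=
    (h1.of_le (m := 1) (by norm_cast)).eventually (by simp)
  refine ⟨Λ, ?_⟩
  filter_upwards [t1.eventually hs, t2.eventually hs, hφ.eventually h6,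
    hφ.eventually h3.eventually_nhds, hΛ.eventually h5, hz.eventually h4] with p a1 a2 a3 a4 a5 a6
  refine ⟨a1, a2, a3.differentiableAt one_ne_zero, a4, a5.1, a5.2, ?_⟩
  have e : R.ex a a (ch n a p.1, 0) = ch n a p.1 := by
    rw [← g3a_tm_zero, ex_apply (ξ := mkT p.1 0) a1, R.flow.proj_zero]
  simpa only [e] using a6

variable {R} in
theorem g3a_Good.vec {a : M} {Λ : EE n × EE n → EE n} {x p : M} (h : R.g3a_Good a Λ x p) :
    ∃ η : TM n M, η.proj = x ∧ (R.Φ 1 η).proj = p ∧ R.Dom a a η ∧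
      tmChart n a η = (ch n a x, Λ (ch n a x, ch n a p)) := by
  refine ⟨_, ?_, ?_, h.dom, (tmChart n a).right_inv h.tgt⟩
  · rw [tmChart_symm_proj ((ch n a).map_source h.hx), (ch n a).left_inv h.hx]
  · refine (ch n a).injOn h.dom.2 h.hp ?_
    rw [← tmChart_fst]
    exact h.inv.self_of_nhds

variable {R} in
theorem g3a_Good.gradLe {a : M} {Λ : EE n × EE n → EE n} {x p : M} (h : R.g3a_Good a Λ x p) {ε : ℝ} (hε : 0 < ε) :
    GradLe R.g (fun p' => √(2 * R.en a (ch n a x, Λ (ch n a x, ch n a p')) + ε ^ 2)) p 1 := by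
  obtain ⟨η, rfl, rfl, hd, ht⟩ := h.vec
  set y := ch n a η.proj with hy
  set y' := ch n a (R.Φ 1 η).proj with hy'
  have hyt : y ∈ (ch n a).target := (ch n a).map_source h.hx
  have hyt' : y' ∈ (ch n a).target := (ch n a).map_source h.hp
  have d1 : DifferentiableAt ℝ (fun r : EE n × EE n => R.en a (r.1, Λ r)) (y, y') :=
    DifferentiableAt.comp (g := R.en a) (f := fun r : EE n × EE n => (r.1, Λ r)) (y, y')
      ((R.contDiffAt_en (p := (y, Λ (y, y'))) hyt).differentiableAt (by simp)) (differentiableAt_fst.prodMk h.dif)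
  have d2 := hd.hasFDerivAt_en_log h.dif (by rw [ht]) h.inv
  have d3 : HasFDerivAt (fun u : EE n => R.en a (y, Λ (y, u)))
      ((fderiv ℝ (fun r : EE n × EE n => R.en a (r.1, Λ r)) (y, y')).comp (ContinuousLinearMap.inr ℝ _ _)) y' :=
    HasFDerivAt.comp (g := fun r : EE n × EE n => R.en a (r.1, Λ r)) (f := fun u : EE n => (y, u)) y'
      d1.hasFDerivAt (hasFDerivAt_prodMk_right y y')
  have e1 : 2 * R.en a (y, Λ (y, y')) = energy R.g η := by rw [← ht, en_apply hd.1]; ring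
  have e2 : R.G a y' (tmChart n a (R.Φ 1 η)).2 (tmChart n a (R.Φ 1 η)).2 = energy R.g η := by
    rw [← R.flow.energy_eq 1 η, energy_chart R.g hd.2, tmChart_fst]
  have e0 : 0 ≤ energy R.g η := qT_nonneg _ _ _
  have hpos : 0 < 2 * R.en a (y, Λ (y, y')) + ε ^ 2 := by rw [e1]; positivity
  have d4 := ((d3.const_mul 2).add_const (ε ^ 2)).sqrt hpos.ne'
  refine ⟨a, h.hp, _, d4.congr_of_eventuallyEq ?_, fun w => ?_⟩
  · filter_upwards [(ch n a).open_target.mem_nhds hyt'] with u hu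
    rw [(ch n a).right_inv hu]
  · have L := isLC_chart R.g a
    have hn : ∀ v, 0 ≤ R.G a y' v v := fun v => by
      by_cases hv : v = 0
      · simp [hv]
      · exact (L.g_pos _ hyt' v hv).le
    have cs := bilin_cs (L.g_symm _ hyt') hn (tmChart n a (R.Φ 1 η)).2 w
    have d5 := d2 0 w
    rw [map_zero, sub_zero] at d5
    simp only [smul_apply, ContinuousLinearMap.comp_apply, ContinuousLinearMap.inr_apply,
      smul_eq_mul]
    rw [← hy, ← hy'] at d5
    rw [d5, e1]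
    rw [e2] at cs
    have hs : 0 < √(energy R.g η + ε ^ 2) := Real.sqrt_pos.2 (by positivity)
    have hs2 : √(energy R.g η + ε ^ 2) ^ 2 = energy R.g η + ε ^ 2 := Real.sq_sqrt (by positivity)
    have e3 : (1 / (2 * √(energy R.g η + ε ^ 2)) * (2 * R.G a y' (tmChart n a (R.Φ 1 η)).2 w)) ^ 2 =
        R.G a y' (tmChart n a (R.Φ 1 η)).2 w ^ 2 / (energy R.g η + ε ^ 2) := by
      rw [← hs2, Real.sqrt_sq hs.le]; field_simp
    rw [e3, one_pow, one_mul, div_le_iff₀ (by positivity)]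
    nlinarith [hn w, mul_nonneg (hn w) (sq_nonneg ε)]

/-- Normal neighbourhoods.  Take `Λ` from `exists_log` at `mkT x₀ 0` (`nonFocal_zero`, charts `a = b = x₀`) and `ρ` such
that on `ball x₀ (3ρ)` squared everything holds (source of the chart, `Λ` differentiable, right inverse, `Dom`,
`Λ (φ x, φ x) = 0`).  For `x ∈ ball x₀ ρ` and `ε > 0` the function `f p = √(2 en (φ x, Λ (φ x, φ p)) + ε²)` has
`GradLe _ 1` on `ball x (2ρ)` (`hasFDerivAt_en_log`, `bilin_cs`, `flow.energy_eq`, `energy_chart`), so `lip` gives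
`√(2 en) ≤ dist x p`; the converse is `dist_exp_le`. -/
theorem exists_min_nhds (x₀ : M) : ∀ᶠ p : M × M in 𝓝 (x₀, x₀), ∃ v, R.exp p.1 v = p.2 ∧ R.Min p.1 v := by
  obtain ⟨Λ, h⟩ := R.g3a_exists x₀
  obtain ⟨ρ, hρ, h1⟩ := Metric.eventually_nhds_iff_ball.1 h
  have key : ∀ x p, dist x x₀ < ρ → dist p x₀ < ρ → R.g3a_Good x₀ Λ x p := fun x p hx hp =>
    h1 (x, p) (by rw [mem_ball, Prod.dist_eq]; exact max_lt hx hp)
  filter_upwards [ball_mem_nhds (x₀, x₀) (show 0 < ρ / 3 by positivity)] with p hp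
  rw [mem_ball, Prod.dist_eq, max_lt_iff] at hp
  obtain ⟨x, y⟩ := p
  obtain ⟨hx, hy⟩ := hp
  dsimp only at hx hy ⊢
  have hg := key x y (by linarith) (by linarith)
  obtain ⟨η, rfl, rfl, hd, ht⟩ := hg.vec
  refine ⟨vecT η, rfl, le_antisymm (R.dist_exp_le _ _) (le_of_forall_pos_le_add fun ε hε => ?_)⟩
  have h2 := R.lip _ η.proj (R.Φ 1 η).proj (2 * (ρ / 3)) 1 zero_le_one
    (by linarith [dist_triangle_right η.proj (R.Φ 1 η).proj x₀])
    fun p hp => (key η.proj p (by linarith) (by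
      linarith [dist_triangle p η.proj x₀, mem_ball.1 hp])).gradLe hε
  have e1 : 2 * R.en x₀ (ch n x₀ η.proj, Λ (ch n x₀ η.proj, ch n x₀ (R.Φ 1 η).proj)) = energy R.g η := by
    rw [← ht, en_apply hd.1]; ring
  have e2 : R.en x₀ (ch n x₀ η.proj, 0) = 0 := by simp [en]
  rw [e1, hg.zero, e2, mul_zero, zero_add, Real.sqrt_sq hε.le, one_mul] at h2
  have h3 : R.nrm η.proj (vecT η) ≤ √(energy R.g η + ε ^ 2) := Real.sqrt_le_sqrt (le_add_of_nonneg_right (sq_nonneg ε))
  have h4 := (abs_le.1 h2).2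
  rw [exp_vecT]
  linarith

end Riem
end Crest.Agent.R226.G

end
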