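import Crest.Agent.R226.G3

/-!
# R226 / G4a: no corners, Hopf-Rinow, uniqueness of minimising geodesics

Prefix for auxiliary lemmas: `g4a_`.
-/

set_option autoImplicit false
set_option linter.unusedSectionVars false

open scoped ContDiff Manifold Topology
open Bundle Set Filter Metric

noncomputable section

namespace Crest.Agent.R226.G

variable {n : ℕ} {M : Type*} [MetricSpace M] [ChartedSpace (EE n) M] [IsManifold 𝓘(ℝ, EE n) ∞ M]

namespace Riem

variable [CompactSpace M] {R : Riem n M}

/-- derivative of the cost in the first variable at a point of smoothness, in the preferred chart -/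
theorem SmoothAt.hasFDerivAt_left {x b : M} {v : EE n} (h : R.SmoothAt x b (mkT x v))
    (hb : R.exp x v ∈ (ch n b).source) :
    HasFDerivAt (fun y => cst ((ch n x).symm y) (R.exp x v)) (-R.q x v) (ch n x x) := by
  have h1 : HasFDerivAt (cc n x b) (fderiv ℝ (cc n x b) (ch n x x, ch n b (R.exp x v)))
      (ch n x x, ch n b (R.exp x v)) := (h.sm.differentiableAt (by simp)).hasFDerivAt
  have h2 : HasFDerivAt (fun y : EE n => (y, ch n b (R.exp x v))) (ContinuousLinearMap.inl ℝ (EE n) (EE n))
      (ch n x x) := hasFDerivAt_prodMk_left _ _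
  have h3 := HasFDerivAt.comp (ch n x x) (g := cc n x b) h1 h2
  have e1 : (cc n x b ∘ fun y : EE n => (y, ch n b (R.exp x v))) =
      fun y => cst ((ch n x).symm y) (R.exp x v) := by
    funext y
    simp only [Function.comp, cc]
    rw [(ch n b).left_inv hb]
  rw [e1] at h3
  refine h3.congr_fderiv ?_
  ext1 δ
  have h4 := h.der δ 0
  rw [tmChart_mkT, map_zero, zero_sub] at h4
  have h5 : R.G x (ch n x x) v δ = R.q x v δ := chartG_center R.g x v δ
  simp only [neg_apply, ContinuousLinearMap.comp_apply, ContinuousLinearMap.inl_apply]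
  rw [← h5]
  exact h4

/-- No corners.  Replace `u, w` by `ε • u, ε • w` (short; still additive by `Min.dist_eq` and the triangle inequality).
With `s = |u| / (|u| + |w|)`, `p ↦ cst p (exp u) / s + cst p (exp w) / (1 - s)` is minimal at `x` (`cst_le`), so its
derivative `-q u / s - q w / (1 - s)` vanishes (`hasFDerivAt_left`, `IsLocalMin.hasFDerivAt_eq_zero`). -/
theorem no_corner {x : M} {u w : EE n} (hu : R.Min x u) (hw : R.Min x w)
    (h : dist (R.exp x u) (R.exp x w) = R.nrm x u + R.nrm x w) : R.nrm x w • u = -(R.nrm x u • w) := by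
  by_cases hu0 : u = 0
  · simp [hu0, R.nrm_zero]
  by_cases hw0 : w = 0
  · simp [hw0, R.nrm_zero]
  have hA := R.nrm_pos x hu0
  have hB := R.nrm_pos x hw0
  set A := R.nrm x u with hAdef
  set B := R.nrm x w with hBdef
  obtain ⟨r, hr⟩ := R.exists_rad
  have hr0 := hr.pos
  obtain ⟨ε, hε0, hε1, hεr⟩ : ∃ ε : ℝ, 0 < ε ∧ ε ≤ 1 ∧ ε * (A + B) < r := by
    refine ⟨min 1 (r / (2 * (A + B))), lt_min one_pos (by positivity), min_le_left _ _, ?_⟩
    have h1 : min 1 (r / (2 * (A + B))) * (A + B) ≤ r / (2 * (A + B)) * (A + B) :=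
      mul_le_mul_of_nonneg_right (min_le_right _ _) (by positivity)
    have h2 : r / (2 * (A + B)) * (A + B) = r / 2 := by field_simp
    linarith
  have hnu : R.nrm x (ε • u) = ε * A := by rw [R.nrm_smul, abs_of_pos hε0]
  have hnw : R.nrm x (ε • w) = ε * B := by rw [R.nrm_smul, abs_of_pos hε0]
  have hdu : dist x (R.exp x (ε • u)) = ε * A := by rw [← hnu]; exact hu.smul hε0.le hε1
  have hdw : dist x (R.exp x (ε • w)) = ε * B := by rw [← hnw]; exact hw.smul hε0.le hε1
  have hd : dist (R.exp x (ε • u)) (R.exp x (ε • w)) = ε * (A + B) := by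
    apply le_antisymm
    · have := dist_triangle_left (R.exp x (ε • u)) (R.exp x (ε • w)) x
      rw [hdu, hdw] at this
      linarith
    · have h1 := hu.dist_eq hε0.le hε1 le_rfl
      have h2 := hw.dist_eq hε0.le hε1 le_rfl
      rw [one_smul] at h1 h2
      have h3 := dist_triangle4 (R.exp x u) (R.exp x (ε • u)) (R.exp x (ε • w)) (R.exp x w)
      rw [h, dist_comm (R.exp x u), h1, h2] at h3
      linarith
  have hsu : R.SmoothAt x (R.exp x (ε • u)) (mkT x (ε • u)) :=
    hr.sm _ _ _ ⟨mem_chart_source _ x, mem_chart_source _ _⟩ (by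
      change R.nrm x (ε • u) < r
      rw [hnu]; nlinarith)
  have hsw : R.SmoothAt x (R.exp x (ε • w)) (mkT x (ε • w)) :=
    hr.sm _ _ _ ⟨mem_chart_source _ x, mem_chart_source _ _⟩ (by
      change R.nrm x (ε • w) < r
      rw [hnw]; nlinarith)
  have hfu := hsu.hasFDerivAt_left (mem_chart_source _ _)
  have hfw := hsw.hasFDerivAt_left (mem_chart_source _ _)
  have hs0 : 0 < A / (A + B) := by positivity
  have hs1 : A / (A + B) < 1 := by rw [div_lt_one (by positivity)]; linarith
  have hs2 : 1 - A / (A + B) = B / (A + B) := by field_simp; ring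
  have hf := (hfu.const_mul ((A + B) / A)).add (hfw.const_mul ((A + B) / B))
  have hmin : IsLocalMin ((fun y => (A + B) / A * cst ((ch n x).symm y) (R.exp x (ε • u))) +
      fun y => (A + B) / B * cst ((ch n x).symm y) (R.exp x (ε • w))) (ch n x x) := by
    refine Filter.Eventually.of_forall fun y => ?_
    have h1 := cst_le (R.exp x (ε • u)) ((ch n x).symm y) (R.exp x (ε • w)) hs0 hs1
    rw [hs2, cst_comm (R.exp x (ε • u)) ((ch n x).symm y), div_div_eq_mul_div, div_div_eq_mul_div] at h1
    simp only [Pi.add_apply]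
    rw [(ch n x).left_inv (mem_chart_source _ x)]
    have h2 : (A + B) / A * cst x (R.exp x (ε • u)) + (A + B) / B * cst x (R.exp x (ε • w)) =
        cst (R.exp x (ε • u)) (R.exp x (ε • w)) := by
      simp only [cst]
      rw [hdu, hdw, hd]
      field_simp
    rw [h2]
    refine h1.trans (le_of_eq ?_)
    ring
  have h0 := hmin.hasFDerivAt_eq_zero hf
  have h1 : B • u + A • w = 0 := by
    by_contra hne
    have h2 := R.q_pos x hne
    have h3 := congrArg (fun L : EE n →L[ℝ] ℝ => L (B • u + A • w)) h0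
    simp only [add_apply, smul_apply, neg_apply, zero_apply, smul_eq_mul, map_smul (R.q x)] at h3
    have h4 : R.q x (B • u + A • w) (B • u + A • w) =
        B * R.q x u (B • u + A • w) + A * R.q x w (B • u + A • w) := by
      rw [map_add (R.q x), map_smul (R.q x), map_smul (R.q x)]
      rfl
    generalize R.q x u (B • u + A • w) = P at h3 h4
    generalize R.q x w (B • u + A • w) = Q at h3 h4
    have h5 : (A + B) / A * -(ε * P) + (A + B) / B * -(ε * Q) = -((A + B) * ε / (A * B)) * (B * P + A * Q) := by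
      field_simp
      ring
    rw [h5, ← h4] at h3
    have h6 : 0 < (A + B) * ε / (A * B) := by positivity
    nlinarith [mul_pos h6 h2]
  exact eq_neg_of_add_eq_zero_left h1

/-- a broken minimising geodesic is a geodesic: `no_corner` at `exp x v` for `-fin x v` and `w`; `exp_fin` -/
theorem Min.straight {x : M} {v w : EE n} (hv : R.Min x v) (h0 : v ≠ 0) (hw : R.Min (R.exp x v) w)
    (h : dist x (R.exp (R.exp x v) w) = R.nrm x v + R.nrm (R.exp x v) w) :
    w = (R.nrm (R.exp x v) w / R.nrm x v) • R.fin x v ∧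
      R.exp (R.exp x v) w = R.exp x ((1 + R.nrm (R.exp x v) w / R.nrm x v) • v) := by
  have hpos := R.nrm_pos x h0
  have hn : R.nrm (R.exp x v) (-R.fin x v) = R.nrm x v := by rw [R.nrm_neg, R.nrm_fin]
  have h1 := no_corner hv.rev hw (by rw [R.exp_neg_fin, hn]; exact h)
  rw [hn, smul_neg, neg_inj] at h1
  have h2 : w = (R.nrm (R.exp x v) w / R.nrm x v) • R.fin x v := by
    rw [div_eq_inv_mul, ← smul_smul, h1, smul_smul, inv_mul_cancel₀ hpos.ne', one_smul]
  refine ⟨h2, ?_⟩
  rw [← R.exp_fin, ← h2]

end Riem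
end Crest.Agent.R226.G

end
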