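import Crest.Agent.R226.G1Defs

/-!
# R226 / G5a: no focal points in the injectivity domain

Prefix for auxiliary lemmas: `g5a_`.
-/

set_option autoImplicit false
set_option linter.unusedSectionVars false

open scoped ContDiff Manifold Topology
open Bundle Set Filter Metric

noncomputable section

namespace Crest.Agent.R226.G

variable {n : ℕ} {M : Type*} [MetricSpace M] [ChartedSpace (EE n) M] [IsManifold 𝓘(ℝ, EE n) ∞ M]

theorem g5a_line {F : Type} [NormedAddCommGroup F] [NormedSpace ℝ F] {f : F → ℝ} {p : F} (hf : ContDiffAt ℝ 2 f p)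
    {c : ℝ → F} {v : F} (h0 : c 0 = p) (hc : HasDerivAt c v 0) (w : F) :
    HasDerivAt (fun t => fderiv ℝ f (c t) w) (fderiv ℝ (fderiv ℝ f) p v w) 0 := by
  have h1 : DifferentiableAt ℝ (fderiv ℝ f) (c 0) := by
    rw [h0]
    exact (hf.fderiv_right (m := 1) (by norm_num)).differentiableAt one_ne_zero
  have h2 := h1.hasFDerivAt.comp_hasDerivAt (0 : ℝ) hc
  rw [h0] at h2
  simpa using h2.clm_apply (hasDerivAt_const (0 : ℝ) w)

theorem g5a_psd {F : Type} [NormedAddCommGroup F] [NormedSpace ℝ F] {f : F → ℝ} {p : F} (hf : ContDiffAt ℝ 2 f p)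
    (hm : IsLocalMin f p) (v : F) : 0 ≤ fderiv ℝ (fderiv ℝ f) p v v := by
  by_contra hneg
  have hc : ∀ t : ℝ, HasDerivAt (fun t : ℝ => p + t • v) v t := fun t => by
    simpa using ((hasDerivAt_id t).smul_const v).const_add p
  have h0 : p + (0 : ℝ) • v = p := by simp
  have hct : Tendsto (fun t : ℝ => p + t • v) (𝓝 0) (𝓝 p) := by
    have := (hc 0).continuousAt.tendsto
    rwa [h0] at this
  have hd : ∀ᶠ t in 𝓝 (0 : ℝ), deriv (fun t : ℝ => f (p + t • v)) t = fderiv ℝ f (p + t • v) v := by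
    filter_upwards [hct.eventually (hf.eventually (by simp))] with t ht
    exact ((ht.differentiableAt (by simp)).hasFDerivAt.comp_hasDerivAt t (hc t)).deriv
  have h2 : deriv (deriv fun t : ℝ => f (p + t • v)) 0 = fderiv ℝ (fderiv ℝ f) p v v :=
    ((g5a_line hf h0 (hc 0) v).congr_of_eventuallyEq hd).deriv
  have hm' : IsLocalMin (fun t : ℝ => f (p + t • v)) 0 := by
    have : IsLocalMin f ((fun t : ℝ => p + t • v) 0) := by simpa using hm
    exact IsLocalMin.comp_continuous (g := fun t : ℝ => p + t • v) (b := 0) this (hc 0).continuousAt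
  have hcont : ContinuousAt (fun t : ℝ => f (p + t • v)) 0 :=
    ContinuousAt.comp (by simpa using hf.continuousAt) (hc 0).continuousAt
  have hM := isLocalMax_of_deriv_deriv_neg (h2 ▸ not_le.1 hneg) hm'.deriv_eq_zero hcont
  have he : (fun t : ℝ => f (p + t • v)) =ᶠ[𝓝 0] fun _ => f (p + (0 : ℝ) • v) := by
    filter_upwards [hm', hM] with t h1 h2 using le_antisymm h2 h1
  rw [he.deriv.deriv_eq] at h2
  exact hneg (by simp [← h2])

/-- a positive semidefinite Hessian: at a local minimum of a `C²` function, `D²f(ζ, ζ) = 0` implies `D²f(ζ, ·) = 0`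
(`ContDiffAt.isSymmSndFDerivAt`, second derivative test along lines, `bilin_cs`) -/
theorem hess_eq_zero {F : Type} [NormedAddCommGroup F] [NormedSpace ℝ F] {f : F → ℝ} {p ζ : F} (hf : ContDiffAt ℝ 2 f p)
    (hm : IsLocalMin f p) (h : fderiv ℝ (fderiv ℝ f) p ζ ζ = 0) (η : F) : fderiv ℝ (fderiv ℝ f) p ζ η = 0 := by
  have hs := hf.isSymmSndFDerivAt (by simp)
  have h1 := discrim_le_zero (a := 0) (b := 2 * fderiv ℝ (fderiv ℝ f) p ζ η) (c := fderiv ℝ (fderiv ℝ f) p η η)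
    fun t => by
      have := g5a_psd hf hm (t • ζ + η)
      simp only [map_add, map_smul, add_apply, smul_apply, smul_eq_mul,
        hs η ζ, h] at this
      linarith
  rw [discrim] at h1
  exact pow_eq_zero_iff two_ne_zero |>.1 (le_antisymm (by linarith) (sq_nonneg _))

/-- Abstract form of the argument.  `Θ ≥ 0` near `(0, y)`, `P 0 = y`, `P' 0 = 0`, `Θ (t, P t) = k t - l (P t)`,
`∂₂ Θ (t, P t) = e t - Dl (P t)`, `k' t = e t (P' t)`, `Θ (0, y) = 0`.  Then `(1, 0)` is in the kernel of the Hessian of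
`Θ` at `(0, y)`, and `e' 0 = 0`. -/
theorem deriv_eq_zero_of_supports {E : Type} [NormedAddCommGroup E] [NormedSpace ℝ E] {U : ℝ × E → ℝ} {l : E → ℝ}
    {P : ℝ → E} {e : ℝ → E →L[ℝ] ℝ} {e' : E →L[ℝ] ℝ} {y : E} (hU : ContDiffAt ℝ 2 U (0, y)) (hl : ContDiffAt ℝ 2 l y)
    (hP : ContDiffAt ℝ 2 P 0) (hP0 : P 0 = y) (hP1 : deriv P 0 = 0) (he : HasDerivAt e e' 0)
    (hle : ∀ᶠ q in 𝓝 ((0 : ℝ), y), l q.2 ≤ U q) (h0 : U (0, y) = l y)
    (h2 : ∀ᶠ t in 𝓝 (0 : ℝ), ∀ w, fderiv ℝ U (t, P t) (0, w) = e t w)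
    (h1 : ∀ᶠ t in 𝓝 (0 : ℝ), deriv (fun s => U (s, P s)) t = e t (deriv P t)) : e' = 0 := by
  have hl' : ContDiffAt ℝ 2 (fun q : ℝ × E => l q.2) (0, y) := ContDiffAt.comp (0, y) hl contDiffAt_snd
  have hΘ : ContDiffAt ℝ 2 (fun q : ℝ × E => U q - l q.2) (0, y) := hU.sub hl'
  have hm : IsLocalMin (fun q : ℝ × E => U q - l q.2) (0, y) := by
    filter_upwards [hle] with q hq
    simp only [h0]
    linarith
  have hPd : HasDerivAt P 0 0 := hP1 ▸ (hP.differentiableAt (by simp)).hasDerivAt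
  have hc : HasDerivAt (fun t : ℝ => (t, P t)) (1, 0) 0 := (hasDerivAt_id (0 : ℝ)).prodMk hPd
  have hc0 : (fun t : ℝ => (t, P t)) 0 = (0, y) := by simp [hP0]
  have hct : Tendsto (fun t : ℝ => (t, P t)) (𝓝 0) (𝓝 (0, y)) := hc0 ▸ hc.continuousAt.tendsto
  have hPt : Tendsto P (𝓝 0) (𝓝 y) := hP0 ▸ hPd.continuousAt.tendsto
  have hA : ∀ᶠ t in 𝓝 (0 : ℝ), DifferentiableAt ℝ U (t, P t) ∧ ∀ a w,
      fderiv ℝ (fun q : ℝ × E => U q - l q.2) (t, P t) (a, w) = fderiv ℝ U (t, P t) (a, w) - fderiv ℝ l (P t) w := by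
    filter_upwards [hct.eventually (hU.eventually (by simp)), hPt.eventually (hl.eventually (by simp))] with t a1 a2
    have b1 := a1.differentiableAt (by simp)
    have b2 : HasFDerivAt (fun q : ℝ × E => l q.2) ((fderiv ℝ l (P t)).comp (ContinuousLinearMap.snd ℝ ℝ E))
        (t, P t) := HasFDerivAt.comp (t, P t) (a2.differentiableAt (by simp)).hasFDerivAt hasFDerivAt_snd
    refine ⟨b1, fun a w => ?_⟩
    rw [(b1.hasFDerivAt.fun_sub b2).fderiv]
    simp
  have hB : ∀ᶠ t in 𝓝 (0 : ℝ), fderiv ℝ (fun q : ℝ × E => U q - l q.2) (t, P t) (1, 0) = 0 := by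
    filter_upwards [hA, h1, h2, hP.eventually (by simp)] with t a1 a2 a3 a4
    have b1 : HasDerivAt (fun t : ℝ => (t, P t)) (1, deriv P t) t :=
      (hasDerivAt_id t).prodMk (a4.differentiableAt (by simp)).hasDerivAt
    have b2 : deriv (fun s => U (s, P s)) t = fderiv ℝ U (t, P t) (1, deriv P t) :=
      (a1.1.hasFDerivAt.comp_hasDerivAt t b1).deriv
    have b3 : ((1 : ℝ), deriv P t) = (1, 0) + (0, deriv P t) := by simp
    rw [a2, b3, map_add, a3] at b2
    rw [a1.2, map_zero]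
    linarith
  have hζ : fderiv ℝ (fderiv ℝ fun q : ℝ × E => U q - l q.2) (0, y) (1, 0) (1, 0) = 0 :=
    (g5a_line hΘ hc0 hc (1, 0)).unique ((hasDerivAt_const (0 : ℝ) (0 : ℝ)).congr_of_eventuallyEq hB)
  ext w
  have k1 := g5a_line hΘ hc0 hc (0, w)
  rw [hess_eq_zero hΘ hm hζ] at k1
  have k2 : HasDerivAt (fun t => e t w - fderiv ℝ l (P t) w) (e' w - fderiv ℝ (fderiv ℝ l) y 0 w) 0 := by
    refine HasDerivAt.sub ?_ (g5a_line hl hP0 hPd w)
    simpa using he.clm_apply (hasDerivAt_const (0 : ℝ) w)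
  have k3 := k1.unique (k2.congr_of_eventuallyEq (by
    filter_upwards [hA, h2] with t a1 a2
    rw [a1.2, a2]))
  simpa using k3.symm

end Crest.Agent.R226.G

end
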