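import Crest.Agent.R226.G4
import Crest.Agent.R226.G5a

/-!
# R226 / G5: no focal points in the injectivity domain

Prefix for auxiliary lemmas: `g5_`.
-/

set_option autoImplicit false
set_option linter.unusedSectionVars false

open scoped ContDiff Manifold Topology
open Bundle Set Filter Metric

noncomputable section

namespace Crest.Agent.R226.G

variable {n : ℕ} {M : Type*} [MetricSpace M] [ChartedSpace (EE n) M] [IsManifold 𝓘(ℝ, EE n) ∞ M]

namespace Riem

variable (R : Riem n M)

/-- the last part of the geodesic with initial vector `v` -/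
def g5_tail (x : M) (v : EE n) (s : ℝ) : TM n M :=
  mkT (R.exp x ((1 - s) • v)) (s • vecT (R.Φ (1 - s) (mkT x v)))

theorem g5_tail_proj (x : M) (v : EE n) (s : ℝ) : (R.g5_tail x v s).proj = R.exp x ((1 - s) • v) := rfl

theorem g5_Φ_tail (x : M) (v : EE n) (s : ℝ) : R.Φ 1 (R.g5_tail x v s) = mkT (R.exp x v) (s • R.fin x v) := by
  have h := R.flow.smul (R.Φ (1 - s) (mkT x v)) s 1
  rw [mul_one, ← R.flow.add, add_sub_cancel] at h
  rw [g5_tail, exp_smul]
  exact h

theorem g5_nrm_tail (x : M) (v : EE n) {s : ℝ} (hs : 0 ≤ s) :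
    R.nrm (R.g5_tail x v s).proj (vecT (R.g5_tail x v s)) = s * R.nrm x v := by
  have h := R.flow.energy_eq (1 - s) (mkT x v)
  rw [g5_tail, mkT_proj, vecT_mkT, nrm_smul, abs_of_nonneg hs, exp_smul]
  exact congrArg (fun t => s * √t) h

variable {R} in
theorem g5_cst_tail {r : ℝ} (hr : R.Rad r) {x : M} {v : EE n} {s : ℝ} (hs : 0 ≤ s) (h : s * R.nrm x v < r) :
    cst (R.exp x ((1 - s) • v)) (R.exp x v) = s ^ 2 * R.q x v v / 2 := by
  have h1 := (hr.min _ _ (by rwa [R.g5_nrm_tail x v hs])).cst_eq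
  rw [← nrm_sq, R.g5_nrm_tail x v hs, exp_vecT, g5_Φ_tail, mkT_proj, g5_tail_proj, mul_pow, nrm_sq] at h1
  exact h1

theorem g5_cst_le (x : M) (v : EE n) : cst x (R.exp x v) ≤ R.q x v v / 2 := by
  rw [cst, ← nrm_sq]
  have := pow_le_pow_left₀ dist_nonneg (R.dist_exp_le x v) 2
  linarith

end Riem

theorem g5_line (v w : EE n) (t : ℝ) : HasDerivAt (fun t : ℝ => v + t • w) w t := by
  simpa using ((hasDerivAt_id t).smul_const w).const_add v

/-- Let `y = exp x v`, `z = exp x (a • v)`, `m t = exp x ((1 - s) • (v + t • w))` with `a - 1`, `s` small, chart `b = y`.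
`l p = cst x z / a - cst p z / (a - 1) ≤ cst x p ≤ U (t, p) = (1 - s) q(v + t w, v + t w) / 2 + cst (m t) p / s`
(`cst_le`, `dist_exp_le`), both smooth near the point (`Rad.sm`), `P t = ch b (exp x (v + t w))`,
`e t = G b (P t) (V t)`, `V t = (tmChart b (Φ 1 (mkT x (v + t w)))).2`, `U (t, P t) = q(v + t w, v + t w) / 2`
(short geodesics minimise), `gauss_exp`.  If `d exp w = 0` then `e' 0 = G b y (V' 0) = 0`, hence
`fderiv fl (0, w) = 0` and `w = 0` (`fderiv_fl_injective`). -/
theorem Riem.InI.nonFocal [CompactSpace M] {R : Riem n M} {x : M} {v : EE n} (h : R.InI x v) : R.NonFocal x v := by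
  intro w hw
  obtain ⟨r, hr⟩ := R.exists_rad
  obtain ⟨s, ⟨⟨hI, hs1⟩, hsr⟩, hs⟩ : ∃ s : ℝ, ((R.InI x ((1 + s) • v) ∧ s < 1) ∧ s * R.nrm x v < r) ∧ 0 < s := by
    have t1 : Tendsto (fun s : ℝ => 1 + s) (𝓝 0) (𝓝 1) := (continuous_const_add (1 : ℝ)).tendsto' 0 1 (add_zero _)
    have t2 : Tendsto (fun s : ℝ => s * R.nrm x v) (𝓝 0) (𝓝 0) :=
      (continuous_mul_const _).tendsto' 0 0 (zero_mul _)
    exact (((((t1.eventually h.eventually).and (eventually_lt_nhds zero_lt_one)).and
      (t2.eventually (eventually_lt_nhds hr.pos))).filter_mono nhdsWithin_le_nhds).and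
        (self_mem_nhdsWithin (s := Ioi (0 : ℝ)))).exists
  set y := R.exp x v with hy
  set μ := R.exp x ((1 - s) • v) with hμ
  set z := R.exp x ((1 + s) • v) with hz
  have hyz : R.exp y (s • R.fin x v) = z := R.exp_fin x v s
  have hys : y ∈ (ch n y).source := mem_chart_source _ y
  have cl : Continuous fun t : ℝ => v + t • w := by fun_prop
  have l0 : v + (0 : ℝ) • w = v := by simp
  -- eventual facts in `t`
  have ev1 : ∀ᶠ t : ℝ in 𝓝 0, R.exp x (v + t • w) ∈ (ch n y).source :=
    (((R.continuous_exp x).comp cl).tendsto' 0 y (by simp [hy])).eventually ((ch n y).open_source.mem_nhds hys)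
  have ev2 : ∀ᶠ t : ℝ in 𝓝 0, R.exp x ((1 - s) • (v + t • w)) ∈ (ch n μ).source :=
    (((R.continuous_exp x).comp (cl.const_smul (1 - s))).tendsto' 0 μ (by simp [hμ])).eventually
      ((ch n μ).open_source.mem_nhds (mem_chart_source _ μ))
  have ev3 : ∀ᶠ t : ℝ in 𝓝 0, s * R.nrm x (v + t • w) < r :=
    ((((R.continuous_nrm x).comp cl).const_mul s).tendsto' 0 (s * R.nrm x v) (by simp)).eventually
      (eventually_lt_nhds hsr)
  have sm : ∀ᶠ t : ℝ in 𝓝 0, R.SmoothAt μ y (R.g5_tail x (v + t • w) s) := by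
    filter_upwards [ev1, ev2, ev3] with t a1 a2 a3
    exact hr.sm _ _ _ ⟨a2, by rw [R.g5_Φ_tail]; exact a1⟩ (by rwa [R.g5_nrm_tail x _ hs.le])
  set P : ℝ → EE n := fun t => ch n y (R.exp x (v + t • w)) with hP
  set m : ℝ → EE n := fun t => ch n μ (R.exp x ((1 - s) • (v + t • w))) with hm
  set U : ℝ × EE n → ℝ := fun p => (1 - s) * R.q x (v + p.1 • w) (v + p.1 • w) / 2 + cc n μ y (m p.1, p.2) / s with hU
  set l : EE n → ℝ := fun p => cst x z / (1 + s) - cc n y z (p, ch n z z) / s with hl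
  have P0 : P 0 = ch n y y := by simp only [hP, l0, ← hy]
  have sl : ContDiff ℝ ∞ fun t : ℝ => v + t • w := by fun_prop
  have sP : ∀ᶠ t in 𝓝 (0 : ℝ), ContDiffAt ℝ ∞ P t :=
    ev1.mono fun t ht => ContDiffAt.comp (g := fun u => ch n y (R.exp x u)) t (R.contDiffAt_exp ht) sl.contDiffAt
  have dP : ∀ᶠ t in 𝓝 (0 : ℝ), HasDerivAt P (fderiv ℝ (fun u => ch n y (R.exp x u)) (v + t • w) w) t :=
    ev1.mono fun t ht => HasFDerivAt.comp_hasDerivAt (l := fun u => ch n y (R.exp x u)) t
      ((R.contDiffAt_exp ht).differentiableAt (by simp)).hasFDerivAt (g5_line v w t)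
  have dP0 : HasDerivAt P 0 0 := by
    have := dP.self_of_nhds
    rwa [l0, hw] at this
  have sU : ∀ᶠ t in 𝓝 (0 : ℝ), ContDiffAt ℝ ∞ U (t, P t) := by
    filter_upwards [sm, ev2] with t a1 a2
    have a3 := a1.sm
    rw [R.g5_Φ_tail] at a3
    have a4 : ContDiffAt ℝ ∞ m t := ContDiffAt.comp (g := fun u => ch n μ (R.exp x u))
      (f := fun t : ℝ => (1 - s) • (v + t • w)) t (R.contDiffAt_exp a2) (sl.const_smul _).contDiffAt
    have a5 : ContDiff ℝ ∞ fun p : ℝ × EE n => v + p.1 • w := by fun_prop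
    refine ContDiffAt.add ((contDiffAt_const.mul
      (((R.q x).contDiff.comp a5).clm_apply a5).contDiffAt).div_const 2) (ContDiffAt.div_const ?_ s)
    exact ContDiffAt.comp (g := cc n μ y) (f := fun p : ℝ × EE n => (m p.1, p.2)) (t, P t) a3
      ((ContDiffAt.comp (g := m) (f := Prod.fst) (t, P t) a4 contDiffAt_fst).prodMk contDiffAt_snd)
  have nz : R.nrm y (s • R.fin x v) = s * R.nrm x v := by rw [R.nrm_smul, abs_of_pos hs, hy, R.nrm_fin]
  have sl2 : ContDiffAt ℝ ∞ l (ch n y y) := by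
    have a1 := (hr.sm y z (mkT y (s • R.fin x v)) ⟨hys, by
      rw [← R.exp_vecT, mkT_proj, vecT_mkT, hyz]; exact mem_chart_source _ z⟩ (by
      rw [mkT_proj, vecT_mkT, nz]; exact hsr)).sm
    rw [← R.exp_vecT, mkT_proj, vecT_mkT, hyz] at a1
    exact contDiffAt_const.sub ((ContDiffAt.comp (g := cc n y z) (f := fun p => (p, ch n z z)) _ a1
      (contDiffAt_id.prodMk contDiffAt_const)).div_const s)
  -- the flow in charts
  have hd : R.Dom x y (mkT x v) := ⟨mem_chart_source _ x, hys⟩
  have dfl := (hd.contDiffAt_fl.differentiableAt (by simp)).hasFDerivAt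
  have inj := hd.fderiv_fl_injective
  rw [tmChart_mkT] at dfl inj
  set D := fderiv ℝ (R.fl x y) (ch n x x, v) (0, w) with hD
  set F : ℝ → EE n × EE n := fun t => tmChart n y (R.Φ 1 (mkT x (v + t • w))) with hF
  have dF : HasDerivAt F D 0 := by
    have a1 : HasDerivAt (fun t : ℝ => ((ch n x x, v + t • w) : EE n × EE n)) (0, w) 0 :=
      (hasDerivAt_const _ _).prodMk (g5_line v w 0)
    have a2 := HasFDerivAt.comp_hasDerivAt_of_eq (l := R.fl x y) 0 dfl a1 (by rw [l0])
    refine a2.congr_of_eventuallyEq (.of_forall fun t => ?_)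
    simp only [hF, Function.comp_apply]
    rw [← Riem.fl_apply (a := x) (mem_chart_source _ x), tmChart_mkT]
  have F1 : ∀ t, (F t).1 = P t := fun t => tmChart_fst _ _
  have D1 : D.1 = 0 := (chexp_fst dF).unique (by simpa only [F1] using dP0)
  have L := isLC_chart R.g y
  have hyt : ch n y y ∈ (ch n y).target := (ch n y).map_source hys
  have dG : HasDerivAt (fun t => R.G y (P t)) 0 0 := by
    have a1 := ((L.g_smooth.contDiffAt (L.isOpen.mem_nhds hyt)).differentiableAt (by simp)).hasFDerivAt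
    have a2 := HasFDerivAt.comp_hasDerivAt_of_eq (l := R.G y) 0 a1 dP0 P0.symm
    rwa [ContinuousLinearMap.map_zero] at a2
  have de := dG.clm_apply (chexp_snd dF)
  have key := deriv_eq_zero_of_supports (U := U) (l := l) (P := P) (y := ch n y y)
    (by have := sU.self_of_nhds; rw [P0] at this; exact this.of_le (by norm_cast)) (sl2.of_le (by norm_cast))
    (sP.self_of_nhds.of_le (by norm_cast)) P0 dP0.deriv de ?_ ?_ ?_ ?_
  · rw [zero_apply, zero_add, P0] at key
    have D2 : D.2 = 0 := by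
      by_contra h0
      have := L.g_pos _ hyt _ h0
      rw [show chartG R.g y (chartAt (EE n) y y) D.2 = 0 from key] at this
      exact lt_irrefl _ this
    have D0 : D = 0 := Prod.ext D1 D2
    have := inj (hD.symm.trans (D0.trans (map_zero _).symm))
    exact congrArg Prod.snd this
  · filter_upwards [(continuous_fst.tendsto ((0 : ℝ), ch n y y)).eventually ev2] with p hp
    have a1 := cst_le x ((ch n y).symm p.2) z (s := 1 / (1 + s)) (by positivity)
      (by rw [div_lt_one (by positivity)]; linarith)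
    have a2 := cst_le x (R.exp x ((1 - s) • (v + p.1 • w))) ((ch n y).symm p.2) (s := 1 - s) (by linarith) (by linarith)
    have a3 := R.g5_cst_le x ((1 - s) • (v + p.1 • w))
    simp only [map_smul, smul_apply, smul_eq_mul] at a3
    simp only [hU, hl, hm, cc, (ch n μ).left_inv hp, (ch n z).left_inv (mem_chart_source _ z)]
    have a4 : cst x (R.exp x ((1 - s) • (v + p.1 • w))) / (1 - s) ≤ (1 - s) * R.q x (v + p.1 • w) (v + p.1 • w) / 2 := by
      rw [div_le_iff₀ (by linarith)]; linarith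
    have e1 : 1 - 1 / (1 + s) = s / (1 + s) := by field_simp; ring
    rw [e1] at a1
    rw [sub_sub_cancel] at a2
    have a5 : cst x z / (1 + s) ≤ cst x ((ch n y).symm p.2) + cst ((ch n y).symm p.2) z / s := by
      rw [div_le_iff₀ (by positivity)]
      refine a1.trans_eq ?_
      field_simp
    linarith
  · have a1 := Riem.g5_cst_tail hr hs.le hsr
    have a2 := hI.min.cst_eq
    have a3 := (hr.min y _ (by rw [nz]; exact hsr)).cst_eq
    rw [hyz, ← R.nrm_sq, nz, mul_pow, R.nrm_sq] at a3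
    simp only [map_smul, smul_apply, smul_eq_mul] at a2
    simp only [hU, hl, hm, cc, l0, ← hμ, (ch n μ).left_inv (mem_chart_source _ μ), (ch n y).left_inv hys,
      (ch n z).left_inv (mem_chart_source _ z)]
    rw [← hμ, ← hy] at a1
    rw [← hz] at a2
    rw [a1, a2, a3]
    field_simp
    ring
  · filter_upwards [sm, sU] with t a1 a2 u
    have a3 := a1.der 0 u
    have a4 := (a1.sm.differentiableAt (by simp)).hasFDerivAt
    rw [R.g5_Φ_tail] at a3 a4
    have a5 : HasFDerivAt (fun p => U (t, p)) ((fderiv ℝ U (t, P t)).comp (ContinuousLinearMap.inr ℝ _ _)) (P t) :=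
      HasFDerivAt.comp (g := U) (f := fun p => (t, p)) (P t) (a2.differentiableAt (by simp)).hasFDerivAt
        (hasFDerivAt_prodMk_right t (P t))
    have a6 := ((HasFDerivAt.comp (g := cc n μ y) (f := fun p => (m t, p)) (P t) a4
      (hasFDerivAt_prodMk_right (m t) (P t))).mul_const s⁻¹).const_add
        ((1 - s) * R.q x (v + t • w) (v + t • w) / 2)
    have a7 := congrArg (fun L : EE n →L[ℝ] ℝ => L u) (a5.unique a6)
    simp only [ContinuousLinearMap.comp_apply, ContinuousLinearMap.inr_apply, smul_apply, smul_eq_mul] at a7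
    rw [a7, a3, map_zero, sub_zero]
    have a8 := tmChart_smul y (R.Φ 1 (mkT x (v + t • w))) s
    rw [show mkT (R.exp x (v + t • w)) (s • R.fin x (v + t • w)) =
      mkT (R.Φ 1 (mkT x (v + t • w))).proj (s • vecT (R.Φ 1 (mkT x (v + t • w)))) from rfl, a8]
    simp only [map_smul, smul_apply, smul_eq_mul]
    rw [← mul_assoc, inv_mul_cancel₀ hs.ne', one_mul]
    rfl
  · have ev4 : ∀ᶠ t in 𝓝 (0 : ℝ), U (t, P t) = R.q x (v + t • w) (v + t • w) / 2 := by
      filter_upwards [ev1, ev2, ev3] with t a1 a2 a3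
      simp only [hU, hP, hm, cc, (ch n μ).left_inv a2, (ch n y).left_inv a1]
      rw [Riem.g5_cst_tail hr hs.le a3]
      field_simp
      ring
    filter_upwards [ev4.eventually_nhds, ev1, dP] with t a1 a2 a3
    have a4 := ((((R.q x).hasFDerivAt.comp_hasDerivAt t (g5_line v w t)).clm_apply (g5_line v w t)).div_const 2)
    rw [a3.deriv, (a4.congr_of_eventuallyEq a1).deriv, R.q_symm x w]
    have a5 := R.gauss_exp a2 w
    simp only [Function.comp_apply]
    rw [add_self_div_two]
    exact a5.symm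

end Crest.Agent.R226.G

end
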