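import Crest.Agent.R226.G1b
import Crest.Agent.R226.G1c
import Crest.Agent.R226.G4
import Crest.Prelude.Def_RiemannianMTW

/-!
# R226 / G7: link with the definitions of the statements

Prefix for auxiliary lemmas: `g7_`.
-/

set_option autoImplicit false
set_option linter.unusedSectionVars false

open scoped ContDiff Manifold Topology
open Bundle Set Filter Metric

noncomputable section

namespace Crest.Agent.R226.G

variable {n : ℕ} {M : Type*} [MetricSpace M] [ChartedSpace (EE n) M] [IsManifold 𝓘(ℝ, EE n) ∞ M]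
  [RiemannianBundle (fun p : M => TangentSpace 𝓘(ℝ, EE n) p)]
  [IsRiemannianManifold 𝓘(ℝ, EE n) M]

open Crest.GeometryTopology.MTW

theorem exists_riem [CompactSpace M]
    [IsContMDiffRiemannianBundle 𝓘(ℝ, EE n) ∞ (EE n) (fun p : M => TangentSpace 𝓘(ℝ, EE n) p)] :
    ∃ R : Riem n M, Compat R.g := by
  obtain ⟨g, hg⟩ := exists_RM (n := n) (M := M)
  obtain ⟨Φ, hΦ⟩ := exists_geoFlow g
  exact ⟨⟨g, Φ, hΦ, hg.up, hg.lip, hg.mid⟩, hg⟩

variable [CompactSpace M] {R : Riem n M}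

theorem curveVel_eq (γ : ℝ → M) (t : ℝ) : curveVel n γ t = vel n γ t := rfl

/-- `contMDiffAt_iff` (or `contMDiffAt_iff_target`) and `contDiffAt_exp` -/
theorem Riem.contMDiff_exp (R : Riem n M) (x : M) : ContMDiff 𝓘(ℝ, EE n) 𝓘(ℝ, EE n) ∞ (R.exp x) := by
  intro v
  rw [contMDiffAt_iff_target]
  refine ⟨(R.continuous_exp x).continuousAt, ?_⟩
  have h := R.contDiffAt_exp (b := R.exp x v) (x := x) (v := v) (mem_chart_source _ _)
  exact contMDiffAt_iff_contDiffAt.2 h

theorem Riem.vel_exp (R : Riem n M) (x : M) (v : EE n) (t : ℝ) :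
    vel n (fun s : ℝ => R.exp x (s • v)) t = vecT (R.Φ t (mkT x v)) := by
  have hc : ContinuousAt (fun s : ℝ => R.exp x (s • v)) t :=
    ((R.continuous_exp x).comp (continuous_id.smul continuous_const)).continuousAt
  refine (vel_of_hasDerivAt (γ := fun s : ℝ => R.exp x (s • v)) hc (z := R.exp x (t • v))
    (mem_chart_source _ _) ?_).2
  have h := R.hasDerivAt_exp x v (t := t) (z := R.exp x (t • v)) (mem_chart_source _ _)
  have e : mkT (R.exp x (t • v)) (vecT (R.Φ t (mkT x v))) = R.Φ t (mkT x v) := by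
    rw [R.exp_smul, mkT_vecT]
  rw [e]
  exact h

theorem g7_smooth (R : Riem n M) (x : M) (v : EE n) :
    ContMDiff 𝓘(ℝ, ℝ) 𝓘(ℝ, EE n) ∞ (fun s : ℝ => R.exp x (s • v)) :=
  (R.contMDiff_exp x).comp (contDiff_id.smul contDiff_const : ContDiff ℝ ∞ fun s : ℝ => s • v).contMDiff

theorem g7_speed (hg : Compat R.g) (x : M) (v : EE n) (t : ℝ) :
    ‖curveVel n (fun s : ℝ => R.exp x (s • v)) t‖ = R.nrm x v := by
  rw [hg.norm_eq, curveVel_eq, R.vel_exp, Riem.nrm]
  congr 1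
  have h := R.flow.energy_eq t (mkT x v)
  rw [energy_mkT, energy, ← R.exp_smul] at h
  exact h

theorem g7_vel_zero (R : Riem n M) (x : M) (v : EE n) : vel n (fun s : ℝ => R.exp x (s • v)) 0 = v := by
  rw [R.vel_exp, R.flow.zero, vecT_mkT]

theorem g7_norm (hg : Compat R.g) (x : M) (v : TangentSpace 𝓘(ℝ, EE n) x) : ‖v‖ = R.nrm x v :=
  hg.norm_eq x v

/-- locally distance realising: `Rad.min` at `exp x (s₁ • v)` (`flow.shift`) -/
theorem isExpMapAt_exp (hg : Compat R.g) (x : M) : IsExpMapAt n x (R.exp x) := by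
  intro w
  obtain ⟨r, hr⟩ := R.exists_rad
  refine ⟨⟨g7_smooth R x w, R.nrm x w, R.nrm_nonneg x w, g7_speed hg x w, fun t => ?_⟩, ?_, g7_vel_zero R x w⟩
  · have hc := R.nrm_nonneg x w
    have hr0 := hr.pos
    refine ⟨r / (4 * (R.nrm x w + 1)), by positivity, fun s₁ h₁ s₂ h₂ => ?_⟩
    obtain ⟨v', hq, he⟩ := R.flow.shift x w s₁
    have hn : R.nrm (R.exp x (s₁ • (w : EE n))) v' = R.nrm x w := congrArg Real.sqrt hq
    have hs : |s₂ - s₁| ≤ 2 * (r / (4 * (R.nrm x w + 1))) := by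
      rw [abs_le]; constructor <;> linarith [h₁.1, h₁.2, h₂.1, h₂.2]
    have hlt : R.nrm (R.exp x (s₁ • (w : EE n))) ((s₂ - s₁) • v') < r := by
      rw [R.nrm_smul, hn]
      have h1 : 2 * (r / (4 * (R.nrm x w + 1))) * (R.nrm x w + 1) = r / 2 := by
        field_simp; ring
      have h2 := mul_le_mul_of_nonneg_right hs hc
      have h3 : 0 < r / (4 * (R.nrm x w + 1)) := by positivity
      nlinarith
    have hm := hr.min _ _ hlt
    have he' : R.exp (R.exp x (s₁ • (w : EE n))) ((s₂ - s₁) • v') = R.exp x (s₂ • (w : EE n)) := by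
      have := he (s₂ - s₁)
      rw [sub_add_cancel] at this
      exact this
    rw [Riem.Min, he', R.nrm_smul, hn, abs_sub_comm, mul_comm] at hm
    exact hm
  · have h := R.exp_smul x w 0
    rw [R.flow.zero] at h
    exact h

/-- `→`: the curve has `dist (γ s) (γ t) ≤ |v| (t - s)` (`up`, `speedLe_of_mdiff`), with equality by the triangle
inequality; `exists_exp_of_dist` gives `γ t = exp x (t • v')` on `[0, a]`, and `v' = v` by uniqueness of one sided
derivatives in the chart at `x` (`hasDerivAt_chart`, `hasDerivAt_exp`, `UniqueDiffWithinAt.eq_deriv`). -/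
theorem mem_injDomain_iff (hg : Compat R.g) (x : M) (v : EE n) : v ∈ injDomain n x ↔ R.InI x v := by
  constructor
  · rintro ⟨a, ha, γ, hγ, h0, hv, hs, hd⟩
    subst h0
    have hn := g7_norm hg (γ 0) v
    rw [hn] at hs hd
    have hc := R.nrm_nonneg (γ 0) v
    have hmd : ∀ t, MDifferentiableAt 𝓘(ℝ, ℝ) 𝓘(ℝ, EE n) γ t := fun t =>
      (hγ t).mdifferentiableAt one_ne_zero
    have hsp : ∀ t ∈ Icc (0 : ℝ) a, SpeedLe R.g γ t (R.nrm (γ 0) v) := fun t ht => by
      refine speedLe_of_mdiff R.g (hmd t) (le_of_eq ?_)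
      rw [← hs t ht, g7_norm hg]
      exact (R.nrm_sq (γ t) (vel n γ t)).symm
    have hup : ∀ s t, 0 ≤ s → s ≤ t → t ≤ a → dist (γ s) (γ t) ≤ R.nrm (γ 0) v * (t - s) :=
      fun s t h1 h2 h3 => R.up γ s t _ h2 hc fun r hr => hsp r ⟨h1.trans hr.1, hr.2.trans h3⟩
    have heq : ∀ s t, 0 ≤ s → s ≤ t → t ≤ a → dist (γ s) (γ t) = R.nrm (γ 0) v * (t - s) := by
      intro s t h1 h2 h3
      refine le_antisymm (hup s t h1 h2 h3) ?_
      have e1 := hup 0 s le_rfl h1 (h2.trans h3)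
      have e2 := hup t a (h1.trans h2) h3 le_rfl
      have e3 := dist_triangle4 (γ 0) (γ s) (γ t) (γ a)
      linarith
    obtain ⟨v', -, hv'⟩ := R.exists_exp_of_dist (σ := γ) (by linarith : 0 < a) hc heq
    have d1 := hasDerivAt_chart (hmd 0) (z := γ 0) (mem_chart_source _ _)
    have hz : R.exp (γ 0) ((0 : ℝ) • v') ∈ (ch n (γ 0)).source := by
      rw [zero_smul, R.exp_zero]; exact mem_chart_source _ _
    have d2 := R.hasDerivAt_exp (γ 0) v' hz
    rw [R.flow.zero, tmChart_mkT] at d2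
    rw [tmChart_mkT] at d1
    have hu : UniqueDiffWithinAt ℝ (Icc (0 : ℝ) a) 0 :=
      uniqueDiffOn_Icc (by linarith) 0 ⟨le_rfl, by linarith⟩
    have d3 : HasDerivWithinAt (fun s => ch n (γ 0) (γ s)) v' (Icc (0 : ℝ) a) 0 :=
      d2.hasDerivWithinAt.congr (fun t ht => by rw [← hv' t ht])
        (by rw [← hv' 0 ⟨le_rfl, by linarith⟩])
    have e : vel n γ 0 = v' := hu.eq_deriv _ d1.hasDerivWithinAt d3
    have e' : v' = v := e.symm.trans hv
    subst e'
    refine ⟨a, ha, ?_⟩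
    rw [Riem.Min, ← hv' a ⟨by linarith, le_rfl⟩, R.nrm_smul, abs_of_pos (by linarith), hd]
  · rintro ⟨a, ha, hm⟩
    have hn := g7_norm hg x v
    refine ⟨a, ha, fun s => R.exp x (s • v), (g7_smooth R x v).of_le (by exact_mod_cast le_top), ?_,
      g7_vel_zero R x v, fun t _ => ?_, ?_⟩
    · show R.exp x ((0 : ℝ) • v) = x
      rw [zero_smul, R.exp_zero]
    · rw [hn]; exact g7_speed hg x v t
    · rw [hn]
      rw [Riem.Min, R.nrm_smul, abs_of_pos (by linarith)] at hm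
      exact hm

/-- the weak MTW condition for `R.exp` -/
theorem mtw_exp (hg : Compat R.g) (h : SatisfiesWeakMTW M n) {x : M} {v ξ η : EE n} (hv : R.InI x v)
    (ho : R.q x ξ η = 0) :
    iteratedFDeriv ℝ 4 (fun p : ℝ × ℝ => cst (R.exp x (p.2 • ξ)) (R.exp x (v + p.1 • η))) (0, 0)
      ![((1 : ℝ), (0 : ℝ)), (1, 0), (0, 1), (0, 1)] ≤ 0 := by
  have h1 := h x (R.exp x) (isExpMapAt_exp hg x) v ((mem_injDomain_iff hg x v).2 hv) ξ η
    ((hg x ξ η).symm.trans ho)
  have h2 : mtwForm n x (R.exp x) v ξ η = -(3 / 2) *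
      iteratedFDeriv ℝ 4 (fun p : ℝ × ℝ => cst (R.exp x (p.2 • ξ)) (R.exp x (v + p.1 • η))) (0, 0)
        ![((1 : ℝ), (0 : ℝ)), (1, 0), (0, 1), (0, 1)] := rfl
  rw [h2] at h1
  linarith

end Crest.Agent.R226.G

end
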