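import Crest.Agent.R226.G3

/-!
# R226 / G8a: uniform second order expansion of the cost for short vectors

Prefix for auxiliary lemmas: `g8a_`.
-/

set_option autoImplicit false
set_option linter.unusedSectionVars false

open scoped ContDiff Manifold Topology
open Bundle Set Filter Metric

noncomputable section

namespace Crest.Agent.R226.G

variable {n : ℕ} {M : Type*} [MetricSpace M] [ChartedSpace (EE n) M] [IsManifold 𝓘(ℝ, EE n) ∞ M]

/-- Calculus: Taylor formula along `t ↦ t • w` (for `φ t = f (t • w)`: `φ'' t = D²f (t • w) w w`; compare `φ'` and `φ` with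
the quadratic bounds by monotonicity, or `taylor_mean_remainder_lagrange`). -/
theorem taylor_two {E : Type} [NormedAddCommGroup E] [NormedSpace ℝ E] {f : E → ℝ} {w : E} {A ε : ℝ}
    (hf : ∀ t ∈ Icc (0 : ℝ) 1, ContDiffAt ℝ 2 f (t • w))
    (h : ∀ t ∈ Icc (0 : ℝ) 1, |fderiv ℝ (fderiv ℝ f) (t • w) w w - A| ≤ ε) :
    |f w - (f 0 + fderiv ℝ f 0 w + A / 2)| ≤ ε / 2 := by
  have hl : ∀ t : ℝ, HasDerivAt (fun s : ℝ => s • w) w t := fun t => by
    simpa using (hasDerivAt_id t).smul_const w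
  have h1 : ∀ t ∈ Icc (0 : ℝ) 1, HasDerivAt (fun s : ℝ => f (s • w) - (f 0 + fderiv ℝ f 0 w * s + A * s ^ 2 / 2))
      (fderiv ℝ f (t • w) w - (fderiv ℝ f 0 w + A * t)) t := by
    intro t ht
    have a1 : HasDerivAt (fun s : ℝ => f (s • w)) (fderiv ℝ f (t • w) w) t :=
      ((hf t ht).differentiableAt (by norm_num)).hasFDerivAt.comp_hasDerivAt t (hl t)
    have a2 := (((hasDerivAt_id t).const_mul (fderiv ℝ f 0 w)).const_add (f 0)).add
      (((hasDerivAt_pow 2 t).const_mul A).div_const 2)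
    refine (a1.sub a2).congr_deriv ?_
    simp only [Nat.cast_ofNat]
    ring
  have h2 : ∀ t ∈ Icc (0 : ℝ) 1, HasDerivAt (fun s : ℝ => fderiv ℝ f (s • w) w - (fderiv ℝ f 0 w + A * s))
      (fderiv ℝ (fderiv ℝ f) (t • w) w w - A) t := by
    intro t ht
    have a0 : DifferentiableAt ℝ (fderiv ℝ f) (t • w) :=
      ((hf t ht).fderiv_right (m := 1) (by norm_num)).differentiableAt (by norm_num)
    have a1 : HasDerivAt (fun s : ℝ => fderiv ℝ f (s • w)) (fderiv ℝ (fderiv ℝ f) (t • w) w) t :=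
      a0.hasFDerivAt.comp_hasDerivAt t (hl t)
    have a2 := a1.clm_apply (hasDerivAt_const t w)
    have a3 := ((hasDerivAt_id t).const_mul A).const_add (fderiv ℝ f 0 w)
    refine (a2.sub a3).congr_deriv ?_
    simp
  have h3 : ∀ t ∈ Icc (0 : ℝ) 1, ‖fderiv ℝ f (t • w) w - (fderiv ℝ f 0 w + A * t)‖ ≤ ε * t := by
    refine image_norm_le_of_norm_deriv_right_le_deriv_boundary
      (f := fun s : ℝ => fderiv ℝ f (s • w) w - (fderiv ℝ f 0 w + A * s))
      (fun t ht => (h2 t ht).continuousAt.continuousWithinAt)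
      (fun t ht => (h2 t (Ico_subset_Icc_self ht)).hasDerivWithinAt) (B := fun s => ε * s) (B' := fun _ => ε)
      (by simp) (fun t => by simpa using (hasDerivAt_id t).const_mul ε) fun t ht => h t (Ico_subset_Icc_self ht)
  have h4 := image_norm_le_of_norm_deriv_right_le_deriv_boundary
      (f := fun s : ℝ => f (s • w) - (f 0 + fderiv ℝ f 0 w * s + A * s ^ 2 / 2))
      (fun t ht => (h1 t ht).continuousAt.continuousWithinAt)
      (fun t ht => (h1 t (Ico_subset_Icc_self ht)).hasDerivWithinAt) (B := fun s => ε * s ^ 2 / 2)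
      (B' := fun s => ε * s) (by simp)
      (fun t => (((hasDerivAt_pow 2 t).const_mul ε).div_const 2).congr_deriv (by simp only [Nat.cast_ofNat]; ring))
      (fun t ht => h3 t (Ico_subset_Icc_self ht)) (x := 1) ⟨zero_le_one, le_rfl⟩
  simpa using h4

section calc0

variable {E : Type} [NormedAddCommGroup E] [NormedSpace ℝ E]

theorem g8a_slice1 {F : E × E × E → ℝ} {y w' u : E} (h : DifferentiableAt ℝ F (y, w', u)) (v : E) :
    fderiv ℝ (fun w => F (y, w', w)) u v = fderiv ℝ F (y, w', u) (0, 0, v) := by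
  have a : HasFDerivAt (fun w : E => ((y, w', w) : E × E × E))
      ((0 : E →L[ℝ] E).prod ((0 : E →L[ℝ] E).prod (ContinuousLinearMap.id ℝ E))) u :=
    (hasFDerivAt_const y u).prodMk ((hasFDerivAt_const w' u).prodMk (hasFDerivAt_id u))
  have b : HasFDerivAt (fun w => F (y, w', w)) _ u := HasFDerivAt.comp u h.hasFDerivAt a
  rw [b.fderiv]
  simp

theorem g8a_slice2 {F : E × E × E → ℝ} {y w' u : E} (h : ContDiffAt ℝ 2 F (y, w', u)) (v : E) :
    fderiv ℝ (fderiv ℝ fun w => F (y, w', w)) u v v = fderiv ℝ (fderiv ℝ F) (y, w', u) (0, 0, v) (0, 0, v) := by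
  have hc : ContDiffAt ℝ 2 (fun w : E => ((y, w', w) : E × E × E)) u := by fun_prop
  have h1 : ContDiffAt ℝ 2 (fun w => F (y, w', w)) u := ContDiffAt.comp u h hc
  have d1 : DifferentiableAt ℝ (fderiv ℝ fun w => F (y, w', w)) u :=
    (h1.fderiv_right (m := 1) (by norm_num)).differentiableAt (by norm_num)
  have d2 : DifferentiableAt ℝ (fderiv ℝ F) (y, w', u) :=
    (h.fderiv_right (m := 1) (by norm_num)).differentiableAt (by norm_num)
  have e1 : fderiv ℝ (fun z => fderiv ℝ (fun w => F (y, w', w)) z v) u v =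
      fderiv ℝ (fderiv ℝ fun w => F (y, w', w)) u v v := by
    rw [fderiv_clm_apply d1 (differentiableAt_const v)]
    simp
  have e2 : fderiv ℝ (fun p => fderiv ℝ F p (0, 0, v)) (y, w', u) (0, 0, v) =
      fderiv ℝ (fderiv ℝ F) (y, w', u) (0, 0, v) (0, 0, v) := by
    rw [fderiv_clm_apply d2 (differentiableAt_const _)]
    simp
  have e3 : (fun z => fderiv ℝ (fun w => F (y, w', w)) z v) =ᶠ[𝓝 u] fun z => fderiv ℝ F (y, w', z) (0, 0, v) := by
    filter_upwards [hc.continuousAt.eventually (h.eventually (by simp))] with z hz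
    exact g8a_slice1 (hz.differentiableAt (by norm_num)) v
  rw [← e1, ← e2, e3.fderiv_eq]
  exact g8a_slice1 (F := fun p => fderiv ℝ F p (0, 0, v)) (d2.clm_apply (differentiableAt_const _)) v

set_option synthInstance.maxHeartbeats 400000 in
theorem g8a_quad (B : E →L[ℝ] E →L[ℝ] ℝ) (u v : E) : fderiv ℝ (fderiv ℝ fun w => B w w / 2) u v v = B v v := by
  have h1 : ∀ z, HasFDerivAt (fun w => B w w / 2) ((1 / 2 : ℝ) • (B z + B.flip z)) z := by
    intro z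
    have a := ((B.hasFDerivAt (x := z)).clm_apply (hasFDerivAt_id z)).const_mul (1 / 2 : ℝ)
    have e : (fun w => B w w / 2) = fun w => (1 / 2 : ℝ) * B w (id w) := by
      funext w
      simp only [id]
      ring
    rw [e]
    refine a.congr_fderiv ?_
    ext w
    simp
  have e : (fderiv ℝ fun w => B w w / 2) = ((1 / 2 : ℝ) • (B + B.flip) : E →L[ℝ] E →L[ℝ] ℝ) := by
    funext z
    rw [(h1 z).fderiv]
    rfl
  rw [e, ContinuousLinearMap.fderiv]
  simp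
  ring

theorem g8a_ev {X Y : Type} [TopologicalSpace X] [NormedAddCommGroup Y] {f : X → Y} {x : X} (h : ContinuousAt f x)
    {ε : ℝ} (hε : 0 < ε) : ∀ᶠ y in 𝓝 x, ‖f y - f x‖ < ε := by
  simpa only [dist_eq_norm] using Metric.tendsto_nhds.1 h ε hε

set_option synthInstance.maxHeartbeats 400000 in
theorem g8a_abs {F : E × E × E → ℝ} {G : E → E →L[ℝ] E →L[ℝ] ℝ} {y₀ : E} {c ε : ℝ} (hc : 0 < c) (hε : 0 < ε)
    (hF : ContDiffAt ℝ 2 F (y₀, 0, 0)) (hG : ContinuousAt G y₀) (hco : ∀ᶠ y in 𝓝 y₀, ∀ w, c * ‖w‖ ^ 2 ≤ G y w w)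
    (h0 : ∀ᶠ w in 𝓝 (0 : E), F (y₀, 0, w) = G y₀ w w / 2) :
    ∃ δ > 0, ∀ y w' w, dist y y₀ < δ → ‖w'‖ < δ → ‖w‖ < δ →
      |F (y, w', w) - (F (y, w', 0) + fderiv ℝ (fun w => F (y, w', w)) 0 w + G y w w / 2)| ≤ ε * G y w w := by
  have hH : ContinuousAt (fderiv ℝ (fderiv ℝ F)) (y₀, 0, 0) :=
    ((hF.fderiv_right (m := 1) (by norm_num)).fderiv_right (m := 0) (by norm_num)).continuousAt
  have hec : 0 < ε * c := mul_pos hε hc
  have hfst : Tendsto (fun p : E × E × E => p.1) (𝓝 (y₀, 0, 0)) (𝓝 y₀) := continuous_fst.continuousAt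
  have e0 : ∀ v, fderiv ℝ (fderiv ℝ F) (y₀, 0, 0) (0, 0, v) (0, 0, v) = G y₀ v v := by
    intro v
    have h1 : (fun w => F (y₀, 0, w)) =ᶠ[𝓝 0] fun w => G y₀ w w / 2 := h0
    rw [← g8a_slice2 hF v, h1.fderiv.fderiv_eq, g8a_quad]
  have hall := (hF.eventually (by simp)).and ((g8a_ev (Y := E × E × E →L[ℝ] E × E × E →L[ℝ] ℝ) hH hec).and
    ((hfst.eventually (g8a_ev (Y := E →L[ℝ] E →L[ℝ] ℝ) hG hec)).and (hfst.eventually hco)))
  obtain ⟨δ, hδ, hb⟩ := Metric.eventually_nhds_iff.1 hall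
  refine ⟨δ, hδ, fun y w' w hy hw' hw => ?_⟩
  have hin : ∀ t ∈ Icc (0 : ℝ) 1, dist ((y, w', t • w) : E × E × E) (y₀, 0, 0) < δ := by
    intro t ht
    simp only [Prod.dist_eq, dist_zero_right, max_lt_iff]
    refine ⟨hy, hw', lt_of_le_of_lt ?_ hw⟩
    rw [norm_smul, Real.norm_of_nonneg ht.1]
    exact mul_le_of_le_one_left (norm_nonneg _) ht.2
  have key := taylor_two (f := fun w => F (y, w', w)) (w := w) (A := G y w w) (ε := 2 * (ε * G y w w))
    (fun t ht => ContDiffAt.comp (t • w) (hb (hin t ht)).1 (by fun_prop)) fun t ht => by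
      obtain ⟨a1, a2, a3, a4⟩ := hb (hin t ht)
      rw [g8a_slice2 a1 w]
      have n1 : ‖((0, 0, w) : E × E × E)‖ = ‖w‖ := by simp
      have b1 := (fderiv ℝ (fderiv ℝ F) (y, w', t • w) - fderiv ℝ (fderiv ℝ F) (y₀, 0, 0)).le_opNorm₂
        (0, 0, w) (0, 0, w)
      have b2 := (G y - G y₀).le_opNorm₂ w w
      simp only [sub_apply, Real.norm_eq_abs, n1, e0] at b1 b2
      have b3 := a4 w
      have b4 : ‖fderiv ℝ (fderiv ℝ F) (y, w', t • w) - fderiv ℝ (fderiv ℝ F) (y₀, 0, 0)‖ * ‖w‖ * ‖w‖ ≤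
          ε * c * ‖w‖ * ‖w‖ := by gcongr
      have b5 : ‖G y - G y₀‖ * ‖w‖ * ‖w‖ ≤ ε * c * ‖w‖ * ‖w‖ := by gcongr
      have b6 : ε * c * ‖w‖ * ‖w‖ ≤ ε * G y w w := by nlinarith
      obtain ⟨c1, c2⟩ := abs_le.1 (b1.trans (b4.trans b6))
      obtain ⟨c3, c4⟩ := abs_le.1 (b2.trans (b5.trans b6))
      exact abs_le.2 ⟨by linarith, by linarith⟩
  calc _ ≤ 2 * (ε * G y w w) / 2 := key
    _ = _ := by ring

end calc0

namespace Riem

variable [CompactSpace M] (R : Riem n M)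

/-- Local form, in the chart of `x₀`.  `F (y, w', w) = cc (ex (y, w), ex (y, w'))` is smooth near `(φ x₀, 0, 0)`
(`Rad.sm` at `mkT x₀ 0`, `contDiffAt_ex`).  `F (y, 0, w) = G y w w / 2` near the point (`Rad.min`), so the Hessian in
`w` at `(φ x₀, 0, 0)` is `G (φ x₀)`; by continuity of the Hessian of `F` and of `G` and coercivity (`chtm_coercive`) it is
`ε G y`-close to `G y` on a product of balls.  `F (y, w', 0) = G y w' w' / 2`, `∂_w F (y, w', 0) = -G y w'` (`SmoothAt.der`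
for `(tmChart x₀).symm (y, w')`, `fderiv_ex_zero`).  `taylor_two`.  `N` = preimage of a small ball under `tmChart x₀`;
`q x u v = G (φ x) (L u) (L v)` where `tmChart x₀ (mkT x u) = (φ x, L u)` (`tmChart_snd`, `chartG_trans`,
`chartG_center`). -/
theorem tay_short_nhds (x₀ : M) {ε : ℝ} (hε : 0 < ε) : ∃ N ∈ 𝓝 (mkT x₀ (0 : EE n)), ∀ x ξ η, mkT x ξ ∈ N → mkT x η ∈ N →
    |cst (R.exp x ξ) (R.exp x η) - (R.q x η η / 2 - R.q x η ξ + R.q x ξ ξ / 2)| ≤ ε * R.q x ξ ξ := by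
  obtain ⟨r, hr⟩ := R.exists_rad
  set y₀ : EE n := ch n x₀ x₀ with hy₀
  have hs₀ : x₀ ∈ (ch n x₀).source := mem_chart_source _ _
  have ht₀ : y₀ ∈ (ch n x₀).target := (ch n x₀).map_source hs₀
  have hz : ∀ x, (R.Φ 1 (mkT x (0 : EE n))).proj = x := fun x => R.flow.proj_zero x 1
  have hd0 : ∀ x, x ∈ (ch n x₀).source → R.Dom x₀ x₀ (mkT x 0) := fun x hx => ⟨hx, by rw [hz]; exact hx⟩
  have tm0 : ∀ x, tmChart n x₀ (mkT x (0 : EE n)) = (ch n x₀ x, 0) := fun x =>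
    Prod.ext (tmChart_fst _ _) (by rw [tmChart_snd, vecT_mkT, map_zero])
  have ex0 : ∀ x, x ∈ (ch n x₀).source → R.ex x₀ x₀ (ch n x₀ x, 0) = ch n x₀ x := by
    intro x hx
    rw [← tm0, ex_apply (ξ := mkT x 0) hx, hz]
  have hn0 : ∀ x, R.nrm (mkT x (0 : EE n)).proj (vecT (mkT x (0 : EE n))) < r := fun x => by
    rw [vecT_mkT, nrm_zero]
    exact hr.pos
  have cex : ∀ x, x ∈ (ch n x₀).source → ContDiffAt ℝ ∞ (R.ex x₀ x₀) (ch n x₀ x, 0) := fun x hx =>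
    tm0 x ▸ (hd0 x hx).contDiffAt_ex
  set F : EE n × EE n × EE n → ℝ := fun p => cc n x₀ x₀ (R.ex x₀ x₀ (p.1, p.2.2), R.ex x₀ x₀ (p.1, p.2.1)) with hFd
  have hF : ContDiffAt ℝ 2 F (y₀, 0, 0) := by
    have h1 := (hr.sm x₀ x₀ _ (hd0 x₀ hs₀) (hn0 x₀)).sm
    rw [hz, mkT_proj] at h1
    have h2 : ContDiffAt ℝ ∞ (fun p : EE n × EE n × EE n => R.ex x₀ x₀ (p.1, p.2.2)) (y₀, 0, 0) :=
      ContDiffAt.comp (f := fun p : EE n × EE n × EE n => (p.1, p.2.2)) (y₀, 0, 0) (cex x₀ hs₀) (by fun_prop)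
    have h3 : ContDiffAt ℝ ∞ (fun p : EE n × EE n × EE n => R.ex x₀ x₀ (p.1, p.2.1)) (y₀, 0, 0) :=
      ContDiffAt.comp (f := fun p : EE n × EE n × EE n => (p.1, p.2.1)) (y₀, 0, 0) (cex x₀ hs₀) (by fun_prop)
    have h4 : ContDiffAt ℝ ∞ F (y₀, 0, 0) := by
      refine ContDiffAt.comp (g := cc n x₀ x₀) (y₀, 0, 0) ?_ (h2.prodMk h3)
      simpa only [hy₀, ex0 x₀ hs₀] using h1
    exact h4.of_le (by norm_cast)
  have hG : ContinuousAt (R.G x₀) y₀ :=
    (isLC_chart R.g x₀).g_smooth.continuousOn.continuousAt ((ch n x₀).open_target.mem_nhds ht₀)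
  obtain ⟨K, hK1, hK2, hK3⟩ := local_compact_nhds ((ch n x₀).open_target.mem_nhds ht₀)
  obtain ⟨c, hc, hco⟩ := chtm_coercive R.g x₀ hK3 hK2
  -- the good set
  have hN : ∀ᶠ ζ in 𝓝 (mkT x₀ (0 : EE n)), R.Dom x₀ x₀ ζ ∧ R.nrm ζ.proj (vecT ζ) < r :=
    (hd0 x₀ hs₀).eventually_nhds.and (R.continuous_nrmT.continuousAt.eventually_lt continuousAt_const (hn0 x₀))
  have val : ∀ x ξ η, R.Dom x₀ x₀ (mkT x ξ) → R.Dom x₀ x₀ (mkT x η) →
      F (ch n x₀ x, (tmChart n x₀ (mkT x η)).2, (tmChart n x₀ (mkT x ξ)).2) = cst (R.exp x ξ) (R.exp x η) := by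
    intro x ξ η hξ hη
    have e1 : (ch n x₀ x, (tmChart n x₀ (mkT x ξ)).2) = tmChart n x₀ (mkT x ξ) :=
      Prod.ext (tmChart_fst x₀ (mkT x ξ)).symm rfl
    have e2 : (ch n x₀ x, (tmChart n x₀ (mkT x η)).2) = tmChart n x₀ (mkT x η) :=
      Prod.ext (tmChart_fst x₀ (mkT x η)).symm rfl
    simp only [hFd, cc]
    rw [e1, e2, ex_apply hξ.1, ex_apply hη.1, (ch n x₀).left_inv hξ.2, (ch n x₀).left_inv hη.2]
    rfl
  have gq : ∀ x ξ η, x ∈ (ch n x₀).source →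
      R.G x₀ (ch n x₀ x) (tmChart n x₀ (mkT x ξ)).2 (tmChart n x₀ (mkT x η)).2 = R.q x ξ η := by
    intro x ξ η hx
    rw [tmChart_snd, tmChart_snd, mkT_proj, mkT_proj, vecT_mkT, vecT_mkT]
    exact (chartG_trans R.g (mem_chart_source _ x) hx ξ η).symm.trans (chartG_center R.g x ξ η)
  have h0 : ∀ᶠ w in 𝓝 (0 : EE n), F (y₀, 0, w) = R.G x₀ y₀ w w / 2 := by
    filter_upwards [(continuous_mkT x₀).continuousAt.eventually hN] with w hw
    have h1 := val x₀ w 0 hw.1 (hd0 x₀ hs₀)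
    have h2 := gq x₀ w w hs₀
    rw [tmChart_mkT] at h1 h2
    rw [tmChart_mkT] at h1
    rw [hy₀, h1, h2, exp_zero, cst_comm]
    exact (hr.min x₀ w hw.2).cst_eq
  obtain ⟨δ, hδ, key⟩ := g8a_abs hc hε hF hG (Filter.mem_of_superset hK1 fun y hy => hco y hy) h0
  have hN2 : ∀ᶠ ζ in 𝓝 (mkT x₀ (0 : EE n)), dist (tmChart n x₀ ζ) (y₀, 0) < δ := by
    have h1 : ContinuousAt (tmChart n x₀) (mkT x₀ (0 : EE n)) :=
      (tmChart n x₀).continuousAt (mem_tmChart_source.2 hs₀)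
    have h2 := Metric.tendsto_nhds.1 h1 δ hδ
    rwa [tm0] at h2
  refine ⟨_, hN.and hN2, fun x ξ η ⟨⟨a1, a2⟩, a3⟩ ⟨⟨b1, b2⟩, b3⟩ => ?_⟩
  have hx : x ∈ (ch n x₀).source := a1.1
  rw [Prod.dist_eq, max_lt_iff, tmChart_fst, dist_zero_right] at a3 b3
  have h1 := key _ _ _ a3.1 b3.2 a3.2
  rw [mkT_proj, val x ξ η a1 b1, gq x ξ ξ hx] at h1
  have h2 := val x 0 η (hd0 x hx) b1
  rw [tm0, exp_zero, (hr.min x η b2).cst_eq] at h2
  have h3 : fderiv ℝ (fun w => F (ch n x₀ x, (tmChart n x₀ (mkT x η)).2, w)) 0 (tmChart n x₀ (mkT x ξ)).2 =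
      -R.q x η ξ := by
    have s := hr.sm x₀ x₀ _ b1 b2
    have e2 : (ch n x₀ x, (tmChart n x₀ (mkT x η)).2) = tmChart n x₀ (mkT x η) :=
      Prod.ext (tmChart_fst x₀ (mkT x η)).symm rfl
    have d1 : HasFDerivAt (fun w : EE n => R.ex x₀ x₀ (ch n x₀ x, w))
        ((fderiv ℝ (R.ex x₀ x₀) (ch n x₀ x, 0)).comp (ContinuousLinearMap.inr ℝ (EE n) (EE n))) 0 :=
      HasFDerivAt.comp (f := fun w : EE n => (ch n x₀ x, w)) 0
        ((cex x hx).differentiableAt (by simp)).hasFDerivAt (hasFDerivAt_prodMk_right _ _)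
    have d2 := d1.prodMk (hasFDerivAt_const (ch n x₀ (R.Φ 1 (mkT x η)).proj) (0 : EE n))
    have d3 : HasFDerivAt (cc n x₀ x₀) (fderiv ℝ (cc n x₀ x₀) (ch n x₀ x, ch n x₀ (R.Φ 1 (mkT x η)).proj))
        (R.ex x₀ x₀ (ch n x₀ x, 0), ch n x₀ (R.Φ 1 (mkT x η)).proj) := by
      rw [ex0 x hx]
      exact (s.sm.differentiableAt (by simp)).hasFDerivAt
    have d4 := HasFDerivAt.comp (g := cc n x₀ x₀) (0 : EE n) d3 d2
    have e3 : (fun w => F (ch n x₀ x, (tmChart n x₀ (mkT x η)).2, w)) =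
        cc n x₀ x₀ ∘ fun w => (R.ex x₀ x₀ (ch n x₀ x, w), ch n x₀ (R.Φ 1 (mkT x η)).proj) := by
      funext w
      simp only [hFd, Function.comp]
      rw [e2, ex_apply b1.1]
    rw [e3, d4.fderiv]
    simp only [ContinuousLinearMap.comp_apply, ContinuousLinearMap.prod_apply, ContinuousLinearMap.inr_apply,
      zero_apply]
    rw [R.fderiv_ex_zero hx, zero_add]
    have d5 := s.der (tmChart n x₀ (mkT x ξ)).2 0
    rw [mkT_proj, map_zero, zero_sub, gq x η ξ hx] at d5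
    exact d5
  rw [h2, h3] at h1
  rwa [sub_eq_add_neg (R.q x η η / 2)]

theorem tay_short {ε : ℝ} (hε : 0 < ε) : ∃ δ > 0, ∀ x ξ η, R.nrm x ξ ≤ δ → R.nrm x η ≤ δ →
    |cst (R.exp x ξ) (R.exp x η) - (R.q x η η / 2 - R.q x η ξ + R.q x ξ ξ / 2)| ≤ ε * R.q x ξ ξ := by
  choose N hN h using fun x₀ => R.tay_short_nhds x₀ hε
  obtain ⟨r, hr, h1⟩ := R.tube N hN
  refine ⟨r / 2, by positivity, fun x ξ η hξ hη => ?_⟩
  obtain ⟨x₀, h2⟩ := h1 x
  exact h x₀ x ξ η (h2 _ (by linarith)) (h2 _ (by linarith))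

end Riem

end Crest.Agent.R226.G

end
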