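import Crest.Agent.R226.Har3

/-!
# R226 / Har : the Jacobian Harnack inequality along chords of the injectivity domain
-/

set_option autoImplicit false

namespace Crest.Agent.R226.Har

open Module LinearMap Set Crest.Agent.R226.L
open scoped RealInnerProductSpace

variable {M : Type*} [MetricSpace M] {E : Type} [NormedAddCommGroup E] [InnerProductSpace ℝ E]
  {exp : M → E → M} {vel : M → E → E} {A P : M → E → E →L[ℝ] E} {c0 L : ℝ}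

set_option maxHeartbeats 1600000 in
/-- **Jacobian Harnack inequality** from the outer end of a chord of the injectivity domain -/
theorem harnack [FiniteDimensional ℝ E] (h : Geo2 exp vel A P c0 L) (hL : 0 < L) {Λ R : ℝ} (hΛ0 : 0 ≤ Λ)
    (hΛ : ∀ x, ∀ u ∈ MinS exp x, ∀ t ∈ Ico (0 : ℝ) 1, ∀ ζ, -(Λ / (1 - t)) * ‖ζ‖ ^ 2 ≤ ⟪A x (t • u) ζ, ζ⟫)
    (hR0 : 0 < R) (hR : ∀ x, ∀ u ∈ MinS exp x, ‖u‖ ≤ R) :
    ∃ θ κ : ℝ, 0 < θ ∧ θ ≤ 1 / 8 ∧ 0 < κ ∧ ∀ x q₀ q₁, segment ℝ q₀ q₁ ⊆ InjS exp x → ‖q₁‖ ≤ ‖q₀‖ →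
      ∀ s ∈ Icc (0 : ℝ) θ, κ * (P x q₀ : E →ₗ[ℝ] E).det ≤ (P x ((1 - s) • q₀ + s • q₁) : E →ₗ[ℝ] E).det := by
  have hc0 := h.c0_ge
  obtain ⟨C, hC⟩ : ∃ C, C = 1 + 16 * L * ((c0 - 1) * R ^ 2) := ⟨_, rfl⟩
  have hC1 : 1 ≤ C := by
    have : 0 ≤ 16 * L * ((c0 - 1) * R ^ 2) := by have : 0 ≤ c0 - 1 := by linarith
                                                 positivity
    linarith
  obtain ⟨ε, hε0, hε1, hε2⟩ : ∃ ε : ℝ, 0 < ε ∧ ε * R * (1 + C) ≤ 1 / 4 ∧ ε * (4 * R ^ 2) * (c0 - 1) ≤ 1 / 2 := by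
    have h1 : 0 < c0 - 1 := by linarith
    refine ⟨min (1 / (4 * R * (1 + C))) (1 / (8 * R ^ 2 * (c0 - 1))), by positivity, ?_, ?_⟩
    · calc _ ≤ 1 / (4 * R * (1 + C)) * R * (1 + C) := by gcongr; exact min_le_left _ _
        _ = _ := by field_simp
    · calc _ ≤ 1 / (8 * R ^ 2 * (c0 - 1)) * (4 * R ^ 2) * (c0 - 1) := by gcongr; exact min_le_right _ _
        _ = _ := by field_simp; norm_num
  obtain ⟨K, hK⟩ : ∃ K, K = 4 + 2 * L * (c0 + Λ) / ε := ⟨_, rfl⟩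
  have hK4 : 4 ≤ K := by
    have : 0 ≤ 2 * L * (c0 + Λ) / ε := by positivity
    linarith
  refine ⟨1 / (2 * K), (1 / 8 : ℝ) ^ finrank ℝ E / (2 * C), by positivity,
    one_div_le_one_div_of_le (by norm_num) (by linarith), by positivity, fun x q₀ q₁ hseg hn s hs => ?_⟩
  have hs8 : s ≤ 1 / 8 := hs.2.trans (one_div_le_one_div_of_le (by norm_num) (by linarith))
  have hsK : 2 * s * K ≤ 1 := by
    have := hs.2
    rw [le_div_iff₀ (by positivity)] at this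
    linarith
  have hq₀ := hseg (left_mem_segment ℝ q₀ q₁)
  have hq₁ := hseg (right_mem_segment ℝ q₀ q₁)
  have hd₀ : 0 ≤ (P x q₀ : E →ₗ[ℝ] E).det := det_nonneg (P_symm h hq₀) (P_nonneg h hq₀)
  obtain ⟨e, rfl⟩ : ∃ e, q₁ = q₀ + e := ⟨q₁ - q₀, by abel⟩
  have hpt : ∀ σ : ℝ, (1 - σ) • q₀ + σ • (q₀ + e) = q₀ + σ • e := fun σ => by module
  have hmem : ∀ σ : ℝ, 0 ≤ σ → σ ≤ 1 → q₀ + σ • e ∈ segment ℝ q₀ (q₀ + e) := fun σ h0 h1 =>
    ⟨1 - σ, σ, by linarith, h0, by ring, hpt σ⟩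
  have hsub : ∀ σ τ : ℝ, 0 ≤ σ → σ ≤ 1 → 0 ≤ τ → τ ≤ 1 → segment ℝ (q₀ + σ • e) (q₀ + τ • e) ⊆ InjS exp x :=
    fun σ τ h0 h1 h2 h3 => ((convex_segment _ _).segment_subset (hmem σ h0 h1) (hmem τ h2 h3)).trans hseg
  rw [hpt]
  by_cases he : e = 0
  · rw [he, smul_zero, add_zero]
    refine mul_le_of_le_one_left hd₀ ((div_le_one (by positivity)).2 ?_)
    exact (pow_le_one₀ (by norm_num) (by norm_num)).trans (by linarith)
  have hl : 0 < ‖e‖ := norm_pos_iff.2 he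
  have hl2 : ‖e‖ ^ 2 ≤ 4 * R ^ 2 := by
    have h1 := norm_le_of_inj hR hq₀
    have h2 := norm_le_of_inj hR hq₁
    have h3 : ‖e‖ ≤ ‖q₀ + e‖ + ‖q₀‖ := by simpa using norm_sub_le (q₀ + e) q₀
    nlinarith
  have hqs := hseg (hmem s hs.1 (by linarith))
  have hqh := hseg (hmem (1 / 2) (by norm_num) (by norm_num))
  set G : E →ₗ[ℝ] E := (P x (q₀ + s • e) : E →ₗ[ℝ] E) + (L * ‖e‖ ^ 2) • LinearMap.id with hG
  have hGa : ∀ u v, ⟪G u, v⟫ = ⟪P x (q₀ + s • e) u, v⟫ + L * ‖e‖ ^ 2 * ⟪u, v⟫ := fun u v => by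
    simp [hG, inner_add_left, inner_smul_left]
  have hGq : ∀ u, ⟪G u, u⟫ = ⟪P x (q₀ + s • e) u, u⟫ + L * ‖e‖ ^ 2 * ‖u‖ ^ 2 := fun u => by
    rw [hGa, real_inner_self_eq_norm_sq]
  have hGs : G.IsSymmetric := fun u v => by
    rw [hGa, real_inner_comm (G v), hGa, real_inner_comm u v, real_inner_comm u]
    congr 1
    exact P_symm h hqs u v
  have hG0 : ∀ u, 0 ≤ ⟪G u, u⟫ := fun u => by
    rw [hGq]; exact add_nonneg (P_nonneg h hqs u) (by positivity)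
  refine core2 (w := W A c0 x q₀) (G := G) (P_symm h hqs) (W_symm h hq₀) hGs (W_P h hq₀) (g := L * ‖e‖ ^ 2)
    (by positivity) (fun u => by rw [hGq]; linarith [P_nonneg h hqs u]) he hC1 (P_nonneg h hqs)
    (fun u => by rw [hGq]; exact le_add_of_nonneg_right (by positivity)) ?_ (fun ξ ζ => ?_) hd₀ (δ := ε * R)
    (by positivity) hε1 zero_le_one le_rfl fun a ha ha1 ξ ζ η hξ hη => ?_
  · have h1 := P_rad h hqs e
    have h2 : ⟪q₀ + s • e, e⟫ ≤ -(‖e‖ ^ 2 / 4) := by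
      have h3 : ‖q₀ + e‖ ^ 2 ≤ ‖q₀‖ ^ 2 := by gcongr
      rw [norm_add_sq_real] at h3
      rw [inner_add_left, inner_smul_left, real_inner_self_eq_norm_sq]
      simp only [conj_trivial]
      nlinarith [sq_nonneg ‖e‖]
    have h4 : (‖e‖ ^ 2 / 4) ^ 2 ≤ ⟪q₀ + s • e, e⟫ ^ 2 := by nlinarith [sq_nonneg ‖e‖]
    have h5 : (c0 - 1) * ‖q₀ + s • e‖ ^ 2 * ⟪P x (q₀ + s • e) e, e⟫ ≤ (c0 - 1) * R ^ 2 * ⟪P x (q₀ + s • e) e, e⟫ := by
      have := P_nonneg h hqs e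
      have := norm_le_of_inj hR hqs
      have : 0 ≤ c0 - 1 := by linarith
      gcongr
    rw [hGq, hC]
    show _ ≤ _ * ⟪P x (q₀ + s • e) e, e⟫
    nlinarith [mul_le_mul_of_nonneg_left (h4.trans (h1.trans h5)) hL.le]
  · have h1 := dual_le h hq₀ ξ ζ
    have h2 := h.P_sd x (q₀ + s • e) (s • e) (by
      rw [add_sub_cancel_right, add_assoc, ← add_smul]
      simpa using hsub 0 (s + s) le_rfl zero_le_one (by linarith [hs.1]) (by linarith)) ζ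
    rw [add_sub_cancel_right, add_assoc, ← add_smul, norm_smul, Real.norm_eq_abs, abs_of_nonneg hs.1] at h2
    have h3 := P_nonneg h (hseg (hmem (s + s) (by linarith [hs.1]) (by linarith))) ζ
    have h4 : L * (s * ‖e‖) ^ 2 * ‖ζ‖ ^ 2 ≤ L * (1 * ‖e‖) ^ 2 * ‖ζ‖ ^ 2 := by
      have := hs.1
      gcongr; linarith
    rw [hGq]
    nlinarith [mul_nonneg (mul_nonneg hL.le (sq_nonneg ‖e‖)) (sq_nonneg ‖ζ‖)]
  · obtain ⟨r, hr⟩ : ∃ r, r = ε * a * ‖e‖ ^ 2 := ⟨_, rfl⟩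
    have hr0 : 0 < r := by rw [hr]; positivity
    have hrc : r * (c0 - 1) ≤ 1 / 2 := by
      refine le_trans ?_ hε2
      have : 0 ≤ c0 - 1 := by linarith
      rw [hr]
      calc ε * a * ‖e‖ ^ 2 * (c0 - 1) ≤ ε * 1 * (4 * R ^ 2) * (c0 - 1) := by gcongr
        _ = _ := by ring
    have hr1 : r < 1 := by nlinarith
    have hqs' := shrink_mem hqs (sub_pos.2 hr1) (by linarith)
    have hqh' := shrink_mem hqh (sub_pos.2 hr1) (by linarith)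
    have h1 := dual_le h hqs' ξ ζ
    have h2 := h.P_lip x _ _ (segment_rad hqs (sub_pos.2 hr1) (by linarith)) ζ
    have h3 : L * ‖(1 - r) • (q₀ + s • e) - (q₀ + s • e)‖ * ‖ζ‖ ^ 2 ≤ ε * R * a * ⟪G ζ, ζ⟫ := by
      rw [show (1 - r) • (q₀ + s • e) - (q₀ + s • e) = (-r) • (q₀ + s • e) by module, norm_smul, norm_neg,
        Real.norm_eq_abs, abs_of_pos hr0, hGq]
      have := norm_le_of_inj hR hqs
      have h4 := P_nonneg h hqs ζ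
      calc L * (r * ‖q₀ + s • e‖) * ‖ζ‖ ^ 2 ≤ L * (r * R) * ‖ζ‖ ^ 2 := by gcongr
        _ = ε * R * a * (0 + L * ‖e‖ ^ 2 * ‖ζ‖ ^ 2) := by rw [hr]; ring
        _ ≤ _ := by gcongr
    have h4 := h.mtw x ((1 - r) • q₀) ((1 - r) • (q₀ + (1 / 2 : ℝ) • e))
      (segment_shrink (by simpa using hsub 0 (1 / 2) le_rfl zero_le_one (by norm_num) (by norm_num))
        (sub_pos.2 hr1) (by linarith)) ξ
      (by rw [← smul_sub, add_sub_cancel_left, inner_smul_left, inner_smul_left, hξ]; simp) (2 * s)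
      ⟨by linarith [hs.1], by linarith⟩
    rw [show (1 - 2 * s) • (1 - r) • q₀ + (2 * s) • (1 - r) • (q₀ + (1 / 2 : ℝ) • e) = (1 - r) • (q₀ + s • e) by
      module] at h4
    have h5 := W_shrink h hq₀ hr0 hr1 (by linarith) ξ
    have h6 : ∀ u, a * ⟪G u, u⟫ ≤ K * ⟪P x ((1 - r) • (q₀ + (1 / 2 : ℝ) • e)) u, u⟫ := fun u => by
      have k1 := h.P_sd x (q₀ + (1 / 2 : ℝ) • e) ((1 / 2 - s) • e) (by
        rw [add_assoc, ← add_smul, add_sub_assoc, ← sub_smul]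
        exact hsub _ _ (by linarith [hs.1]) (by linarith) (by linarith) (by linarith [hs.1])) u
      rw [add_assoc, ← add_smul, add_sub_assoc, ← sub_smul, sub_sub_cancel, norm_smul, Real.norm_eq_abs,
        abs_of_nonneg (by linarith)] at k1
      have k2 := P_nonneg h (hseg (hmem (1 / 2 + (1 / 2 - s)) (by linarith) (by linarith [hs.1]))) u
      have k3 : L * ((1 / 2 - s) * ‖e‖) ^ 2 * ‖u‖ ^ 2 ≤ L * (1 * ‖e‖) ^ 2 * ‖u‖ ^ 2 := by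
        have : 0 ≤ 1 / 2 - s := by linarith
        gcongr; linarith [hs.1]
      have k4 := P_shrink h hqh hr0 hr1 (by linarith) u
      have k5 := P_shrink' h hΛ0 hΛ hqh hr0 hr1 u
      have k6 := P_nonneg h hqh' u
      have k7 := P_nonneg h hqh u
      set p' := ⟪P x ((1 - r) • (q₀ + (1 / 2 : ℝ) • e)) u, u⟫
      have k8 : ⟪G u, u⟫ ≤ 4 * p' + 2 * (L * ‖e‖ ^ 2 * ‖u‖ ^ 2) := by rw [hGq]; nlinarith
      have k9 : a * (2 * (L * ‖e‖ ^ 2 * ‖u‖ ^ 2)) ≤ 2 * L * (c0 + Λ) / ε * p' := by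
        rw [div_mul_eq_mul_div, le_div_iff₀ hε0]
        have := mul_le_mul_of_nonneg_left k5 (by positivity : 0 ≤ 2 * L)
        rw [hr] at this
        linarith
      rw [hK]
      nlinarith [mul_le_mul_of_nonneg_left k8 ha.le, mul_le_mul_of_nonneg_right ha1 k6]
    have hηξ : 0 ≤ ⟪η, ξ⟫ := by rw [← hη, real_inner_comm]; exact hG0 η
    have h7 : a * ⟪W A c0 x ((1 - r) • (q₀ + (1 / 2 : ℝ) • e)) ξ, ξ⟫ ≤ K * ⟪η, ξ⟫ := by
      have k1 := cs hGs hG0 η (W A c0 x ((1 - r) • (q₀ + (1 / 2 : ℝ) • e)) ξ)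
      have k2 := h6 (W A c0 x ((1 - r) • (q₀ + (1 / 2 : ℝ) • e)) ξ)
      rw [P_W h hqh'] at k2
      rw [hη, real_inner_comm η ξ] at k1
      rw [real_inner_comm ξ]
      set X := ⟪ξ, W A c0 x ((1 - r) • (q₀ + (1 / 2 : ℝ) • e)) ξ⟫
      rcases le_or_gt X 0 with hX | hX
      · nlinarith [mul_nonneg (by linarith : 0 ≤ K) hηξ]
      · refine le_of_mul_le_mul_left ?_ hX
        nlinarith [mul_le_mul_of_nonneg_left k1 ha.le, mul_le_mul_of_nonneg_left k2 hηξ]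
    have h8 : 2 * s * ⟪W A c0 x ((1 - r) • (q₀ + (1 / 2 : ℝ) • e)) ξ, ξ⟫ ≤ 1 / a * ⟪η, ξ⟫ := by
      rw [div_mul_eq_mul_div, le_div_iff₀ ha]
      nlinarith [mul_le_mul_of_nonneg_left h7 hs.1, mul_le_mul_of_nonneg_right hsK hηξ]
    have h9 : (1 - 2 * s) * ⟪W A c0 x ((1 - r) • q₀) ξ, ξ⟫ ≤ 2 * ⟪W A c0 x q₀ ξ, ξ⟫ := by
      have := (sq_nonneg _).trans (W_ge h (shrink_mem hq₀ (sub_pos.2 hr1) (by linarith)) ξ)
      nlinarith [hs.1]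
    have h10 : ⟪W A c0 x ((1 - r) • (q₀ + s • e)) ξ, ξ⟫ ≤ (1 - 2 * s) * ⟪W A c0 x ((1 - r) • q₀) ξ, ξ⟫ +
        2 * s * ⟪W A c0 x ((1 - r) • (q₀ + (1 / 2 : ℝ) • e)) ξ, ξ⟫ := by
      rw [inner_W, inner_W, inner_W]; linarith
    show _ ≤ ⟪P x (q₀ + s • e) ζ, ζ⟫ + _ + _ + _
    linarith

end Crest.Agent.R226.Har
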