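import Mathlib

/-!
# R226 / Har1 : eigenvalue comparison, determinants of compressions, bordered determinants
-/

set_option autoImplicit false

namespace Crest.Agent.R226.Har

open Module LinearMap
open scoped RealInnerProductSpace

variable {E : Type*} [NormedAddCommGroup E] [InnerProductSpace ℝ E] [FiniteDimensional ℝ E]

theorem exists_span {T : E →ₗ[ℝ] E} (hT : T.IsSymmetric) {n : ℕ} (hn : finrank ℝ E = n) (s : Finset (Fin n)) :
    ∃ U : Submodule ℝ E, finrank ℝ U = s.card ∧ ∀ x ∈ U, ∀ a : ℝ,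
      ⟪T x, x⟫ - a * ‖x‖ ^ 2 = ∑ j ∈ s, (hT.eigenvalues hn j - a) * ⟪hT.eigenvectorBasis hn j, x⟫ ^ 2 := by
  set b := hT.eigenvectorBasis hn with hb
  refine ⟨Submodule.span ℝ (Set.range fun j : s => b j), ?_, fun x hx a => ?_⟩
  · exact (finrank_span_eq_card (b.orthonormal.linearIndependent.comp _ Subtype.val_injective)).trans
      (Fintype.card_coe s)
  · have h0 : ∀ j, j ∉ s → ⟪b j, x⟫ = 0 := fun j hj => by
      refine Submodule.span_induction (p := fun x _ => ⟪b j, x⟫ = 0) ?_ (by simp) ?_ ?_ hx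
      · rintro _ ⟨k, rfl⟩
        exact b.orthonormal.2 fun h => hj (h ▸ k.2)
      · intro x y _ _ h1 h2
        rw [inner_add_right, h1, h2, add_zero]
      · intro c x _ h1
        rw [inner_smul_right, h1, mul_zero]
    have h1 : ⟪T x, x⟫ = ∑ j, hT.eigenvalues hn j * ⟪b j, x⟫ ^ 2 := by
      rw [← b.sum_inner_mul_inner (T x) x]
      refine Finset.sum_congr rfl fun j _ => ?_
      rw [hT x (b j), hb, hT.apply_eigenvectorBasis hn j, inner_smul_right, real_inner_comm]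
      simp only [RCLike.ofReal_real_eq_id, id_eq]
      ring
    have h2 : ‖x‖ ^ 2 = ∑ j, ⟪b j, x⟫ ^ 2 := by
      rw [← real_inner_self_eq_norm_sq, ← b.sum_inner_mul_inner x x]
      refine Finset.sum_congr rfl fun j _ => ?_
      rw [real_inner_comm]; ring
    rw [h1, h2, Finset.mul_sum, ← Finset.sum_sub_distrib]
    symm
    refine (Finset.sum_subset (Finset.subset_univ s) fun j _ hj => by rw [h0 j hj]; ring).trans ?_
    exact Finset.sum_congr rfl fun j _ => by ring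

theorem exists_sub {T : E →ₗ[ℝ] E} (hT : T.IsSymmetric) {n : ℕ} (hn : finrank ℝ E = n) (i : Fin n) :
    ∃ U : Submodule ℝ E, finrank ℝ U = n - i ∧ ∀ x ∈ U, ⟪T x, x⟫ ≤ hT.eigenvalues hn i * ‖x‖ ^ 2 := by
  obtain ⟨U, h1, h2⟩ := exists_span hT hn (Finset.Ici i)
  refine ⟨U, by rw [h1, Fin.card_Ici], fun x hx => ?_⟩
  have := h2 x hx (hT.eigenvalues hn i)
  have h3 : ∑ j ∈ Finset.Ici i, (hT.eigenvalues hn j - hT.eigenvalues hn i) * ⟪hT.eigenvectorBasis hn j, x⟫ ^ 2 ≤ 0 :=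
    Finset.sum_nonpos fun j hj => mul_nonpos_of_nonpos_of_nonneg
      (sub_nonpos.2 (hT.eigenvalues_antitone hn (Finset.mem_Ici.1 hj))) (sq_nonneg _)
  linarith

theorem exists_sup {T : E →ₗ[ℝ] E} (hT : T.IsSymmetric) {n : ℕ} (hn : finrank ℝ E = n) (i : Fin n) :
    ∃ U : Submodule ℝ E, finrank ℝ U = i + 1 ∧ ∀ x ∈ U, hT.eigenvalues hn i * ‖x‖ ^ 2 ≤ ⟪T x, x⟫ := by
  obtain ⟨U, h1, h2⟩ := exists_span hT hn (Finset.Iic i)
  refine ⟨U, by rw [h1, Fin.card_Iic], fun x hx => ?_⟩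
  have := h2 x hx (hT.eigenvalues hn i)
  have h3 : 0 ≤ ∑ j ∈ Finset.Iic i, (hT.eigenvalues hn j - hT.eigenvalues hn i) * ⟪hT.eigenvectorBasis hn j, x⟫ ^ 2 :=
    Finset.sum_nonneg fun j hj => mul_nonneg
      (sub_nonneg.2 (hT.eigenvalues_antitone hn (Finset.mem_Iic.1 hj))) (sq_nonneg _)
  linarith

theorem exists_common {n : ℕ} (hn : finrank ℝ E = n) {U V : Submodule ℝ E} (h : n < finrank ℝ U + finrank ℝ V) :
    ∃ x : E, ‖x‖ = 1 ∧ x ∈ U ∧ x ∈ V := by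
  have h1 := Submodule.finrank_sup_add_finrank_inf_eq U V
  have h2 := Submodule.finrank_le (U ⊔ V)
  have h3 : U ⊓ V ≠ ⊥ := fun h0 => by
    rw [h0, finrank_bot] at h1
    omega
  obtain ⟨x, hx, hx0⟩ := Submodule.exists_mem_ne_zero_of_ne_bot h3
  refine ⟨‖x‖⁻¹ • x, ?_, U.smul_mem _ hx.1, V.smul_mem _ hx.2⟩
  rw [norm_smul, norm_inv, norm_norm, inv_mul_cancel₀ (norm_ne_zero_iff.2 hx0)]

theorem det_eq_prod {T : E →ₗ[ℝ] E} (hT : T.IsSymmetric) {n : ℕ} (hn : finrank ℝ E = n) :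
    T.det = ∏ i, hT.eigenvalues hn i := by
  simpa using hT.det_eq_prod_eigenvalues hn

theorem le_eigenvalues {T : E →ₗ[ℝ] E} (hT : T.IsSymmetric) {n : ℕ} (hn : finrank ℝ E = n) {a : ℝ}
    (h : ∀ x, a * ‖x‖ ^ 2 ≤ ⟪T x, x⟫) (i : Fin n) : a ≤ hT.eigenvalues hn i := by
  have := h (hT.eigenvectorBasis hn i)
  rw [hT.apply_eigenvectorBasis hn i, inner_smul_left, real_inner_self_eq_norm_sq,
    (hT.eigenvectorBasis hn).orthonormal.1 i] at this
  simpa using this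

theorem det_nonneg {T : E →ₗ[ℝ] E} (hT : T.IsSymmetric) (h : ∀ x, 0 ≤ ⟪T x, x⟫) : 0 ≤ T.det := by
  rw [det_eq_prod hT rfl]
  exact Finset.prod_nonneg fun i _ => le_eigenvalues hT rfl (fun x => by simpa using h x) i

/-- the determinant is monotone on positive semidefinite operators -/
theorem det_mono {S K : E →ₗ[ℝ] E} (hS : S.IsSymmetric) (hK : K.IsSymmetric) (h0 : ∀ x, 0 ≤ ⟪S x, x⟫)
    (h : ∀ x, ⟪S x, x⟫ ≤ ⟪K x, x⟫) : S.det ≤ K.det := by
  rw [det_eq_prod hS rfl, det_eq_prod hK rfl]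
  refine Finset.prod_le_prod (fun i _ => le_eigenvalues hS rfl (fun x => by simpa using h0 x) i) fun i _ => ?_
  obtain ⟨U, hU, hU'⟩ := exists_sup hS rfl i
  obtain ⟨V, hV, hV'⟩ := exists_sub hK rfl i
  obtain ⟨x, hx, hxU, hxV⟩ := exists_common rfl (U := U) (V := V) (by rw [hU, hV]; omega)
  have h1 := hU' x hxU
  have h2 := hV' x hxV
  rw [hx] at h1 h2
  linarith [h x]

/-- determinant lemma over all scales -/
theorem det_mul_det_ge {p w : E →ₗ[ℝ] E} (hp : p.IsSymmetric) (hw : w.IsSymmetric) {b₀ δ β : ℝ} (hb : 0 < b₀)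
    (hwb : ∀ x, b₀ * ‖x‖ ^ 2 ≤ ⟪w x, x⟫) (hδ : δ * b₀ ≤ 1 / 8) (hβ : β ≤ 2 * b₀)
    (h : ∀ a : ℝ, 0 < a → a ≤ 1 → ∀ ξ ζ : E,
      2 * ⟪ξ, ζ⟫ ≤ ⟪p ζ, ζ⟫ + δ * a * ‖ζ‖ ^ 2 + 2 * ⟪w ξ, ξ⟫ + β / a * ‖ξ‖ ^ 2) :
    (1 / 8 : ℝ) ^ finrank ℝ E ≤ p.det * w.det := by
  rw [det_eq_prod hp rfl, det_eq_prod hw rfl, ← Equiv.prod_comp Fin.revPerm (hw.eigenvalues rfl),
    ← Finset.prod_mul_distrib]
  have key : ∀ i, (1 / 8 : ℝ) ≤ hp.eigenvalues rfl i * hw.eigenvalues rfl (Fin.revPerm i) := fun i => by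
    obtain ⟨U, hU, hU'⟩ := exists_sub hp rfl i
    obtain ⟨V, hV, hV'⟩ := exists_sub hw rfl (Fin.revPerm i)
    obtain ⟨x, hx, hxU, hxV⟩ := exists_common rfl (U := U) (V := V) (by
      rw [hU, hV, Fin.revPerm_apply, Fin.val_rev]; omega)
    have h1 := hU' x hxU
    have h2 := hV' x hxV
    have h3 := le_eigenvalues hw rfl hwb (Fin.revPerm i)
    set μ := hp.eigenvalues rfl i
    set b := hw.eigenvalues rfl (Fin.revPerm i)
    have hb0 : 0 < b := hb.trans_le h3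
    have h4 := h (b₀ / b) (div_pos hb hb0) ((div_le_one hb0).2 h3) x ((4 * b) • x)
    rw [map_smul, inner_smul_right, inner_smul_right, inner_smul_left, real_inner_self_eq_norm_sq, norm_smul, hx,
      Real.norm_eq_abs, abs_of_pos (by positivity)] at h4
    rw [hx] at h1 h2
    simp only [conj_trivial] at h4
    have e1 : δ * (b₀ / b) * (4 * b * 1) ^ 2 = 16 * b * (δ * b₀) := by field_simp; ring
    have e2 : β / (b₀ / b) * 1 ^ 2 ≤ 2 * b := by
      rw [one_pow, mul_one, div_div_eq_mul_div, div_le_iff₀ hb]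
      nlinarith
    have e3 : 4 * b * (4 * b * ⟪p x, x⟫) ≤ 16 * b ^ 2 * μ := by nlinarith [sq_nonneg b]
    have e4 : 16 * b * (δ * b₀) ≤ 2 * b := by nlinarith
    have e5 : 2 * b ≤ b * (16 * (μ * b)) := by nlinarith
    nlinarith
  calc (1 / 8 : ℝ) ^ finrank ℝ E = ∏ _i : Fin (finrank ℝ E), (1 / 8 : ℝ) := by simp
    _ ≤ _ := Finset.prod_le_prod (fun _ _ => by norm_num) fun i _ => key i

/-- square root of a positive definite operator -/
theorem exists_sqrt {G : E →ₗ[ℝ] E} (hG : G.IsSymmetric) {g : ℝ} (hg : 0 < g) (h : ∀ x, g * ‖x‖ ^ 2 ≤ ⟪G x, x⟫) :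
    ∃ k : E ≃ₗ[ℝ] E, (k : E →ₗ[ℝ] E).IsSymmetric ∧ ∀ x, k (k x) = G x := by
  set b := hG.eigenvectorBasis rfl with hb
  have hpos : ∀ i, 0 < hG.eigenvalues rfl i := fun i => hg.trans_le (le_eigenvalues hG rfl h i)
  let k : E →ₗ[ℝ] E := b.toBasis.constr ℝ fun i => √(hG.eigenvalues rfl i) • b i
  have hk : ∀ i, k (b i) = √(hG.eigenvalues rfl i) • b i := fun i =>
    b.toBasis.constr_basis ℝ (fun i => √(hG.eigenvalues rfl i) • b i) i
  have hkk : k ∘ₗ k = G := b.toBasis.ext fun i => by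
    simp only [comp_apply, OrthonormalBasis.coe_toBasis, hk, map_smul, smul_smul, Real.mul_self_sqrt (hpos i).le]
    rw [hb, hG.apply_eigenvectorBasis]; simp
  have hinj : Function.Injective k := by
    refine (injective_iff_map_eq_zero k).2 fun x hx => ?_
    have h1 := h x
    rw [← hkk, comp_apply, hx, map_zero, inner_zero_left] at h1
    have : ‖x‖ ^ 2 ≤ 0 := by nlinarith [sq_nonneg ‖x‖]
    exact norm_eq_zero.1 (pow_eq_zero_iff two_ne_zero |>.1 (le_antisymm this (sq_nonneg _)))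
  refine ⟨LinearEquiv.ofInjectiveEndo k hinj, ?_, fun x => LinearMap.congr_fun hkk x⟩
  show k.IsSymmetric
  intro x y
  have hx : k x = ∑ i, (⟪b i, x⟫ * √(hG.eigenvalues rfl i)) • b i := by
    conv_lhs => rw [← b.sum_repr' x]
    simp only [map_sum, map_smul, hk, smul_smul]
  have hy : k y = ∑ i, (⟪b i, y⟫ * √(hG.eigenvalues rfl i)) • b i := by
    conv_lhs => rw [← b.sum_repr' y]
    simp only [map_sum, map_smul, hk, smul_smul]
  rw [hx, hy, sum_inner, inner_sum]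
  refine Finset.sum_congr rfl fun i _ => ?_
  rw [inner_smul_left, inner_smul_right, real_inner_comm (b i) x]
  simp only [conj_trivial]
  ring

end Crest.Agent.R226.Har
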