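import Crest.Agent.R226.Har1

/-!
# R226 / Har2 : compressions to a hyperplane, bordered determinants, the normalised Harnack lemma
-/

set_option autoImplicit false

namespace Crest.Agent.R226.Har

open Module LinearMap
open scoped RealInnerProductSpace

variable {E : Type*} [NormedAddCommGroup E] [InnerProductSpace ℝ E] [FiniteDimensional ℝ E]

omit [FiniteDimensional ℝ E] in
/-- Cauchy-Schwarz for a positive semidefinite operator -/
theorem cs {S : E →ₗ[ℝ] E} (hS : S.IsSymmetric) (h0 : ∀ x, 0 ≤ ⟪S x, x⟫) (x y : E) :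
    ⟪S x, y⟫ ^ 2 ≤ ⟪S x, x⟫ * ⟪S y, y⟫ := by
  have h : ∀ t : ℝ, 0 ≤ ⟪S y, y⟫ * (t * t) + 2 * ⟪S x, y⟫ * t + ⟪S x, x⟫ := fun t => by
    have := h0 (x + t • y)
    rw [map_add, map_smul, inner_add_left, inner_add_right, inner_add_right, inner_smul_left, inner_smul_left,
      inner_smul_right, inner_smul_right, hS y x, real_inner_comm (S x) y] at this
    simp only [conj_trivial] at this
    linarith
  have := discrim_le_zero h
  rw [discrim] at this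
  nlinarith

/-- the functional `⟪e, ·⟫` -/
noncomputable def fn (e : E) : E →ₗ[ℝ] ℝ := innerₗ E e

omit [FiniteDimensional ℝ E] in
@[simp] theorem fn_apply (e x : E) : fn e x = ⟪e, x⟫ := rfl

/-- projection onto the hyperplane orthogonal to the unit vector `e` -/
noncomputable def pr (e : E) : E →ₗ[ℝ] E := transvection (-fn e) e

omit [FiniteDimensional ℝ E] in
theorem pr_apply (e x : E) : pr e x = x - ⟪e, x⟫ • e := by
  simp [pr, transvection.apply, sub_eq_add_neg]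

omit [FiniteDimensional ℝ E] in
theorem pr_symm (e : E) : (pr e).IsSymmetric := fun x y => by
  rw [pr_apply, pr_apply, inner_sub_left, inner_sub_right, inner_smul_left, inner_smul_right, real_inner_comm e x]
  simp only [conj_trivial]
  ring

omit [FiniteDimensional ℝ E] in
theorem inner_pr {e : E} (he : ‖e‖ = 1) (x : E) : ⟪e, pr e x⟫ = 0 := by
  rw [pr_apply, inner_sub_right, inner_smul_right, real_inner_self_eq_norm_sq, he]; ring

omit [FiniteDimensional ℝ E] in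
theorem pr_self {e : E} (he : ‖e‖ = 1) : pr e e = 0 := by
  rw [pr_apply, real_inner_self_eq_norm_sq, he]; simp

omit [FiniteDimensional ℝ E] in
theorem inner_pr_pr {e : E} (he : ‖e‖ = 1) (x y : E) : ⟪pr e x, pr e y⟫ = ⟪x, y⟫ - ⟪e, x⟫ * ⟪e, y⟫ := by
  rw [pr_apply e x, inner_sub_left, inner_smul_left, inner_pr he, pr_apply, inner_sub_right, inner_smul_right,
    real_inner_comm e x]
  simp only [conj_trivial]
  ring

omit [FiniteDimensional ℝ E] in
theorem norm_pr_sq {e : E} (he : ‖e‖ = 1) (x : E) : ‖pr e x‖ ^ 2 = ‖x‖ ^ 2 - ⟪e, x⟫ ^ 2 := by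
  rw [← real_inner_self_eq_norm_sq, inner_pr_pr he, real_inner_self_eq_norm_sq]; ring

/-- the compression of `W` to `e^⊥`, extended by `c` on the line through `e` -/
noncomputable def cmp (W : E →ₗ[ℝ] E) (e : E) (c : ℝ) : E →ₗ[ℝ] E :=
  pr e ∘ₗ W ∘ₗ pr e + c • (fn e).smulRight e

omit [FiniteDimensional ℝ E] in
theorem cmp_apply (W : E →ₗ[ℝ] E) (e : E) (c : ℝ) (x : E) :
    cmp W e c x = pr e (W (pr e x)) + (c * ⟪e, x⟫) • e := by
  simp [cmp, smul_smul]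

omit [FiniteDimensional ℝ E] in
theorem inner_cmp (W : E →ₗ[ℝ] E) (e : E) (c : ℝ) (x y : E) :
    ⟪cmp W e c x, y⟫ = ⟪W (pr e x), pr e y⟫ + c * ⟪e, x⟫ * ⟪e, y⟫ := by
  rw [cmp_apply, inner_add_left, pr_symm e, inner_smul_left]; simp

omit [FiniteDimensional ℝ E] in
theorem cmp_symm {W : E →ₗ[ℝ] E} (hW : W.IsSymmetric) (e : E) (c : ℝ) : (cmp W e c).IsSymmetric := fun x y => by
  rw [inner_cmp, real_inner_comm, ← real_inner_comm x, inner_cmp, hW (pr e y), real_inner_comm]; ring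

omit [FiniteDimensional ℝ E] in
theorem cmp_self (W : E →ₗ[ℝ] E) {e : E} (he : ‖e‖ = 1) (c : ℝ) : cmp W e c e = c • e := by
  rw [cmp_apply, pr_self he, real_inner_self_eq_norm_sq, he]; simp

theorem det_cmp (W : E →ₗ[ℝ] E) {e u : E} (he : ‖e‖ = 1) (hu : W u = e) {c : ℝ} (hc : c ≠ 0) :
    (cmp W e c).det = c * ⟪e, u⟫ * W.det := by
  have h : cmp W e c ∘ₗ transvection (c⁻¹ • (fn e ∘ₗ W ∘ₗ pr e)) e = W ∘ₗ transvection (fn e) (c • u - e) := by
    ext x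
    simp only [comp_apply, transvection.apply, map_add, map_smul, cmp_self W he, LinearMap.smul_apply, fn_apply, map_sub, hu,
      smul_eq_mul, smul_smul]
    rw [cmp_apply, pr_apply e (W _), pr_apply e x, map_sub, map_smul, smul_sub, smul_smul]
    have : c⁻¹ * ⟪e, W x - ⟪e, x⟫ • W e⟫ * c = ⟪e, W x - ⟪e, x⟫ • W e⟫ := by field_simp
    rw [this, mul_comm c]
    abel
  have h2 := congrArg LinearMap.det h
  rw [LinearMap.det_comp, LinearMap.det_comp, transvection.det, transvection.det] at h2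
  simp only [LinearMap.smul_apply, comp_apply, pr_self he, map_zero, smul_zero, add_zero, mul_one, fn_apply, inner_sub_right,
    inner_smul_right, real_inner_self_eq_norm_sq, he] at h2
  rw [h2]; ring

/-- Schur complement inequality -/
theorem det_cmp_ge {S : E →ₗ[ℝ] E} (hS : S.IsSymmetric) (h0 : ∀ x, 0 ≤ ⟪S x, x⟫) {e : E} (he : ‖e‖ = 1) (v : E) :
    S.det * ⟪e, v⟫ ^ 2 ≤ (cmp S e 1).det * ⟪S v, v⟫ := by
  by_cases hd : S.det = 0
  · rw [hd, zero_mul]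
    refine mul_nonneg (det_nonneg (cmp_symm hS e 1) fun x => ?_) (h0 v)
    rw [inner_cmp]
    nlinarith [h0 (pr e x), mul_self_nonneg ⟪e, x⟫]
  · obtain ⟨u, hu⟩ := ((LinearMap.isUnit_iff_isUnit_det S).2 (Ne.isUnit hd) |> (LinearMap.isUnit_iff_range_eq_top S).1
      |> LinearMap.range_eq_top.1) e
    have h1 := cs hS h0 u v
    rw [hu] at h1
    rw [det_cmp S he hu one_ne_zero]
    nlinarith [det_nonneg hS h0]

/-- the bordered determinant -/
theorem det_border (K : E →ₗ[ℝ] E) {e : E} (he : ‖e‖ = 1) {l : ℝ} (hl : l ≠ 0) {B : (E × ℝ) →ₗ[ℝ] (E × ℝ)}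
    (hB : ∀ ξ ρ, B (ξ, ρ) = (K ξ - ρ • l • e, ⟪l • e, ξ⟫)) : B.det = l ^ 2 * (cmp K e 1).det := by
  have h : B = transvection (l⁻¹ • snd ℝ E ℝ) (K e - e, 0) ∘ₗ (cmp K e 1).prodMap LinearMap.id ∘ₗ
      transvection (fn (l • e) ∘ₗ fst ℝ E ℝ + (l ^ 2 - 1) • snd ℝ E ℝ) (0, 1) ∘ₗ
      transvection (snd ℝ E ℝ) (-(l • e), 0) ∘ₗ
      transvection (-(l⁻¹ • (fn e ∘ₗ K ∘ₗ pr e ∘ₗ fst ℝ E ℝ))) (0, 1) := by
    refine LinearMap.ext fun ⟨ξ, ρ⟩ => ?_
    rw [hB]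
    have hee : ⟪e, e⟫ = 1 := by rw [real_inner_self_eq_norm_sq, he]; norm_num
    simp only [comp_apply, transvection.apply, LinearMap.neg_apply, LinearMap.smul_apply, fst_apply, snd_apply, fn_apply, smul_eq_mul,
      Prod.smul_mk, Prod.mk_add_mk, smul_zero, add_zero, mul_one, mul_zero, LinearMap.add_apply, prodMap_apply, id_apply,
      map_add, map_smul, map_neg, cmp_self K he, inner_smul_left,
      conj_trivial, hee, one_smul]
    rw [cmp_apply, pr_apply e (K _), pr_apply e ξ, map_sub, map_smul]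
    set a := ⟪e, K ξ - ⟪e, ξ⟫ • K e⟫
    refine Prod.ext ?_ ?_
    · simp only
      match_scalars <;> field_simp <;> ring
    · simp only
      ring
  rw [h]
  simp only [LinearMap.det_comp, transvection.det, det_prodMap, LinearMap.det_id, LinearMap.smul_apply, snd_apply,
    add_zero, LinearMap.add_apply, comp_apply, fst_apply, map_zero, LinearMap.neg_apply, smul_eq_mul]
  ring

/-- lower bound for the bordered determinant -/
theorem det_border_ge {K S : E →ₗ[ℝ] E} (hK : K.IsSymmetric) (hS : S.IsSymmetric) (h0 : ∀ x, 0 ≤ ⟪S x, x⟫) {e : E}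
    (hKS : ∀ ξ, ⟪e, ξ⟫ = 0 → ⟪S ξ, ξ⟫ ≤ ⟪K ξ, ξ⟫) {B : (E × ℝ) →ₗ[ℝ] (E × ℝ)}
    (hB : ∀ ξ ρ, B (ξ, ρ) = (K ξ - ρ • e, ⟪e, ξ⟫)) (v : E) : S.det * ⟪e, v⟫ ^ 2 ≤ B.det * ⟪S v, v⟫ := by
  by_cases he : e = 0
  · have : B.det = 0 := by
      by_contra hd
      have := (LinearMap.isUnit_iff_isUnit_det B).2 (Ne.isUnit hd) |> (LinearMap.isUnit_iff_ker_eq_bot B).1
        |> LinearMap.ker_eq_bot'.1
      simpa using this (0, 1) (by rw [hB, he]; simp)
    simp [this, he]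
  have hl : ‖e‖ ≠ 0 := norm_ne_zero_iff.2 he
  have he' : ‖‖e‖⁻¹ • e‖ = 1 := by rw [norm_smul, norm_inv, norm_norm, inv_mul_cancel₀ hl]
  have hee : ‖e‖ • ‖e‖⁻¹ • e = e := smul_inv_smul₀ hl e
  have h1 := det_border K he' hl (B := B) (by rw [hee]; exact hB)
  have h2 := det_cmp_ge hS h0 he' v
  have h3 : (cmp S (‖e‖⁻¹ • e) 1).det ≤ (cmp K (‖e‖⁻¹ • e) 1).det := by
    refine det_mono (cmp_symm hS _ 1) (cmp_symm hK _ 1) (fun x => ?_) fun x => ?_
    · rw [inner_cmp]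
      nlinarith [h0 (pr (‖e‖⁻¹ • e) x), mul_self_nonneg ⟪‖e‖⁻¹ • e, x⟫]
    · rw [inner_cmp, inner_cmp]
      have := inner_pr he' x
      rw [inner_smul_left, mul_eq_zero] at this
      linarith [hKS _ (this.resolve_left (by simpa using he))]
  have h4 : ⟪e, v⟫ = ‖e‖ * ⟪‖e‖⁻¹ • e, v⟫ := by
    rw [inner_smul_left]; simp only [conj_trivial]; field_simp
  rw [h1, h4]
  have h5 := mul_le_mul_of_nonneg_right h3 (h0 v)
  nlinarith [sq_nonneg ‖e‖]

set_option maxHeartbeats 800000 in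
/-- the Harnack lemma in the normalised frame -/
theorem core {p w : E →ₗ[ℝ] E} (hp : p.IsSymmetric) (hw : w.IsSymmetric) {e : E} (he : ‖e‖ = 1) {C δ β : ℝ}
    (hC : 1 ≤ C) (hp0 : ∀ ζ, 0 ≤ ⟪p ζ, ζ⟫) (hp1 : ∀ ζ, ⟪p ζ, ζ⟫ ≤ ‖ζ‖ ^ 2) (hy : 1 ≤ C * ⟪p e, e⟫)
    (hw1 : ∀ ξ, 1 / 2 * ‖ξ‖ ^ 2 ≤ ⟪w ξ, ξ⟫) (hδ0 : 0 ≤ δ) (hδ : δ * (1 + C) ≤ 1 / 4) (hβ0 : 0 ≤ β) (hβ : β ≤ 1)
    (h : ∀ a : ℝ, 0 < a → a ≤ 1 → ∀ ξ ζ : E, ⟪e, ξ⟫ = 0 →
      2 * ⟪ξ, ζ⟫ ≤ ⟪p ζ, ζ⟫ + δ * a * ‖ζ‖ ^ 2 + 2 * ⟪w ξ, ξ⟫ + β / a * ‖ξ‖ ^ 2) :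
    (1 / 8 : ℝ) ^ finrank ℝ E ≤ 2 * C * (p.det * w.det) := by
  set y := ⟪p e, e⟫ with hydef
  have hy0 : 0 < y := by nlinarith [hp0 e]
  have hee : ⟪e, e⟫ = 1 := by rw [real_inner_self_eq_norm_sq, he]; norm_num
  set u := y⁻¹ • p e - e with hudef
  have hue : ⟪u, e⟫ = 0 := by
    rw [hudef, inner_sub_left, inner_smul_left, hee, ← hydef]; simp [hy0.ne']
  have hpe : p e = y • (u + e) := by rw [hudef, sub_add_cancel, smul_inv_smul₀ hy0.ne']
  set N := transvection (-fn u) e with hN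
  set N' := transvection (-fn e) u with hN'
  have hNa : ∀ x, N x = x - ⟪u, x⟫ • e := fun x => by simp [hN, transvection.apply, sub_eq_add_neg]
  have hadj : ∀ x z, ⟪N' x, z⟫ = ⟪x, N z⟫ := fun x z => by
    rw [hNa]
    simp only [hN', transvection.apply, LinearMap.neg_apply, fn_apply, inner_add_left, inner_smul_left, inner_sub_right,
      inner_smul_right, conj_trivial, real_inner_comm e x]
    ring
  have hs : (N' ∘ₗ p ∘ₗ N).IsSymmetric := fun x z => by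
    simp only [comp_apply]
    rw [hadj, real_inner_comm _ x, hadj, hp (N z), real_inner_comm]
  have hw0 : ∀ ξ, 0 ≤ ⟪w ξ, ξ⟫ := fun ξ => le_trans (by positivity) (hw1 ξ)
  have key := det_mul_det_ge hs (cmp_symm hw e C) (b₀ := 1 / 2) (δ := δ * (1 + C)) (β := β) (by norm_num)
    (fun x => by
      rw [inner_cmp]
      have := hw1 (pr e x)
      rw [norm_pr_sq he] at this
      nlinarith [mul_self_nonneg ⟪e, x⟫]) (by linarith) (by linarith) fun a ha ha1 ξ ζ => by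
      have h1 := h a ha ha1 (pr e ξ) (N (pr e ζ)) (inner_pr he ξ)
      have hup : ⟪u, pr e ζ⟫ = ⟪u, ζ⟫ := by rw [pr_apply, inner_sub_right, inner_smul_right, hue]; ring
      have e1 : ⟪pr e ξ, N (pr e ζ)⟫ = ⟪ξ, ζ⟫ - ⟪e, ξ⟫ * ⟪e, ζ⟫ := by
        rw [hNa, inner_sub_right, inner_smul_right, real_inner_comm e, inner_pr he, inner_pr_pr he]; ring
      have e2 : N ζ = N (pr e ζ) + ⟪e, ζ⟫ • e := by
        rw [hNa, hNa, hup, pr_apply]; abel
      have e3 : ⟪p e, N (pr e ζ)⟫ = 0 := by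
        rw [hpe, hNa, inner_smul_left, inner_add_left, inner_sub_right, inner_sub_right, inner_smul_right,
          inner_smul_right, hue, hee, inner_pr he]
        simp
      have e4 : ⟪(N' ∘ₗ p ∘ₗ N) ζ, ζ⟫ = ⟪p (N (pr e ζ)), N (pr e ζ)⟫ + y * ⟪e, ζ⟫ ^ 2 := by
        simp only [comp_apply]
        rw [hadj, e2, map_add, map_smul, inner_add_left, inner_add_right, inner_add_right, inner_smul_left,
          inner_smul_left, inner_smul_right, inner_smul_right, e3, hp _ e, real_inner_comm _ (N _), e3, ← hydef]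
        simp only [conj_trivial]
        ring
      have e5 : ‖N (pr e ζ)‖ ^ 2 = ‖pr e ζ‖ ^ 2 + ⟪u, pr e ζ⟫ ^ 2 := by
        rw [hNa, norm_sub_sq_real, inner_smul_right, real_inner_comm e, inner_pr he, norm_smul, he, mul_one,
          Real.norm_eq_abs, sq_abs]
        ring
      have e6 : ⟪u, pr e ζ⟫ ^ 2 ≤ C * ‖pr e ζ‖ ^ 2 := by
        have c1 := cs hp hp0 e (pr e ζ)
        rw [← hydef, hpe, inner_smul_left, inner_add_left, inner_pr he] at c1
        simp only [conj_trivial, add_zero] at c1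
        have c2 : y * ⟪u, pr e ζ⟫ ^ 2 ≤ ‖pr e ζ‖ ^ 2 := by
          have := hp1 (pr e ζ)
          have c3 : y * (y * ⟪u, pr e ζ⟫ ^ 2) ≤ y * ‖pr e ζ‖ ^ 2 := by nlinarith
          exact le_of_mul_le_mul_left c3 hy0
        nlinarith [sq_nonneg ⟪u, pr e ζ⟫]
      have e7 : ‖N (pr e ζ)‖ ^ 2 ≤ (1 + C) * ‖ζ‖ ^ 2 := by
        have := norm_pr_sq he ζ
        nlinarith [sq_nonneg ⟪e, ζ⟫]
      have e8 : δ * a * ‖N (pr e ζ)‖ ^ 2 ≤ δ * (1 + C) * a * ‖ζ‖ ^ 2 := by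
        have := mul_le_mul_of_nonneg_left e7 (mul_nonneg hδ0 ha.le)
        linarith
      have e9 : β / a * ‖pr e ξ‖ ^ 2 ≤ β / a * ‖ξ‖ ^ 2 :=
        mul_le_mul_of_nonneg_left (by rw [norm_pr_sq he]; nlinarith [sq_nonneg ⟪e, ξ⟫]) (div_nonneg hβ0 ha.le)
      have e10 : 2 * (⟪e, ξ⟫ * ⟪e, ζ⟫) ≤ y * ⟪e, ζ⟫ ^ 2 + C * ⟪e, ξ⟫ ^ 2 := by
        refine le_of_mul_le_mul_left ?_ hy0
        nlinarith [sq_nonneg (y * ⟪e, ζ⟫ - ⟪e, ξ⟫), sq_nonneg ⟪e, ξ⟫]
      rw [e4, inner_cmp]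
      rw [e1] at h1
      have e11 : 0 ≤ C * ⟪e, ξ⟫ ^ 2 := by positivity
      have e12 : C * ⟪e, ξ⟫ * ⟪e, ξ⟫ = C * ⟪e, ξ⟫ ^ 2 := by ring
      linarith
  have hinj : Function.Injective w := by
    refine (injective_iff_map_eq_zero w).2 fun x hx => ?_
    have h1 := hw1 x
    rw [hx, inner_zero_left] at h1
    exact norm_eq_zero.1 (pow_eq_zero_iff two_ne_zero |>.1 (le_antisymm (by linarith) (sq_nonneg _)))
  obtain ⟨u₀, hu₀⟩ := LinearMap.injective_iff_surjective.1 hinj e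
  have hy2 : ⟪e, u₀⟫ ≤ 2 := by
    have h1 := hw1 u₀
    rw [hu₀] at h1
    have h2 := real_inner_le_norm e u₀
    rw [he] at h2
    nlinarith [norm_nonneg u₀]
  rw [det_cmp w he hu₀ (by linarith), LinearMap.det_comp, LinearMap.det_comp, hN, hN', transvection.det,
    transvection.det] at key
  simp only [LinearMap.neg_apply, fn_apply, hue, real_inner_comm u e, neg_zero, add_zero, one_mul, mul_one] at key
  have h3 := mul_nonneg (det_nonneg hp hp0) (det_nonneg hw hw0)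
  have h4 : C * ⟪e, u₀⟫ * (p.det * w.det) ≤ C * 2 * (p.det * w.det) := by gcongr
  linarith

end Crest.Agent.R226.Har
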