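import Crest.Agent.R226.Har2
import Crest.Agent.R226.LDefs

/-!
# R226 / Har3 : general frame; algebra of `P` and `W = c0 - A`
-/

set_option autoImplicit false

namespace Crest.Agent.R226.Har

open Module LinearMap Set Crest.Agent.R226.L
open scoped RealInnerProductSpace

section general

variable {E : Type*} [NormedAddCommGroup E] [InnerProductSpace ℝ E] [FiniteDimensional ℝ E]

/-- the Harnack lemma in a general frame `G` -/
theorem core2 {p w p₀ G : E →ₗ[ℝ] E} (hp : p.IsSymmetric) (hw : w.IsSymmetric) (hG : G.IsSymmetric)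
    (hwp : ∀ x, w (p₀ x) = x) {g : ℝ} (hg : 0 < g) (hGg : ∀ x, g * ‖x‖ ^ 2 ≤ ⟪G x, x⟫) {e : E} (he : e ≠ 0)
    {C δ β : ℝ} (hC : 1 ≤ C) (hp0 : ∀ ζ, 0 ≤ ⟪p ζ, ζ⟫) (hp1 : ∀ ζ, ⟪p ζ, ζ⟫ ≤ ⟪G ζ, ζ⟫)
    (hy : ⟪G e, e⟫ ≤ C * ⟪p e, e⟫) (hw1 : ∀ ξ ζ, 2 * ⟪ξ, ζ⟫ ≤ ⟪w ξ, ξ⟫ + 2 * ⟪G ζ, ζ⟫) (hp₀ : 0 ≤ p₀.det)
    (hδ0 : 0 ≤ δ) (hδ : δ * (1 + C) ≤ 1 / 4) (hβ0 : 0 ≤ β) (hβ : β ≤ 1)
    (h : ∀ a : ℝ, 0 < a → a ≤ 1 → ∀ ξ ζ η : E, ⟪e, ξ⟫ = 0 → G η = ξ →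
      2 * ⟪ξ, ζ⟫ ≤ ⟪p ζ, ζ⟫ + δ * a * ⟪G ζ, ζ⟫ + 2 * ⟪w ξ, ξ⟫ + β / a * ⟪η, ξ⟫) :
    (1 / 8 : ℝ) ^ finrank ℝ E / (2 * C) * p₀.det ≤ p.det := by
  obtain ⟨k, hk, hkk⟩ := exists_sqrt hG hg hGg
  have hk' : ∀ x y, ⟪k x, y⟫ = ⟪x, k y⟫ := hk
  have hki : ∀ x y, ⟪k.symm x, y⟫ = ⟪x, k.symm y⟫ := fun x y => by
    conv_lhs => rw [← k.apply_symm_apply y, ← hk', k.apply_symm_apply]
  have hGk : ∀ x, ⟪G (k.symm x), k.symm x⟫ = ‖x‖ ^ 2 := fun x => by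
    rw [← hkk, hk', k.apply_symm_apply, real_inner_self_eq_norm_sq]
  have hke : ‖k e‖ ≠ 0 := norm_ne_zero_iff.2 (by simpa using he)
  have he' : ‖‖k e‖⁻¹ • k e‖ = 1 := by rw [norm_smul, norm_inv, norm_norm, inv_mul_cancel₀ hke]
  have key := core (p := k.symm.toLinearMap ∘ₗ p ∘ₗ k.symm.toLinearMap) (w := k.toLinearMap ∘ₗ w ∘ₗ k.toLinearMap)
    (fun x y => by simp only [comp_apply, LinearEquiv.coe_coe]; rw [hki, hp, hki])
    (fun x y => by simp only [comp_apply, LinearEquiv.coe_coe]; rw [hk', hw, hk']) he' hC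
    (fun ζ => by simp only [comp_apply, LinearEquiv.coe_coe]; rw [hki]; exact hp0 _)
    (fun ζ => by simp only [comp_apply, LinearEquiv.coe_coe]; rw [hki, ← hGk]; exact hp1 _)
    (by
      simp only [comp_apply, LinearEquiv.coe_coe]
      rw [hki, map_smul, k.symm_apply_apply, map_smul, inner_smul_left, inner_smul_right]
      rw [← hkk, hk', real_inner_self_eq_norm_sq] at hy
      simp only [conj_trivial]
      have : C * (‖k e‖⁻¹ * (‖k e‖⁻¹ * ⟪p e, e⟫)) = C * ⟪p e, e⟫ / ‖k e‖ ^ 2 := by field_simp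
      rw [this, one_le_div (by positivity)]
      exact hy)
    (fun ξ => by
      simp only [comp_apply, LinearEquiv.coe_coe]
      have := hw1 (k ξ) (k.symm ((1 / 2 : ℝ) • ξ))
      rw [hGk, hk', k.apply_symm_apply, inner_smul_right, real_inner_self_eq_norm_sq, norm_smul] at this
      rw [hk']
      norm_num at this ⊢
      linarith) hδ0 hδ hβ0 hβ
    fun a ha ha1 ξ ζ hξ => by
      simp only [comp_apply, LinearEquiv.coe_coe]
      rw [inner_smul_left, mul_eq_zero, hk'] at hξ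
      have := h a ha ha1 (k ξ) (k.symm ζ) (k.symm ξ) (hξ.resolve_left (by simpa using he))
        (by rw [← hkk, k.apply_symm_apply])
      rw [hGk, hk', k.apply_symm_apply, hki ξ, k.symm_apply_apply, real_inner_self_eq_norm_sq] at this
      rw [hki, hk']
      exact this
  have h1 : LinearMap.det k.symm.toLinearMap * LinearMap.det k.toLinearMap = 1 := LinearEquiv.det_symm_mul_det k
  have h2 : w.det * p₀.det = 1 := by
    rw [← LinearMap.det_comp, show w ∘ₗ p₀ = LinearMap.id from LinearMap.ext hwp, LinearMap.det_id]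
  simp only [LinearMap.det_comp] at key
  have h3 : LinearMap.det k.symm.toLinearMap * (p.det * LinearMap.det k.symm.toLinearMap) *
      (LinearMap.det k.toLinearMap * (w.det * LinearMap.det k.toLinearMap)) = p.det * w.det := by
    calc _ = (LinearMap.det k.symm.toLinearMap * LinearMap.det k.toLinearMap) ^ 2 * (p.det * w.det) := by ring
      _ = _ := by rw [h1]; ring
  rw [h3] at key
  rw [div_mul_eq_mul_div, div_le_iff₀ (by positivity)]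
  calc _ ≤ 2 * C * (p.det * w.det) * p₀.det := mul_le_mul_of_nonneg_right key hp₀
    _ = p.det * (2 * C) * (w.det * p₀.det) := by ring
    _ = _ := by rw [h2, mul_one]

end general

variable {M : Type*} [MetricSpace M] {E : Type} [NormedAddCommGroup E] [InnerProductSpace ℝ E]
  {exp : M → E → M} {vel : M → E → E} {A P : M → E → E →L[ℝ] E} {c0 L : ℝ}

/-- `W = c0 - A` -/
noncomputable def W (A : M → E → E →L[ℝ] E) (c0 : ℝ) (x : M) (q : E) : E →ₗ[ℝ] E :=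
  c0 • LinearMap.id - (A x q : E →ₗ[ℝ] E)

omit [MetricSpace M] in
theorem W_apply (x : M) (q u : E) : W A c0 x q u = c0 • u - A x q u := rfl

omit [MetricSpace M] in
theorem inner_W (x : M) (q u : E) : ⟪W A c0 x q u, u⟫ = c0 * ‖u‖ ^ 2 - ⟪A x q u, u⟫ := by
  rw [W_apply, inner_sub_left, inner_smul_left, real_inner_self_eq_norm_sq]; simp

theorem W_symm (h : Geo2 exp vel A P c0 L) {x : M} {q : E} (hq : q ∈ InjS exp x) : (W A c0 x q).IsSymmetric :=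
  fun u v => by
    rw [W_apply, W_apply, inner_sub_left, inner_sub_right, inner_smul_left, inner_smul_right, h.symm x q hq]; simp

theorem W_ge (h : Geo2 exp vel A P c0 L) {x : M} {q : E} (hq : q ∈ InjS exp x) (u : E) :
    ‖u‖ ^ 2 ≤ ⟪W A c0 x q u, u⟫ := by
  rw [inner_W]; linarith [h.A_le x q hq u]

theorem W_P (h : Geo2 exp vel A P c0 L) {x : M} {q : E} (hq : q ∈ InjS exp x) (u : E) :
    W A c0 x q (P x q u) = u := h.WP x q hq u

theorem P_symm (h : Geo2 exp vel A P c0 L) {x : M} {q : E} (hq : q ∈ InjS exp x) :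
    (P x q : E →ₗ[ℝ] E).IsSymmetric := fun u v => by
  show ⟪P x q u, v⟫ = ⟪u, P x q v⟫
  conv_lhs => rw [← W_P h hq v, ← W_symm h hq, W_P h hq]

theorem P_W (h : Geo2 exp vel A P c0 L) {x : M} {q : E} (hq : q ∈ InjS exp x) (u : E) :
    P x q (W A c0 x q u) = u := by
  refine ext_inner_right ℝ fun v => ?_
  rw [show ⟪P x q (W A c0 x q u), v⟫ = ⟪W A c0 x q u, P x q v⟫ from P_symm h hq _ _, W_symm h hq, W_P h hq]

theorem P_nonneg (h : Geo2 exp vel A P c0 L) {x : M} {q : E} (hq : q ∈ InjS exp x) (u : E) : 0 ≤ ⟪P x q u, u⟫ := by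
  have := W_ge h hq (P x q u)
  rw [W_P h hq, real_inner_comm] at this
  exact (sq_nonneg _).trans this

theorem dual_le (h : Geo2 exp vel A P c0 L) {x : M} {q : E} (hq : q ∈ InjS exp x) (ξ ζ : E) :
    2 * ⟪ξ, ζ⟫ ≤ ⟪W A c0 x q ξ, ξ⟫ + ⟪P x q ζ, ζ⟫ := by
  have := (sq_nonneg _).trans (W_ge h hq (ξ - P x q ζ))
  rw [map_sub, W_P h hq, inner_sub_left, inner_sub_right, inner_sub_right, W_symm h hq ξ (P x q ζ), W_P h hq,
    real_inner_comm ξ ζ, real_inner_comm (P x q ζ) ζ] at this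
  linarith

theorem P_rad (h : Geo2 exp vel A P c0 L) {x : M} {q : E} (hq : q ∈ InjS exp x) (e : E) :
    ⟪q, e⟫ ^ 2 ≤ (c0 - 1) * ‖q‖ ^ 2 * ⟪P x q e, e⟫ := by
  have h1 : W A c0 x q q = (c0 - 1) • q := by rw [W_apply, h.A_rad x q hq, sub_smul, one_smul]
  have h2 := cs (W_symm h hq) (fun u => (sq_nonneg _).trans (W_ge h hq u)) (P x q e) q
  rw [W_P h hq, h1, inner_smul_left, real_inner_self_eq_norm_sq, real_inner_comm q e,
    real_inner_comm (P x q e) e] at h2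
  simp only [conj_trivial] at h2
  linarith

theorem shrink_mem {x : M} {q : E} (hq : q ∈ InjS exp x) {t : ℝ} (ht : 0 < t) (ht1 : t ≤ 1) : t • q ∈ InjS exp x := by
  obtain ⟨a, ha, hq⟩ := hq
  refine ⟨a / t, ?_, by rwa [smul_smul, div_mul_cancel₀ _ ht.ne']⟩
  rw [lt_div_iff₀ ht]; linarith

theorem W_shrink (h : Geo2 exp vel A P c0 L) {x : M} {q : E} (hq : q ∈ InjS exp x) {r : ℝ} (hr : 0 < r) (hr1 : r < 1)
    (hrc : r * (c0 - 1) ≤ 1) (u : E) : ⟪W A c0 x ((1 - r) • q) u, u⟫ ≤ 2 * ⟪W A c0 x q u, u⟫ := by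
  have h0 := W_ge h hq u
  obtain ⟨a, ha, hq'⟩ := hq
  have ha0 : 0 < a := by linarith
  obtain ⟨κ, hκ, h1⟩ := h.mono ((1 - r) / a) (div_pos (by linarith) ha0) (r / a) (div_pos hr ha0)
  have h2 := h1 x _ hq' ((1 - r) / a) (1 / a) le_rfl (le_of_eq (by ring)) ((div_lt_one ha0).2 ha) u
  rw [smul_smul, smul_smul, div_mul_cancel₀ _ ha0.ne', div_mul_cancel₀ _ ha0.ne', one_smul, div_div_eq_mul_div,
    div_div_eq_mul_div, div_one, le_div_iff₀ (by linarith)] at h2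
  have h3 : (1 - r) * ⟪A x q u, u⟫ ≤ ⟪A x ((1 - r) • q) u, u⟫ := by
    refine le_of_mul_le_mul_left ?_ ha0
    nlinarith [mul_nonneg (mul_nonneg hκ.le (sq_nonneg ‖u‖)) (sub_pos.2 hr1).le]
  rw [inner_W] at h0 ⊢
  rw [inner_W]
  have h4 : r * (c0 - 1) * ‖u‖ ^ 2 ≤ 1 * ‖u‖ ^ 2 := mul_le_mul_of_nonneg_right hrc (sq_nonneg _)
  nlinarith

theorem W_shrink' (h : Geo2 exp vel A P c0 L) {Λ : ℝ} (hΛ0 : 0 ≤ Λ)
    (hΛ : ∀ x, ∀ u ∈ MinS exp x, ∀ t ∈ Ico (0 : ℝ) 1, ∀ ζ, -(Λ / (1 - t)) * ‖ζ‖ ^ 2 ≤ ⟪A x (t • u) ζ, ζ⟫)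
    {x : M} {q : E} (hq : q ∈ InjS exp x) {r : ℝ} (hr : 0 < r) (hr1 : r < 1) (u : E) :
    r * ⟪W A c0 x ((1 - r) • q) u, u⟫ ≤ (c0 + Λ) * ‖u‖ ^ 2 := by
  obtain ⟨a, ha, hq'⟩ := hq
  have ha0 : 0 < a := by linarith
  have h0 : (1 - r) / a ≤ 1 - r := div_le_self (by linarith) ha.le
  have h1 := hΛ x _ hq' ((1 - r) / a) ⟨div_nonneg (by linarith) ha0.le, by linarith⟩ u
  rw [smul_smul, div_mul_cancel₀ _ ha0.ne'] at h1
  have h2 : Λ / (1 - (1 - r) / a) ≤ Λ / r := div_le_div_of_nonneg_left hΛ0 hr (by linarith)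
  have h3 : r * (Λ / r) = Λ := by field_simp
  have h4 := mul_le_mul_of_nonneg_right h2 (sq_nonneg ‖u‖)
  have h5 : r * c0 * ‖u‖ ^ 2 ≤ 1 * c0 * ‖u‖ ^ 2 := by have := h.c0_ge; gcongr
  rw [inner_W]
  have h6 : r * (-(Λ / r) * ‖u‖ ^ 2) ≤ r * ⟪A x ((1 - r) • q) u, u⟫ := by gcongr; linarith
  have h7 : r * (-(Λ / r) * ‖u‖ ^ 2) = -(Λ * ‖u‖ ^ 2) := by field_simp
  linarith

theorem P_shrink (h : Geo2 exp vel A P c0 L) {x : M} {q : E} (hq : q ∈ InjS exp x) {r : ℝ} (hr : 0 < r) (hr1 : r < 1)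
    (hrc : r * (c0 - 1) ≤ 1) (u : E) : ⟪P x q u, u⟫ ≤ 2 * ⟪P x ((1 - r) • q) u, u⟫ := by
  have h1 := dual_le h (shrink_mem hq (sub_pos.2 hr1) (by linarith)) ((1 / 2 : ℝ) • P x q u) u
  have h2 := W_shrink h hq hr hr1 hrc ((1 / 2 : ℝ) • P x q u)
  have h3 : ⟪W A c0 x q ((1 / 2 : ℝ) • P x q u), (1 / 2 : ℝ) • P x q u⟫ = 1 / 4 * ⟪P x q u, u⟫ := by
    rw [map_smul, W_P h hq, inner_smul_left, inner_smul_right, real_inner_comm (P x q u) u]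
    simp only [conj_trivial]
    ring
  rw [inner_smul_left] at h1
  simp only [conj_trivial] at h1
  linarith

theorem P_shrink' (h : Geo2 exp vel A P c0 L) {Λ : ℝ} (hΛ0 : 0 ≤ Λ)
    (hΛ : ∀ x, ∀ u ∈ MinS exp x, ∀ t ∈ Ico (0 : ℝ) 1, ∀ ζ, -(Λ / (1 - t)) * ‖ζ‖ ^ 2 ≤ ⟪A x (t • u) ζ, ζ⟫)
    {x : M} {q : E} (hq : q ∈ InjS exp x) {r : ℝ} (hr : 0 < r) (hr1 : r < 1) (u : E) :
    r * ‖u‖ ^ 2 ≤ (c0 + Λ) * ⟪P x ((1 - r) • q) u, u⟫ := by
  have hc : 0 < c0 + Λ := by linarith [h.c0_ge]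
  have h1 := dual_le h (shrink_mem hq (sub_pos.2 hr1) (by linarith)) (r • u) ((c0 + Λ) • u)
  have h2 := W_shrink' h hΛ0 hΛ hq hr hr1 u
  rw [map_smul, map_smul, inner_smul_left, inner_smul_left, inner_smul_left, inner_smul_right, inner_smul_right,
    inner_smul_right, real_inner_self_eq_norm_sq] at h1
  simp only [conj_trivial] at h1
  refine le_of_mul_le_mul_left ?_ hc
  nlinarith [mul_le_mul_of_nonneg_left h2 hr.le]

theorem segment_shrink {x : M} {q q' : E} (hs : segment ℝ q q' ⊆ InjS exp x) {t : ℝ} (ht : 0 < t) (ht1 : t ≤ 1) :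
    segment ℝ (t • q) (t • q') ⊆ InjS exp x := by
  rintro _ ⟨a, b, ha, hb, hab, rfl⟩
  rw [smul_comm a, smul_comm b, ← smul_add]
  exact shrink_mem (hs ⟨a, b, ha, hb, hab, rfl⟩) ht ht1

theorem segment_rad {x : M} {q : E} (hq : q ∈ InjS exp x) {t : ℝ} (ht : 0 < t) (ht1 : t ≤ 1) :
    segment ℝ (t • q) q ⊆ InjS exp x := by
  rintro _ ⟨a, b, ha, hb, hab, rfl⟩
  rw [smul_smul, ← add_smul]
  refine shrink_mem hq ?_ (by nlinarith)
  nlinarith [mul_nonneg hb (sub_nonneg.2 ht1)]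

theorem norm_le_of_inj {R : ℝ} (hR : ∀ x, ∀ u ∈ MinS exp x, ‖u‖ ≤ R) {x : M} {q : E} (hq : q ∈ InjS exp x) :
    ‖q‖ ≤ R := by
  obtain ⟨a, ha, hq⟩ := hq
  have := hR x _ hq
  rw [norm_smul, Real.norm_eq_abs, abs_of_pos (by linarith)] at this
  nlinarith [norm_nonneg q]

end Crest.Agent.R226.Har
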