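import Crest.Agent.R226.G2b

/-!
# R226 / J1: bi-Lipschitz boxes in charts (owner helper39)
-/

set_option autoImplicit false
set_option linter.unusedSectionVars false
set_option maxSynthPendingDepth 3
set_option synthInstance.maxHeartbeats 200000

open scoped ContDiff Manifold Topology
open Bundle Set Filter Metric

noncomputable section

namespace Crest.Agent.R226.G

variable {n : ℕ} {M : Type*} [MetricSpace M] [ChartedSpace (EE n) M] [IsManifold 𝓘(ℝ, EE n) ∞ M]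

namespace Riem

variable (R : Riem n M)

/-- on the ball of radius `ρ` the chart of `a` is `K`-bi-Lipschitz -/
structure Box (a : M) (ρ K : ℝ) : Prop where
  pos : 0 < ρ
  one_le : 1 ≤ K
  sub : ball (ch n a a) ρ ⊆ (ch n a).target
  G_le : ∀ y ∈ ball (ch n a a) ρ, ∀ w, R.G a y w w ≤ K ^ 2 * ‖w‖ ^ 2
  le_G : ∀ y ∈ ball (ch n a a) ρ, ∀ w, ‖w‖ ^ 2 ≤ K ^ 2 * R.G a y w w
  lip_symm : ∀ y ∈ ball (ch n a a) ρ, ∀ y' ∈ ball (ch n a a) ρ,
    dist ((ch n a).symm y) ((ch n a).symm y') ≤ K * ‖y - y'‖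
  lip : ∀ y ∈ ball (ch n a a) ρ, ∀ y' ∈ ball (ch n a a) ρ,
    ‖y - y'‖ ≤ K * dist ((ch n a).symm y) ((ch n a).symm y')

variable (n) in
/-- the open subset of `M` covered by a box -/
def boxSet (a : M) (ρ : ℝ) : Set M := (ch n a).source ∩ ch n a ⁻¹' ball (ch n a a) ρ

theorem isOpen_boxSet (a : M) (ρ : ℝ) : IsOpen (boxSet n a ρ) := (ch n a).isOpen_inter_preimage isOpen_ball

theorem mem_boxSet_self (a : M) {ρ : ℝ} (h : 0 < ρ) : a ∈ boxSet n a ρ := ⟨mem_chart_source _ a, mem_ball_self h⟩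

theorem boxSet_mono (a : M) {ρ ρ' : ℝ} (h : ρ ≤ ρ') : boxSet n a ρ ⊆ boxSet n a ρ' :=
  fun _ hx => ⟨hx.1, ball_subset_ball h hx.2⟩

theorem G_symm {a : M} {y : EE n} (hy : y ∈ (ch n a).target) (u v : EE n) : R.G a y u v = R.G a y v u :=
  (isLC_chart R.g a).g_symm y hy u v

theorem G_pos {a : M} {y : EE n} (hy : y ∈ (ch n a).target) {v : EE n} (hv : v ≠ 0) : 0 < R.G a y v v :=
  (isLC_chart R.g a).g_pos y hy v hv

theorem G_nonneg {a : M} {y : EE n} (hy : y ∈ (ch n a).target) (v : EE n) : 0 ≤ R.G a y v v := by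
  by_cases hv : v = 0
  · simp [hv]
  · exact (R.G_pos hy hv).le

theorem contDiffAt_G {a : M} {y : EE n} (hy : y ∈ (ch n a).target) : ContDiffAt ℝ ∞ (R.G a) y :=
  (isLC_chart R.g a).g_smooth.contDiffAt ((ch n a).open_target.mem_nhds hy)

theorem dist_symm_le {a : M} {y y' : EE n} {L : ℝ} (hL : 0 ≤ L)
    (h : ∀ p ∈ segment ℝ y y', p ∈ (ch n a).target ∧ R.G a p (y' - y) (y' - y) ≤ L ^ 2) :
    dist ((ch n a).symm y) ((ch n a).symm y') ≤ L := by
  have hm : ∀ t ∈ Icc (0 : ℝ) 1, y + t • (y' - y) ∈ segment ℝ y y' := fun t ht => by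
    rw [segment_eq_image']; exact ⟨t, ht, rfl⟩
  have cl : Continuous fun t : ℝ => y + t • (y' - y) := by fun_prop
  have := R.up (fun t => (ch n a).symm (y + t • (y' - y))) 0 1 L zero_le_one hL fun t ht => by
    obtain ⟨h1, h2⟩ := h _ (hm t ht)
    refine ⟨ContinuousAt.comp (f := fun t : ℝ => y + t • (y' - y)) ((ch n a).continuousAt_symm h1) cl.continuousAt,
      a, (ch n a).map_target h1, y' - y, ?_, by rwa [(ch n a).right_inv h1]⟩
    have h3 : HasDerivAt (fun t : ℝ => y + t • (y' - y)) (y' - y) t := by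
      simpa using ((hasDerivAt_id t).smul_const (y' - y)).const_add y
    refine h3.congr_of_eventuallyEq ?_
    filter_upwards [cl.continuousAt.eventually ((ch n a).open_target.mem_nhds h1)] with s hs
    exact (ch n a).right_inv hs
  simpa using this

variable {R}

theorem Box.mono {a : M} {ρ K ρ' K' : ℝ} (h : R.Box a ρ K) (h0 : 0 < ρ') (h1 : ρ' ≤ ρ) (h2 : K ≤ K') :
    R.Box a ρ' K' := by
  have hb : ball (ch n a a) ρ' ⊆ ball (ch n a a) ρ := ball_subset_ball h1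
  have hK : K ^ 2 ≤ K' ^ 2 := pow_le_pow_left₀ (by linarith [h.one_le]) h2 2
  exact ⟨h0, h.one_le.trans h2, hb.trans h.sub,
    fun y hy w => (h.G_le y (hb hy) w).trans (mul_le_mul_of_nonneg_right hK (sq_nonneg _)),
    fun y hy w => (h.le_G y (hb hy) w).trans (mul_le_mul_of_nonneg_right hK (R.G_nonneg (h.sub (hb hy)) w)),
    fun y hy y' hy' => (h.lip_symm y (hb hy) y' (hb hy')).trans (mul_le_mul_of_nonneg_right h2 (norm_nonneg _)),
    fun y hy y' hy' => (h.lip y (hb hy) y' (hb hy')).trans (mul_le_mul_of_nonneg_right h2 dist_nonneg)⟩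

theorem Box.symm_mem {a : M} {ρ K : ℝ} (h : R.Box a ρ K) {y : EE n} (hy : y ∈ ball (ch n a a) ρ) :
    (ch n a).symm y ∈ boxSet n a ρ :=
  ⟨(ch n a).map_target (h.sub hy), by rwa [mem_preimage, (ch n a).right_inv (h.sub hy)]⟩

theorem Box.image_symm {a : M} {ρ K : ℝ} (h : R.Box a ρ K) : (ch n a).symm '' ball (ch n a a) ρ = boxSet n a ρ :=
  Subset.antisymm (by rintro _ ⟨y, hy, rfl⟩; exact h.symm_mem hy) fun x hx => ⟨_, hx.2, (ch n a).left_inv hx.1⟩

theorem Box.dist_le {a : M} {ρ K : ℝ} (h : R.Box a ρ K) {x x' : M} (hx : x ∈ boxSet n a ρ) (hx' : x' ∈ boxSet n a ρ) :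
    dist x x' ≤ K * ‖ch n a x - ch n a x'‖ := by
  have := h.lip_symm _ hx.2 _ hx'.2
  rwa [(ch n a).left_inv hx.1, (ch n a).left_inv hx'.1] at this

theorem Box.norm_le {a : M} {ρ K : ℝ} (h : R.Box a ρ K) {x x' : M} (hx : x ∈ boxSet n a ρ) (hx' : x' ∈ boxSet n a ρ) :
    ‖ch n a x - ch n a x'‖ ≤ K * dist x x' := by
  have := h.lip _ hx.2 _ hx'.2
  rwa [(ch n a).left_inv hx.1, (ch n a).left_inv hx'.1] at this

variable (R)

theorem exists_box (a : M) : ∃ ρ K, R.Box a ρ K := by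
  obtain ⟨ρ₀, hρ₀, h0⟩ := nhds_basis_closedBall.mem_iff.1 ((ch n a).open_target.mem_nhds (mem_chart_target (EE n) a))
  obtain ⟨c, hc, h1⟩ := chtm_coercive R.g a (isCompact_closedBall _ _) h0
  obtain ⟨C, hC⟩ := (isCompact_closedBall (ch n a a) ρ₀).exists_bound_of_continuousOn
    (((isLC_chart R.g a).g_smooth.continuousOn).mono h0)
  set K := max 1 (max C c⁻¹) with hK
  have K1 : 1 ≤ K := le_max_left _ _
  have K2 : K ≤ K ^ 2 := by nlinarith
  have hle : ∀ y ∈ ball (ch n a a) ρ₀, ∀ w, R.G a y w w ≤ K ^ 2 * ‖w‖ ^ 2 := fun y hy w => by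
    have h2 := (R.G a y).le_opNorm₂ w w
    have h3 : ‖R.G a y‖ ≤ K ^ 2 := (hC y (ball_subset_closedBall hy)).trans
      (((le_max_left _ _).trans (le_max_right _ _)).trans K2)
    have h4 := mul_le_mul_of_nonneg_right h3 (sq_nonneg ‖w‖)
    have h5 := le_abs_self (R.G a y w w)
    rw [Real.norm_eq_abs] at h2
    nlinarith
  have hge : ∀ y ∈ ball (ch n a a) ρ₀, ∀ w, ‖w‖ ^ 2 ≤ K ^ 2 * R.G a y w w := fun y hy w => by
    have h2 := h1 y (ball_subset_closedBall hy) w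
    have h3 : c⁻¹ ≤ K ^ 2 := ((le_max_right _ _).trans (le_max_right _ _)).trans K2
    have h4 : ‖w‖ ^ 2 ≤ c⁻¹ * R.G a y w w := by rw [le_inv_mul_iff₀ hc]; exact h2
    exact h4.trans (mul_le_mul_of_nonneg_right h3 (R.G_nonneg (h0 (ball_subset_closedBall hy)) w))
  have hup : ∀ y ∈ ball (ch n a a) ρ₀, ∀ y' ∈ ball (ch n a a) ρ₀,
      dist ((ch n a).symm y) ((ch n a).symm y') ≤ K * ‖y - y'‖ := fun y hy y' hy' =>
    R.dist_symm_le (by positivity) fun p hp => by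
      have hp' := (convex_ball _ _).segment_subset hy hy' hp
      exact ⟨h0 (ball_subset_closedBall hp'), by rw [mul_pow, norm_sub_rev]; exact hle p hp' _⟩
  obtain ⟨r, hr, h2⟩ := Metric.isOpen_iff.1 (isOpen_boxSet (n := n) a ρ₀) a (mem_boxSet_self a hρ₀)
  refine ⟨min ρ₀ (r / (4 * K)), K, by positivity, K1,
    (ball_subset_ball (min_le_left _ _)).trans (ball_subset_closedBall.trans h0),
    fun y hy => hle y (ball_subset_ball (min_le_left _ _) hy), fun y hy => hge y (ball_subset_ball (min_le_left _ _) hy),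
    fun y hy y' hy' => hup y (ball_subset_ball (min_le_left _ _) hy) y' (ball_subset_ball (min_le_left _ _) hy'),
    fun y hy y' hy' => ?_⟩
  have near : ∀ y ∈ ball (ch n a a) (min ρ₀ (r / (4 * K))), dist ((ch n a).symm y) a ≤ r / 4 := fun y hy => by
    have h3 := hup y (ball_subset_ball (min_le_left _ _) hy) _ (mem_ball_self hρ₀)
    rw [(ch n a).left_inv (mem_chart_source _ a)] at h3
    have h4 : ‖y - ch n a a‖ ≤ r / (4 * K) := (mem_ball_iff_norm.1 hy).le.trans (min_le_right _ _)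
    refine h3.trans ((mul_le_mul_of_nonneg_left h4 (by positivity)).trans_eq ?_)
    field_simp
  have hyt := h0 (ball_subset_closedBall (ball_subset_ball (min_le_left _ _) hy))
  have hyt' := h0 (ball_subset_closedBall (ball_subset_ball (min_le_left _ _) hy'))
  have h3 := R.lip (fun p => innerSL ℝ (y' - y) (ch n a p)) ((ch n a).symm y) ((ch n a).symm y') (3 * r / 4)
    (‖y' - y‖ * K) (by positivity) (by
      linarith [dist_triangle_right ((ch n a).symm y) ((ch n a).symm y') a, near y hy, near y' hy']) fun p hp => by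
    have hp' : p ∈ boxSet n a ρ₀ := h2 (by
      rw [mem_ball] at hp ⊢; linarith [dist_triangle p ((ch n a).symm y) a, near y hy])
    refine ⟨a, hp'.1, innerSL ℝ (y' - y), (innerSL ℝ (y' - y)).hasFDerivAt.congr_of_eventuallyEq ?_, fun w => ?_⟩
    · filter_upwards [(ch n a).open_target.mem_nhds ((ch n a).map_source hp'.1)] with u hu
      rw [(ch n a).right_inv hu]
    · have h4 := hge _ hp'.2 w
      have h5 : (innerSL ℝ (y' - y) w) ^ 2 ≤ (‖y' - y‖ * ‖w‖) ^ 2 := by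
        rw [← sq_abs]
        exact pow_le_pow_left₀ (abs_nonneg _) (abs_real_inner_le_norm (y' - y) w) 2
      rw [mul_pow] at h5
      rw [mul_pow, mul_assoc]
      exact h5.trans (mul_le_mul_of_nonneg_left h4 (sq_nonneg _))
  rw [(ch n a).right_inv hyt, (ch n a).right_inv hyt', ← map_sub, innerSL_apply_apply, real_inner_self_eq_norm_sq,
    abs_of_nonneg (sq_nonneg _), mul_assoc, sq] at h3
  rw [norm_sub_rev]
  by_cases h4 : ‖y' - y‖ = 0
  · rw [h4]; positivity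
  · exact le_of_mul_le_mul_left h3 ((norm_nonneg _).lt_of_ne' h4)

/-- A finite atlas of boxes with a Lebesgue number; the radii may be asked to satisfy `ρ a < ρ₀ a`. -/
theorem exists_cover [CompactSpace M] (ρ₀ : M → ℝ) (h₀ : ∀ a, 0 < ρ₀ a) :
    ∃ (T : Finset M) (ρ : M → ℝ) (K r : ℝ), 0 < r ∧ 1 ≤ K ∧ (∀ a, 0 < ρ a ∧ ρ a ≤ ρ₀ a) ∧
      (∀ a ∈ T, R.Box a (2 * ρ a) K) ∧ ∀ x, ∃ a ∈ T, ball x r ⊆ boxSet n a (ρ a) := by
  choose ρ K h using R.exists_box
  let ρ' : M → ℝ := fun a => min (ρ a / 2) (ρ₀ a)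
  have hρ' : ∀ a, 0 < ρ' a := fun a => lt_min (half_pos (h a).pos) (h₀ a)
  obtain ⟨T, hT⟩ := isCompact_univ.elim_finite_subcover (fun a => boxSet n a (ρ' a)) (fun a => isOpen_boxSet a _)
    fun x _ => mem_iUnion.2 ⟨x, mem_boxSet_self x (hρ' x)⟩
  obtain ⟨r, hr, h1⟩ := lebesgue_number_lemma_of_metric (c := fun a : T => boxSet n a.1 (ρ' a.1)) isCompact_univ
    (fun a => isOpen_boxSet a.1 _) fun x hx => by
      obtain ⟨a, ha, h2⟩ := mem_iUnion₂.1 (hT hx)
      exact mem_iUnion.2 ⟨⟨a, ha⟩, h2⟩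
  obtain ⟨K', hK'⟩ := (T.finite_toSet.image K).bddAbove
  refine ⟨T, ρ', max 1 K', r, hr, le_max_left _ _, fun a => ⟨hρ' a, min_le_right _ _⟩, fun a ha => (h a).mono
    (by linarith [hρ' a]) (by linarith [min_le_left (ρ a / 2) (ρ₀ a)])
    ((hK' ⟨a, ha, rfl⟩).trans (le_max_right _ _)), fun x => ?_⟩
  obtain ⟨a, ha⟩ := h1 x (mem_univ x)
  exact ⟨a.1, a.2, ha⟩

end Riem

end Crest.Agent.R226.G

end
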