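import Mathlib

/-!
# R226 / Vol (helper35): area inequalities and a.e. statements through bi-Lipschitz charts (no manifold structure)

`X` is a metric space with a measure `μ` and "normal coordinates" `exp x : E → X`; `ν` is a Haar measure of `E`.
-/

set_option autoImplicit false
set_option linter.unusedSectionVars false

open MeasureTheory Set Filter Topology Metric
open scoped ENNReal NNReal

noncomputable section

namespace Crest.Agent.R226.Vol

variable {X : Type*} [MetricSpace X] [MeasurableSpace X] [BorelSpace X]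
  {E : Type*} [NormedAddCommGroup E] [NormedSpace ℝ E] [FiniteDimensional ℝ E] [MeasurableSpace E] [BorelSpace E]

/-- a bi-Lipschitz chart `φ : U → E` with inverse `ψ` which is comparable with the measures -/
structure Chart (μ : Measure X) (ν : Measure E) (K : ℝ≥0) (U : Set X) (φ : X → E) (ψ : E → X) : Prop where
  one_le : 1 ≤ K
  op : IsOpen U
  op' : IsOpen (φ '' U)
  inv : ∀ x ∈ U, ψ (φ x) = x
  lip : ∀ x ∈ U, ∀ y ∈ U, dist (φ x) (φ y) ≤ K * dist x y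
  alip : ∀ x ∈ U, ∀ y ∈ U, dist x y ≤ K * dist (φ x) (φ y)
  m1 : ∀ A ⊆ U, MeasurableSet A → μ A ≤ K * ν (φ '' A)
  m2 : ∀ A ⊆ U, MeasurableSet A → ν (φ '' A) ≤ K * μ A

variable {μ : Measure X} {ν : Measure E} {K : ℝ≥0} {U V : Set X} {φ φ' : X → E} {ψ ψ' : E → X}

namespace Chart

theorem lipOn (h : Chart μ ν K U φ ψ) : LipschitzOnWith K φ U := LipschitzOnWith.of_dist_le_mul h.lip

theorem cont (h : Chart μ ν K U φ ψ) : ContinuousOn φ U := h.lipOn.continuousOn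

theorem lipOn' (h : Chart μ ν K U φ ψ) : LipschitzOnWith K ψ (φ '' U) := by
  refine LipschitzOnWith.of_dist_le_mul ?_
  rintro _ ⟨x, hx, rfl⟩ _ ⟨y, hy, rfl⟩
  rw [h.inv x hx, h.inv y hy]
  exact h.alip x hx y hy

theorem injOn (h : Chart μ ν K U φ ψ) : InjOn φ U := fun x hx y hy e => by
  rw [← h.inv x hx, e, h.inv y hy]

theorem maps' (h : Chart μ ν K U φ ψ) : MapsTo ψ (φ '' U) U := by
  rintro _ ⟨x, hx, rfl⟩
  rwa [h.inv x hx]

theorem inv' (h : Chart μ ν K U φ ψ) {w : E} (hw : w ∈ φ '' U) : φ (ψ w) = w := by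
  obtain ⟨x, hx, rfl⟩ := hw
  rw [h.inv x hx]

theorem image_eq (h : Chart μ ν K U φ ψ) {A : Set X} (hA : A ⊆ U) : φ '' A = φ '' U ∩ ψ ⁻¹' A := by
  ext w
  constructor
  · rintro ⟨x, hx, rfl⟩
    exact ⟨⟨x, hA hx, rfl⟩, by rwa [mem_preimage, h.inv x (hA hx)]⟩
  · rintro ⟨h1, h2⟩
    exact ⟨ψ w, h2, h.inv' h1⟩

theorem meas_pre {Y Z : Type*} [TopologicalSpace Y] [MeasurableSpace Y] [BorelSpace Y] [TopologicalSpace Z]
    [MeasurableSpace Z] [BorelSpace Z] {f : Y → Z} {S : Set Y} (hS : MeasurableSet S) (hf : ContinuousOn f S)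
    {B : Set Z} (hB : MeasurableSet B) : MeasurableSet (S ∩ f ⁻¹' B) := by
  have h1 : Measurable (S.domRestrict f) := (continuousOn_iff_continuous_domRestrict.1 hf).measurable
  have h2 := hS.subtype_image (h1 hB)
  convert h2 using 1
  ext y
  exact ⟨fun h => ⟨⟨y, h.1⟩, h.2, rfl⟩, fun ⟨x, hx, e⟩ => e ▸ ⟨x.2, hx⟩⟩

theorem meas_image (h : Chart μ ν K U φ ψ) {A : Set X} (hA : A ⊆ U) (hm : MeasurableSet A) :
    MeasurableSet (φ '' A) := by
  rw [h.image_eq hA]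
  exact meas_pre h.op'.measurableSet h.lipOn'.continuousOn hm

theorem m1' (h : Chart μ ν K U φ ψ) {A : Set X} (hA : A ⊆ U) : μ A ≤ K * ν (φ '' A) := by
  have h1 := h.m1 (U ∩ φ ⁻¹' toMeasurable ν (φ '' A)) inter_subset_left
    (meas_pre h.op.measurableSet h.cont (measurableSet_toMeasurable _ _))
  refine (measure_mono fun x hx => ?_).trans (h1.trans ?_)
  · exact ⟨hA hx, subset_toMeasurable _ _ ⟨x, hx, rfl⟩⟩
  · rw [← measure_toMeasurable (φ '' A)]
    gcongr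
    rintro _ ⟨x, hx, rfl⟩
    exact hx.2

theorem m2' (h : Chart μ ν K U φ ψ) {A : Set X} (hA : A ⊆ U) : ν (φ '' A) ≤ K * μ A := by
  have h1 := h.m2 (U ∩ toMeasurable μ A) inter_subset_left
    (h.op.measurableSet.inter (measurableSet_toMeasurable _ _))
  refine (measure_mono (image_mono fun x hx => ?_)).trans (h1.trans ?_)
  · exact ⟨hA hx, subset_toMeasurable _ _ hx⟩
  · rw [← measure_toMeasurable A]
    gcongr
    exact inter_subset_right

theorem mono (h : Chart μ ν K U φ ψ) {K' : ℝ≥0} (hK : K ≤ K') : Chart μ ν K' U φ ψ where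
  one_le := h.one_le.trans hK
  op := h.op
  op' := h.op'
  inv := h.inv
  lip x hx y hy := (h.lip x hx y hy).trans (by gcongr)
  alip x hx y hy := (h.alip x hx y hy).trans (by gcongr)
  m1 A hA hm := (h.m1 A hA hm).trans (by gcongr)
  m2 A hA hm := (h.m2 A hA hm).trans (by gcongr)

/-- almost everywhere statements pass from the chart to the space -/
theorem ae (h : Chart μ ν K U φ ψ) {p : X → Prop} (hp : ∀ᵐ w ∂ν, w ∈ φ '' U → p (ψ w)) :
    ∀ᵐ x ∂μ, x ∈ U → p x := by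
  rw [ae_iff] at hp ⊢
  refine le_antisymm ((h.m1' (A := {x | ¬(x ∈ U → p x)}) fun x hx => by_contra fun h' => hx fun h'' => absurd h'' h').trans ?_)
    bot_le
  rw [measure_mono_null (t := {w | ¬(w ∈ φ '' U → p (ψ w))}) ?_ hp, mul_zero]
  rintro _ ⟨x, hx, rfl⟩ h'
  exact hx fun hU => by simpa only [h.inv x hU] using h' ⟨x, hU, rfl⟩

/-- and back -/
theorem ae' (h : Chart μ ν K U φ ψ) {p : X → Prop} (hp : ∀ᵐ x ∂μ, x ∈ U → p x) :
    ∀ᵐ w ∂ν, w ∈ φ '' U → p (ψ w) := by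
  rw [ae_iff] at hp ⊢
  have h1 := h.m2' (A := {x | ¬(x ∈ U → p x)}) fun x hx => by_contra fun h' => hx fun h'' => absurd h'' h'
  rw [hp, mul_zero] at h1
  refine measure_mono_null (fun w hw => ?_) (le_antisymm h1 bot_le)
  have hw1 : w ∈ φ '' U := by_contra fun h' => hw fun h'' => absurd h'' h'
  exact ⟨ψ w, fun h' => hw fun _ => h' (h.maps' hw1), h.inv' hw1⟩

theorem aem (h : Chart μ ν K U φ ψ) {S : Set X} (hS : S ⊆ U) (hm : MeasurableSet S) :
    AEMeasurable φ (μ.restrict S) := (h.cont.mono hS).aemeasurable hm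

theorem map_apply (h : Chart μ ν K U φ ψ) {S : Set X} (hS : S ⊆ U) (hm : MeasurableSet S) {B : Set E}
    (hB : MeasurableSet B) : (μ.restrict S).map φ B = μ (S ∩ φ ⁻¹' B) := by
  rw [Measure.map_apply_of_aemeasurable (h.aem hS hm) hB, Measure.restrict_apply' hm, inter_comm]

theorem map_le (h : Chart μ ν K U φ ψ) {S : Set X} (hS : S ⊆ U) (hm : MeasurableSet S) :
    (μ.restrict S).map φ ≤ (K : ℝ≥0∞) • ν.restrict (φ '' S) := by
  refine Measure.le_iff.2 fun B hB => ?_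
  rw [h.map_apply hS hm hB, Measure.smul_apply, Measure.restrict_apply hB, smul_eq_mul, inter_comm B,
    ← image_inter_preimage]
  exact h.m1' (inter_subset_left.trans hS)

theorem le_map (h : Chart μ ν K U φ ψ) {S : Set X} (hS : S ⊆ U) (hm : MeasurableSet S) :
    ν.restrict (φ '' S) ≤ (K : ℝ≥0∞) • (μ.restrict S).map φ := by
  refine Measure.le_iff.2 fun B hB => ?_
  rw [Measure.smul_apply, h.map_apply hS hm hB, Measure.restrict_apply hB, smul_eq_mul, inter_comm B,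
    ← image_inter_preimage]
  exact h.m2' (inter_subset_left.trans hS)

theorem lintegral_le (h : Chart μ ν K U φ ψ) {S : Set X} (hS : S ⊆ U) (hm : MeasurableSet S) {g : E → ℝ≥0∞}
    (hg : AEMeasurable g (ν.restrict (φ '' S))) : ∫⁻ x in S, g (φ x) ∂μ ≤ K * ∫⁻ w in φ '' S, g w ∂ν := by
  have h1 := h.map_le hS hm
  rw [← lintegral_map' (hg.mono_ac (Measure.absolutelyContinuous_of_le_smul h1)) (h.aem hS hm)]
  simpa only [lintegral_smul_measure, smul_eq_mul] using lintegral_mono' h1 (le_refl g)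

theorem le_lintegral (h : Chart μ ν K U φ ψ) {S : Set X} (hS : S ⊆ U) (hm : MeasurableSet S) {g : E → ℝ≥0∞}
    (hg : AEMeasurable g (ν.restrict (φ '' S))) : ∫⁻ w in φ '' S, g w ∂ν ≤ K * ∫⁻ x in S, g (φ x) ∂μ := by
  rw [← lintegral_map' (hg.mono_ac (Measure.absolutelyContinuous_of_le_smul (h.map_le hS hm))) (h.aem hS hm)]
  simpa only [lintegral_smul_measure, smul_eq_mul] using lintegral_mono' (h.le_map hS hm) (le_refl g)

variable [ν.IsAddHaarMeasure]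

/-- area inequality, upper bound, in a pair of charts -/
theorem area_le (h : Chart μ ν K U φ ψ) (h' : Chart μ ν K V φ' ψ') {S : Set X} (hS : S ⊆ U) (hm : MeasurableSet S)
    {F : X → X} (hF : MapsTo F S V) {D : X → E →L[ℝ] E}
    (hD : ∀ z ∈ S, HasFDerivWithinAt (fun w => φ' (F (ψ w))) (D z) (φ '' S) (φ z)) :
    μ (F '' S) ≤ K ^ 2 * ∫⁻ z in S, ENNReal.ofReal |(D z).det| ∂μ := by
  have hm' := h.meas_image hS hm
  have hD' : ∀ w ∈ φ '' S, HasFDerivWithinAt (fun w => φ' (F (ψ w))) (D (ψ w)) (φ '' S) w := by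
    rintro _ ⟨z, hz, rfl⟩
    rw [h.inv z (hS hz)]
    exact hD z hz
  have e : φ' '' (F '' S) = (fun w => φ' (F (ψ w))) '' (φ '' S) := by
    rw [image_image, image_image]
    exact image_congr fun z hz => by rw [h.inv z (hS hz)]
  calc μ (F '' S) ≤ K * ν (φ' '' (F '' S)) := h'.m1' hF.image_subset
    _ ≤ K * ∫⁻ w in φ '' S, ENNReal.ofReal |(D (ψ w)).det| ∂ν := by
        rw [e]
        gcongr
        exact addHaar_image_le_lintegral_abs_det_fderiv ν hm' hD'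
    _ ≤ K * (K * ∫⁻ z in S, ENNReal.ofReal |(D (ψ (φ z))).det| ∂μ) := by
        gcongr
        exact h.le_lintegral hS hm (aemeasurable_ofReal_abs_det_fderivWithin ν hm' hD')
    _ = _ := by
        rw [sq, mul_assoc, setLIntegral_congr_fun hm fun z hz => by rw [h.inv z (hS hz)]]

/-- area inequality, lower bound for injective maps, in a pair of charts -/
theorem le_area (h : Chart μ ν K U φ ψ) (h' : Chart μ ν K V φ' ψ') {S : Set X} (hS : S ⊆ U) (hm : MeasurableSet S)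
    {F : X → X} (hF : MapsTo F S V) (hi : InjOn F S) {D : X → E →L[ℝ] E}
    (hD : ∀ z ∈ S, HasFDerivWithinAt (fun w => φ' (F (ψ w))) (D z) (φ '' S) (φ z)) :
    ∫⁻ z in S, ENNReal.ofReal |(D z).det| ∂μ ≤ K ^ 2 * μ (F '' S) := by
  have hm' := h.meas_image hS hm
  have hD' : ∀ w ∈ φ '' S, HasFDerivWithinAt (fun w => φ' (F (ψ w))) (D (ψ w)) (φ '' S) w := by
    rintro _ ⟨z, hz, rfl⟩
    rw [h.inv z (hS hz)]
    exact hD z hz
  have e : φ' '' (F '' S) = (fun w => φ' (F (ψ w))) '' (φ '' S) := by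
    rw [image_image, image_image]
    exact image_congr fun z hz => by rw [h.inv z (hS hz)]
  have hi' : InjOn (fun w => φ' (F (ψ w))) (φ '' S) := by
    rintro _ ⟨x, hx, rfl⟩ _ ⟨y, hy, rfl⟩ e
    simp only [h.inv x (hS hx), h.inv y (hS hy)] at e
    rw [hi hx hy (h'.injOn (hF hx) (hF hy) e)]
  calc _ = ∫⁻ z in S, ENNReal.ofReal |(D (ψ (φ z))).det| ∂μ :=
        setLIntegral_congr_fun hm fun z hz => by rw [h.inv z (hS hz)]
    _ ≤ K * ∫⁻ w in φ '' S, ENNReal.ofReal |(D (ψ w)).det| ∂ν :=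
        h.lintegral_le hS hm (aemeasurable_ofReal_abs_det_fderivWithin ν hm' hD')
    _ ≤ K * ν (φ' '' (F '' S)) := by
        rw [e]
        gcongr
        exact lintegral_abs_det_fderiv_le_addHaar_image ν hm' hD' hi'
    _ ≤ K * (K * μ (F '' S)) := by
        gcongr
        exact h'.m2' hF.image_subset
    _ = _ := by rw [sq, mul_assoc]

end Chart

/-- `|det A| ≤ ‖A‖ ^ dim` -/
theorem abs_det_le (A : E →L[ℝ] E) {K : ℝ} (hK : 0 ≤ K) (h : ∀ v, ‖A v‖ ≤ K * ‖v‖) :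
    |A.det| ≤ K ^ Module.finrank ℝ E := by
  let ν : Measure E := Measure.addHaar
  have h1 : A '' closedBall 0 1 ⊆ closedBall 0 K := by
    rintro _ ⟨v, hv, rfl⟩
    rw [mem_closedBall_zero_iff] at hv ⊢
    exact (h v).trans (mul_le_of_le_one_right hK hv)
  have h2 := measure_mono (μ := ν) h1
  rw [Measure.addHaar_image_continuousLinearMap, Measure.addHaar_closedBall' ν 0 hK] at h2
  have h3 := (ENNReal.mul_le_mul_iff_left (measure_closedBall_pos ν (0 : E) one_pos).ne'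
    measure_closedBall_lt_top.ne).1 h2
  exact (ENNReal.ofReal_le_ofReal_iff (by positivity)).1 h3

/-- "normal coordinates" -/
structure Nrm (exp : X → E → X) : Prop where
  zero : ∀ x, exp x 0 = x
  dist_le : ∀ x v, dist x (exp x v) ≤ ‖v‖
  surj : ∀ x y, ∃ v, exp x v = y ∧ dist x y = ‖v‖
  loc : ∀ x, ∀ᶠ v in 𝓝 (0 : E), dist x (exp x v) = ‖v‖

theorem Nrm.tendsto {exp : X → E → X} (h : Nrm exp) (x : X) : Tendsto (exp x) (𝓝 0) (𝓝 x) := by
  rw [tendsto_iff_dist_tendsto_zero]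
  refine squeeze_zero (fun _ => dist_nonneg) (fun v => (dist_comm _ _).trans_le (h.dist_le x v)) ?_
  exact tendsto_norm_zero

/-- the derivative of a chart in normal coordinates is invertible with controlled norms -/
theorem Chart.exists_equiv (h : Chart μ ν K U φ ψ) {exp : X → E → X} (hN : Nrm exp) {x : X} (hx : x ∈ U)
    (hd : DifferentiableAt ℝ (fun ζ => φ (exp x ζ)) 0) : ∃ J : E ≃L[ℝ] E,
      HasFDerivAt (fun ζ => φ (exp x ζ)) (J : E →L[ℝ] E) 0 ∧ (∀ v, ‖J v‖ ≤ K * ‖v‖) ∧ ∀ v, ‖J.symm v‖ ≤ K * ‖v‖ := by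
  obtain ⟨J, hJ⟩ := hd
  have hU : ∀ᶠ v in 𝓝 (0 : E), exp x v ∈ U := hN.tendsto x (h.op.mem_nhds hx)
  have hK : (0 : ℝ) < K := by exact_mod_cast zero_lt_one.trans_le h.one_le
  have h1 : ‖J‖ ≤ K := by
    refine hJ.le_of_lip' hK.le ?_
    filter_upwards [hU] with v hv
    rw [hN.zero, sub_zero, ← dist_eq_norm, dist_comm]
    exact (h.lip x hx _ hv).trans (mul_le_mul_of_nonneg_left (hN.dist_le x v) hK.le)
  have h2 : ∀ v, ‖v‖ ≤ K * ‖J v‖ := by
    intro v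
    refine le_of_forall_pos_le_add fun ε hε => ?_
    have h3 := hJ.isLittleO.bound (c := ε / (K * (‖v‖ + 1))) (by positivity)
    have h4 : Tendsto (fun t : ℝ => t • v) (𝓝[>] 0) (𝓝 0) := by
      refine Tendsto.mono_left ?_ nhdsWithin_le_nhds
      exact (show Continuous fun t : ℝ => t • v by fun_prop).tendsto' 0 0 (by simp)
    obtain ⟨t, ⟨⟨a1, a2⟩, a3⟩, ht⟩ := ((h4.eventually ((h3.and hU).and (hN.loc x))).and self_mem_nhdsWithin).exists
    have ht : 0 < t := ht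
    simp only [hN.zero, sub_zero, map_smul] at a1
    have a4 := h.alip x hx _ a2
    rw [a3, dist_comm, dist_eq_norm] at a4
    have a5 := norm_le_insert' (φ (exp x (t • v)) - φ x) (t • J v)
    rw [norm_smul, Real.norm_of_nonneg ht.le] at a1 a4 a5
    have a6 : t * ‖v‖ ≤ t * (K * ‖J v‖ + ε * (‖v‖ / (‖v‖ + 1))) := by
      have : K * (ε / (K * (‖v‖ + 1)) * (t * ‖v‖)) = t * (ε * (‖v‖ / (‖v‖ + 1))) := by field_simp
      nlinarith
    have a7 : ‖v‖ / (‖v‖ + 1) ≤ 1 := div_le_one_of_le₀ (by linarith) (by positivity)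
    have a8 := le_of_mul_le_mul_left a6 ht
    nlinarith
  have hi : Function.Injective J := (injective_iff_map_eq_zero J).2 fun v hv => by
    simpa [hv] using h2 v
  let J' : E ≃L[ℝ] E := (LinearEquiv.ofInjectiveEndo (J : E →ₗ[ℝ] E) hi).toContinuousLinearEquiv
  have e : (J' : E →L[ℝ] E) = J := by ext v; rfl
  refine ⟨J', e ▸ hJ, fun v => (J.le_opNorm v).trans (by gcongr), fun v => ?_⟩
  have := h2 (J'.symm v)
  rwa [← e, ContinuousLinearEquiv.coe_coe, ContinuousLinearEquiv.apply_symm_apply] at this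

/-- `D` is the derivative of `F` at `z` within `S` in normal coordinates -/
def HasD (exp : X → E → X) (F : X → X) (D : E →L[ℝ] E) (S : Set X) (z : X) : Prop :=
  ∀ ε : ℝ, 0 < ε → ∀ᶠ ζ in 𝓝 (0 : E), exp z ζ ∈ S → dist (F (exp z ζ)) (exp (F z) (D ζ)) ≤ ε * ‖ζ‖

theorem HasD.mono {exp : X → E → X} {F : X → X} {D : E →L[ℝ] E} {S T : Set X} {z : X} (h : HasD exp F D S z)
    (hT : T ⊆ S) : HasD exp F D T z := fun ε hε => (h ε hε).mono fun _ h' h'' => h' (hT h'')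

/-- an eventual property in normal coordinates holds near the point -/
theorem Nrm.eventually {exp : X → E → X} (hN : Nrm exp) {x : X} {p : E → Prop} (hp : ∀ᶠ ζ in 𝓝 (0 : E), p ζ) :
    ∀ᶠ y in 𝓝 x, ∃ ζ, exp x ζ = y ∧ dist x y = ‖ζ‖ ∧ p ζ := by
  obtain ⟨r, hr, h⟩ := Metric.eventually_nhds_iff.1 hp
  filter_upwards [ball_mem_nhds x hr] with y hy
  obtain ⟨ζ, h1, h2⟩ := hN.surj x y
  exact ⟨ζ, h1, h2, h (by rwa [dist_zero_right, ← h2, dist_comm])⟩

theorem HasD.cont {exp : X → E → X} (hN : Nrm exp) {F : X → X} {D : E →L[ℝ] E} {S : Set X} {z : X}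
    (h : HasD exp F D S z) : ContinuousWithinAt F S z := by
  have h1 : ∀ᶠ y in 𝓝[S] z, dist (F y) (F z) ≤ (1 + ‖D‖) * dist y z := by
    rw [eventually_nhdsWithin_iff]
    filter_upwards [hN.eventually (x := z) (h 1 one_pos)] with y ⟨ζ, h1, h2, h3⟩ hy
    subst h1
    have h4 := dist_triangle (F (exp z ζ)) (exp (F z) (D ζ)) (F z)
    have h5 := hN.dist_le (F z) (D ζ)
    have h6 := D.le_opNorm ζ
    rw [dist_comm] at h5 h2
    rw [h2]
    linarith [h3 hy]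
  rw [ContinuousWithinAt, tendsto_iff_dist_tendsto_zero]
  refine squeeze_zero' (Eventually.of_forall fun _ => dist_nonneg) h1 ?_
  refine Tendsto.mono_left ?_ nhdsWithin_le_nhds
  exact (show Continuous fun y => (1 + ‖D‖) * dist y z by fun_prop).tendsto' z 0 (by simp)

/-- derivative in normal coordinates `⟹` derivative in charts -/
theorem HasD.chart (h : Chart μ ν K U φ ψ) (h' : Chart μ ν K V φ' ψ') {exp : X → E → X} (hN : Nrm exp)
    {F : X → X} {D : E →L[ℝ] E} {S : Set X} (hS : S ⊆ U) (hF : MapsTo F S V) {z : X} (hz : z ∈ S)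
    (hD : HasD exp F D S z) {J : E ≃L[ℝ] E} {J' : E →L[ℝ] E}
    (hJ : HasFDerivAt (fun ζ => φ (exp z ζ)) (J : E →L[ℝ] E) 0) (hJ' : HasFDerivAt (fun ζ => φ' (exp (F z) ζ)) J' 0) :
    HasFDerivWithinAt (fun w => φ' (F (ψ w))) (J' ∘L D ∘L (J.symm : E →L[ℝ] E)) (φ '' S) (φ z) := by
  rw [hasFDerivWithinAt_iff_isLittleO, Asymptotics.isLittleO_iff]
  intro ε hε
  have hK : (0 : ℝ) < K := by exact_mod_cast zero_lt_one.trans_le h.one_le
  obtain ⟨A, hA⟩ : ∃ A, A = J' ∘L D ∘L (J.symm : E →L[ℝ] E) := ⟨_, rfl⟩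
  obtain ⟨δ, hδ⟩ : ∃ δ : ℝ, δ = ε / (K * (K + ‖D‖ + ‖A‖)) := ⟨_, rfl⟩
  have hδ0 : 0 < δ := by rw [hδ]; positivity
  have hD0 : Tendsto D (𝓝 0) (𝓝 0) := D.continuous.tendsto' 0 0 (map_zero D)
  have e1 := hJ.isLittleO.bound hδ0
  have e2 := hD0.eventually (hJ'.isLittleO.bound hδ0)
  have e3 := hD0.eventually (hN.tendsto (F z) (h'.op.mem_nhds (hF hz)))
  have e4 := hN.eventually (x := z) (((e1.and e2).and e3).and (hD δ hδ0))
  have e5 : Tendsto ψ (𝓝[φ '' S] (φ z)) (𝓝 z) := by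
    have := (h.lipOn'.continuousOn (φ z) ⟨z, hS hz, rfl⟩).mono (image_mono hS)
    rwa [ContinuousWithinAt, h.inv z (hS hz)] at this
  filter_upwards [e5.eventually e4, self_mem_nhdsWithin] with w ⟨ζ, a1, a2, ⟨⟨a3, a4⟩, a5⟩, a6⟩ ⟨y, hy, hw⟩
  subst hw
  rw [h.inv y (hS hy)] at a1 a2
  rw [h.inv y (hS hy), h.inv z (hS hz), ← hA]
  simp only [hN.zero, sub_zero, a1] at a3 a4 a6
  have a7 := (h'.lip _ (hF hy) _ a5).trans (mul_le_mul_of_nonneg_left (a6 hy) hK.le)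
  have a8 := h.alip y (hS hy) z (hS hz)
  rw [dist_comm, a2, dist_eq_norm] at a8
  rw [dist_eq_norm] at a7
  have a9 : A (φ y - φ z) = J' (D ζ) + A (φ y - φ z - J ζ) := by
    rw [map_sub A (φ y - φ z), hA]
    simp
  have b1 := A.le_opNorm (φ y - φ z - J ζ)
  have b2 := D.le_opNorm ζ
  have b3 : φ' (F y) - φ' (F z) - A (φ y - φ z) = (φ' (F y) - φ' (exp (F z) (D ζ))) +
      (φ' (exp (F z) (D ζ)) - φ' (F z) - J' (D ζ)) - A (φ y - φ z - J ζ) := by
    rw [a9]; abel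
  have b4 : ‖φ' (F y) - φ' (F z) - A (φ y - φ z)‖ ≤ δ * (K + ‖D‖ + ‖A‖) * ‖ζ‖ := by
    rw [b3]
    refine (norm_sub_le _ _).trans ((add_le_add_left (norm_add_le _ _) _).trans ?_)
    have b5 := mul_le_mul_of_nonneg_left a3 (norm_nonneg A)
    have b6 := mul_le_mul_of_nonneg_left b2 hδ0.le
    simp only [ContinuousLinearEquiv.coe_coe] at b5
    nlinarith
  refine b4.trans ((mul_le_mul_of_nonneg_left a8 (by positivity)).trans_eq ?_)
  rw [hδ]
  field_simp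

theorem det_comp3 (J : E ≃L[ℝ] E) (J' : E ≃L[ℝ] E) (D : E →L[ℝ] E) {K : ℝ} (hK : 0 ≤ K)
    (h1 : ∀ v, ‖J v‖ ≤ K * ‖v‖) (h2 : ∀ v, ‖J.symm v‖ ≤ K * ‖v‖)
    (h3 : ∀ v, ‖J' v‖ ≤ K * ‖v‖) (h4 : ∀ v, ‖J'.symm v‖ ≤ K * ‖v‖) :
    |((J' : E →L[ℝ] E) ∘L D ∘L (J.symm : E →L[ℝ] E)).det| ≤ K ^ (2 * Module.finrank ℝ E) * |D.det| ∧
      |D.det| ≤ K ^ (2 * Module.finrank ℝ E) * |((J' : E →L[ℝ] E) ∘L D ∘L (J.symm : E →L[ℝ] E)).det| := by
  have key : ∀ (A B C : E →L[ℝ] E), (∀ v, ‖A v‖ ≤ K * ‖v‖) → (∀ v, ‖C v‖ ≤ K * ‖v‖) →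
      |(A ∘L B ∘L C).det| ≤ K ^ (2 * Module.finrank ℝ E) * |B.det| := by
    intro A B C hA hC
    have e : (A ∘L B ∘L C).det = A.det * (B.det * C.det) := by
      rw [ContinuousLinearMap.det, ContinuousLinearMap.det, ContinuousLinearMap.det, ContinuousLinearMap.det,
        ← LinearMap.det_comp, ← LinearMap.det_comp]
      rfl
    rw [e, abs_mul, abs_mul, two_mul, pow_add]
    calc _ ≤ K ^ Module.finrank ℝ E * (|B.det| * K ^ Module.finrank ℝ E) := by
          gcongr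
          exacts [abs_det_le A hK hA, abs_det_le C hK hC]
      _ = _ := by ring
  refine ⟨key _ _ _ h3 h2, le_of_eq_of_le ?_ (key (J'.symm : E →L[ℝ] E) _ (J : E →L[ℝ] E) h4 h1)⟩
  congr 2
  ext v
  simp

/-- a finite atlas of bi-Lipschitz charts which are differentiable in normal coordinates -/
structure Atl (μ : Measure X) (ν : Measure E) (exp : X → E → X) (N : ℕ) (K : ℝ≥0) (U : Fin N → Set X)
    (φ : Fin N → X → E) (ψ : Fin N → E → X) : Prop where
  nrm : Nrm exp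
  ch : ∀ i, Chart μ ν K (U i) (φ i) (ψ i)
  der : ∀ i, ∀ x ∈ U i, DifferentiableAt ℝ (fun ζ => φ i (exp x ζ)) 0
  cov : ∀ x, ∃ i, x ∈ U i

namespace Atl

variable {exp : X → E → X} {N : ℕ} {U : Fin N → Set X} {φ : Fin N → X → E} {ψ : Fin N → E → X}

theorem ae (h : Atl μ ν exp N K U φ ψ) {p : X → Prop} (hp : ∀ i, ∀ᵐ w ∂ν, w ∈ φ i '' U i → p (ψ i w)) :
    ∀ᵐ x ∂μ, p x := by
  filter_upwards [ae_all_iff.2 fun i => (h.ch i).ae (hp i)] with x hx
  obtain ⟨i, hi⟩ := h.cov x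
  exact hx i hi

variable [ν.IsAddHaarMeasure]

/-- Rademacher's theorem in normal coordinates -/
theorem rademacher (h : Atl μ ν exp N K U φ ψ) {f : X → ℝ} {L : ℝ≥0} (hf : LipschitzWith L f) :
    ∀ᵐ x ∂μ, DifferentiableAt ℝ (fun ζ => f (exp x ζ)) 0 := by
  refine h.ae fun i => ?_
  have hc := h.ch i
  filter_upwards [(hf.comp_lipschitzOnWith hc.lipOn').ae_differentiableWithinAt_of_mem (μ := ν)] with w hw hw'
  have h1 := (hw hw').differentiableAt (hc.op'.mem_nhds hw')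
  have hx := hc.maps' hw'
  have h2 := DifferentiableAt.comp (g := f ∘ ψ i) 0 (by rwa [h.nrm.zero, hc.inv' hw']) (h.der i _ hx)
  refine h2.congr_of_eventuallyEq ?_
  filter_upwards [h.nrm.tendsto _ (hc.op.mem_nhds hx)] with ζ hζ
  simp only [Function.comp, hc.inv _ hζ]

theorem pieces (h : Atl μ ν exp N K U φ ψ) {S : Set X} (hm : MeasurableSet S) {F : X → X} (hF : ContinuousOn F S) :
    S = ⋃ p : Fin N × Fin N, (S ∩ F ⁻¹' U p.2) ∩ U p.1 ∧
      ∀ p : Fin N × Fin N, MeasurableSet ((S ∩ F ⁻¹' U p.2) ∩ U p.1) := by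
  refine ⟨Subset.antisymm (fun x hx => ?_) (iUnion_subset fun p x hx => hx.1.1), fun p =>
    (Chart.meas_pre hm hF (h.ch _).op.measurableSet).inter (h.ch _).op.measurableSet⟩
  obtain ⟨i, hi⟩ := h.cov x
  obtain ⟨j, hj⟩ := h.cov (F x)
  exact mem_iUnion.2 ⟨(i, j), ⟨hx, hj⟩, hi⟩

/-- the area inequalities in normal coordinates -/
theorem area (h : Atl μ ν exp N K U φ ψ) : ∃ C : ℝ≥0, 1 ≤ C ∧ ∀ (S : Set X) (F : X → X) (D : X → E →L[ℝ] E),
    MeasurableSet S → (∀ z ∈ S, HasD exp F (D z) S z) →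
      μ (F '' S) ≤ C * ∫⁻ z in S, ENNReal.ofReal |(D z).det| ∂μ ∧
        (InjOn F S → ∫⁻ z in S, ENNReal.ofReal |(D z).det| ∂μ ≤ C * μ (F '' S)) := by
  obtain ⟨C, hC⟩ : ∃ C : ℝ≥0, C = K ^ 2 * K ^ (2 * Module.finrank ℝ E) := ⟨_, rfl⟩
  refine ⟨max 1 (N ^ 2 * C), le_max_left _ _, fun S F D hm hD => ?_⟩
  obtain ⟨e, hp⟩ := h.pieces hm fun z hz => (hD z hz).cont h.nrm
  have key : ∀ p : Fin N × Fin N,
      μ (F '' ((S ∩ F ⁻¹' U p.2) ∩ U p.1)) ≤ C * ∫⁻ z in S, ENNReal.ofReal |(D z).det| ∂μ ∧ (InjOn F S →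
        ∫⁻ z in (S ∩ F ⁻¹' U p.2) ∩ U p.1, ENNReal.ofReal |(D z).det| ∂μ ≤ C * μ (F '' S)) := by
    rintro ⟨i, j⟩
    obtain ⟨T, hT⟩ : ∃ T, T = (S ∩ F ⁻¹' U j) ∩ U i := ⟨_, rfl⟩
    have hTm : MeasurableSet T := hT ▸ hp (i, j)
    have h1 : T ⊆ S := hT ▸ fun x hx => hx.1.1
    have h2 : T ⊆ U i := hT ▸ inter_subset_right
    have h3 : MapsTo F T (U j) := hT ▸ fun x hx => hx.1.2
    rw [← hT]
    have h4 : ∀ z, ∃ A : E →L[ℝ] E, z ∈ T → HasFDerivWithinAt (fun w => φ j (F (ψ i w))) A (φ i '' T) (φ i z) ∧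
        ENNReal.ofReal |A.det| ≤ (K ^ (2 * Module.finrank ℝ E) : ℝ≥0) * ENNReal.ofReal |(D z).det| ∧
        ENNReal.ofReal |(D z).det| ≤ (K ^ (2 * Module.finrank ℝ E) : ℝ≥0) * ENNReal.ofReal |A.det| := by
      intro z
      by_cases hz : z ∈ T
      · obtain ⟨J, a1, a2, a3⟩ := (h.ch i).exists_equiv h.nrm (h2 hz) (h.der i z (h2 hz))
        obtain ⟨J', b1, b2, b3⟩ := (h.ch j).exists_equiv h.nrm (h3 hz) (h.der j _ (h3 hz))
        obtain ⟨c1, c2⟩ := det_comp3 J J' (D z) K.2 a2 a3 b2 b3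
        refine ⟨_, fun _ => ⟨((hD z (h1 hz)).mono h1).chart (h.ch i) (h.ch j) h.nrm h2 h3 hz a1 b1, ?_, ?_⟩⟩ <;>
          rw [← ENNReal.ofReal_coe_nnreal, ← ENNReal.ofReal_mul (NNReal.coe_nonneg _)]
        exacts [ENNReal.ofReal_le_ofReal c1, ENNReal.ofReal_le_ofReal c2]
      · exact ⟨0, fun h' => absurd h' hz⟩
    choose A hA using h4
    constructor
    · refine ((h.ch i).area_le (h.ch j) h2 hTm h3 fun z hz => (hA z hz).1).trans ?_
      rw [hC, ENNReal.coe_mul, mul_assoc, ← lintegral_const_mul' _ _ ENNReal.coe_ne_top, ENNReal.coe_pow]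
      exact mul_le_mul_right ((setLIntegral_mono' hTm fun z hz => (hA z hz).2.1).trans (lintegral_mono_set h1)) _
    · intro hi
      refine (setLIntegral_mono' hTm fun z hz => (hA z hz).2.2).trans ?_
      rw [lintegral_const_mul' _ _ ENNReal.coe_ne_top, hC, mul_comm (K ^ 2), ENNReal.coe_mul, mul_assoc,
        ENNReal.coe_pow K 2]
      gcongr
      refine ((h.ch i).le_area (h.ch j) h2 hTm h3 (hi.mono h1) fun z hz => (hA z hz).1).trans ?_
      gcongr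
  have hs : ∀ a : ℝ≥0∞, ∑' _ : Fin N × Fin N, (C : ℝ≥0∞) * a ≤ (max 1 (N ^ 2 * C) : ℝ≥0) * a := by
    intro a
    rw [tsum_fintype, Finset.sum_const, nsmul_eq_mul, ← mul_assoc]
    gcongr
    refine le_trans (le_of_eq ?_) (ENNReal.coe_le_coe.2 (le_max_right _ _))
    simp [sq]
  constructor
  · refine le_trans ?_ ((ENNReal.tsum_le_tsum fun p => (key p).1).trans (hs _))
    conv_lhs => rw [e, image_iUnion]
    exact measure_iUnion_le _
  · intro hi
    refine le_trans ?_ ((ENNReal.tsum_le_tsum fun p => (key p).2 hi).trans (hs _))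
    conv_lhs => rw [e]
    exact lintegral_iUnion_le _ _

/-- finite total mass -/
theorem finite [CompactSpace X] (h : Atl μ ν exp N K U φ ψ) : μ univ < ⊤ := by
  have : (univ : Set X) ⊆ ⋃ i, U i := fun x _ => mem_iUnion.2 (h.cov x)
  refine (measure_mono this).trans_lt ((measure_iUnion_le _).trans_lt ?_)
  rw [tsum_fintype]
  refine ENNReal.sum_lt_top.2 fun i _ => ((h.ch i).m1' subset_rfl).trans_lt (ENNReal.mul_lt_top ENNReal.coe_lt_top ?_)
  refine Bornology.IsBounded.measure_lt_top (Metric.isBounded_iff.2 ⟨K * diam (univ : Set X), ?_⟩)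
  rintro _ ⟨x, hx, rfl⟩ _ ⟨y, hy, rfl⟩
  exact ((h.ch i).lip x hx y hy).trans (mul_le_mul_of_nonneg_left
    (dist_le_diam_of_mem isCompact_univ.isBounded (mem_univ x) (mem_univ y)) K.2)

/-- uniform size of the charts -/
theorem exists_rad [CompactSpace X] (h : Atl μ ν exp N K U φ ψ) :
    ∃ r : ℝ, 0 < r ∧ ∀ x, ∃ i, ball x r ⊆ U i ∧ ball (φ i x) r ⊆ φ i '' U i := by
  have h1 : ∀ x, ∃ i, ∃ r : ℝ, 0 < r ∧ ∀ y ∈ ball x r, ball y r ⊆ U i ∧ ball (φ i y) r ⊆ φ i '' U i := by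
    intro x
    obtain ⟨i, hi⟩ := h.cov x
    obtain ⟨a, ha, h2⟩ := Metric.isOpen_iff.1 (h.ch i).op x hi
    obtain ⟨b, hb, h3⟩ := Metric.isOpen_iff.1 (h.ch i).op' _ ⟨x, hi, rfl⟩
    have hK : (1 : ℝ) ≤ K := (h.ch i).one_le
    obtain ⟨r, hr⟩ : ∃ r, r = min (a / 2) (b / (2 * K)) := ⟨_, rfl⟩
    have r0 : 0 < r := by rw [hr]; positivity
    have r1 : r ≤ a / 2 := hr ▸ min_le_left _ _
    have r2 : r * (2 * K) ≤ b := (le_div_iff₀ (by positivity)).1 (hr ▸ min_le_right _ _)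
    refine ⟨i, r, r0, fun y hy => ⟨(ball_subset_ball' ?_).trans h2, (ball_subset_ball' ?_).trans h3⟩⟩
    · linarith [mem_ball.1 hy]
    · have := (h.ch i).lip y (h2 (ball_subset_ball (by linarith) hy)) x hi
      nlinarith [mem_ball.1 hy]
  choose i r hr H using h1
  obtain ⟨t, ht⟩ := isCompact_univ.elim_finite_subcover (fun x => ball x (r x)) (fun _ => isOpen_ball)
    fun x _ => mem_iUnion.2 ⟨x, mem_ball_self (hr x)⟩
  obtain ⟨s, hs, hs'⟩ : ∃ s : ℝ, 0 < s ∧ ∀ x ∈ t, s ≤ r x := by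
    rcases t.eq_empty_or_nonempty with rfl | hne
    · exact ⟨1, one_pos, by simp⟩
    · obtain ⟨x, -, hx⟩ := t.exists_min_image r hne
      exact ⟨r x, hr x, hx⟩
  refine ⟨s, hs, fun y => ?_⟩
  obtain ⟨x, hx, hy⟩ := mem_iUnion₂.1 (ht (mem_univ y))
  exact ⟨i x, (ball_subset_ball (hs' x hx)).trans (H x y hy).1, (ball_subset_ball (hs' x hx)).trans (H x y hy).2⟩

/-- lower bound for the measure of balls -/
theorem ball_ge [CompactSpace X] (h : Atl μ ν exp N K U φ ψ) : ∃ c r₀ : ℝ, 0 < c ∧ 0 < r₀ ∧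
    ∀ x r, 0 < r → r ≤ r₀ → ENNReal.ofReal (c * r ^ Module.finrank ℝ E) ≤ μ (ball x r) := by
  obtain ⟨r₀, h0, H⟩ := h.exists_rad
  obtain ⟨b, hb⟩ : ∃ b, b = ν.real (closedBall 0 1) := ⟨_, rfl⟩
  have hb' : ν (closedBall 0 1) = ENNReal.ofReal b := by
    rw [hb, ofReal_measureReal measure_closedBall_lt_top.ne]
  have b0 : 0 < b := hb ▸ ENNReal.toReal_pos (measure_closedBall_pos ν _ one_pos).ne' measure_closedBall_lt_top.ne
  refine ⟨b / (2 * ((K : ℝ) + 1)) ^ Module.finrank ℝ E / (K + 1), r₀, by positivity, h0, fun x r h1 h2 => ?_⟩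
  obtain ⟨i, a1, a2⟩ := H x
  have hc := h.ch i
  have hx : x ∈ U i := a1 (mem_ball_self h0)
  have hK : (0 : ℝ) ≤ K := K.2
  obtain ⟨s, hs⟩ : ∃ s, s = r / (2 * ((K : ℝ) + 1)) := ⟨_, rfl⟩
  have s0 : 0 < s := by rw [hs]; positivity
  have s1 : s * (2 * ((K : ℝ) + 1)) = r := by rw [hs]; field_simp
  have a3 : closedBall (φ i x) s ⊆ φ i '' ball x r := by
    intro w hw
    obtain ⟨y, hy, rfl⟩ := a2 (closedBall_subset_ball (by nlinarith) hw)
    refine ⟨y, ?_, rfl⟩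
    have := hc.alip y hy x hx
    rw [mem_ball]
    nlinarith [mem_closedBall.1 hw]
  have a4 := (measure_mono a3).trans (hc.m2' ((ball_subset_ball h2).trans a1))
  rw [Measure.addHaar_closedBall' ν _ s0.le, hb', ← ENNReal.ofReal_mul (by positivity)] at a4
  have a5 : (K : ℝ≥0∞) ≤ ENNReal.ofReal (K + 1) := by
    rw [← ENNReal.ofReal_coe_nnreal]
    exact ENNReal.ofReal_le_ofReal (by linarith)
  have a6 : 0 < (K : ℝ) + 1 := by positivity
  refine (ENNReal.mul_le_mul_iff_right (ENNReal.ofReal_pos.2 a6).ne' ENNReal.ofReal_ne_top).1 ?_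
  refine le_trans (le_of_eq ?_) (a4.trans (mul_le_mul_left a5 _))
  rw [← ENNReal.ofReal_mul a6.le, hs, div_pow]
  congr 1
  field_simp

end Atl

end Crest.Agent.R226.Vol

end
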