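import Crest.Agent.R226.J1
import Crest.Agent.R226.G8
import Crest.Agent.R226.Vol

/-!
# R226 / J2: the atlas `Vol.Atl` of a compact Riemannian manifold (owner helper39)
-/

set_option autoImplicit false
set_option linter.unusedSectionVars false

open scoped ContDiff Manifold Topology ENNReal NNReal
open Bundle Set Filter Metric MeasureTheory

noncomputable section

namespace Crest.Agent.R226.G

variable {n : ℕ} {M : Type*} [MetricSpace M] [ChartedSpace (EE n) M] [IsManifold 𝓘(ℝ, EE n) ∞ M]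

namespace Riem

variable (R : Riem n M)

theorem expE_zero (x : M) : R.expE x 0 = x := by rw [expE, map_zero, exp_zero]

theorem contDiffAt_expE_j {b x : M} {v : EE n} (h : R.expE x v ∈ (ch n b).source) :
    ContDiffAt ℝ ∞ (fun u => ch n b (R.expE x u)) v :=
  ContDiffAt.comp (g := fun u => ch n b (R.exp x u)) (f := R.fr x) v (R.contDiffAt_exp h) (R.fr x).contDiff.contDiffAt

theorem nrm_expE [CompactSpace M] : Vol.Nrm R.expE := by
  obtain ⟨K, δ, h⟩ := R.geo1
  obtain ⟨r, hr⟩ := R.exists_rad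
  refine ⟨h.exp_zero, h.dist_le, h.surj, fun x => ?_⟩
  filter_upwards [ball_mem_nhds (0 : EE n) hr.pos] with v hv
  exact R.mem_minS.2 (hr.min x _ (by rwa [nrm_fr, ← mem_ball_zero_iff]))

variable [MeasurableSpace M] [BorelSpace M]

variable {R} in
theorem Box.image_boxSet {a : M} {ρ K : ℝ} (h : R.Box a ρ K) : ch n a '' boxSet n a ρ = ball (ch n a a) ρ :=
  Subset.antisymm (by rintro _ ⟨x, hx, rfl⟩; exact hx.2) fun y hy => ⟨_, h.symm_mem hy, (ch n a).right_inv (h.sub hy)⟩

variable {R} in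
theorem Box.chart {K : ℝ} : ∃ K' : ℝ≥0, ∀ {a : M} {ρ : ℝ}, R.Box a ρ K →
    Vol.Chart (μH[n] : Measure M) (volume : Measure (EE n)) K' (boxSet n a ρ) (ch n a) (ch n a).symm := by
  obtain ⟨c, hc⟩ : ∃ c : ℝ≥0, (μH[n] : Measure (EE n)) = c • volume := ⟨_, Measure.isAddLeftInvariant_eq_smul _ _⟩
  obtain ⟨c', hc'⟩ : ∃ c : ℝ≥0, (volume : Measure (EE n)) = c • μH[n] := ⟨_, Measure.isAddLeftInvariant_eq_smul _ _⟩
  set k := K.toNNReal with hk
  refine ⟨max k (max (k ^ n * c) (k ^ n * c')), fun {a ρ} h => ?_⟩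
  have hK : (k : ℝ) = K := Real.coe_toNNReal _ (by linarith [h.one_le])
  have h1 : (k : ℝ) ≤ max k (max (k ^ n * c) (k ^ n * c')) := NNReal.coe_le_coe.2 (le_max_left _ _)
  have l1 : LipschitzOnWith k (ch n a) (boxSet n a ρ) := LipschitzOnWith.of_dist_le_mul fun x hx y hy => by
    rw [dist_eq_norm, hK]; exact h.norm_le hx hy
  have l2 : LipschitzOnWith k (ch n a).symm (ball (ch n a a) ρ) := LipschitzOnWith.of_dist_le_mul fun x hx y hy => by
    rw [dist_eq_norm x y, hK]; exact h.lip_symm x hx y hy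
  refine ⟨le_max_of_le_left (NNReal.coe_le_coe.1 (by rw [hK]; exact h.one_le)), isOpen_boxSet a ρ,
    h.image_boxSet ▸ isOpen_ball, fun x hx => (ch n a).left_inv hx.1,
    fun x hx y hy => (l1.dist_le_mul x hx y hy).trans (mul_le_mul_of_nonneg_right h1 dist_nonneg),
    fun x hx y hy => (h.dist_le hx hy).trans (by
      rw [← hK, ← dist_eq_norm]; exact mul_le_mul_of_nonneg_right h1 dist_nonneg), fun A hA _ => ?_, fun A hA _ => ?_⟩
  · have e : A = (ch n a).symm '' (ch n a '' A) := by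
      rw [image_image]
      exact (image_congr (fun x hx => (ch n a).left_inv (hA hx).1)).trans (image_id' A) |>.symm
    have h2 := (l2.mono (s := ch n a '' A) (h.image_boxSet ▸ image_mono hA)).hausdorffMeasure_image_le
      (d := (n : ℝ)) (Nat.cast_nonneg n)
    rw [← e, hc, Measure.smul_apply, ENNReal.smul_def, smul_eq_mul, ← mul_assoc, ENNReal.rpow_natCast,
      ← ENNReal.coe_pow, ← ENNReal.coe_mul] at h2
    exact h2.trans (mul_le_mul_left (ENNReal.coe_le_coe.2 ((le_max_left _ _).trans (le_max_right _ _))) _)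
  · have h2 := (l1.mono hA).hausdorffMeasure_image_le (d := (n : ℝ)) (Nat.cast_nonneg n)
    rw [hc', Measure.smul_apply, ENNReal.smul_def, smul_eq_mul]
    refine (mul_le_mul_right h2 _).trans ?_
    rw [← mul_assoc, ENNReal.rpow_natCast, ← ENNReal.coe_pow, ← ENNReal.coe_mul, mul_comm c']
    exact mul_le_mul_left (ENNReal.coe_le_coe.2 ((le_max_right _ _).trans (le_max_right _ _))) _

/-- a finite atlas of boxes; `ρ₀` is any upper bound for the radii -/
theorem exists_atl [CompactSpace M] (ρ₀ : M → ℝ) (h₀ : ∀ a, 0 < ρ₀ a) :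
    ∃ (N : ℕ) (K' : ℝ≥0) (a : Fin N → M) (ρ : Fin N → ℝ) (K : ℝ),
      (∀ i, 0 < ρ i ∧ ρ i ≤ ρ₀ (a i) ∧ R.Box (a i) (2 * ρ i) K) ∧
      Vol.Atl (μH[n] : Measure M) (volume : Measure (EE n)) R.expE N K' (fun i => boxSet n (a i) (ρ i))
        (fun i => ch n (a i)) fun i => (ch n (a i)).symm := by
  obtain ⟨T, ρ, K, r, hr, -, h1, h2, h3⟩ := R.exists_cover ρ₀ h₀
  obtain ⟨K', hK'⟩ := Box.chart (R := R) (K := K)
  let e := T.equivFin.symm
  refine ⟨T.card, K', fun i => e i, fun i => ρ (e i), K, fun i => ⟨(h1 _).1, (h1 _).2, h2 _ (e i).2⟩, R.nrm_expE,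
    fun i => hK' ((h2 _ (e i).2).mono (h1 _).1 (by linarith [(h1 (e i)).1]) le_rfl), fun i x hx => ?_, fun x => ?_⟩
  · exact (R.contDiffAt_expE_j (by rw [expE_zero]; exact hx.1)).differentiableAt (by simp)
  · obtain ⟨a, ha, h4⟩ := h3 x
    exact ⟨e.symm ⟨a, ha⟩, by simpa using h4 (mem_ball_self hr)⟩

end Riem

end Crest.Agent.R226.G

end
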