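import Crest.Agent.R226.G8
import Crest.Agent.R226.QG

/-!
# rid 226 / QM0 (part Q, sub-lead helper74): frames in charts, derivatives of exp in charts, compactness

Prefix for auxiliary lemmas: `qm0_`.
-/

set_option autoImplicit false
set_option maxSynthPendingDepth 3
set_option linter.unusedSectionVars false

open scoped ContDiff Manifold Topology InnerProductSpace
open Bundle Set Filter Metric

noncomputable section

namespace Crest.Agent.R226.G

open Crest.Agent.R226.Q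

variable {n : ℕ} {M : Type*} [MetricSpace M] [ChartedSpace (EE n) M] [IsManifold 𝓘(ℝ, EE n) ∞ M]

/-- parameters: a point of a chart, a frame in the chart, a vector of the Euclidean space -/
abbrev Par (n : ℕ) : Type := (EE n × (EE n →L[ℝ] EE n)) × EE n

/-- the chart coordinates of the tangent vector described by the parameters -/
def Par.pt (θ : Par n) : EE n × EE n := (θ.1.1, θ.1.2 θ.2)

namespace Riem

variable (R : Riem n M)

/-- the tangent vector at `x` with coordinates `q` in the frame -/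
def tv (x : M) (q : EE n) : TM n M := mkT x (R.fr x q)

/-- the frame at `x` read in the chart of `a` -/
def Jc (a x : M) : EE n →L[ℝ] EE n := (fderiv ℝ (tr n x a) (ch n x x)).comp (R.fr x : EE n →L[ℝ] EE n)

def par (a x : M) (q : EE n) : Par n := ((ch n a x, R.Jc a x), q)

/-- vertical derivative of `exp` -/
def Dc (a b : M) (θ : Par n) : EE n →L[ℝ] EE n :=
  (fderiv ℝ (R.ex a b) θ.pt).comp ((ContinuousLinearMap.inr ℝ (EE n) (EE n)).comp θ.1.2)

/-- horizontal derivative of `exp` -/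
def Cc (a b : M) (θ : Par n) : EE n →L[ℝ] EE n :=
  (fderiv ℝ (R.ex a b) θ.pt).comp (θ.1.2.prod (-(((chartΓ R.g a θ.1.1).flip (θ.1.2 θ.2)).comp θ.1.2)))

def Gc (c0 : ℝ) (a b : M) (θ : Par n) : EE n →L[ℝ] EE n := c0 • R.Dc a b θ - R.Cc a b θ

/-- the derivative of `expE x` at `q`, in the frame at the end point -/
def dE (x : M) (q : EE n) : EE n →L[ℝ] EE n :=
  ((R.fr (R.expE x q)).symm : EE n →L[ℝ] EE n).comp (fderiv ℝ (fun η => ch n (R.expE x q) (R.expE x η)) q)

theorem Dc_apply (a b : M) (θ : Par n) (u : EE n) : R.Dc a b θ u = fderiv ℝ (R.ex a b) θ.pt (0, θ.1.2 u) := rfl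

theorem Cc_apply (a b : M) (θ : Par n) (u : EE n) :
    R.Cc a b θ u = fderiv ℝ (R.ex a b) θ.pt (θ.1.2 u, -chartΓ R.g a θ.1.1 (θ.1.2 u) (θ.1.2 θ.2)) := rfl

theorem Gc_apply (c0 : ℝ) (a b : M) (θ : Par n) (u : EE n) : R.Gc c0 a b θ u = c0 • R.Dc a b θ u - R.Cc a b θ u := rfl

theorem pt_par (a x : M) (q : EE n) : (R.par a x q).pt = (ch n a x, R.Jc a x q) := rfl

theorem tv_proj (x : M) (q : EE n) : (R.tv x q).proj = x := rfl

theorem tmChart_tv (a x : M) (q : EE n) : tmChart n a (R.tv x q) = (ch n a x, R.Jc a x q) :=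
  Prod.ext rfl (tmChart_snd a _)

theorem tmChart_symm_Jc {a x : M} (hx : x ∈ (ch n a).source) (q : EE n) :
    (tmChart n a).symm (ch n a x, R.Jc a x q) = R.tv x q := by
  rw [← R.tmChart_tv]
  exact (tmChart n a).left_inv (mem_tmChart_source.2 hx)

theorem Φ_tv (x : M) (q : EE n) : R.Φ 1 (R.tv x q) = R.tv (R.expE x q) (R.velE x q) := by
  rw [tv, Φ_one, tv, velE, ContinuousLinearEquiv.apply_symm_apply]
  rfl

theorem Φ_tv_proj (x : M) (q : EE n) : (R.Φ 1 (R.tv x q)).proj = R.expE x q := rfl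

theorem dom_tv {a b x : M} {q : EE n} : R.Dom a b (R.tv x q) ↔ x ∈ (ch n a).source ∧ R.expE x q ∈ (ch n b).source :=
  Iff.rfl

theorem G_Jc {a x : M} (hx : x ∈ (ch n a).source) (u v : EE n) :
    R.G a (ch n a x) (R.Jc a x u) (R.Jc a x v) = ⟪u, v⟫_ℝ := by
  rw [← R.q_fr x, q, ← chartG_center, chartG_trans R.g (mem_chart_source _ x) hx]
  rfl

theorem Jc_self (x : M) (u : EE n) : R.Jc x x u = R.fr x u := fderiv_tr_self (mem_chart_source _ x) _

theorem Jc_trans {a b x : M} (ha : x ∈ (ch n a).source) (hb : x ∈ (ch n b).source) (u : EE n) :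
    fderiv ℝ (tr n a b) (ch n a x) (R.Jc a x u) = R.Jc b x u :=
  fderiv_tr_comp (mem_chart_source _ x) ha hb _

theorem injective_of_iso {B : EE n →L[ℝ] EE n →L[ℝ] ℝ} {J : EE n →L[ℝ] EE n} (h : ∀ u v, B (J u) (J v) = ⟪u, v⟫_ℝ) :
    Function.Injective J := by
  refine (injective_iff_map_eq_zero J).2 fun u hu => ?_
  have := h u u
  rw [hu, map_zero, eq_comm, inner_self_eq_zero] at this
  exact this

theorem surjective_of_iso {B : EE n →L[ℝ] EE n →L[ℝ] ℝ} {J : EE n →L[ℝ] EE n} (h : ∀ u v, B (J u) (J v) = ⟪u, v⟫_ℝ) :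
    Function.Surjective J :=
  (LinearMap.injective_iff_surjective (f := (J : EE n →ₗ[ℝ] EE n))).1 (injective_of_iso h)

theorem ex_Jc {a x : M} (hx : x ∈ (ch n a).source) (b : M) (q : EE n) :
    R.ex a b (ch n a x, R.Jc a x q) = ch n b (R.expE x q) := by
  rw [← R.tmChart_tv, ex_apply hx]
  rfl

theorem contDiffAt_expE {x b : M} {q : EE n} (h : R.expE x q ∈ (ch n b).source) :
    ContDiffAt ℝ ∞ (fun η => ch n b (R.expE x η)) q :=
  ContDiffAt.comp (g := fun u => ch n b (R.exp x u)) q (R.contDiffAt_exp h) (R.fr x).contDiff.contDiffAt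

theorem continuous_expE (x : M) : Continuous (R.expE x) := (R.continuous_exp x).comp (R.fr x).continuous

theorem Dc_par {a b x : M} {q : EE n} (h : R.Dom a b (R.tv x q)) :
    R.Dc a b (R.par a x q) = fderiv ℝ (fun η => ch n b (R.expE x η)) q := by
  have h1 : (fun η => ch n b (R.expE x η)) = R.ex a b ∘ fun η => (ch n a x, R.Jc a x η) :=
    funext fun η => (R.ex_Jc h.1 b η).symm
  have h2 := h.contDiffAt_ex.differentiableAt (by simp)
  rw [R.tmChart_tv] at h2
  have h3 : HasFDerivAt (fun η => (ch n a x, R.Jc a x η))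
      ((ContinuousLinearMap.inr ℝ (EE n) (EE n)).comp (R.Jc a x)) q :=
    ((hasFDerivAt_const _ _).prodMk (R.Jc a x).hasFDerivAt).congr_fderiv (by ext <;> simp)
  rw [h1, (h2.hasFDerivAt.comp q h3).fderiv]
  rfl

theorem Jc_dE {b x : M} {q : EE n} (h : R.expE x q ∈ (ch n b).source) (η : EE n) :
    R.Jc b (R.expE x q) (R.dE x q η) = fderiv ℝ (fun η => ch n b (R.expE x η)) q η := by
  have hy := mem_chart_source (EE n) (R.expE x q)
  have h1 : (fun η => ch n b (R.expE x η)) =ᶠ[𝓝 q]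
      tr n (R.expE x q) b ∘ fun η => ch n (R.expE x q) (R.expE x η) := by
    filter_upwards [(R.continuous_expE x).continuousAt.eventually ((ch n (R.expE x q)).open_source.mem_nhds hy)]
      with η hη
    exact (tr_apply hη).symm
  rw [h1.fderiv_eq, fderiv_comp q ((tr_smooth hy h).differentiableAt (by simp))
    ((R.contDiffAt_expE hy).differentiableAt (by simp))]
  simp only [Jc, dE, ContinuousLinearMap.comp_apply, ContinuousLinearEquiv.coe_coe,
    ContinuousLinearEquiv.apply_symm_apply]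

/-- the frames are uniformly bounded in a chart -/
theorem Jc_bound (a : M) : ∃ C : ℝ, 0 < C ∧ ∀ᶠ x in 𝓝 a, x ∈ (ch n a).source ∧
    ∀ u, ‖R.Jc a x u‖ ≤ C * ‖u‖ ∧ ‖u‖ ≤ C * ‖R.Jc a x u‖ := by
  obtain ⟨B, hB, hBt, hBc⟩ := local_compact_nhds ((ch n a).open_target.mem_nhds (mem_chart_target (EE n) a))
  obtain ⟨c, hc, h⟩ := chtm_coercive R.g a hBc hBt
  obtain ⟨K, hK⟩ := hBc.exists_bound_of_continuousOn ((isLC_chart R.g a).g_smooth.continuousOn.mono hBt)
  refine ⟨1 + c⁻¹ + |K|, by positivity, ?_⟩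
  filter_upwards [chart_source_mem_nhds (EE n) a, ((ch n a).continuousAt (mem_chart_source (EE n) a)) hB] with x hx hxB
  refine ⟨hx, fun u => ?_⟩
  have h1 := R.G_Jc hx u u
  rw [real_inner_self_eq_norm_sq] at h1
  have h2 := h _ hxB (R.Jc a x u)
  have h3 : R.G a (ch n a x) (R.Jc a x u) (R.Jc a x u) ≤ |K| * ‖R.Jc a x u‖ * ‖R.Jc a x u‖ :=
    (le_abs_self _).trans (((R.G a (ch n a x)).le_opNorm₂ _ _).trans (by gcongr; exact (hK _ hxB).trans (le_abs_self _)))
  have h4 : chartG R.g a (ch n a x) (R.Jc a x u) (R.Jc a x u) = ‖u‖ ^ 2 := h1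
  rw [h4] at h2
  rw [h1] at h3
  have hc' : 0 < c⁻¹ := inv_pos.2 hc
  have h5 : ‖R.Jc a x u‖ ^ 2 ≤ c⁻¹ * ‖u‖ ^ 2 := by
    rw [inv_mul_eq_div, le_div_iff₀ hc]; linarith
  constructor
  · refine abs_le_of_sq_le_sq' ?_ (by positivity) |>.2
    have : c⁻¹ ≤ (1 + c⁻¹ + |K|) ^ 2 := by nlinarith [abs_nonneg K]
    rw [mul_pow]
    exact h5.trans (by gcongr)
  · refine abs_le_of_sq_le_sq' ?_ (by positivity) |>.2
    have : |K| ≤ (1 + c⁻¹ + |K|) ^ 2 := by nlinarith [abs_nonneg K]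
    rw [mul_pow]
    exact h3.trans (by rw [mul_assoc, ← sq]; gcongr)

end Riem

/-- uniform constants from ultrafilters -/
theorem exists_bound {S : Type*} {p : S → ℝ → Prop} (hm : ∀ s L L', L ≤ L' → p s L → p s L')
    (h : ∀ F : Ultrafilter S, ∃ L, ∀ᶠ s in (F : Filter S), p s L) : ∃ L : ℝ, 0 < L ∧ ∀ s, p s L := by
  by_contra hc
  push Not at hc
  choose s hs using fun k : ℕ => hc ((k : ℝ) + 1) (by positivity)
  obtain ⟨L, hL⟩ := h ((hyperfilter ℕ).map s)
  have h1 : ∀ᶠ k : ℕ in (hyperfilter ℕ : Filter ℕ), p (s k) L := hL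
  have h2 : ∀ᶠ k : ℕ in (hyperfilter ℕ : Filter ℕ), L ≤ (k : ℝ) + 1 := by
    refine Nat.hyperfilter_le_atTop ?_
    filter_upwards [tendsto_natCast_atTop_atTop.eventually_ge_atTop L] with k hk
    linarith
  obtain ⟨k, h3, h4⟩ := (h1.and h2).exists
  exact hs k (hm _ _ _ h4 h3)

theorem tendsto_clm_apply {S E F : Type*} [NormedAddCommGroup E] [NormedSpace ℝ E] [NormedAddCommGroup F]
    [NormedSpace ℝ F] {l : Filter S} {T : S → E →L[ℝ] F} {T0 : E →L[ℝ] F} {v : S → E} {v0 : E}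
    (hT : Tendsto T l (𝓝 T0)) (hv : Tendsto v l (𝓝 v0)) : Tendsto (fun s => T s (v s)) l (𝓝 (T0 v0)) :=
  (isBoundedBilinearMap_apply.continuous.tendsto (T0, v0)).comp (hT.prodMk_nhds hv)

namespace Riem

variable [CompactSpace M] (R : Riem n M)

/-- compactness of the frame bundle -/
theorem exists_lim {S : Type*} (F : Ultrafilter S) (x : S → M) (q : S → EE n) {r : ℝ} (hq : ∀ s, ‖q s‖ ≤ r) :
    ∃ (a : M) (J : EE n →L[ℝ] EE n) (q0 : EE n), Tendsto x F (𝓝 a) ∧
      Tendsto (fun s => R.par a (x s) (q s)) F (𝓝 ((ch n a a, J), q0)) ∧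
      (∀ u v, R.G a (ch n a a) (J u) (J v) = ⟪u, v⟫_ℝ) ∧
      Tendsto (fun s => R.tv (x s) (q s)) F (𝓝 (mkT a (J q0))) ∧
      Tendsto (fun s => R.expE (x s) (q s)) F (𝓝 (R.exp a (J q0))) := by
  obtain ⟨a, -, ha⟩ := isCompact_univ.ultrafilter_le_nhds (F.map x) (by simp)
  have ha' : Tendsto x F (𝓝 a) := ha
  obtain ⟨C, hC, hb⟩ := R.Jc_bound a
  obtain ⟨J, -, hJ⟩ := (isCompact_closedBall (0 : EE n →L[ℝ] EE n) C).ultrafilter_le_nhds (F.map fun s => R.Jc a (x s))
    (by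
      rw [le_principal_iff]
      refine Filter.mem_map.2 ?_
      filter_upwards [ha'.eventually hb] with s hs
      exact mem_closedBall_zero_iff.2 (ContinuousLinearMap.opNorm_le_bound _ hC.le fun u => (hs.2 u).1))
  have hJ' : Tendsto (fun s => R.Jc a (x s)) F (𝓝 J) := hJ
  obtain ⟨q0, -, hq0⟩ := (isCompact_closedBall (0 : EE n) r).ultrafilter_le_nhds (F.map q)
    (by
      rw [le_principal_iff]
      exact Filter.mem_map.2 (univ_mem' fun s => mem_closedBall_zero_iff.2 (hq s)))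
  have hq' : Tendsto q F (𝓝 q0) := hq0
  have hc : Tendsto (fun s => ch n a (x s)) F (𝓝 (ch n a a)) :=
    ((ch n a).continuousAt (mem_chart_source _ a)).tendsto.comp ha'
  have hv : ∀ u, Tendsto (fun s => R.Jc a (x s) u) F (𝓝 (J u)) := fun u =>
    tendsto_clm_apply hJ' tendsto_const_nhds
  have hT : Tendsto (fun s => R.tv (x s) (q s)) F (𝓝 (mkT a (J q0))) := by
    have h1 : Tendsto (fun s => (ch n a (x s), R.Jc a (x s) (q s))) F (𝓝 (ch n a a, J q0)) :=
      hc.prodMk_nhds (tendsto_clm_apply hJ' hq')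
    have h2 := ((tmChart n a).continuousAt_symm (x := (ch n a a, J q0))
      (by rw [tmChart_target]; exact ⟨mem_chart_target _ a, trivial⟩)).tendsto.comp h1
    rw [tmChart_symm_center] at h2
    refine h2.congr' ?_
    filter_upwards [ha'.eventually hb] with s hs
    exact R.tmChart_symm_Jc hs.1 _
  have hE : Tendsto (fun s => R.expE (x s) (q s)) F (𝓝 (R.exp a (J q0))) :=
    (R.continuous_expT.tendsto (mkT a (J q0))).comp hT
  have hP : Tendsto (fun s => ((ch n a (x s), R.Jc a (x s)), q s)) F (𝓝 ((ch n a a, J), q0)) :=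
    (hc.prodMk_nhds hJ').prodMk_nhds hq'
  refine ⟨a, J, q0, ha', hP, fun u v => ?_, hT, hE⟩
  have hG : Tendsto (fun s => R.G a (ch n a (x s))) F (𝓝 (R.G a (ch n a a))) :=
    ((isLC_chart R.g a).g_smooth.continuousOn.continuousAt
      ((ch n a).open_target.mem_nhds (mem_chart_target _ a))).tendsto.comp hc
  have h1 : Tendsto (fun s => R.G a (ch n a (x s)) (R.Jc a (x s) u) (R.Jc a (x s) v)) F
      (𝓝 (R.G a (ch n a a) (J u) (J v))) :=
    tendsto_clm_apply (tendsto_clm_apply hG (hv u)) (hv v)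
  refine tendsto_nhds_unique h1 (tendsto_const_nhds.congr' ?_)
  filter_upwards [ha'.eventually hb] with s hs
  exact (R.G_Jc hs.1 u v).symm

end Riem

end Crest.Agent.R226.G

end
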