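import Crest.Agent.R226.J2
import Crest.Agent.R226.QM0

/-!
# R226 / J3 (sub-lead helper39): the cost on small boxes, the cross difference

Prefix for auxiliary lemmas: `j3_`.
-/

set_option autoImplicit false
set_option maxSynthPendingDepth 3
set_option synthInstance.maxHeartbeats 200000
set_option linter.unusedSectionVars false

open scoped ContDiff Manifold Topology ENNReal NNReal RealInnerProductSpace
open Bundle Set Filter Metric MeasureTheory Asymptotics

noncomputable section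

namespace Crest.Agent.R226.G

variable {n : ℕ} {M : Type*} [MetricSpace M] [ChartedSpace (EE n) M] [IsManifold 𝓘(ℝ, EE n) ∞ M]

namespace Riem

variable (R : Riem n M)

include R in
/-- The cost is `C²` on a small box with bounded second derivative. -/
theorem exists_cc2 [CompactSpace M] (a : M) : ∃ ρ > 0, ∃ C : ℝ, ∀ y ∈ ball (ch n a a) ρ, ∀ y' ∈ ball (ch n a a) ρ,
    ContDiffAt ℝ 2 (cc n a a) (y, y') ∧ ‖fderiv ℝ (fderiv ℝ (cc n a a)) (y, y')‖ ≤ C := by
  obtain ⟨r, hr⟩ := R.exists_rad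
  have h0 : (R.Φ 1 (R.tv a 0)).proj = a := R.expE_zero a
  have h1 := (hr.sm a a (R.tv a 0) ⟨mem_chart_source _ a, by rw [h0]; exact mem_chart_source _ a⟩
    (by
      change R.nrm a (R.fr a 0) < r
      simpa [nrm] using hr.pos)).sm
  rw [h0, tv_proj] at h1
  have h2 : ContinuousAt (fderiv ℝ (fderiv ℝ (cc n a a))) (ch n a a, ch n a a) :=
    (h1.fderiv_right (m := 1) (by norm_cast)).continuousAt_fderiv (by simp)
  obtain ⟨ρ, hρ, h⟩ := Metric.eventually_nhds_iff_ball.1 (((h1.of_le (m := 2) (by norm_cast)).eventually (by simp)).and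
    (h2.norm.eventually (eventually_le_nhds (lt_add_one _))))
  exact ⟨ρ, hρ, _, fun y hy y' hy' => h _ (by rw [← ball_prod_same]; exact ⟨hy, hy'⟩)⟩

/-- calculus: mixed differences -/
theorem _root_.Crest.Agent.R226.G.mixed_le {E : Type} [NormedAddCommGroup E] [NormedSpace ℝ E] {f : E × E → ℝ} {s : Set E}
    (hs : Convex ℝ s) {C : ℝ} (h : ∀ y ∈ s, ∀ y' ∈ s, ContDiffAt ℝ 2 f (y, y') ∧ ‖fderiv ℝ (fderiv ℝ f) (y, y')‖ ≤ C)
    {y y' w w' : E} (hy : y ∈ s) (hy' : y' ∈ s) (hw : w ∈ s) (hw' : w' ∈ s) :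
    f (y', w) - f (y, w) + f (y, w') - f (y', w') ≤ C * ‖y - y'‖ * ‖w - w'‖ := by
  have h1 : ∀ u ∈ s, ‖fderiv ℝ f (u, w) - fderiv ℝ f (u, w')‖ ≤ C * ‖w - w'‖ := fun u hu => by
    have := (hs.prod hs).norm_image_sub_le_of_norm_fderiv_le (𝕜 := ℝ) (f := fderiv ℝ f) (C := C)
      (fun p hp => ((h _ hp.1 _ hp.2).1.fderiv_right (m := 1) (by norm_num)).differentiableAt (by simp))
      (fun p hp => (h _ hp.1 _ hp.2).2) (x := (u, w')) (y := (u, w)) ⟨hu, hw'⟩ ⟨hu, hw⟩
    simpa using this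
  have h2 := hs.norm_image_sub_le_of_norm_hasFDerivWithin_le (𝕜 := ℝ) (f := fun u => f (u, w) - f (u, w'))
    (f' := fun u => (fderiv ℝ f (u, w) - fderiv ℝ f (u, w')).comp (ContinuousLinearMap.inl ℝ E E)) (C := C * ‖w - w'‖)
    (fun u hu => by
      have h3 : ∀ v ∈ s, HasFDerivAt (fun u => f (u, v)) ((fderiv ℝ f (u, v)).comp (ContinuousLinearMap.inl ℝ E E)) u :=
        fun v hv => HasFDerivAt.comp u (g := f) (f := fun u => (u, v))
          ((h u hu v hv).1.differentiableAt (by simp)).hasFDerivAt (hasFDerivAt_prodMk_left u v)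
      rw [ContinuousLinearMap.sub_comp]
      exact ((h3 w hw).sub (h3 w' hw')).hasFDerivWithinAt)
    (fun u hu => ContinuousLinearMap.opNorm_le_bound _ ((norm_nonneg _).trans (h1 u hu)) fun v =>
      ((fderiv ℝ f (u, w) - fderiv ℝ f (u, w')).le_opNorm (v, 0)).trans (mul_le_mul (h1 u hu) (by simp) (norm_nonneg _)
        ((norm_nonneg _).trans (h1 u hu)))) hy hy'
  rw [norm_sub_rev y' y, mul_right_comm] at h2
  linarith [le_abs_self (f (y', w) - f (y', w') - (f (y, w) - f (y, w'))), (Real.norm_eq_abs _).symm.trans_le h2]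

include R in
theorem exists_cross [CompactSpace M] : ∃ ρ > 0, ∃ K ≥ 0, ∀ y y' w w' : M, dist y y' ≤ ρ → dist y w ≤ ρ → dist y' w' ≤ ρ →
    cst y' w - cst y w + cst y w' - cst y' w' ≤ K * dist y y' * dist w w' := by
  choose ρ₀ h₀ C hC using R.exists_cc2
  obtain ⟨T, ρ, K, r, hr, hK, h1, h2, h3⟩ := R.exists_cover ρ₀ h₀
  obtain ⟨C', hC'⟩ := (T.finite_toSet.image C).bddAbove
  refine ⟨r / 3, by positivity, |C'| * K * K, by positivity, fun y y' w w' a1 a2 a3 => ?_⟩
  obtain ⟨a, ha, h4⟩ := h3 y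
  have hy := h4 (mem_ball_self hr)
  have hy' : y' ∈ boxSet n a (ρ a) := h4 (by rw [mem_ball']; linarith)
  have hw : w ∈ boxSet n a (ρ a) := h4 (by rw [mem_ball']; linarith)
  have hw' : w' ∈ boxSet n a (ρ a) := h4 (by rw [mem_ball']; linarith [dist_triangle y y' w'])
  have h5 := mixed_le (convex_ball (ch n a a) (ρ a)) (f := cc n a a) (C := |C'|) (fun u hu v hv =>
    (hC a u (ball_subset_ball (h1 a).2 hu) v (ball_subset_ball (h1 a).2 hv)).imp_right fun h =>
      h.trans ((hC' ⟨a, ha, rfl⟩).trans (le_abs_self _))) hy.2 hy'.2 hw.2 hw'.2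
  simp only [cc, (ch n a).left_inv hy.1, (ch n a).left_inv hy'.1, (ch n a).left_inv hw.1, (ch n a).left_inv hw'.1] at h5
  have hb : boxSet n a (ρ a) ⊆ boxSet n a (2 * ρ a) := boxSet_mono a (by linarith [(h1 a).1])
  have h6 := (h2 a ha).norm_le (hb hy) (hb hy')
  have h7 := (h2 a ha).norm_le (hb hw) (hb hw')
  calc _ ≤ _ := h5
    _ ≤ |C'| * (K * dist y y') * (K * dist w w') := by gcongr
    _ = _ := by ring

end Riem

end Crest.Agent.R226.G

end
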