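import Crest.Agent.R226.J2
import Crest.Agent.R226.QM0

/-!
# R226 / J3a (sub-lead helper39): the exponential maps are uniformly Lipschitz on balls

Prefix for auxiliary lemmas: `j3a_`.
-/

set_option autoImplicit false
set_option maxSynthPendingDepth 3
set_option synthInstance.maxHeartbeats 200000
set_option linter.unusedSectionVars false

open scoped ContDiff Manifold Topology ENNReal NNReal RealInnerProductSpace
open Bundle Set Filter Metric MeasureTheory Asymptotics

noncomputable section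

namespace Crest.Agent.R226.G

variable {n : ℕ} {M : Type*} [MetricSpace M] [ChartedSpace (EE n) M] [IsManifold 𝓘(ℝ, EE n) ∞ M]

namespace Riem

variable [CompactSpace M] (R : Riem n M)

theorem j3a_cont {a b : M} {ξ : TM n M} (hd : R.Dom a b ξ) {θ : Par n} (hθ : θ.pt = tmChart n a ξ) :
    ContinuousAt (R.Dc a b) θ := by
  have h1 : ContinuousAt (fderiv ℝ (R.ex a b)) θ.pt := hθ ▸ hd.contDiffAt_ex.continuousAt_fderiv (by simp)
  have h2 : Continuous (Par.pt (n := n)) := by unfold Par.pt; fun_prop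
  exact (h1.comp h2.continuousAt).clm_comp (continuousAt_const.clm_comp (by fun_prop))

/-- Uniform bound of the derivative of `expE z` on balls. -/
theorem exists_speed (D : ℝ) : ∃ K > 0, ∀ z q, ‖q‖ ≤ D → ∃ b : M, R.expE z q ∈ (ch n b).source ∧
    ‖R.G b (ch n b (R.expE z q))‖ * ‖fderiv ℝ (fun η => ch n b (R.expE z η)) q‖ ^ 2 ≤ K := by
  obtain ⟨K, hK, h⟩ := exists_bound (S := {p : M × EE n // ‖p.2‖ ≤ D})
    (p := fun s K => ∃ b : M, R.expE s.1.1 s.1.2 ∈ (ch n b).source ∧
      ‖R.G b (ch n b (R.expE s.1.1 s.1.2))‖ * ‖fderiv ℝ (fun η => ch n b (R.expE s.1.1 η)) s.1.2‖ ^ 2 ≤ K)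
    (fun _ _ _ h ⟨b, h1, h2⟩ => ⟨b, h1, h2.trans h⟩) fun F => by
      obtain ⟨a, J, q0, h1, h2, -, -, h5⟩ := R.exists_lim F (fun s => s.1.1) (fun s => s.1.2) fun s => s.2
      set b := R.exp a (J q0)
      have hd : R.Dom a b (mkT a (J q0)) := ⟨mem_chart_source _ a, mem_chart_source _ b⟩
      have h6 := (R.j3a_cont hd (θ := ((ch n a a, J), q0)) (tmChart_mkT a _).symm).tendsto.comp h2
      have h7 := (R.contDiffAt_G (mem_chart_target _ b)).continuousAt.tendsto.comp
        (((ch n b).continuousAt (mem_chart_source _ b)).tendsto.comp h5)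
      have h8 := (h7.norm.mul (h6.norm.pow 2)).eventually (eventually_le_nhds (lt_add_one _))
      exact ⟨_, (h8.and ((h1.eventually (chart_source_mem_nhds (EE n) a)).and
        (h5.eventually (chart_source_mem_nhds (EE n) b)))).mono fun s hs =>
          ⟨b, hs.2.2, by rw [← R.Dc_par (a := a) (R.dom_tv.2 hs.2)]; exact hs.1⟩⟩
  exact ⟨K, hK, fun z q hq => h ⟨(z, q), hq⟩⟩

theorem exists_lip (D : ℝ) : ∃ K > 0, ∀ z q q', ‖q‖ ≤ D → ‖q'‖ ≤ D → dist (R.expE z q) (R.expE z q') ≤ K * ‖q - q'‖ := by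
  obtain ⟨K, hK, h⟩ := R.exists_speed D
  refine ⟨√K, Real.sqrt_pos.2 hK, fun z q q' hq hq' => ?_⟩
  have cl : Continuous fun t : ℝ => q + t • (q' - q) := by fun_prop
  have := R.up (fun t => R.expE z (q + t • (q' - q))) 0 1 (√K * ‖q - q'‖) zero_le_one (by positivity) fun t ht => by
    have h0 : q + t • (q' - q) ∈ closedBall (0 : EE n) D :=
      (convex_closedBall _ _).add_smul_sub_mem (mem_closedBall_zero_iff.2 hq) (mem_closedBall_zero_iff.2 hq') ht
    obtain ⟨b, hb, h1⟩ := h z _ (mem_closedBall_zero_iff.1 h0)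
    have h3 : HasDerivAt (fun t : ℝ => q + t • (q' - q)) (q' - q) t := by
      simpa using ((hasDerivAt_id t).smul_const (q' - q)).const_add q
    have h6 := ((R.contDiffAt_expE hb).differentiableAt (by simp)).hasFDerivAt.comp_hasDerivAt t h3
    refine ⟨((R.continuous_expE z).comp cl).continuousAt, b, hb, _, h6, ?_⟩
    set T := fderiv ℝ (fun η => ch n b (R.expE z η)) (q + t • (q' - q))
    have h4 := (R.G b (ch n b (R.expE z (q + t • (q' - q))))).le_opNorm₂ (T (q' - q)) (T (q' - q))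
    have h5 := pow_le_pow_left₀ (norm_nonneg _) (T.le_opNorm (q' - q)) 2
    rw [mul_pow, Real.sq_sqrt hK.le, norm_sub_rev q q']
    rw [mul_assoc, ← sq] at h4
    refine (le_abs_self _).trans (h4.trans ((mul_le_mul_of_nonneg_left h5 (norm_nonneg _)).trans ?_))
    rw [mul_pow, ← mul_assoc]
    exact mul_le_mul_of_nonneg_right h1 (sq_nonneg _)
  simpa using this

end Riem

end Crest.Agent.R226.G

end
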