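import Crest.Agent.R226.QM4

/-!
# rid 226 / QM6 (part Q, sub-lead helper74): GeoS, Geo2 and the criterion for the injectivity domain

Prefix for auxiliary lemmas: `qm6_`.
-/

set_option autoImplicit false
set_option maxSynthPendingDepth 3
set_option linter.unusedSectionVars false

open scoped ContDiff Manifold Topology InnerProductSpace
open Bundle Set Filter Metric

noncomputable section

namespace Crest.Agent.R226.G

open Crest.Agent.R226.Q

variable {n : ℕ} {M : Type*} [MetricSpace M] [ChartedSpace (EE n) M] [IsManifold 𝓘(ℝ, EE n) ∞ M]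

section Abstract

variable {X : Type*} [MetricSpace X] {E : Type} [NormedAddCommGroup E] [InnerProductSpace ℝ E] [FiniteDimensional ℝ E]
  {exp : X → E → X} {vel : X → E → E} {K δ Λ : ℝ} {x : X} {q l : E}

theorem qm6_ray (w : E) : Tendsto (fun t : ℝ => t • w) (𝓝[>] 0) (𝓝 0) := by
  have h : Tendsto (fun t : ℝ => t • w) (𝓝 0) (𝓝 ((0 : ℝ) • w)) := (continuous_id.smul continuous_const).tendsto 0
  rw [zero_smul] at h
  exact h.mono_left nhdsWithin_le_nhds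

theorem qm6_uniq (h1 : L.Geo1 exp vel K δ) (hq : q ∈ L.MinS exp x)
    (h : ∀ᶠ ζ in 𝓝 (0 : E), ‖q‖ ^ 2 / 2 + ⟪l, ζ⟫_ℝ - Λ * ‖ζ‖ ^ 2 ≤ L.cst (exp x ζ) (exp x q)) {p : E}
    (hp : p ∈ L.MinS exp x) (he : exp x p = exp x q) : p = -l := by
  have hn : ‖p‖ = ‖q‖ := by
    have a1 : dist x (exp x p) = ‖p‖ := hp
    have a2 : dist x (exp x q) = ‖q‖ := hq
    rw [← a1, ← a2, he]
  have h2 : ∀ᶠ t in 𝓝[>] (0 : ℝ), ‖l + p‖ ^ 2 ≤ (K + Λ) * ‖l + p‖ ^ 2 * t := by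
    filter_upwards [(qm6_ray (l + p)).eventually h, self_mem_nhdsWithin] with t ht ht0
    have ht0 : 0 < t := ht0
    have a1 := h1.sc x p hp (t • (l + p))
    rw [he, hn] at a1
    have a2 : ⟪l, t • (l + p)⟫_ℝ + ⟪p, t • (l + p)⟫_ℝ = t * ‖l + p‖ ^ 2 := by
      rw [← inner_add_left, real_inner_smul_right, real_inner_self_eq_norm_sq]
    rw [norm_smul, Real.norm_of_nonneg ht0.le] at a1 ht
    refine le_of_mul_le_mul_left ?_ ht0
    nlinarith
  have h3 : Tendsto (fun t : ℝ => (K + Λ) * ‖l + p‖ ^ 2 * t) (𝓝[>] 0) (𝓝 0) := by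
    have h4 : Tendsto (fun t : ℝ => (K + Λ) * ‖l + p‖ ^ 2 * t) (𝓝 0) (𝓝 ((K + Λ) * ‖l + p‖ ^ 2 * 0)) :=
      (continuous_const.mul continuous_id).tendsto 0
    rw [mul_zero] at h4
    exact h4.mono_left nhdsWithin_le_nhds
  have h5 : ‖l + p‖ ^ 2 ≤ 0 := ge_of_tendsto h3 h2
  have h6 : l + p = 0 := norm_eq_zero.1 (pow_eq_zero_iff two_ne_zero |>.1 (le_antisymm h5 (sq_nonneg _)))
  exact eq_neg_of_add_eq_zero_right h6

theorem qm6_A (h1 : L.Geo1 exp vel K δ) (h0 : GeoS0 exp vel) (hq : q ∈ L.MinS exp x)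
    (h : ∀ᶠ ζ in 𝓝 (0 : E), ‖q‖ ^ 2 / 2 + ⟪l, ζ⟫_ℝ - Λ * ‖ζ‖ ^ 2 ≤ L.cst (exp x ζ) (exp x q)) {t : ℝ}
    (ht0 : 0 < t) (ht1 : t < 1) (u : E) : -(t * Λ * ‖u‖ ^ 2) ≤ ⟪Aop exp x (t • q) u, u⟫_ℝ / 2 := by
  have hl : l = -q := by rw [qm6_uniq h1 hq h hq rfl, neg_neg]
  subst hl
  have hd : dist (exp x (t • q)) (exp x q) = (1 - t) * ‖q‖ := by
    have := dist_ray h1 hq ht0.le ht1.le le_rfl
    rwa [one_smul] at this
  refine le_of_eventually_quad (u := u) fun ε hε => ?_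
  filter_upwards [(qm6_ray u).eventually h, (qm6_ray u).eventually (tay_k h1 h0 (inj_smul h1 hq ht0.le ht1) hε),
    self_mem_nhdsWithin] with s a1 a2 hs
  have hs : 0 < s := hs
  have a3 : L.cst (exp x (s • u)) (exp x q) ≤
      L.cst (exp x (s • u)) (exp x (t • q)) / t + L.cst (exp x (t • q)) (exp x q) / (1 - t) :=
    cst_le _ _ _ ht0 ht1
  have a4 : L.cst (exp x (t • q)) (exp x q) / (1 - t) = (1 - t) * ‖q‖ ^ 2 / 2 := by
    have : 1 - t ≠ 0 := (sub_pos.2 ht1).ne'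
    unfold L.cst
    rw [hd]
    field_simp
  have a5 := (abs_le.1 a2).2
  have a6 : ⟪Aop exp x (t • q) (s • u), s • u⟫_ℝ = s ^ 2 * ⟪Aop exp x (t • q) u, u⟫_ℝ := by
    rw [map_smul, real_inner_smul_left, real_inner_smul_right]
    ring
  have a7 : ‖s • u‖ ^ 2 = s ^ 2 * ‖u‖ ^ 2 := by rw [norm_smul, Real.norm_of_nonneg hs.le, mul_pow]
  rw [a6, real_inner_smul_left, norm_smul t, Real.norm_of_nonneg ht0.le] at a5
  rw [inner_neg_left] at a1
  have a8 := mul_le_mul_of_nonneg_left (a1.trans a3) ht0.le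
  rw [a4, mul_add, mul_div_cancel₀ _ ht0.ne'] at a8
  have a9 : t * (Λ * ‖s • u‖ ^ 2) = s ^ 2 * (t * Λ * ‖u‖ ^ 2) := by rw [a7]; ring
  nlinarith

theorem qm6_P (h1 : L.Geo1 exp vel K δ) (h0 : GeoS0 exp vel) (hq : q ∈ L.MinS exp x)
    (h : ∀ᶠ ζ in 𝓝 (0 : E), ‖q‖ ^ 2 / 2 + ⟪l, ζ⟫_ℝ - Λ * ‖ζ‖ ^ 2 ≤ L.cst (exp x ζ) (exp x q)) {t : ℝ}
    (ht0 : 0 < t) (ht1 : t < 1) (η : E) : ‖η‖ ≤ (2 * K + 2 + 2 * |Λ|) * ‖Pop (2 * K + 2) exp x (t • q) η‖ := by
  have hi := inj_smul h1 hq ht0.le ht1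
  have hK := h1.L_pos
  have h2 := norm_le_of_form (T := Wop (2 * K + 2) exp x (t • q)) (N := 2 * K + 2 + 2 * |Λ|) (by positivity)
    (Wop_symm h0 hi) (fun u => (sq_nonneg _).trans (Wop_ge h1 h0 le_rfl hi u)) (fun u => by
      have a1 := qm6_A h1 h0 hq h ht0 ht1 u
      have a2 : t * Λ ≤ |Λ| :=
        (mul_le_mul_of_nonneg_left (le_abs_self Λ) ht0.le).trans (mul_le_of_le_one_left (abs_nonneg _) ht1.le)
      have a3 := mul_le_mul_of_nonneg_right a2 (sq_nonneg ‖u‖)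
      rw [Wop_apply, inner_sub_left, real_inner_smul_left, real_inner_self_eq_norm_sq]
      linarith) (Pop (2 * K + 2) exp x (t • q) η)
  rwa [Wop_Pop h1 h0 le_rfl hi] at h2

end Abstract

namespace Riem

variable [CompactSpace M] (R : Riem n M)

/-- A minimising vector with a lower quadratic support of the cost lies in `I`.  Uniqueness: for every minimising `p` with
the same end point `sc` and the support give `p = -l`.  Non-focality: for `0 < t < 1`,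
`c (expE x ζ) y ≤ c (expE x ζ) y_t / t + c y_t y / (1 - t)` (`cst_le`, `dist_ray`) and `tay_k` at `t • q` give
`⟪A (t • q) ζ, ζ⟫ ≥ -2 t Λ ‖ζ‖²` (`le_of_eventually_quad`), so `‖W ζ‖ ≤ (c0 + 2 |Λ|) ‖ζ‖` (`norm_le_of_form`) and
`‖η‖ ≤ N ‖P η‖ ≤ N L ‖dE x (t • q) η‖ ≤ N L C ‖fderiv (ch y ∘ expE x) (t • q) η‖` for `t` close to one (`dE_bound`,
`Jc_bound y`, `Jc_dE`); let `t → 1` (`contDiffAt_expE`).  `Min.inI_of_unique`. -/
theorem inj_of_lower {x : M} {q l : EE n} {Λ : ℝ} (hq : q ∈ L.MinS R.expE x)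
    (h : ∀ᶠ ζ in 𝓝 (0 : EE n), ‖q‖ ^ 2 / 2 + ⟪l, ζ⟫_ℝ - Λ * ‖ζ‖ ^ 2 ≤ L.cst (R.expE x ζ) (R.expE x q)) :
    q ∈ L.InjS R.expE x := by
  obtain ⟨K, δ, h1⟩ := R.geo1
  have h0 := R.geoS0
  have hK := h1.L_pos
  obtain ⟨C, hC, hdE⟩ := R.dE_bound h1 (c0 := 2 * K + 2) le_rfl
  obtain ⟨C', hC', hJ⟩ := R.Jc_bound (R.expE x q)
  have hy := mem_chart_source (EE n) (R.expE x q)
  have hr : Tendsto (fun t : ℝ => t • q) (𝓝[<] 1) (𝓝 q) := by
    have h2 : Tendsto (fun t : ℝ => t • q) (𝓝 1) (𝓝 ((1 : ℝ) • q)) := (continuous_id.smul continuous_const).tendsto 1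
    rw [one_smul] at h2
    exact h2.mono_left nhdsWithin_le_nhds
  have hD : ContinuousAt (fderiv ℝ fun η => ch n (R.expE x q) (R.expE x η)) q :=
    (R.contDiffAt_expE hy).continuousAt_fderiv (by simp)
  have key : ∀ η, ‖η‖ ≤ (2 * K + 2 + 2 * |Λ|) *
      (C * (C' * ‖fderiv ℝ (fun η => ch n (R.expE x q) (R.expE x η)) q η‖)) := fun η => by
    have h2 := ((((tendsto_clm_apply (hD.tendsto.comp hr) (tendsto_const_nhds (x := η))).norm.const_mul C').const_mul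
      C).const_mul (2 * K + 2 + 2 * |Λ|))
    refine ge_of_tendsto h2 ?_
    filter_upwards [(((R.continuous_expE x).tendsto q).comp hr).eventually hJ, Ioo_mem_nhdsLT zero_lt_one]
      with t a1 a2
    have hi := inj_smul h1 hq a2.1.le a2.2
    refine (qm6_P h1 h0 hq h a2.1 a2.2 η).trans (mul_le_mul_of_nonneg_left ?_ (by positivity))
    refine (hdE x _ hi η).2.trans (mul_le_mul_of_nonneg_left ?_ hC.le)
    refine (a1.2 _).2.trans (le_of_eq ?_)
    rw [Function.comp_apply, Function.comp_apply, R.Jc_dE a1.1]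
  rw [R.mem_injS]
  refine Min.inI_of_unique (R.mem_minS.1 hq) (fun w hw => ?_) fun v' he hm => ?_
  · have h2 : fderiv ℝ (fun η => ch n (R.expE x q) (R.expE x η)) q ((R.fr x).symm w) = 0 := by
      have h3 : HasFDerivAt (fun η => ch n (R.expE x q) (R.expE x η))
          ((fderiv ℝ (fun u => ch n (R.expE x q) (R.exp x u)) (R.fr x q)).comp (R.fr x : EE n →L[ℝ] EE n)) q :=
        HasFDerivAt.comp (g := fun u => ch n (R.expE x q) (R.exp x u)) q
          ((R.contDiffAt_exp hy).differentiableAt (by simp)).hasFDerivAt (R.fr x).hasFDerivAt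
      rw [h3.fderiv, ContinuousLinearMap.comp_apply, ContinuousLinearEquiv.coe_coe,
        ContinuousLinearEquiv.apply_symm_apply]
      exact hw
    have h4 := key ((R.fr x).symm w)
    rw [h2, norm_zero, mul_zero, mul_zero, mul_zero, norm_le_zero_iff] at h4
    rw [← (R.fr x).apply_symm_apply w, h4, map_zero]
  · have h2 : (R.fr x).symm v' ∈ L.MinS R.expE x := by
      rw [R.mem_minS, ContinuousLinearEquiv.apply_symm_apply]
      exact hm
    have h3 : R.expE x ((R.fr x).symm v') = R.expE x q := by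
      rw [expE, ContinuousLinearEquiv.apply_symm_apply]
      exact he
    rw [← (R.fr x).apply_symm_apply v', qm6_uniq h1 hq h h2 h3, ← qm6_uniq h1 hq h hq rfl]

end Riem

end Crest.Agent.R226.G

end
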