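import Crest.Agent.R226.LDefs

/-!
# rid 226, part S (owner helper79): definitions for S0350 (DO NOT CHANGE without asking helper79)

Everything is written on top of `L.Geo1`, `L.Geo2` (`LDefs.lean`): tangent spaces are identified with `E n` by arbitrary
frames.  `Ge` bundles these axioms with the measure-theoretic facts (`Geo3` part).  The paper proof is in `SRead.lean`.
-/

set_option autoImplicit false

open scoped Topology RealInnerProductSpace ENNReal NNReal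
open Set Filter MeasureTheory Asymptotics
open Crest.Agent.R226.L

noncomputable section

namespace Crest.Agent.R226.S

/-- the model space -/
abbrev E (n : ℕ) : Type := EuclideanSpace ℝ (Fin n)

section basic

variable {n : ℕ} {M : Type*} [MetricSpace M]

/-- `q` is a minimising vector at `z` whose end point supports `U` at `z` (`z` minimises `cst · (ex z q) - U`). -/
def Supp (ex : M → E n → M) (U : M → ℝ) (z : M) (q : E n) : Prop := q ∈ MinS ex z ∧ Ct U z (ex z q)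

/-- `U` is `c`-concave: it has a support at every point. -/
def IsCC (U : M → ℝ) : Prop := ∀ z, ∃ y, Ct U z y

/-- the point of the segment from `a` to `b` -/
abbrev sg (a b : E n) (s : ℝ) : E n := (1 - s) • a + s • b

/-- the bordered operator `(ξ, ρ) ↦ (K ξ - ρ e, ⟪e, ξ⟫)` -/
def blk (K : E n →L[ℝ] E n) (e : E n) : E n × ℝ →L[ℝ] E n × ℝ :=
  (K.comp (ContinuousLinearMap.fst ℝ (E n) ℝ) - (ContinuousLinearMap.snd ℝ (E n) ℝ).smulRight e).prod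
    ((innerSL ℝ e).comp (ContinuousLinearMap.fst ℝ (E n) ℝ))

/-- second order Taylor expansion of `U` at `z` in normal coordinates, gradient `-q`, Hessian `H` -/
def Tay (ex : M → E n → M) (U : M → ℝ) (z : M) (q : E n) (H : E n →L[ℝ] E n) : Prop :=
  (∀ u v, ⟪H u, v⟫ = ⟪u, H v⟫) ∧
    (fun ζ => U (ex z ζ) - (U z - ⟪q, ζ⟫ + ⟪H ζ, ζ⟫ / 2)) =o[𝓝 0] fun ζ : E n => ‖ζ‖ ^ 2

/-- the crease map -/
def crease (ex : M → E n → M) (U₁ U₂ : M → ℝ) (q₁ q₂ : M → E n) (p : M × ℝ) : M × ℝ :=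
  (ex p.1 (sg (q₁ p.1) (q₂ p.1) p.2), U₂ p.1 - U₁ p.1)

/-- Alexandrov's theorem and the area formula for the maps `z ↦ ex z (q₁ z)` and `crease`. -/
def JAC [MeasurableSpace M] (μ : Measure M) (ex : M → E n → M) (A P : M → E n → E n →L[ℝ] E n) (C : ℝ) : Prop :=
  ∀ (U₁ U₂ : M → ℝ) (q₁ q₂ : M → E n), (∀ z, Supp ex U₁ z (q₁ z)) → (∀ z, Supp ex U₂ z (q₂ z)) →
    ∃ (H₁ H₂ : M → E n →L[ℝ] E n) (N₀ : Set M), μ N₀ = 0 ∧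
      (∀ z ∉ N₀, q₁ z ∈ InjS ex z ∧ q₂ z ∈ InjS ex z ∧ Tay ex U₁ z (q₁ z) (H₁ z) ∧ Tay ex U₂ z (q₂ z) (H₂ z)) ∧
      (∀ (Z : Set M) (j : ℝ), Disjoint Z N₀ → 0 ≤ j →
        (∀ z ∈ Z, |(P z (q₁ z)).det * (A z (q₁ z) - H₁ z).det| ≤ j) →
        μ ((fun z => ex z (q₁ z)) '' Z) ≤ ENNReal.ofReal (C * j) * μ Z) ∧
      ∀ (Z : Set M) (j r₁ r₂ : ℝ) (N : Set (M × ℝ)), Disjoint Z N₀ → 0 < j → r₁ ≤ r₂ →
        (∀ z ∈ Z, ∀ r ∈ Icc r₁ r₂, sg (q₁ z) (q₂ z) r ∈ InjS ex z ∧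
          j ≤ |(P z (sg (q₁ z) (q₂ z) r)).det *
            (blk (A z (sg (q₁ z) (q₂ z) r) - (1 - r) • H₁ z - r • H₂ z) (q₁ z - q₂ z)).det|) →
        (μ.prod volume) N = 0 →
        (∀ z z', ∀ r ∈ Icc r₁ r₂, ∀ r' ∈ Icc r₁ r₂, q₁ z ≠ q₂ z →
          crease ex U₁ U₂ q₁ q₂ (z, r) = crease ex U₁ U₂ q₁ q₂ (z', r') → crease ex U₁ U₂ q₁ q₂ (z, r) ∉ N →
            z = z' ∧ r = r') →
        ENNReal.ofReal (j * (r₂ - r₁)) * μ Z ≤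
          ENNReal.ofReal C * (μ.prod volume) (crease ex U₁ U₂ q₁ q₂ '' (Z ×ˢ Icc r₁ r₂))

end basic

/-- All the geometry used in the proof of S0350. -/
structure Ge (n : ℕ) (M : Type*) [MetricSpace M] [MeasurableSpace M] where
  ex : M → E n → M
  vel : M → E n → E n
  A : M → E n → E n →L[ℝ] E n
  P : M → E n → E n →L[ℝ] E n
  μ : Measure M
  L : ℝ
  δ : ℝ
  c0 : ℝ
  L2 : ℝ
  g1 : Geo1 ex vel L δ
  g2 : Geo2 ex vel A P c0 L2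
  inner_lin : ∃ Λ : ℝ, ∀ x, ∀ u ∈ MinS ex x, ∀ t ∈ Ico (0 : ℝ) 1, ∀ ζ,
    -(Λ / (1 - t)) * ‖ζ‖ ^ 2 ≤ ⟪A x (t • u) ζ, ζ⟫
  D : ℝ
  one_le_D : 1 ≤ D
  dist_le : ∀ x y : M, dist x y ≤ D
  K : ℝ
  one_le_K : 1 ≤ K
  L_le : L ≤ K
  c0_le : c0 ≤ K
  ρ : ℝ
  ρ_pos : 0 < ρ
  ρ_le : ρ ≤ δ
  lip : ∀ z q q', ‖q‖ ≤ D → ‖q'‖ ≤ D → dist (ex z q) (ex z q') ≤ K * ‖q - q'‖
  cross : ∀ y y' w w' : M, dist y y' ≤ ρ → dist y w ≤ ρ → dist y' w' ≤ ρ →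
    cst y' w - cst y w + cst y w' - cst y' w' ≤ K * dist y y' * dist w w'
  fin : μ univ ≠ ∞
  ball : ∃ c : ℝ, 0 < c ∧ ∀ (y : M) (r : ℝ), 0 < r → r ≤ 1 → ENNReal.ofReal (c * r ^ n) ≤ μ (Metric.closedBall y r)
  lipim : ∀ (f : M → M) (s : Set M) (C : ℝ≥0), LipschitzOnWith C f s → μ (f '' s) ≤ (C : ℝ≥0∞) ^ n * μ s
  uq1 : ∀ (W : M → ℝ) (C : ℝ≥0), LipschitzWith C W → ∀ᵐ x ∂μ, DifferentiableAt ℝ (fun ξ => W (ex x ξ)) 0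
  uq2 : ∀ (W : M × ℝ → ℝ) (C : ℝ≥0), LipschitzWith C W →
    ∀ᵐ p ∂(μ.prod volume), DifferentiableAt ℝ (fun ξ => W (ex p.1 ξ, p.2)) 0
  jac : JAC μ ex A P K

/-- Kantorovich potentials with two-sided volume comparison (arbitrary sets, outer measure). -/
structure Pot {M : Type*} [MetricSpace M] [MeasurableSpace M] (μ : Measure M) (κ : ℝ) where
  Φ : M → ℝ
  Ψ : M → ℝ
  le : ∀ x y, Φ x + Ψ y ≤ cst x y
  ex_y : ∀ x, ∃ y, Φ x + Ψ y = cst x y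
  ex_x : ∀ y, ∃ x, Φ x + Ψ y = cst x y
  vol_y : ∀ X Y : Set M, (∀ y ∈ Y, ∃ x ∈ X, Φ x + Ψ y = cst x y) → μ Y ≤ ENNReal.ofReal κ * μ X
  vol_x : ∀ X Y : Set M, (∀ x ∈ X, ∃ y ∈ Y, Φ x + Ψ y = cst x y) → μ X ≤ ENNReal.ofReal κ * μ Y

namespace Pot

variable {M : Type*} [MetricSpace M] [MeasurableSpace M] {μ : Measure M} {κ : ℝ} (Q : Pot μ κ)

/-- the defect `δ ≥ 0` -/
def df (x y : M) : ℝ := cst x y - Q.Φ x - Q.Ψ y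

/-- points whose section of height `h` has oscillation of `Φ` at least `σ` -/
def Gs (h σ : ℝ) : Set M := {y | ∃ a b, Q.df a y ≤ h ∧ Q.df b y ≤ h ∧ Q.Φ a + σ ≤ Q.Φ b}

/-- the class `θ` of `Gs h σ` -/
def Es (h σ η θ : ℝ) : Set M :=
  {y | ∃ a b, Q.df a y ≤ h ∧ Q.df b y ≤ h ∧ θ - η * σ ≤ Q.Φ a ∧ Q.Φ a ≤ θ ∧ Q.Φ a + σ ≤ Q.Φ b}

/-- points whose section of height `H` reaches below `θ` and above `θ'` -/
def Ys (H θ θ' : ℝ) : Set M := {y | ∃ a b, Q.df a y ≤ H ∧ Q.df b y ≤ H ∧ Q.Φ a ≤ θ ∧ θ' ≤ Q.Φ b}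

/-- the truncated potential `U(y) = inf {cst x y - (1 + k) Φ x | Φ x ≤ θ}` -/
def U (k θ : ℝ) (y : M) : ℝ := sInf ((fun x => cst x y - (1 + k) * Q.Φ x) '' {x | Q.Φ x ≤ θ})

/-- `x` attains the infimum in `U k θ y` -/
def Att (k θ : ℝ) (y x : M) : Prop := Q.Φ x ≤ θ ∧ Q.U k θ y = cst x y - (1 + k) * Q.Φ x

end Pot

/-- The key estimate (one class). -/
def KP {M : Type*} [MetricSpace M] [MeasurableSpace M] (μ : Measure M) (κ : ℝ) : Prop :=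
  ∃ (Kk c η₀ : ℝ) (C₄ : ℕ), 1 ≤ Kk ∧ 0 < c ∧ 0 < η₀ ∧ ∀ η : ℝ, 0 < η → η ≤ η₀ → ∃ cη : ℝ, 0 < cη ∧
    ∀ (Q : Pot μ κ) (h σ θ : ℝ), 0 < h → 0 < σ → h ≤ cη * σ ^ 2 →
      ENNReal.ofReal c * μ (Q.Es h σ η θ) ≤
        μ (Q.Ys (Kk * h) θ (θ + (1 - C₄ * η) * σ) ∩ Q.Gs (Kk * h) ((1 + η) * σ)) +
          ENNReal.ofReal η * μ (Q.Ys (Kk * h) θ (θ + (1 - C₄ * η) * σ))

/-- Power bound on the oscillation of `Φ` on sections. -/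
def GapBd {M : Type*} [MetricSpace M] [MeasurableSpace M] (μ : Measure M) (κ : ℝ) : Prop :=
  ∃ β C : ℝ, 0 < β ∧ β ≤ 1 ∧ 0 ≤ C ∧ ∀ (Q : Pot μ κ) (h : ℝ), 0 < h → h ≤ 1 → ∀ y a b,
    Q.df a y ≤ h → Q.df b y ≤ h → Q.Φ b - Q.Φ a ≤ C * h ^ β

namespace Ge

variable {n : ℕ} {M : Type*} [MetricSpace M] [MeasurableSpace M] (G : Ge n M)

/-- Jacobian Harnack inequality from the outer end of a chord. -/
def Harnack (θ₀ c : ℝ) : Prop :=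
  ∀ z a b, segment ℝ a b ⊆ InjS G.ex z → ‖b‖ ≤ ‖a‖ → ∀ s ∈ Icc (0 : ℝ) θ₀,
    c * (G.P z a).det ≤ (G.P z (sg a b s)).det

/-- The crease estimate: the parts `[θ₀/2, θ₀]` of the segments between the supports of `U₁` and `U₂` sweep a large set. -/
def Crease (θ₀ c : ℝ) : Prop :=
  ∀ (U₁ U₂ : M → ℝ) (q₁ q₂ v : M → E n) (Z : Set M) (c₁ s₀ B a₀ lam : ℝ),
    (∀ z, Supp G.ex U₁ z (q₁ z)) → (∀ z, Supp G.ex U₂ z (q₂ z)) → 0 < c₁ → 0 < s₀ → 0 ≤ B → 0 ≤ lam →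
    (∀ z ∈ Z, ‖q₂ z‖ ≤ ‖q₁ z‖) →
    (∀ Z' ⊆ Z, ENNReal.ofReal c₁ * G.μ Z' ≤ G.μ ((fun z => G.ex z (q₁ z)) '' Z')) →
    (∀ z ∈ Z, ‖v z‖ ≤ G.D ∧ s₀ ≤ ⟪v z, q₁ z - q₂ z⟫ ∧ ∀ ε : ℝ, 0 < ε → ∃ᶠ s in 𝓝[>] (0 : ℝ),
      2 * U₁ z - U₁ (G.ex z (s • v z)) - U₁ (G.ex z ((-s) • v z)) ≤ (B + ε) * s ^ 2) →
    (∀ z ∈ Z, U₂ z - U₁ z ∈ Icc a₀ (a₀ + lam)) →
    ENNReal.ofReal (c * c₁ * s₀ ^ 2 / (B + G.K * G.D ^ 2)) * G.μ Z ≤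
      ENNReal.ofReal lam * G.μ {x | ∃ z ∈ Z, ∃ r ∈ Icc (θ₀ / 2) θ₀, x = G.ex z (sg (q₁ z) (q₂ z) r)}

end Ge

end Crest.Agent.R226.S

end
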