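import Crest.Agent.R226.J2
import Crest.Agent.R226.QM6
import Crest.Agent.R226.SDefs
import Crest.Agent.R226.Alex

/-!
# rid 226 / J4q (helper74): Alexandrov's theorem in normal coordinates for `c`-concave functions
-/

set_option autoImplicit false
set_option maxSynthPendingDepth 3
set_option linter.unusedSectionVars false

open scoped ContDiff Manifold Topology InnerProductSpace ENNReal NNReal
open Bundle Set Filter Metric MeasureTheory Asymptotics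

noncomputable section

namespace Crest.Agent.R226.G

open Crest.Agent.R226.Q

/-- a second order Taylor expansion composed with a `C²` map -/
theorem j4q_tay_comp {E : Type} [NormedAddCommGroup E] [InnerProductSpace ℝ E] [FiniteDimensional ℝ E] {f : E → ℝ}
    {α p : E} {A : E →L[ℝ] E}
    (hf : (fun y => f y - f α - ⟪p, y - α⟫_ℝ - 1 / 2 * ⟪A (y - α), y - α⟫_ℝ) =o[𝓝 α] fun y => ‖y - α‖ ^ 2)
    {N : E → E} (hN : ContDiffAt ℝ 2 N 0) (h0 : N 0 = α) :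
    ∃ H : E →L[ℝ] E, (∀ u v, ⟪H u, v⟫_ℝ = ⟪u, H v⟫_ℝ) ∧
      (fun ζ => f (N ζ) - (f α + ⟪p, fderiv ℝ N 0 ζ⟫_ℝ + ⟪H ζ, ζ⟫_ℝ / 2)) =o[𝓝 0] fun ζ : E => ‖ζ‖ ^ 2 := by
  set g : E → ℝ := fun ζ => f α + ⟪p, N ζ - α⟫_ℝ + 1 / 2 * ⟪A (N ζ - α), N ζ - α⟫_ℝ with hg
  have hM : ContDiffAt ℝ 2 (fun ζ => N ζ - α) 0 := hN.sub contDiffAt_const
  have hgs : ContDiffAt ℝ 2 g 0 :=
    (contDiffAt_const.add (contDiffAt_const.inner ℝ hM)).add
      (contDiffAt_const.mul ((A.contDiff.contDiffAt.comp 0 hM).inner ℝ hM))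
  have hd := (hN.differentiableAt (by simp)).hasFDerivAt
  have hd' : HasFDerivAt (fun ζ => N ζ - α) (fderiv ℝ N 0) 0 := hd.sub_const α
  have hg1 : ∀ ζ, fderiv ℝ g 0 ζ = ⟪p, fderiv ℝ N 0 ζ⟫_ℝ := fun ζ => by
    have h1 := (((hasFDerivAt_const p (0 : E)).inner ℝ hd').const_add (f α)).add
      (((A.hasFDerivAt.comp 0 hd').inner ℝ hd').const_mul (1 / 2))
    have h2 : fderiv ℝ g 0 = _ := h1.fderiv
    rw [h2]
    simp [fderivInnerCLM_apply, h0]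
  have hg0 : g 0 = f α := by simp [hg, h0]
  refine ⟨(sharp E).comp (fderiv ℝ (fderiv ℝ g) 0), fun u v => ?_, ?_⟩
  · rw [real_inner_comm, ContinuousLinearMap.comp_apply, ContinuousLinearMap.comp_apply, real_inner_comm,
      inner_sharp, real_inner_comm, inner_sharp]
    exact (hgs.isSymmSndFDerivAt (by simp)) u v
  have h1 : (fun ζ => f (N ζ) - g ζ) =o[𝓝 0] fun ζ : E => ‖ζ‖ ^ 2 := by
    have ht : Tendsto N (𝓝 0) (𝓝 α) := h0 ▸ hN.continuousAt.tendsto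
    have h2 : (fun ζ => N ζ - α) =O[𝓝 0] fun ζ : E => ζ := by simpa [h0] using hd.isBigO_sub
    refine ((hf.comp_tendsto ht).trans_isBigO (h2.norm_norm.pow 2)).congr_left fun ζ => ?_
    simp only [hg, Function.comp]
    ring
  have h2 : (fun ζ => g ζ - (f α + ⟪p, fderiv ℝ N 0 ζ⟫_ℝ + fderiv ℝ (fderiv ℝ g) 0 ζ ζ / 2)) =o[𝓝 0]
      fun ζ : E => ‖ζ‖ ^ 2 := by
    refine isLittleO_iff.2 fun ε hε => (taylor2 hgs hε).mono fun ζ h => ?_
    rw [zero_add, hg0, hg1] at h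
    simpa using h
  refine (h1.add h2).congr_left fun ζ => ?_
  rw [ContinuousLinearMap.comp_apply, inner_sharp]
  ring

variable {n : ℕ} {M : Type*} [MetricSpace M] [ChartedSpace (EE n) M] [IsManifold 𝓘(ℝ, EE n) ∞ M]

namespace Riem

variable [CompactSpace M] (R : Riem n M)

theorem j4q_fderiv {a x : M} (hx : x ∈ (ch n a).source) (u : EE n) :
    fderiv ℝ (fun ζ => ch n a (R.expE x ζ)) 0 u = R.Jc a x u := by
  have hd : R.Dom a a (R.tv x 0) := R.dom_tv.2 ⟨hx, by rwa [expE_zero]⟩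
  rw [← R.Dc_par hd, Dc_apply, pt_par, map_zero, R.fderiv_ex_zero hx, zero_add]
  rfl

/-- uniform first order expansion of `exp` in a chart -/
theorem j4q_exp (a : M) : ∃ C r : ℝ, 0 < C ∧ 0 < r ∧ ∀ᶠ x in 𝓝 a, ∀ ζ, ‖ζ‖ ≤ r →
    ‖ch n a (R.expE x ζ) - ch n a x - R.Jc a x ζ‖ ≤ C * ‖ζ‖ ^ 2 := by
  have ha := mem_chart_source (EE n) a
  have hd : R.Dom a a (R.tv a 0) := R.dom_tv.2 ⟨ha, by rwa [expE_zero]⟩
  have hs := hd.contDiffAt_ex
  rw [tmChart_tv, map_zero] at hs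
  have h1 : ContDiffAt ℝ 1 (fderiv ℝ (R.ex a a)) (ch n a a, 0) := hs.fderiv_right (by norm_cast)
  obtain ⟨K, t, ht, hK⟩ := h1.exists_lipschitzOnWith
  have h2 := (hs.of_le (m := 1) (by simp)).eventually (by simp)
  obtain ⟨ρ, hρ, hb⟩ := Metric.mem_nhds_iff.1 (inter_mem ht h2)
  obtain ⟨C, hC, hJ⟩ := R.Jc_bound a
  refine ⟨(K + 1) * C ^ 2, ρ / (2 * C), by positivity, by positivity, ?_⟩
  filter_upwards [hJ, ((ch n a).continuousAt ha).eventually (ball_mem_nhds _ hρ)] with x hx hxρ ζ hζ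
  set α := ch n a x with hα
  set w := R.Jc a x ζ with hw
  have hw1 : ‖w‖ ≤ C * ‖ζ‖ := (hx.2 ζ).1
  have hw2 : ‖w‖ < ρ := by
    have : C * ‖ζ‖ ≤ C * (ρ / (2 * C)) := by gcongr
    have e : C * (ρ / (2 * C)) = ρ / 2 := by field_simp
    linarith
  have hm : ∀ p ∈ ({α} : Set (EE n)) ×ˢ closedBall (0 : EE n) ‖w‖, p ∈ ball (ch n a a, (0 : EE n)) ρ := fun p hp => by
    rw [← ball_prod_same]
    exact ⟨by rw [mem_singleton_iff.1 hp.1]; exact hxρ, (closedBall_subset_ball hw2) hp.2⟩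
  have h0 : (α, (0 : EE n)) ∈ ({α} : Set (EE n)) ×ˢ closedBall (0 : EE n) ‖w‖ :=
    ⟨rfl, mem_closedBall_self (norm_nonneg _)⟩
  have h3 := ((convex_singleton α).prod (convex_closedBall (0 : EE n) ‖w‖)).norm_image_sub_le_of_norm_fderiv_le'
    (f := R.ex a a) (φ := fderiv ℝ (R.ex a a) (α, 0)) (C := K * ‖w‖)
    (fun p hp => ContDiffAt.differentiableAt (n := 1) (hb (hm p hp)).2 (by simp))
    (fun p hp => by
      have h4 := hK.dist_le_mul p (hb (hm p hp)).1 _ (hb (hm _ h0)).1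
      rw [dist_eq_norm] at h4
      refine h4.trans (mul_le_mul_of_nonneg_left ?_ K.2)
      rw [Prod.dist_eq, mem_singleton_iff.1 hp.1, dist_self]
      exact max_le (norm_nonneg _) hp.2)
    h0 (y := (α, w)) ⟨rfl, mem_closedBall_zero_iff.2 le_rfl⟩
  have e1 : R.ex a a (α, 0) = α := by
    have := R.ex_Jc hx.1 a 0
    rwa [map_zero, expE_zero] at this
  have e2 : ((α, w) : EE n × EE n) - (α, 0) = (0, w) := by simp
  rw [e1, e2, hα, R.fderiv_ex_zero hx.1, zero_add, hw, R.ex_Jc hx.1, ← hw] at h3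
  refine h3.trans ?_
  have e3 : ‖((0, w) : EE n × EE n)‖ = ‖w‖ := by simp [Prod.norm_def]
  rw [e3]
  have hK0 : (0 : ℝ) ≤ K := K.2
  calc K * ‖w‖ * ‖w‖ ≤ (K + 1) * (C * ‖ζ‖) * (C * ‖ζ‖) := by gcongr; linarith
    _ = _ := by ring

/-- semiconcavity in a chart -/
theorem j4q_supG (a : M) : ∃ ρ C K : ℝ, 0 < ρ ∧ ∀ (W : M → ℝ) (x : M) (q : EE n), x ∈ boxSet n a ρ →
    S.Supp R.expE W x q → ‖sharp (EE n) (-R.G a (ch n a x) (R.Jc a x q))‖ ≤ K ∧ ∀ x' ∈ boxSet n a ρ,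
      W x' ≤ W x + ⟪sharp (EE n) (-R.G a (ch n a x) (R.Jc a x q)), ch n a x' - ch n a x⟫_ℝ +
        C / 2 * ‖ch n a x' - ch n a x‖ ^ 2 := by
  obtain ⟨L1, δ, h1⟩ := R.geo1
  obtain ⟨C, r, hC, hr, hx⟩ := R.j4q_exp a
  obtain ⟨C', hC', hJ⟩ := R.Jc_bound a
  obtain ⟨ρ₀, K, hB⟩ := R.exists_box a
  have ha := mem_chart_source (EE n) a
  have hK1 := hB.one_le
  obtain ⟨B, hBn⟩ := (isCompact_closedBall (ch n a a) (ρ₀ / 2)).exists_bound_of_continuousOn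
    ((isLC_chart R.g a).g_smooth.continuousOn.mono ((closedBall_subset_ball (by linarith [hB.pos])).trans hB.sub))
  have h2 : ∀ᶠ y in 𝓝 (ch n a a), (∀ ζ, ‖ζ‖ ≤ r → ‖ch n a (R.expE ((ch n a).symm y) ζ) - ch n a ((ch n a).symm y) -
      R.Jc a ((ch n a).symm y) ζ‖ ≤ C * ‖ζ‖ ^ 2) ∧ ∀ u, ‖R.Jc a ((ch n a).symm y) u‖ ≤ C' * ‖u‖ :=
    ((ch n a).tendsto_symm ha).eventually (hx.and (hJ.mono fun x h u => (h.2 u).1))
  obtain ⟨ρ₁, hρ₁, h3⟩ := Metric.mem_nhds_iff.1 h2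
  set D := diam (univ : Set M) with hD
  have hD0 : 0 ≤ D := diam_nonneg
  set ρ := min (min ρ₁ (ρ₀ / 2)) (r / (2 * K)) with hρ
  have hρ0 : 0 < ρ := lt_min (lt_min hρ₁ (half_pos hB.pos)) (by positivity)
  have hL := h1.L_pos
  refine ⟨ρ, 2 * ((|B| * (C' * D) * C + L1) * K ^ 2), |B| * (C' * D), hρ0, fun W x q hxm hq => ?_⟩
  have hb : ∀ z ∈ boxSet n a ρ, z ∈ boxSet n a ρ₀ := fun z hz =>
    boxSet_mono a ((min_le_left _ _).trans ((min_le_right _ _).trans (by linarith [hB.pos]))) hz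
  have h4 := h3 (ball_subset_ball ((min_le_left _ _).trans (min_le_left _ _)) hxm.2)
  simp only [mem_ofPred_eq, (ch n a).left_inv hxm.1] at h4
  have hqD : ‖q‖ ≤ D := by
    rw [← show dist x (R.expE x q) = ‖q‖ from hq.1]
    exact dist_le_diam_of_mem isCompact_univ.isBounded (mem_univ _) (mem_univ _)
  have hG : ‖R.G a (ch n a x) (R.Jc a x q)‖ ≤ |B| * (C' * D) := by
    refine ((R.G a (ch n a x)).le_opNorm _).trans ?_
    have h5 : ‖R.G a (ch n a x)‖ ≤ |B| :=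
      (hBn _ (ball_subset_closedBall (ball_subset_ball ((min_le_left _ _).trans (min_le_right _ _)) hxm.2))).trans
        (le_abs_self _)
    have h6 : ‖R.Jc a x q‖ ≤ C' * D := (h4.2 q).trans (by gcongr)
    gcongr
  refine ⟨?_, fun x' hx' => ?_⟩
  · have h5 := inner_sharp (-R.G a (ch n a x) (R.Jc a x q)) (sharp (EE n) (-R.G a (ch n a x) (R.Jc a x q)))
    rw [real_inner_self_eq_norm_sq] at h5
    have h6 := (-R.G a (ch n a x) (R.Jc a x q)).le_opNorm (sharp (EE n) (-R.G a (ch n a x) (R.Jc a x q)))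
    rw [← h5, norm_neg, Real.norm_of_nonneg (sq_nonneg _)] at h6
    rcases (norm_nonneg (sharp (EE n) (-R.G a (ch n a x) (R.Jc a x q)))).eq_or_lt with h7 | h7
    · rw [← h7]; positivity
    · exact (le_of_mul_le_mul_right (by nlinarith) h7).trans hG
  obtain ⟨ζ, hζ, hζn⟩ := h1.surj x x'
  have h5 : ‖ζ‖ ≤ K * ‖ch n a x' - ch n a x‖ := by
    rw [← hζn, dist_comm]
    exact hB.dist_le (hb _ hx') (hb _ hxm)
  have h6 : ‖ζ‖ ≤ r := by
    have h7 : ‖ch n a x' - ch n a x‖ ≤ 2 * ρ := by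
      have a1 : dist (ch n a x') (ch n a a) < ρ := hx'.2
      have a2 : dist (ch n a x) (ch n a a) < ρ := hxm.2
      rw [← dist_eq_norm]
      linarith [dist_triangle_right (ch n a x') (ch n a x) (ch n a a)]
    have h8 : ρ ≤ r / (2 * K) := min_le_right _ _
    calc ‖ζ‖ ≤ K * (2 * (r / (2 * K))) := h5.trans (by gcongr; linarith)
      _ = r := by field_simp
  have h7 := h4.1 ζ h6
  rw [hζ] at h7
  have h8 := h1.sc x q hq.1 ζ
  have h9 := hq.2 x'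
  have h10 : L.cst x (R.expE x q) = ‖q‖ ^ 2 / 2 := by
    rw [L.cst, show dist x (R.expE x q) = ‖q‖ from hq.1]
  rw [hζ] at h8
  have h11 : ⟪sharp (EE n) (-R.G a (ch n a x) (R.Jc a x q)), ch n a x' - ch n a x⟫_ℝ =
      -⟪q, ζ⟫_ℝ - R.G a (ch n a x) (R.Jc a x q) (ch n a x' - ch n a x - R.Jc a x ζ) := by
    rw [inner_sharp, ← R.G_Jc hxm.1, map_sub _ (ch n a x' - ch n a x), _root_.neg_apply]
    ring
  have h12 : R.G a (ch n a x) (R.Jc a x q) (ch n a x' - ch n a x - R.Jc a x ζ) ≤ |B| * (C' * D) * (C * ‖ζ‖ ^ 2) :=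
    (le_abs_self _).trans (((R.G a (ch n a x) (R.Jc a x q)).le_opNorm _).trans (by gcongr))
  have h13 : ‖ζ‖ ^ 2 ≤ K ^ 2 * ‖ch n a x' - ch n a x‖ ^ 2 := by
    rw [← mul_pow]; gcongr
  have h14 : (|B| * (C' * D) * C + L1) * ‖ζ‖ ^ 2 ≤
      (|B| * (C' * D) * C + L1) * (K ^ 2 * ‖ch n a x' - ch n a x‖ ^ 2) := by gcongr
  rw [h11]
  nlinarith

theorem j4q_inj {W : M → ℝ} {z : M} {q : EE n} (hq : S.Supp R.expE W z q) {H : EE n →L[ℝ] EE n}
    (hT : S.Tay R.expE W z q H) : q ∈ L.InjS R.expE z := by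
  refine R.inj_of_lower (l := -q) (Λ := ‖H‖ + 1) hq.1 ?_
  filter_upwards [hT.2.bound one_pos] with ζ h
  have h1 := hq.2 (R.expE z ζ)
  have h2 : L.cst z (R.expE z q) = ‖q‖ ^ 2 / 2 := by
    rw [L.cst, show dist z (R.expE z q) = ‖q‖ from hq.1]
  have h3 := (abs_le.1 ((Real.norm_eq_abs _).symm.trans_le h)).1
  have h4 := (abs_le.1 (abs_real_inner_le_norm (H ζ) ζ)).1
  have h5 := mul_le_mul_of_nonneg_right (H.le_opNorm ζ) (norm_nonneg ζ)
  rw [Real.norm_of_nonneg (sq_nonneg _)] at h3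
  rw [inner_neg_left]
  nlinarith [mul_nonneg (norm_nonneg H) (sq_nonneg ‖ζ‖)]

/-- Alexandrov's theorem in normal coordinates -/
theorem alex [MeasurableSpace M] [BorelSpace M] (W : M → ℝ) (q : M → EE n) (h : ∀ z, S.Supp R.expE W z (q z)) :
    ∀ᵐ z ∂(μH[n] : Measure M), q z ∈ L.InjS R.expE z ∧ ∃ H, S.Tay R.expE W z (q z) H := by
  choose ρ₀ C K hρ₀ hS using R.j4q_supG
  obtain ⟨N, K', a, ρ, K'', h1, hA⟩ := R.exists_atl ρ₀ hρ₀
  suffices h2 : ∀ᵐ z ∂(μH[n] : Measure M), ∃ H, S.Tay R.expE W z (q z) H from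
    h2.mono fun z ⟨H, hH⟩ => ⟨R.j4q_inj (h z) hH, H, hH⟩
  refine hA.ae fun i => ?_
  have hc := hA.ch i
  have hb : ∀ z ∈ boxSet n (a i) (ρ i), z ∈ boxSet n (a i) (ρ₀ (a i)) := fun z hz => boxSet_mono _ (h1 i).2.1 hz
  let p : EE n → EE n := fun y =>
    sharp (EE n) (-R.G (a i) (ch n (a i) ((ch n (a i)).symm y)) (R.Jc (a i) ((ch n (a i)).symm y) (q ((ch n (a i)).symm y))))
  have h3 := Alex.alexandrov (volume : Measure (EE n)) (U := ch n (a i) '' boxSet n (a i) (ρ i)) (C := C (a i))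
    (K := K (a i)) (f := fun y => W ((ch n (a i)).symm y)) (q := p) hc.op' (by
      rintro _ ⟨x, hx, rfl⟩
      have h4 := hS (a i) W x (q x) (hb x hx) (h x)
      simp only [p, (ch n (a i)).left_inv hx.1]
      refine ⟨?_, h4.1⟩
      rintro _ ⟨x', hx', rfl⟩
      simp only [(ch n (a i)).left_inv hx.1, (ch n (a i)).left_inv hx'.1]
      exact h4.2 x' (hb x' hx'))
  filter_upwards [h3] with y hy hy'
  obtain ⟨A, -, -, -, -, hT, -⟩ := hy hy'
  obtain ⟨x, hx, rfl⟩ := hy'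
  have hx0 : R.expE x 0 ∈ (ch n (a i)).source := by rw [expE_zero]; exact hx.1
  obtain ⟨H, hH, hT'⟩ := j4q_tay_comp hT (N := fun ζ => ch n (a i) (R.expE x ζ))
    ((R.contDiffAt_expE hx0).of_le (by norm_cast)) (by simp only [expE_zero])
  rw [(ch n (a i)).left_inv hx.1]
  refine ⟨H, hH, hT'.congr' ?_ EventuallyEq.rfl⟩
  filter_upwards [(R.continuous_expE x).continuousAt.eventually ((ch n (a i)).open_source.mem_nhds hx0)] with ζ hζ
  simp only [p, (ch n (a i)).left_inv hx.1, (ch n (a i)).left_inv hζ, R.j4q_fderiv hx.1, inner_sharp,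
    _root_.neg_apply, R.G_Jc hx.1]
  ring

end Riem

end Crest.Agent.R226.G

end
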