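import Crest.Agent.R226.QM4

/-!
# rid 226 / QM5 (part Q, sub-lead helper74): GeoS, Geo2 and the criterion for the injectivity domain

Prefix for auxiliary lemmas: `qm5_`.
-/

set_option autoImplicit false
set_option maxSynthPendingDepth 3
set_option linter.unusedSectionVars false

open scoped ContDiff Manifold Topology InnerProductSpace
open Bundle Set Filter Metric

noncomputable section

namespace Crest.Agent.R226.G

open Crest.Agent.R226.Q

variable {n : ℕ} {M : Type*} [MetricSpace M] [ChartedSpace (EE n) M] [IsManifold 𝓘(ℝ, EE n) ∞ M]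

namespace Riem

variable [CompactSpace M] (R : Riem n M)

theorem qm5_inv {T : EE n →L[ℝ] EE n} (hT : IsUnit T) (u : EE n) : T (Ring.inverse T u) = u :=
  congrArg (fun S : EE n →L[ℝ] EE n => S u) (Ring.mul_inverse_cancel _ hT)

theorem qm5_det (C : ℝ) (hC : 0 ≤ C) : ∃ B : ℝ, 0 < B ∧ ∀ S T : EE n →L[ℝ] EE n, IsUnit T →
    (∀ η, ‖S η‖ ≤ C * ‖T η‖) → |S.det| ≤ B * |T.det| := by
  obtain ⟨B, hB⟩ := (isCompact_closedBall (0 : EE n →L[ℝ] EE n) C).exists_bound_of_continuousOn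
    ContinuousLinearMap.continuous_det.continuousOn
  refine ⟨|B| + 1, by positivity, fun S T hT h => ?_⟩
  have h1 : ‖S * Ring.inverse T‖ ≤ C := ContinuousLinearMap.opNorm_le_bound _ hC fun u => by
    have := h (Ring.inverse T u)
    rwa [qm5_inv hT] at this
  have h2 : S.det = (S * Ring.inverse T).det * T.det := by
    conv_lhs => rw [← mul_one S, ← Ring.inverse_mul_cancel _ hT, ← mul_assoc]
    exact LinearMap.det_comp _ _
  rw [h2, abs_mul]
  exact mul_le_mul_of_nonneg_right ((hB _ (mem_closedBall_zero_iff.2 h1)).trans (by linarith [le_abs_self B]))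
    (abs_nonneg _)

/-- `Kop_dE` with `u = η` -/
theorem isUnit_dE {x : M} {q : EE n} (hq : q ∈ L.InjS R.expE x) : IsUnit (R.dE x q) := by
  refine isUnit_of_injective ((injective_iff_map_eq_zero _).2 fun η hη => ?_)
  have h := R.Kop_dE hq η η
  rw [hη, Kop, show ((0 : EE n), (0 : EE n)) = 0 from rfl, map_zero, zero_apply, eq_comm,
    neg_eq_zero, inner_self_eq_zero] at h
  exact h

/-- `mixed`: `R' = Pop * Ring.inverse dE`; `dE_bound`, `Kop_dE`, `Wop_symm`, `Wop_Pop`.  The constant is the maximum of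
those of `Pop_bound` and `dE_bound`. -/
theorem geoS {K δ c0 : ℝ} (h1 : L.Geo1 R.expE R.velE K δ) (hc : 2 * K + 2 ≤ c0) : ∃ C, GeoS R.expE R.velE c0 C := by
  obtain ⟨C1, hC1, hP⟩ := R.Pop_bound h1 hc
  obtain ⟨C2, -, hD⟩ := R.dE_bound h1 hc
  refine ⟨max C1 C2, R.geoS0, lt_max_of_lt_left hC1, fun x q hq => ?_, fun x q hq => (hP x q hq).1.trans (le_max_left _ _),
    fun x q hq => (hP x q hq).2.trans (le_max_left _ _)⟩
  have hu := qm5_inv (R.isUnit_dE hq)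
  have hb : ∀ μ, ‖μ‖ ≤ C2 * ‖Pop c0 R.expE x q (Ring.inverse (R.dE x q) μ)‖ ∧
      ‖Pop c0 R.expE x q (Ring.inverse (R.dE x q) μ)‖ ≤ C2 * ‖μ‖ := fun μ => by
    have := hD x q hq (Ring.inverse (R.dE x q) μ)
    rwa [hu] at this
  refine ⟨Pop c0 R.expE x q * Ring.inverse (R.dE x q),
    fun μ => (hb μ).2.trans (mul_le_mul_of_nonneg_right (le_max_right _ _) (norm_nonneg _)),
    fun μ => (hb μ).1.trans (mul_le_mul_of_nonneg_right (le_max_right _ _) (norm_nonneg _)), fun u μ => ?_⟩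
  have h2 := R.Kop_dE hq (Ring.inverse (R.dE x q) μ) u
  rw [hu] at h2
  rw [h2, Wop_symm R.geoS0 hq, mul_apply_eq_comp, Wop_Pop h1 R.geoS0 hc hq, real_inner_comm]

/-- `dE = T ∘ P` with `‖T‖ ≤ L`, `‖T⁻¹‖ ≤ L`; `|det T| ≤ n! ‖T‖ⁿ`-type bound, or Hadamard: `|det|` is bounded on the compact
ball `‖T‖ ≤ L` (`ContinuousLinearMap.continuous_det`), and `det T * det T⁻¹ = 1`. -/
theorem det_dE {K δ c0 : ℝ} (h1 : L.Geo1 R.expE R.velE K δ) (hc : 2 * K + 2 ≤ c0) :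
    ∃ C : ℝ, 0 < C ∧ ∀ x, ∀ q ∈ L.InjS R.expE x,
      |(R.dE x q).det| ≤ C * |(Pop c0 R.expE x q).det| ∧ |(Pop c0 R.expE x q).det| ≤ C * |(R.dE x q).det| := by
  obtain ⟨C, hC, hD⟩ := R.dE_bound h1 hc
  obtain ⟨B, hB, h⟩ := qm5_det (n := n) C hC.le
  exact ⟨B, hB, fun x q hq => ⟨h _ _ (isUnit_Wop h1 R.geoS0 hc hq).ringInverse fun η => (hD x q hq η).1,
    h _ _ (R.isUnit_dE hq) fun η => (hD x q hq η).2⟩⟩

end Riem

/-- the second order axioms -/
theorem geo2 [CompactSpace M] [RiemannianBundle (fun p : M => TangentSpace 𝓘(ℝ, EE n) p)]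
    [IsRiemannianManifold 𝓘(ℝ, EE n) M] {R : Riem n M} (hg : Compat R.g)
    (h : Crest.GeometryTopology.MTW.SatisfiesWeakMTW M n) {K δ c0 : ℝ} (h1 : L.Geo1 R.expE R.velE K δ)
    (hc : 2 * K + 2 ≤ c0) :
    ∃ C, 0 < C ∧ GeoS R.expE R.velE c0 C ∧ L.Geo2 R.expE R.velE (Aop R.expE) (Pop c0 R.expE) c0 C := by
  obtain ⟨C, hC⟩ := R.geoS h1 hc
  exact ⟨C, hC.L_pos, hC, geo2_of_geoS h1 hC hc (mtwRaw hg h)⟩

end Crest.Agent.R226.G

end
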