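import Crest.Agent.R226.Vol4
import Crest.Agent.R226.SDefs

/-!
# R226 / Vol5 (helper35): `JAC` from Alexandrov's theorem in normal coordinates
-/

set_option autoImplicit false
set_option linter.unusedSectionVars false
set_option maxSynthPendingDepth 3

open Set Filter Topology Metric MeasureTheory Asymptotics
open scoped InnerProductSpace ContDiff NNReal ENNReal

noncomputable section

namespace Crest.Agent.R226.Vol

open Crest.Agent.R226.L Crest.Agent.R226.Q Crest.Agent.R226.S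

variable {n : ℕ} {M : Type*} [MetricSpace M] [CompactSpace M] [MeasurableSpace M] [BorelSpace M]
  {ex : M → E n → M} {vel : M → E n → E n} {L1 δ c0 L : ℝ} {μ : Measure M} {ν : Measure (E n)}
  {N : ℕ} {K : ℝ≥0} {U : Fin N → Set M} {φ : Fin N → M → E n} {ψ : Fin N → E n → M}

/-- all geometric hypotheses -/
structure Hyp (μ : Measure M) (ν : Measure (E n)) (ex : M → E n → M) (vel : M → E n → E n) (L1 δ c0 L : ℝ) (N : ℕ)
    (K : ℝ≥0) (U : Fin N → Set M) (φ : Fin N → M → E n) (ψ : Fin N → E n → M) : Prop where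
  g1 : Geo1 ex vel L1 δ
  gs : GeoS ex vel c0 L
  hc : 2 * L1 + 2 ≤ c0
  atl : Atl μ ν ex N K U φ ψ
  c1 : ∀ i, ∀ x ∈ U i, ContDiffAt ℝ 1 (fun ζ => φ i (ex x ζ)) 0
  op : ∀ x, ∀ v ∈ InjS ex x, ∀ᶠ p : M × M in 𝓝 (x, ex x v), ∀ w ∈ MinS ex p.1, ex p.1 w = p.2 → w ∈ InjS ex p.1

variable {U₁ U₂ : M → ℝ} {q₁ q₂ : M → E n} {H₁ H₂ : E n →L[ℝ] E n} {z : M} {r : ℝ}

theorem Hyp.crease_aux (h : Hyp μ ν ex vel L1 δ c0 L N K U φ ψ) (s₁ : ∀ x, Supp ex U₁ x (q₁ x))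
    (s₂ : ∀ x, Supp ex U₂ x (q₂ x)) (i₁ : q₁ z ∈ InjS ex z) (i₂ : q₂ z ∈ InjS ex z) (t₁ : Tay ex U₁ z (q₁ z) H₁)
    (t₂ : Tay ex U₂ z (q₂ z) H₂) (hv : sg (q₁ z) (q₂ z) r ∈ InjS ex z) :
    ∃ (B : E n →L[ℝ] E n) (m : E n × ℝ → E n), |B.det| ≤ L ^ n * |(Pop c0 ex z (sg (q₁ z) (q₂ z) r)).det| ∧
      |(Pop c0 ex z (sg (q₁ z) (q₂ z) r)).det| ≤ L ^ n * |B.det| ∧ m 0 = 0 ∧
      HasFDerivAt m (B ∘L ContinuousLinearMap.fst ℝ (E n) ℝ ∘L
        blk (Aop ex z (sg (q₁ z) (q₂ z) r) - (1 - r) • H₁ - r • H₂) (q₁ z - q₂ z)) 0 ∧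
      ∀ᶠ w : E n × ℝ in 𝓝 0, sg (q₁ (ex z w.1)) (q₂ (ex z w.1)) (r + w.2) ∈ InjS ex (ex z w.1) ∧
        ex (ex z w.1) (sg (q₁ (ex z w.1)) (q₂ (ex z w.1)) (r + w.2)) = ex (ex z (sg (q₁ z) (q₂ z) r)) (m w) := by
  have h0 := h.gs.toGeoS0
  obtain ⟨v, hv'⟩ : ∃ v, v = sg (q₁ z) (q₂ z) r := ⟨_, rfl⟩
  rw [← hv'] at hv ⊢
  obtain ⟨p₁, a0, a1, a2⟩ := exists_grad h.g1 h.gs (F := fun x => ex x (q₁ x)) i₁ t₁.1 t₁.2 fun x => (s₁ x).2
  obtain ⟨p₂, b0, b1, b2⟩ := exists_grad h.g1 h.gs (F := fun x => ex x (q₂ x)) i₂ t₂.1 t₂.2 fun x => (s₂ x).2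
  obtain ⟨R, r1, r2, hR⟩ := h.gs.mixed z v hv
  have hi : Function.Injective R := (injective_iff_map_eq_zero R).2 fun w hw => by simpa [hw] using r2 w
  let R' : E n ≃L[ℝ] E n := (LinearEquiv.ofInjectiveEndo (R : E n →ₗ[ℝ] E n) hi).toContinuousLinearEquiv
  have e1 : ∀ w, R (R'.symm w) = w := R'.apply_symm_apply
  have e2 : ∀ w, R'.symm (R w) = w := R'.symm_apply_apply
  obtain ⟨B, hB⟩ : ∃ B : E n →L[ℝ] E n, B = (R'.symm : E n →L[ℝ] E n) ∘L Pop c0 ex z v := ⟨_, rfl⟩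
  have e3 : Pop c0 ex z v = R ∘L B := by
    ext1 w
    simp [hB, e1]
  have dc : ∀ A C : E n →L[ℝ] E n, (A ∘L C).det = A.det * C.det := fun A C => LinearMap.det_comp _ _
  have hL := h.gs.L_pos.le
  let Φ' : (E n × E n) ≃L[ℝ] (E n × E n) := ContinuousLinearEquiv.equivOfInverse
    ((ContinuousLinearMap.fst ℝ (E n) (E n)).prod ((Aop ex z v).comp (ContinuousLinearMap.fst ℝ (E n) (E n)) -
      ((Wop c0 ex z v).comp R).comp (ContinuousLinearMap.snd ℝ (E n) (E n))))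
    ((ContinuousLinearMap.fst ℝ (E n) (E n)).prod (B.comp ((Aop ex z v).comp (ContinuousLinearMap.fst ℝ (E n) (E n)) -
      ContinuousLinearMap.snd ℝ (E n) (E n))))
    (fun w => by simp [hB, Pop_Wop h.g1 h0 h.hc hv, e2])
    (fun w => by simp [hB, e1, Wop_Pop h.g1 h0 h.hc hv])
  have hΦ : HasStrictFDerivAt (fun w : E n × E n => (w.1, gr ex z v w)) (Φ' : E n × E n →L[ℝ] E n × E n) (0, 0) :=
    hasStrictFDerivAt_fst.prodMk (gr_strict h.g1 h0 hv hR)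
  obtain ⟨t, ht⟩ : ∃ t : E n × ℝ → E n × E n,
    t = fun w => (w.1, (1 - (r + w.2)) • p₁ w.1 + (r + w.2) • p₂ w.1) := ⟨_, rfl⟩
  have t0 : t 0 = (0, gr ex z v (0, 0)) := by
    rw [gr_zero h.g1 h0 hv, ht, hv']
    simp only [Prod.fst_zero, Prod.snd_zero, a0, b0, add_zero, smul_neg, neg_add]
  have f1 : HasFDerivAt (fun w : E n × ℝ => r + w.2) (ContinuousLinearMap.snd ℝ (E n) ℝ) 0 :=
    hasFDerivAt_snd.const_add r
  have f2 : HasFDerivAt (fun w : E n × ℝ => p₁ w.1) (H₁ ∘L ContinuousLinearMap.fst ℝ (E n) ℝ) 0 :=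
    HasFDerivAt.comp (g := p₁) 0 a1 hasFDerivAt_fst
  have f3 : HasFDerivAt (fun w : E n × ℝ => p₂ w.1) (H₂ ∘L ContinuousLinearMap.fst ℝ (E n) ℝ) 0 :=
    HasFDerivAt.comp (g := p₂) 0 b1 hasFDerivAt_fst
  have f4 : HasFDerivAt t _ 0 := ht ▸ hasFDerivAt_fst.prodMk (((f1.const_sub 1).smul f2).add (f1.smul f3))
  have f5 := HasFDerivAt.comp (g := hΦ.localInverse _ _ _) 0 (t0 ▸ hΦ.to_localInverse.hasFDerivAt) f4
  have g0 : hΦ.localInverse _ _ _ (t 0) = (0, 0) := t0 ▸ hΦ.localInverse_apply_image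
  have g1 : Tendsto (fun w => hΦ.localInverse _ _ _ (t w)) (𝓝 0) (𝓝 (0, 0)) :=
    f5.continuousAt.tendsto.trans_eq (congrArg 𝓝 g0)
  refine ⟨B, fun w => (hΦ.localInverse _ _ _ (t w)).2, ?_, ?_, by simp only [g0],
    f5.snd.congr_fderiv (ContinuousLinearMap.ext fun w => ?_), ?_⟩
  · rw [hB, dc, abs_mul]
    have := abs_det_le (R'.symm : E n →L[ℝ] E n) hL fun w => by simpa [e1] using r2 (R'.symm w)
    rw [finrank_euclideanSpace_fin] at this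
    gcongr
  · rw [e3, dc, abs_mul]
    have := abs_det_le R hL r1
    rw [finrank_euclideanSpace_fin] at this
    gcongr
  · simp only [Φ', blk, a0, b0, ContinuousLinearEquiv.symm_equivOfInverse, ContinuousLinearEquiv.coe_coe,
      ContinuousLinearEquiv.equivOfInverse_apply, ContinuousLinearMap.comp_apply, ContinuousLinearMap.prod_apply,
      ContinuousLinearMap.coe_fst', ContinuousLinearMap.coe_snd', sub_apply, add_apply, smul_apply, neg_apply,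
      ContinuousLinearMap.smulRight_apply, Prod.fst_zero, Prod.snd_zero, add_zero]
    congr 1
    module
  · have c0 : Tendsto (ex z) (𝓝 0) (𝓝 z) := h.atl.nrm.tendsto z
    have c1 : Tendsto (fun w : E n × E n => (ex z w.1, ex (ex z v) w.2)) (𝓝 (0, 0)) (𝓝 (z, ex z v)) :=
      (c0.comp (continuous_fst.tendsto' _ _ rfl)).prodMk_nhds
        ((h.atl.nrm.tendsto _).comp (continuous_snd.tendsto' _ _ rfl))
    filter_upwards [f4.continuousAt.eventually (t0 ▸ hΦ.eventually_right_inverse),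
      g1.eventually ((gr_has h0 hv).and (c1.eventually (h.op z v hv))),
      (continuous_fst.tendsto' (0 : E n × ℝ) 0 rfl).eventually ((a2.and b2).and (h.atl.trans h.c1 z))]
      with w d1 ⟨d2, d3⟩ ⟨⟨d4, d5⟩, τ, T, τ0, τ1, τ2⟩
    obtain ⟨g, hg⟩ : ∃ g, g = hΦ.localInverse _ _ _ (t w) := ⟨_, rfl⟩
    rw [← hg] at d1 d2 d3 ⊢
    rw [ht, Prod.mk.injEq] at d1
    rw [d1.1] at d2 d3
    obtain ⟨u, u1, u2⟩ := h.g1.surj (ex z w.1) (ex (ex z v) g.2)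
    have u3 : u ∈ MinS ex (ex z w.1) := by rw [MinS, mem_ofPred_eq, u1, u2]
    have u4 : sg (q₁ (ex z w.1)) (q₂ (ex z w.1)) (r + w.2) = u := by
      refine ext_inner_right ℝ fun ξ => ?_
      rw [inner_eq_of_trans h.g1 τ1 τ2 u3 (by rwa [u1, τ0]) ξ, d1.2, sg, inner_add_left, inner_add_left,
        real_inner_smul_left, real_inner_smul_left, real_inner_smul_left, real_inner_smul_left,
        inner_eq_of_trans h.g1 τ1 τ2 (s₁ _).1 (by rwa [τ0]) ξ, inner_eq_of_trans h.g1 τ1 τ2 (s₂ _).1 (by rwa [τ0]) ξ]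
      ring
    rw [u4]
    exact ⟨d3 u u3 u1, u1⟩

/-- a map of the form `ex y (m w)` is approximated by `ex y (D w)` -/
theorem Hyp.approx (h : Hyp μ ν ex vel L1 δ c0 L N K U φ ψ) {F : Type} [NormedAddCommGroup F] [NormedSpace ℝ F]
    {m : F → E n} {D : F →L[ℝ] E n} (h0 : m 0 = 0) (hm : HasFDerivAt m D 0) (y : M) {ε : ℝ} (hε : 0 < ε) :
    ∀ᶠ w in 𝓝 (0 : F), dist (ex y (m w)) (ex y (D w)) ≤ ε * ‖w‖ := by
  obtain ⟨C, hC, s, hs, H⟩ := h.atl.exp_lip h.c1 y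
  filter_upwards [hm.isLittleO.bound (c := ε / (C + 1)) (by positivity), hm.continuousAt.eventually_mem (h0 ▸ hs),
    (D.continuous.tendsto' 0 0 (map_zero D)).eventually_mem hs] with w a1 a2 a3
  rw [h0, sub_zero, sub_zero] at a1
  refine (H _ a2 _ a3).trans ((mul_le_mul_of_nonneg_left a1 hC).trans ?_)
  rw [← mul_assoc]
  gcongr
  rw [mul_div_assoc', div_le_iff₀ (by positivity)]
  linarith

theorem sg_self (a : E n) : sg a a 0 = a := by simp [sg]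

theorem Hyp.hasD_one (h : Hyp μ ν ex vel L1 δ c0 L N K U φ ψ) (s₁ : ∀ x, Supp ex U₁ x (q₁ x))
    (i₁ : q₁ z ∈ InjS ex z) (t₁ : Tay ex U₁ z (q₁ z) H₁) : ∃ D : E n →L[ℝ] E n,
      HasD ex (fun x => ex x (q₁ x)) D univ z ∧
        |D.det| ≤ L ^ n * |(Pop c0 ex z (q₁ z)).det * (Aop ex z (q₁ z) - H₁).det| := by
  obtain ⟨B, m, a1, -, a3, a4, a5⟩ := h.crease_aux (r := 0) s₁ s₁ i₁ i₁ t₁ t₁ (by rwa [sg_self])
  simp only [sg_self] at a1 a4 a5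
  have b1 := HasFDerivAt.comp (g := m) (f := ContinuousLinearMap.inl ℝ (E n) ℝ) 0 a4
    (ContinuousLinearMap.inl ℝ (E n) ℝ).hasFDerivAt
  have b2 : HasFDerivAt (fun ζ => m (ζ, 0)) (B ∘L (Aop ex z (q₁ z) - H₁)) 0 :=
    b1.congr_fderiv (ContinuousLinearMap.ext fun w => by simp [blk])
  refine ⟨B ∘L (Aop ex z (q₁ z) - H₁), fun ε hε => ?_, ?_⟩
  · filter_upwards [h.approx (m := fun ζ => m (ζ, 0)) a3 b2 (ex z (q₁ z)) hε,
      ((continuous_id.prodMk continuous_const).tendsto' (0 : E n) (0 : E n × ℝ) rfl).eventually a5] with ζ c1 c2 _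
    have := c2.2
    simp only [id, add_zero, sg_self] at this
    rwa [this]
  · rw [show (B ∘L (Aop ex z (q₁ z) - H₁)).det = B.det * (Aop ex z (q₁ z) - H₁).det from LinearMap.det_comp _ _,
      abs_mul, abs_mul, ← mul_assoc]
    gcongr

theorem Hyp.hasD_crease (h : Hyp μ ν ex vel L1 δ c0 L N K U φ ψ) (s₁ : ∀ x, Supp ex U₁ x (q₁ x))
    (s₂ : ∀ x, Supp ex U₂ x (q₂ x)) (i₁ : q₁ z ∈ InjS ex z) (i₂ : q₂ z ∈ InjS ex z) (t₁ : Tay ex U₁ z (q₁ z) H₁)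
    (t₂ : Tay ex U₂ z (q₂ z) H₂) (hv : sg (q₁ z) (q₂ z) r ∈ InjS ex z) :
    (∀ᶠ p : M × ℝ in 𝓝 (z, r), sg (q₁ p.1) (q₂ p.1) p.2 ∈ InjS ex p.1) ∧ ∃ D : E n × ℝ →L[ℝ] E n × ℝ,
      HasD (expP ex) (crease ex U₁ U₂ q₁ q₂) D univ (z, r) ∧ |(Pop c0 ex z (sg (q₁ z) (q₂ z) r)).det *
        (blk (Aop ex z (sg (q₁ z) (q₂ z) r) - (1 - r) • H₁ - r • H₂) (q₁ z - q₂ z)).det| ≤ L ^ n * |D.det| := by
  obtain ⟨B, m, -, a2, a3, a4, a5⟩ := h.crease_aux s₁ s₂ i₁ i₂ t₁ t₂ hv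
  obtain ⟨A, hA⟩ : ∃ A, A = blk (Aop ex z (sg (q₁ z) (q₂ z) r) - (1 - r) • H₁ - r • H₂) (q₁ z - q₂ z) := ⟨_, rfl⟩
  have hA2 : ∀ w, (A w).2 = ⟪q₁ z - q₂ z, w.1⟫_ℝ := fun w => by simp [hA, blk, inner_sub_left]
  rw [← hA] at a4 ⊢
  refine ⟨?_, B.prodMap (ContinuousLinearMap.id ℝ ℝ) ∘L A, fun ε hε => ?_, ?_⟩
  · filter_upwards [h.atl.nrm.prod.eventually (x := (z, r)) a5] with p ⟨w, b1, _, b2⟩
    rw [← b1]
    exact b2.1
  · have b1 := hasFDerivAt_of_tay (u := fun ζ => U₁ (ex z ζ)) (by simpa only [h.g1.exp_zero] using t₁.2)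
    have b2 := hasFDerivAt_of_tay (u := fun ζ => U₂ (ex z ζ)) (by simpa only [h.g1.exp_zero] using t₂.2)
    filter_upwards [h.approx a3 a4 (ex z (sg (q₁ z) (q₂ z) r)) hε, a5,
      (continuous_fst.tendsto' (0 : E n × ℝ) 0 rfl).eventually ((b2.sub b1).isLittleO.bound hε)] with w c1 c2 c3 _
    rw [Prod.dist_eq, max_le_iff]
    refine ⟨?_, le_trans (le_of_eq ?_) (c3.trans ?_)⟩
    · simp only [crease, expP, c2.2]
      exact c1
    · simp only [crease, expP, dist_eq_norm, ContinuousLinearMap.comp_apply, ContinuousLinearMap.coe_prodMap',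
        Prod.map_snd, ContinuousLinearMap.coe_id', id, hA2, Pi.sub_apply, h.g1.exp_zero, sub_zero, sub_apply,
        innerSL_apply_apply, inner_neg_left, inner_sub_left]
      congr 1
      ring
    · rw [sub_zero]
      exact mul_le_mul_of_nonneg_left (norm_fst_le w) hε.le
  · have e : (B.prodMap (ContinuousLinearMap.id ℝ ℝ) ∘L A).det = B.det * A.det := by
      have e1 : (B.prodMap (ContinuousLinearMap.id ℝ ℝ)).det = B.det := by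
        have := LinearMap.det_prodMap (B : E n →ₗ[ℝ] E n) (LinearMap.id : ℝ →ₗ[ℝ] ℝ)
        rw [LinearMap.det_id, mul_one] at this
        exact this
      rw [← e1]
      exact LinearMap.det_comp _ _
    rw [e, abs_mul, abs_mul, ← mul_assoc]
    gcongr

theorem Hyp.ne_ev (h : Hyp μ ν ex vel L1 δ c0 L N K U φ ψ) (s₁ : ∀ x, Supp ex U₁ x (q₁ x))
    (s₂ : ∀ x, Supp ex U₂ x (q₂ x)) (t₁ : Tay ex U₁ z (q₁ z) H₁)
    (t₂ : Tay ex U₂ z (q₂ z) H₂) (hne : q₁ z ≠ q₂ z) : ∀ᶠ x in 𝓝 z, q₁ x ≠ q₂ x := by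
  have b1 := hasFDerivAt_of_tay (u := fun ζ => U₁ (ex z ζ)) (by simpa only [h.g1.exp_zero] using t₁.2)
  have b2 := hasFDerivAt_of_tay (u := fun ζ => U₂ (ex z ζ)) (by simpa only [h.g1.exp_zero] using t₂.2)
  have c1 := tendsto_supp h.g1 (F := fun x => ex x (q₁ x)) b1 fun x => (s₁ x).2
  have c2 := tendsto_supp h.g1 (F := fun x => ex x (q₂ x)) b2 fun x => (s₂ x).2
  have c3 : ex z (q₁ z) ≠ ex z (q₂ z) := fun e =>
    hne (supp_unique h.g1 b1 (s₂ z).1 (e ▸ (s₁ z).2)).symm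
  filter_upwards [(c1.prodMk_nhds c2).eventually (isOpen_ne_fun continuous_fst continuous_snd |>.mem_nhds c3)]
    with x hx e
  exact hx (by simp only [e])

theorem blk_det_zero (A : E n →L[ℝ] E n) : (blk A 0).det = 0 := by
  refine LinearMap.det_eq_zero_iff_ker_ne_bot.2 fun h => ?_
  have : ((0, 1) : E n × ℝ) ∈ LinearMap.ker (blk A 0 : E n × ℝ →ₗ[ℝ] E n × ℝ) := by simp [blk]
  rw [h] at this
  simp at this

theorem Hyp.jac [ν.IsAddHaarMeasure] (h : Hyp μ ν ex vel L1 δ c0 L N K U φ ψ)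
    (alex : ∀ (W : M → ℝ) (q : M → E n), (∀ z, Supp ex W z (q z)) →
      ∀ᵐ z ∂μ, q z ∈ InjS ex z ∧ ∃ H, Tay ex W z (q z) H) :
    ∃ C : ℝ, 1 ≤ C ∧ ∀ C', C ≤ C' → JAC μ ex (Aop ex) (Pop c0 ex) C' := by
  have : IsFiniteMeasure μ := ⟨h.atl.finite⟩
  obtain ⟨C₁, c1, G₁⟩ := h.atl.area_sup
  obtain ⟨C₂, c2, G₂⟩ := h.atl.prod.area_sup
  have hL : 0 < L ^ n := pow_pos h.gs.L_pos n
  refine ⟨max 1 (max C₁ C₂ * L ^ n), le_max_left _ _, fun C' hC U₁ U₂ q₁ q₂ s₁ s₂ => ?_⟩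
  have k1 : C₁ * L ^ n ≤ C' := ((mul_le_mul_of_nonneg_right (le_max_left _ _) hL.le).trans (le_max_right _ _)).trans hC
  have k2 : C₂ * L ^ n ≤ C' := ((mul_le_mul_of_nonneg_right (le_max_right _ _) hL.le).trans (le_max_right _ _)).trans hC
  obtain ⟨N₀, n1, n2, n3⟩ := exists_measurable_superset_of_null (ae_iff.1 ((alex U₁ q₁ s₁).and (alex U₂ q₂ s₂)))
  have key : ∀ z, ∃ H₁ H₂ : E n →L[ℝ] E n, z ∉ N₀ →
      q₁ z ∈ InjS ex z ∧ q₂ z ∈ InjS ex z ∧ Tay ex U₁ z (q₁ z) H₁ ∧ Tay ex U₂ z (q₂ z) H₂ := by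
    intro z
    by_cases hz : z ∈ N₀
    · exact ⟨0, 0, fun h' => absurd hz h'⟩
    · obtain ⟨⟨a1, H₁, a2⟩, b1, H₂, b2⟩ := not_not.1 fun h' => hz (n1 h')
      exact ⟨H₁, H₂, fun _ => ⟨a1, b1, a2, b2⟩⟩
  choose H₁ H₂ hH using key
  refine ⟨H₁, H₂, N₀, n3, hH, fun Z j hZ hj hle => ?_, fun Z j r₁ r₂ N₁ hZ hj hr hle hN hi => ?_⟩
  · have k : ∀ z, ∃ D : E n →L[ℝ] E n, z ∉ N₀ → HasD ex (fun x => ex x (q₁ x)) D univ z ∧
        |D.det| ≤ L ^ n * |(Pop c0 ex z (q₁ z)).det * (Aop ex z (q₁ z) - H₁ z).det| := fun z => by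
      by_cases hz : z ∈ N₀
      · exact ⟨0, fun h' => absurd hz h'⟩
      · exact (h.hasD_one s₁ (hH z hz).1 (hH z hz).2.2.1).imp fun _ h' _ => h'
    choose D hD using k
    have hZ' : Z ⊆ N₀ᶜ := hZ.subset_compl_right
    refine ((G₁ N₀ᶜ Z _ D (L ^ n * j) n2.compl hZ' fun z hz => (hD z hz).1.mono (subset_univ _)).1 (by positivity)
      fun z hz => (hD z (hZ' hz)).2.trans (mul_le_mul_of_nonneg_left (hle z hz) hL.le)).trans ?_
    rw [← mul_assoc]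
    gcongr
  · obtain ⟨S, hS⟩ : ∃ S : Set (M × ℝ), S = N₀ᶜ ×ˢ Icc r₁ r₂ ∩
      interior {p | sg (q₁ p.1) (q₂ p.1) p.2 ∈ InjS ex p.1 ∧ q₁ p.1 ≠ q₂ p.1} := ⟨_, rfl⟩
    have m1 : MeasurableSet S := hS ▸ (n2.compl.prod measurableSet_Icc).inter isOpen_interior.measurableSet
    have m2 : ∀ p ∈ S, p.1 ∉ N₀ ∧ p.2 ∈ Icc r₁ r₂ ∧ sg (q₁ p.1) (q₂ p.1) p.2 ∈ InjS ex p.1 ∧ q₁ p.1 ≠ q₂ p.1 :=
      fun p hp => by
        rw [hS] at hp
        have := interior_subset hp.2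
        exact ⟨hp.1.1, hp.1.2, this⟩
    have m3 : Z ×ˢ Icc r₁ r₂ ⊆ S := by
      rintro ⟨z, r⟩ ⟨hz, hr'⟩
      have hz' : z ∉ N₀ := hZ.subset_compl_right hz
      obtain ⟨a1, a2, a3, a4⟩ := hH z hz'
      obtain ⟨b1, b2⟩ := hle z hz r hr'
      rw [hS]
      refine ⟨⟨hz', hr'⟩, mem_interior_iff_mem_nhds.2 ((h.hasD_crease s₁ s₂ a1 a2 a3 a4 b1).1.and
        (continuous_fst.continuousAt.eventually (h.ne_ev s₁ s₂ a3 a4 fun e => ?_)))⟩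
      rw [sub_eq_zero.2 e, blk_det_zero, mul_zero, abs_zero] at b2
      exact absurd hj b2.not_gt
    have k : ∀ p : M × ℝ, ∃ D : E n × ℝ →L[ℝ] E n × ℝ, p ∈ S →
        HasD (expP ex) (crease ex U₁ U₂ q₁ q₂) D univ p ∧ |(Pop c0 ex p.1 (sg (q₁ p.1) (q₂ p.1) p.2)).det *
          (blk (Aop ex p.1 (sg (q₁ p.1) (q₂ p.1) p.2) - (1 - p.2) • H₁ p.1 - p.2 • H₂ p.1) (q₁ p.1 - q₂ p.1)).det| ≤
            L ^ n * |D.det| := fun p => by
      by_cases hp : p ∈ S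
      · obtain ⟨a1, a2, a3, a4⟩ := hH _ (m2 p hp).1
        exact (h.hasD_crease s₁ s₂ a1 a2 a3 a4 (m2 p hp).2.2.1).2.imp fun _ h' _ => h'
      · exact ⟨0, fun h' => absurd h' hp⟩
    choose D hD using k
    have := (G₂ S _ _ D (j / L ^ n) m1 m3 fun p hp => (hD p hp).1.mono (subset_univ _)).2 N₁ hN
      (fun p hp p' hp' e e' => by
        obtain ⟨a1, a2⟩ := hi p.1 p'.1 p.2 (m2 p hp).2.1 p'.2 (m2 p' hp').2.1 (m2 p hp).2.2.2 e e'
        exact Prod.ext a1 a2) (by positivity) fun p hp => by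
        rw [div_le_iff₀' hL]
        exact (hle p.1 hp.1 p.2 hp.2).2.trans (hD p (m3 hp)).2
    rw [Measure.prod_prod, Real.volume_Icc] at this
    calc _ = ENNReal.ofReal (L ^ n) * (ENNReal.ofReal (j / L ^ n) * (μ Z * ENNReal.ofReal (r₂ - r₁))) := by
          rw [← mul_assoc, ← ENNReal.ofReal_mul hL.le, mul_div_cancel₀ _ hL.ne', ENNReal.ofReal_mul hj.le]
          ring
      _ ≤ _ := by
          refine (mul_le_mul_right this _).trans ?_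
          rw [← mul_assoc, ← ENNReal.ofReal_mul hL.le, mul_comm (L ^ n)]
          gcongr

end Crest.Agent.R226.Vol

end
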