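import Crest.Agent.R226.JC
import Crest.Agent.R226.Vol5
import Crest.Agent.R226.J4q
import Crest.Agent.R226.QM5

/-!
# R226 / J7 (sub-lead helper39): the axiom `JAC`
-/

set_option autoImplicit false
set_option linter.unusedSectionVars false

open scoped ContDiff Manifold Topology ENNReal NNReal RealInnerProductSpace
open Bundle Set Filter Metric MeasureTheory Asymptotics

noncomputable section

namespace Crest.Agent.R226.G

variable {n : ℕ} {M : Type*} [MetricSpace M] [ChartedSpace (EE n) M] [IsManifold 𝓘(ℝ, EE n) ∞ M]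

namespace Riem

variable [CompactSpace M] [MeasurableSpace M] [BorelSpace M] (R : Riem n M)

theorem jac {L1 δ c0 Lb : ℝ} (h1 : L.Geo1 R.expE R.velE L1 δ) (hs : Q.GeoS R.expE R.velE c0 Lb)
    (hc : 2 * L1 + 2 ≤ c0) :
    ∃ C₀ : ℝ, ∀ C, C₀ ≤ C → S.JAC (μH[n] : Measure M) R.expE (Q.Aop R.expE) (Q.Pop c0 R.expE) C := by
  obtain ⟨N, K', a, ρ, K, -, h⟩ := R.exists_atl (fun _ => 1) fun _ => one_pos
  have := R.jc_isFinite
  obtain ⟨C, -, hC⟩ := Vol.Hyp.jac ⟨h1, hs, hc, h, fun i => R.jc_c1 (a i) (ρ i), R.jc_open⟩ R.alex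
  exact ⟨C, hC⟩

end Riem

end Crest.Agent.R226.G

end
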