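import Crest.Agent.R226.Vol

/-!
# R226 / Vol2 (helper35): construction of atlases (Hausdorff measure, compactness, product with `ℝ`)
-/

set_option autoImplicit false
set_option linter.unusedSectionVars false

open MeasureTheory Set Filter Topology Metric Module
open scoped ENNReal NNReal

noncomputable section

namespace Crest.Agent.R226.Vol

variable {X : Type*} [MetricSpace X] [MeasurableSpace X] [BorelSpace X]
  {E : Type*} [NormedAddCommGroup E] [NormedSpace ℝ E] [FiniteDimensional ℝ E] [MeasurableSpace E] [BorelSpace E]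
  {μ : Measure X} {ν : Measure E} {K : ℝ≥0}

/-- bi-Lipschitz charts are comparable with the Hausdorff measures -/
theorem Chart.of_hausdorff (d : ℕ) {U : Set X} {φ : X → E} {ψ : E → X} (h1 : 1 ≤ K) (op : IsOpen U)
    (op' : IsOpen (φ '' U)) (inv : ∀ x ∈ U, ψ (φ x) = x) (lip : ∀ x ∈ U, ∀ y ∈ U, dist (φ x) (φ y) ≤ K * dist x y)
    (alip : ∀ x ∈ U, ∀ y ∈ U, dist x y ≤ K * dist (φ x) (φ y)) :
    Chart μH[(d : ℝ)] μH[(d : ℝ)] (K ^ (d + 1)) U φ ψ := by
  have h2 : K ≤ K ^ (d + 1) := le_self_pow₀ h1 (by simp)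
  have h3 : (K : ℝ≥0∞) ^ (d : ℝ) ≤ (K ^ (d + 1) : ℝ≥0) := by
    rw [ENNReal.rpow_natCast, ← ENNReal.coe_pow, ENNReal.coe_le_coe]
    exact pow_le_pow_right₀ h1 (Nat.le_succ d)
  have l1 : LipschitzOnWith K φ U := LipschitzOnWith.of_dist_le_mul lip
  have l2 : LipschitzOnWith K ψ (φ '' U) := by
    refine LipschitzOnWith.of_dist_le_mul ?_
    rintro _ ⟨x, hx, rfl⟩ _ ⟨y, hy, rfl⟩
    rw [inv x hx, inv y hy]
    exact alip x hx y hy
  refine ⟨h1.trans h2, op, op', inv, fun x hx y hy => (lip x hx y hy).trans (by gcongr),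
    fun x hx y hy => (alip x hx y hy).trans (by gcongr), fun A hA _ => ?_, fun A hA _ => ?_⟩
  · have e : A = ψ '' (φ '' A) := by
      rw [image_image, image_congr fun x hx => inv x (hA hx), image_id']
    conv_lhs => rw [e]
    exact ((l2.mono (image_mono hA)).hausdorffMeasure_image_le (Nat.cast_nonneg d)).trans (by gcongr)
  · exact ((l1.mono hA).hausdorffMeasure_image_le (Nat.cast_nonneg d)).trans (by gcongr)

/-- a compact space which has charts has a finite atlas -/
theorem exists_atl [CompactSpace X] {exp : X → E → X} (hN : Nrm exp) (φ : X → X → E) (ψ : X → E → X)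
    (P : X → Set X → Prop) (h : ∀ x, ∃ (K : ℝ≥0) (U : Set X), x ∈ U ∧ P x U ∧ Chart μ ν K U (φ x) (ψ x) ∧
      ∀ y ∈ U, DifferentiableAt ℝ (fun ζ => φ x (exp y ζ)) 0) :
    ∃ (N : ℕ) (K : ℝ≥0) (a : Fin N → X) (U : Fin N → Set X), (∀ i, P (a i) (U i)) ∧
      Atl μ ν exp N K U (fun i => φ (a i)) fun i => ψ (a i) := by
  choose K U H using h
  obtain ⟨t, ht⟩ := isCompact_univ.elim_finite_subcover U (fun x => (H x).2.2.1.op)
    fun x _ => mem_iUnion.2 ⟨x, (H x).1⟩
  refine ⟨t.card, t.sup K, fun i => t.equivFin.symm i, fun i => U (t.equivFin.symm i), fun i => (H _).2.1, hN,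
    fun i => (H _).2.2.1.mono (Finset.le_sup (f := K) (t.equivFin.symm i).2), fun i => (H _).2.2.2, fun x => ?_⟩
  obtain ⟨y, hy, hx⟩ := mem_iUnion₂.1 (ht (mem_univ x))
  exact ⟨t.equivFin ⟨y, hy⟩, by simpa using hx⟩

/-- normal coordinates of `X × ℝ` -/
def expP (exp : X → E → X) (p : X × ℝ) (v : E × ℝ) : X × ℝ := (exp p.1 v.1, p.2 + v.2)

theorem Nrm.prod {exp : X → E → X} (h : Nrm exp) : Nrm (expP exp) where
  zero p := by simp [expP, h.zero]
  dist_le p v := by
    rw [Prod.dist_eq, Prod.norm_def]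
    exact max_le_max (h.dist_le _ _) (by simp [expP])
  surj p q := by
    obtain ⟨v, h1, h2⟩ := h.surj p.1 q.1
    refine ⟨(v, q.2 - p.2), by simp [expP, h1], ?_⟩
    rw [Prod.dist_eq, Prod.norm_def, h2, dist_comm, dist_eq_norm]
  loc p := by
    filter_upwards [(continuous_fst.tendsto' (0 : E × ℝ) 0 rfl).eventually (h.loc p.1)] with v hv
    rw [Prod.dist_eq, Prod.norm_def]
    simp [expP, hv]

theorem Chart.prod [SFinite μ] [SFinite ν] {U : Set X} {φ : X → E} {ψ : E → X} (h : Chart μ ν K U φ ψ) :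
    Chart (μ.prod volume) (ν.prod volume) K (U ×ˢ (univ : Set ℝ)) (Prod.map φ id) (Prod.map ψ id) := by
  have hK : (1 : ℝ) ≤ K := h.one_le
  have e : Prod.map φ id '' U ×ˢ (univ : Set ℝ) = (φ '' U) ×ˢ univ := by rw [prodMap_image_prod, image_id]
  have key : ∀ A ⊆ U ×ˢ (univ : Set ℝ), MeasurableSet A → MeasurableSet (Prod.map φ id '' A) ∧
      ∀ r, (fun w => (w, r)) ⁻¹' (Prod.map φ id '' A) = φ '' ((fun x => (x, r)) ⁻¹' A) := by
    intro A hA hm
    constructor
    · have h1 : Prod.map φ id '' A = (φ '' U) ×ˢ univ ∩ Prod.map ψ id ⁻¹' A := by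
        ext ⟨w, r⟩
        constructor
        · rintro ⟨⟨x, s⟩, hx, e⟩
          obtain ⟨rfl, rfl⟩ := Prod.mk.inj e
          have := (hA hx).1
          exact ⟨⟨⟨x, this, rfl⟩, trivial⟩, by simpa [h.inv x this] using hx⟩
        · rintro ⟨h1, h2⟩
          exact ⟨(ψ w, r), h2, by simp [h.inv' h1.1]⟩
      rw [h1]
      exact Chart.meas_pre (h.op'.measurableSet.prod MeasurableSet.univ)
        (h.lipOn'.continuousOn.prodMap continuousOn_id) hm
    · intro r
      ext w
      constructor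
      · rintro ⟨⟨x, s⟩, hx, e⟩
        obtain ⟨rfl, rfl⟩ := Prod.mk.inj e
        exact ⟨x, hx, rfl⟩
      · rintro ⟨x, hx, rfl⟩
        exact ⟨(x, r), hx, rfl⟩
  refine ⟨h.one_le, h.op.prod isOpen_univ, e ▸ h.op'.prod isOpen_univ, fun p hp => Prod.ext (h.inv _ hp.1) rfl,
    fun p hp q hq => ?_, fun p hp q hq => ?_, fun A hA hm => ?_, fun A hA hm => ?_⟩
  · rw [Prod.dist_eq, Prod.dist_eq, mul_max_of_nonneg _ _ (NNReal.coe_nonneg K)]
    exact max_le_max (h.lip _ hp.1 _ hq.1) (le_mul_of_one_le_left dist_nonneg hK)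
  · rw [Prod.dist_eq, Prod.dist_eq, mul_max_of_nonneg _ _ (NNReal.coe_nonneg K)]
    exact max_le_max (h.alip _ hp.1 _ hq.1) (le_mul_of_one_le_left dist_nonneg hK)
  · rw [Measure.prod_apply_symm hm, Measure.prod_apply_symm (key A hA hm).1,
      ← lintegral_const_mul' _ _ ENNReal.coe_ne_top]
    refine lintegral_mono fun r => ?_
    rw [(key A hA hm).2]
    exact h.m1' fun x hx => (hA hx).1
  · rw [Measure.prod_apply_symm hm, Measure.prod_apply_symm (key A hA hm).1,
      ← lintegral_const_mul' _ _ ENNReal.coe_ne_top]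
    refine lintegral_mono fun r => ?_
    rw [(key A hA hm).2]
    exact h.m2' fun x hx => (hA hx).1

theorem Atl.prod [SFinite μ] [SFinite ν] {exp : X → E → X} {N : ℕ} {U : Fin N → Set X} {φ : Fin N → X → E}
    {ψ : Fin N → E → X} (h : Atl μ ν exp N K U φ ψ) :
    Atl (μ.prod volume) (ν.prod volume) (expP exp) N K (fun i => U i ×ˢ (univ : Set ℝ))
      (fun i => Prod.map (φ i) id) fun i => Prod.map (ψ i) id where
  nrm := h.nrm.prod
  ch i := (h.ch i).prod
  der i p hp := by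
    have h1 : DifferentiableAt ℝ (fun v : E × ℝ => φ i (exp p.1 v.1)) 0 :=
      DifferentiableAt.comp (g := fun ζ => φ i (exp p.1 ζ)) (f := Prod.fst) 0 (h.der i _ hp.1) differentiableAt_fst
    exact h1.prodMk (differentiableAt_snd.const_add _)
  cov p := (h.cov p.1).imp fun _ hi => ⟨hi, trivial⟩

end Crest.Agent.R226.Vol

end
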