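import Crest.Agent.R226.J2
import Crest.Agent.R226.Vol2

/-!
# R226 / JC (helper40): small facts for `exists_ge` (openness of the injectivity domain, the measure axioms of `Ge`)
-/

set_option autoImplicit false
set_option linter.unusedSectionVars false

open scoped ContDiff Manifold Topology ENNReal NNReal
open Bundle Set Filter Metric MeasureTheory

noncomputable section

namespace Crest.Agent.R226.G

variable {n : ℕ} {M : Type*} [MetricSpace M] [ChartedSpace (EE n) M] [IsManifold 𝓘(ℝ, EE n) ∞ M] [CompactSpace M]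

namespace Riem

variable (R : Riem n M)

/-- minimising vectors of pairs close to a pair of the injectivity domain lie in the injectivity domain -/
theorem jc_open (x : M) : ∀ v ∈ L.InjS R.expE x, ∀ᶠ p : M × M in 𝓝 (x, R.expE x v),
    ∀ w ∈ L.MinS R.expE p.1, R.expE p.1 w = p.2 → w ∈ L.InjS R.expE p.1 := fun v hv => by
  have h := R.mem_injS.1 hv
  filter_upwards [eventually_min_mem (R := R) (ξ := mkT x (R.fr x v)) (fun _ he hm => h.unique hm he)
    (R.isOpen_inI.mem_nhds h)] with p hp w hw he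
  exact R.mem_injS.2 (hp _ he (R.mem_minS.1 hw))

theorem jc_c1 (a : M) (ρ : ℝ) : ∀ x ∈ boxSet n a ρ, ContDiffAt ℝ 1 (fun z => ch n a (R.expE x z)) 0 := fun x hx =>
  (R.contDiffAt_expE_j (by rw [expE_zero]; exact hx.1)).of_le (by simp)

variable [MeasurableSpace M] [BorelSpace M]

include R in
theorem jc_fin : (μH[n] : Measure M) univ ≠ ⊤ := by
  obtain ⟨N, K', a, ρ, K, -, h⟩ := R.exists_atl (fun _ => 1) fun _ => one_pos
  exact h.finite.ne

include R in
theorem jc_isFinite : IsFiniteMeasure (μH[n] : Measure M) := ⟨R.jc_fin.lt_top⟩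

include R in
theorem jc_ball : ∃ c : ℝ, 0 < c ∧ ∀ (y : M) (r : ℝ), 0 < r → r ≤ 1 →
    ENNReal.ofReal (c * r ^ n) ≤ (μH[n] : Measure M) (closedBall y r) := by
  obtain ⟨N, K', a, ρ, K, -, h⟩ := R.exists_atl (fun _ => 1) fun _ => one_pos
  obtain ⟨c, r₀, hc, h0, H⟩ := h.ball_ge
  have hm : 0 < min r₀ 1 := lt_min h0 one_pos
  refine ⟨c * min r₀ 1 ^ n, by positivity, fun y r hr h1 => ?_⟩
  have h2 := H y (min r₀ 1 * r) (by positivity) ((mul_le_of_le_one_right hm.le h1).trans (min_le_left _ _))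
  rw [finrank_euclideanSpace_fin, mul_pow, ← mul_assoc] at h2
  exact h2.trans (measure_mono (ball_subset_closedBall.trans
    (closedBall_subset_closedBall (mul_le_of_le_one_left hr.le (min_le_right _ _)))))

theorem jc_lipim (f : M → M) (s : Set M) (C : ℝ≥0) (h : LipschitzOnWith C f s) :
    (μH[n] : Measure M) (f '' s) ≤ (C : ℝ≥0∞) ^ n * (μH[n] : Measure M) s := by
  have := h.hausdorffMeasure_image_le (d := (n : ℝ)) (Nat.cast_nonneg n)
  rwa [ENNReal.rpow_natCast] at this

theorem jc_uq1 (W : M → ℝ) (C : ℝ≥0) (hW : LipschitzWith C W) :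
    ∀ᵐ x ∂(μH[n] : Measure M), DifferentiableAt ℝ (fun ξ => W (R.expE x ξ)) 0 := by
  obtain ⟨N, K', a, ρ, K, -, h⟩ := R.exists_atl (fun _ => 1) fun _ => one_pos
  exact h.rademacher hW

theorem jc_uq2 (W : M × ℝ → ℝ) (C : ℝ≥0) (hW : LipschitzWith C W) :
    ∀ᵐ p ∂((μH[n] : Measure M).prod volume), DifferentiableAt ℝ (fun ξ => W (R.expE p.1 ξ, p.2)) 0 := by
  obtain ⟨N, K', a, ρ, K, -, h⟩ := R.exists_atl (fun _ => 1) fun _ => one_pos
  have := R.jc_isFinite
  filter_upwards [h.prod.rademacher hW] with p hp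
  have h1 := DifferentiableAt.comp (g := fun v : EE n × ℝ => W (Vol.expP R.expE p v)) (f := fun ξ : EE n => (ξ, (0 : ℝ)))
    0 hp (by fun_prop)
  simpa only [Function.comp_def, Vol.expP, add_zero] using h1

end Riem

end Crest.Agent.R226.G

end
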