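import Mathlib

/-! # rid 226, part L: elementary lemmas (iterated joins, local supports, kink lemma) -/

set_option autoImplicit false

open Set Filter Topology
open scoped InnerProductSpace

noncomputable section

namespace Crest.Agent.R226.L

variable {E : Type} [NormedAddCommGroup E] [InnerProductSpace ℝ E]

/-- iterated joins -/
def J (R : Set E) : ℕ → Set E
  | 0 => R
  | k + 1 => convexJoin ℝ R (J R k)

theorem J_subset (R : Set E) : ∀ k, J R k ⊆ convexHull ℝ R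
  | 0 => subset_convexHull ℝ R
  | k + 1 => convexJoin_subset (subset_convexHull ℝ R) (J_subset R k) (convex_convexHull ℝ R)

theorem J_compact {R : Set E} (hR : IsCompact R) : ∀ k, IsCompact (J R k)
  | 0 => hR
  | k + 1 => by
    have h := ((hR.prod (J_compact hR k)).prod (isCompact_Icc (a := (0 : ℝ)) (b := 1))).image
      (f := fun w : (E × E) × ℝ => (1 - w.2) • w.1.1 + w.2 • w.1.2) (by fun_prop)
    convert h using 1
    ext q
    simp only [J, mem_convexJoin, segment_eq_image, mem_image, mem_prod, Prod.exists]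
    constructor
    · rintro ⟨a, ha, b, hb, θ, hθ, rfl⟩
      exact ⟨a, b, θ, ⟨⟨ha, hb⟩, hθ⟩, rfl⟩
    · rintro ⟨a, b, θ, ⟨⟨ha, hb⟩, hθ⟩, rfl⟩
      exact ⟨a, ha, b, hb, θ, hθ, rfl⟩

theorem hull_finset_subset_J {R : Set E} : ∀ (k : ℕ) (t : Finset E), (t : Set E) ⊆ R →
    t.card ≤ k + 1 → convexHull ℝ (t : Set E) ⊆ J R k
  | 0, t, ht, hc => by
    rcases Finset.card_le_one_iff_subset_singleton.1 hc with ⟨a, ha⟩
    rcases Finset.subset_singleton_iff.1 ha with rfl | rfl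
    · simp
    · simpa [J] using ht
  | k + 1, t, ht, hc => by
    classical
    rcases t.eq_empty_or_nonempty with rfl | ⟨a, ha⟩
    · simp
    rcases (t.erase a).eq_empty_or_nonempty with he | hne
    · have h1 : t.card ≤ k + 1 := by
        have := Finset.card_erase_of_mem ha
        rw [he, Finset.card_empty] at this
        omega
      exact (hull_finset_subset_J k t ht h1).trans (subset_convexJoin_right ⟨a, ht ha⟩)
    · have h1 : (t.erase a).card ≤ k + 1 := by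
        rw [Finset.card_erase_of_mem ha]; omega
      have h2 := hull_finset_subset_J k (t.erase a)
        ((Finset.coe_subset.2 (t.erase_subset a)).trans ht) h1
      rw [← Finset.insert_erase ha, Finset.coe_insert, convexHull_insert (by exact_mod_cast hne)]
      exact convexJoin_mono (singleton_subset_iff.2 (ht ha)) h2

theorem hull_eq_J [FiniteDimensional ℝ E] (R : Set E) :
    convexHull ℝ R = J R (Module.finrank ℝ E) := by
  refine Subset.antisymm (fun q hq => ?_) (J_subset R _)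
  rw [convexHull_eq_union] at hq
  simp only [mem_iUnion] at hq
  obtain ⟨t, ht, hi, hq⟩ := hq
  refine hull_finset_subset_J _ t ht ?_ hq
  have := hi.card_le_finrank_succ
  rw [Fintype.card_coe] at this
  exact this.trans (Nat.succ_le_succ (Submodule.finrank_le _))

theorem hull_compact [FiniteDimensional ℝ E] {R : Set E} (hR : IsCompact R) :
    IsCompact (convexHull ℝ R) := by
  rw [hull_eq_J]; exact J_compact hR _

/-- local lower supports with a uniform quadratic constant give a global one. -/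
theorem le_of_local_support {φ : ℝ → ℝ} {a C : ℝ} (hc : ContinuousOn φ (Icc 0 1))
    (h0 : ∀ᶠ h in 𝓝 (0 : ℝ), φ 0 + a * h - C * h ^ 2 ≤ φ h)
    (h1 : ∀ τ ∈ Ioo (0 : ℝ) 1, ∃ b, ∀ᶠ h in 𝓝 (0 : ℝ), φ τ + b * h - C * h ^ 2 ≤ φ (τ + h)) :
    φ 0 + a - C ≤ φ 1 := by
  by_contra hlt
  push Not at hlt
  set γ := φ 0 + a - C - φ 1 with hγ
  have hγ0 : 0 < γ := by linarith
  set ψ : ℝ → ℝ := fun τ => φ τ + (C + γ / 2) * τ ^ 2 - φ 0 - (a - γ / 2) * τ with hψ
  have hψc : ContinuousOn ψ (Icc 0 1) := by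
    simp only [hψ]
    exact ((hc.add (by fun_prop)).sub continuousOn_const).sub (by fun_prop)
  obtain ⟨τ, hτ, hmax⟩ := isCompact_Icc.exists_isMaxOn (nonempty_Icc.2 zero_le_one) hψc
  have hpos : 0 < ψ τ := by
    obtain ⟨h, ⟨h2, h3⟩, h4⟩ := (((h0.filter_mono (nhdsWithin_le_nhds (s := Ioi 0))).and
      (nhdsWithin_le_nhds (Iio_mem_nhds one_pos))).and self_mem_nhdsWithin).exists
    have h5 : 0 < h := h4
    have h6 : h < 1 := h3
    have h7 : ψ h ≤ ψ τ := hmax ⟨h5.le, h6.le⟩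
    have h8 : 0 < ψ h := by
      simp only [hψ]
      nlinarith [mul_pos hγ0 h5, mul_pos hγ0 (pow_pos h5 2)]
    linarith
  have hτ0 : τ ≠ 0 := by rintro rfl; simp [hψ] at hpos
  have hτ1 : τ ≠ 1 := by
    rintro rfl
    simp only [hψ] at hpos
    linarith
  have hτ' : τ ∈ Ioo (0 : ℝ) 1 := ⟨lt_of_le_of_ne hτ.1 hτ0.symm, lt_of_le_of_ne hτ.2 hτ1⟩
  obtain ⟨b, hb⟩ := h1 τ hτ'
  have hb' : ∀ᶠ h in 𝓝 (0 : ℝ), φ τ + b * (-h) - C * (-h) ^ 2 ≤ φ (τ + -h) :=
    (continuous_neg.tendsto' (0 : ℝ) 0 neg_zero).eventually hb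
  have hs : ∀ᶠ h in 𝓝 (0 : ℝ), h < min τ (1 - τ) :=
    Iio_mem_nhds (lt_min hτ'.1 (by linarith [hτ'.2]))
  obtain ⟨h, ⟨⟨h2, h3⟩, h4⟩, h5⟩ := ((((hb.and hb').and hs).filter_mono
    (nhdsWithin_le_nhds (s := Ioi 0))).and self_mem_nhdsWithin).exists
  have h6 : 0 < h := h5
  have h7 : ψ (τ + h) ≤ ψ τ := hmax ⟨by linarith [hτ.1], by linarith [min_le_right τ (1 - τ)]⟩
  have h8 : ψ (τ + -h) ≤ ψ τ := hmax ⟨by linarith [min_le_left τ (1 - τ)], by linarith [hτ.2]⟩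
  simp only [hψ] at h7 h8
  nlinarith [mul_pos hγ0 (pow_pos h6 2)]

/-- the kink lemma: a quadratic gain orthogonally to the kink directions is a gain everywhere. -/
theorem kink [FiniteDimensional ℝ E] {ι : Type} [Fintype ι] {d : ι → E} {θ : ι → ℝ}
    {B : ι → E →L[ℝ] E} {κ : ℝ} (hκ : 0 < κ) (hθ : ∀ i, 0 < θ i) (hs : ∑ i, θ i = 1)
    (hd : ∑ i, θ i • d i = 0)
    (hB : ∀ ζ, (∀ i, ⟪d i, ζ⟫_ℝ = 0) → κ * ‖ζ‖ ^ 2 ≤ ∑ i, θ i * ⟪B i ζ, ζ⟫_ℝ) :
    ∀ᶠ ζ in 𝓝 (0 : E), ∃ i, κ / 2 * ‖ζ‖ ^ 2 ≤ ⟪d i, ζ⟫_ℝ + ⟪B i ζ, ζ⟫_ℝ := by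
  have hne : Nonempty ι := by
    by_contra h
    rw [not_nonempty_iff] at h
    simp at hs
  by_contra hcon
  rw [not_eventually] at hcon
  obtain ⟨z, hz0, hz⟩ := exists_seq_forall_of_frequently hcon
  push Not at hz
  have hzne : ∀ k, z k ≠ 0 := fun k h => by
    have := hz k hne.some
    simp [h] at this
  have hn : ∀ k, 0 < ‖z k‖ := fun k => norm_pos_iff.2 (hzne k)
  set u : ℕ → E := fun k => ‖z k‖⁻¹ • z k with hu
  have hu1 : ∀ k, u k ∈ Metric.sphere (0 : E) 1 := fun k => by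
    simp [hu, norm_smul, (hn k).ne']
  obtain ⟨e, he, φ, hφ, hlim⟩ := (isCompact_sphere (0 : E) 1).tendsto_subseq hu1
  have he1 : ‖e‖ = 1 := by simpa using he
  have hkey : ∀ k i, ⟪d i, u k⟫_ℝ + ‖z k‖ * ⟪B i (u k), u k⟫_ℝ < κ / 2 * ‖z k‖ := fun k i => by
    have h1 := hz k i
    have h2 : z k = ‖z k‖ • u k := by simp [hu, smul_smul, (hn k).ne']
    have h3 : ⟪d i, z k⟫_ℝ = ‖z k‖ * ⟪d i, u k⟫_ℝ := by
      conv_lhs => rw [h2]
      rw [real_inner_smul_right]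
    have h4 : ⟪B i (z k), z k⟫_ℝ = ‖z k‖ * (‖z k‖ * ⟪B i (u k), u k⟫_ℝ) := by
      conv_lhs => rw [h2]
      rw [map_smul, real_inner_smul_right, real_inner_smul_left]
    rw [h3, h4] at h1
    refine lt_of_mul_lt_mul_left ?_ (hn k).le
    nlinarith
  have hN : Tendsto (fun k => ‖z (φ k)‖) atTop (𝓝 0) := by
    simpa using (hz0.comp hφ.tendsto_atTop).norm
  have hBl : ∀ i, Tendsto (fun k => ⟪B i (u (φ k)), u (φ k)⟫_ℝ) atTop (𝓝 ⟪B i e, e⟫_ℝ) :=
    fun i => (((B i).continuous.tendsto e).comp hlim).inner hlim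
  have hle : ∀ i, ⟪d i, e⟫_ℝ ≤ 0 := fun i => by
    have h1 : Tendsto (fun k => ⟪d i, u (φ k)⟫_ℝ + ‖z (φ k)‖ * ⟪B i (u (φ k)), u (φ k)⟫_ℝ) atTop
        (𝓝 (⟪d i, e⟫_ℝ + 0 * ⟪B i e, e⟫_ℝ)) :=
      (tendsto_const_nhds.inner hlim).add (hN.mul (hBl i))
    have h2 := le_of_tendsto_of_tendsto' h1 (hN.const_mul (κ / 2)) fun k => (hkey (φ k) i).le
    simpa using h2
  have hsum : ∀ w, ∑ i, θ i * ⟪d i, w⟫_ℝ = 0 := fun w => by
    have : ⟪∑ i, θ i • d i, w⟫_ℝ = 0 := by rw [hd, inner_zero_left]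
    simpa [sum_inner, real_inner_smul_left] using this
  have hzero : ∀ i, ⟪d i, e⟫_ℝ = 0 := fun i => by
    have h1 := (Finset.sum_eq_zero_iff_of_nonpos (s := Finset.univ)
      (f := fun i => θ i * ⟪d i, e⟫_ℝ)
      fun i _ => mul_nonpos_of_nonneg_of_nonpos (hθ i).le (hle i)).1 (hsum e) i (Finset.mem_univ i)
    exact (mul_eq_zero.1 h1).resolve_left (hθ i).ne'
  have h3 : ∀ k, ∑ i, θ i * ⟪B i (u k), u k⟫_ℝ ≤ κ / 2 := fun k => by
    have h1 : ∑ i, θ i * (⟪d i, u k⟫_ℝ + ‖z k‖ * ⟪B i (u k), u k⟫_ℝ) ≤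
        ∑ i, θ i * (κ / 2 * ‖z k‖) :=
      Finset.sum_le_sum fun i _ => mul_le_mul_of_nonneg_left (hkey k i).le (hθ i).le
    simp only [mul_add, Finset.sum_add_distrib, hsum, zero_add, ← Finset.sum_mul, hs, one_mul,
      mul_left_comm _ ‖z k‖, ← Finset.mul_sum] at h1
    refine le_of_mul_le_mul_left ?_ (hn k)
    linarith
  have h4 := le_of_tendsto' (tendsto_finsetSum Finset.univ fun i _ => (hBl i).const_mul (θ i))
    fun k => h3 (φ k)
  have h5 := hB e hzero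
  rw [he1] at h5
  linarith

end Crest.Agent.R226.L

end
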