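import Crest.Agent.R226.LDefs
import Crest.Agent.R226.LAux

/-! # rid 226, part L: quantitative non-focality along segments (Lemma F) -/

set_option autoImplicit false

open Set Filter Topology
open scoped InnerProductSpace

noncomputable section

namespace Crest.Agent.R226.L

theorem lemF_real {k L D Λ : ℝ} (hk : 0 < k) (hL : 0 < L) (hΛ : 0 < Λ) :
    ∃ N0 : ℝ, ∀ (f N g : ℝ → ℝ) (τ0 τ1 W2 : ℝ),
      (∀ τ ∈ Icc τ0 τ1, 0 ≤ f τ ∧ 1 ≤ f τ * N τ ∧ f τ * N τ ≤ 2 * (1 + Λ) ∧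
        τ ^ 2 ≤ f τ * (k * D ^ 2) ∧ g τ = k * (W2 - τ ^ 2) + τ ^ 2 * N τ ∧ 0 ≤ g τ ∧
        g τ ≤ Λ * D ^ 2) →
      (∀ a ∈ Icc τ0 τ1, ∀ b ∈ Icc τ0 τ1, f a ≤ f b + L * |a - b|) →
      (∀ τ σ, τ - σ ∈ Icc τ0 τ1 → τ + σ ∈ Icc τ0 τ1 → f (τ + σ) + f (τ - σ) ≤ 2 * f τ + L * σ ^ 2) →
      (∀ a ∈ Icc τ0 τ1, ∀ b ∈ Icc τ0 τ1, ∀ θ ∈ Icc (0 : ℝ) 1,
        g ((1 - θ) * a + θ * b) ≤ (1 - θ) * g a + θ * g b) →
      N τ0 ≤ Λ → N τ1 ≤ Λ → ∀ τ ∈ Icc τ0 τ1, N τ ≤ N0 := by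
  set ρ : ℝ := 1 / (2 * Λ * L) with hρ
  have hρ0 : 0 < ρ := by positivity
  obtain ⟨σ, ⟨hσ1, hσ2⟩, hσ0⟩ : ∃ σ : ℝ, (σ < ρ ∧
      k * (9 / 4) * σ ^ 2 + 3 * σ / ρ * (Λ * D ^ 2) < 1 / (4 * (2 + L))) ∧ 0 < σ := by
    have h1 : ∀ᶠ σ in 𝓝 (0 : ℝ), k * (9 / 4) * σ ^ 2 + 3 * σ / ρ * (Λ * D ^ 2) <
        1 / (4 * (2 + L)) := by
      refine ContinuousAt.eventually_lt (by fun_prop) continuousAt_const ?_
      simp only [ne_eq, OfNat.ofNat_ne_zero, not_false_eq_true, zero_pow, mul_zero, zero_div,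
        zero_mul, add_zero]
      positivity
    have h2 : ∀ᶠ σ in 𝓝 (0 : ℝ), σ < ρ := Iio_mem_nhds hρ0
    exact (((h2.and h1).filter_mono
      (nhdsWithin_le_nhds (s := Ioi 0))).and self_mem_nhdsWithin).exists
  set ε : ℝ := min (1 / (2 * Λ)) (min (σ ^ 2) (σ ^ 2 / (4 * (k * D ^ 2) + 1))) with hε
  have hε0 : 0 < ε := by positivity
  have hε1 : ε ≤ 1 / (2 * Λ) := min_le_left _ _
  have hε2 : ε ≤ σ ^ 2 := (min_le_right _ _).trans (min_le_left _ _)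
  have hε3 : ε ≤ σ ^ 2 / (4 * (k * D ^ 2) + 1) := (min_le_right _ _).trans (min_le_right _ _)
  have hρ' : ρ * (2 * Λ * L) = 1 := by rw [hρ]; field_simp
  clear_value ε ρ
  clear hε hρ
  refine ⟨2 * (1 + Λ) / ε, fun f N g τ0 τ1 W2 hb hlip hsd hcv h0 h1 τ hτ => ?_⟩
  by_contra hN
  push Not at hN
  have h01 : τ0 ≤ τ1 := hτ.1.trans hτ.2
  obtain ⟨f0, -, f2, f3, -, -, -⟩ := hb τ hτ
  have hfε : f τ ≤ ε := by
    rw [div_lt_iff₀ hε0] at hN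
    by_contra h
    push Not at h
    have hN0 : 0 < N τ := by
      by_contra h'
      push Not at h'
      have := mul_nonpos_of_nonpos_of_nonneg h' hε0.le
      linarith
    have := mul_lt_mul_of_pos_right h hN0
    linarith
  have hend : ∀ a ∈ Icc τ0 τ1, N a ≤ Λ → ρ ≤ |a - τ| := fun a ha hNa => by
    obtain ⟨a0, a1, -⟩ := hb a ha
    have h2 := hlip a ha τ hτ
    have h3 : 1 ≤ f a * Λ := a1.trans (mul_le_mul_of_nonneg_left hNa a0)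
    have h4 : ε * Λ ≤ 1 / 2 := by
      rw [le_div_iff₀ (by positivity)] at hε1
      linarith
    have h5 : f a * Λ ≤ (ε + L * |a - τ|) * Λ := mul_le_mul_of_nonneg_right (by linarith) hΛ.le
    refine le_of_mul_le_mul_right ?_ (by positivity : 0 < 2 * Λ * L)
    linarith
  have e0 := hend τ0 ⟨le_rfl, h01⟩ h0
  have e1 := hend τ1 ⟨h01, le_rfl⟩ h1
  rw [abs_of_nonpos (by linarith [hτ.1])] at e0
  rw [abs_of_nonneg (by linarith [hτ.2])] at e1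
  have hτs : τ ^ 2 ≤ (σ / 2) ^ 2 := by
    rw [le_div_iff₀ (by positivity)] at hε3
    have h2 : 0 ≤ k * D ^ 2 := by positivity
    have h3 := mul_le_mul_of_nonneg_right hfε h2
    linarith
  obtain ⟨t1, t2⟩ := abs_le_of_sq_le_sq' hτs (by positivity)
  have m1 : τ + σ ∈ Icc τ0 τ1 := ⟨by linarith, by linarith⟩
  have m2 : τ - σ ∈ Icc τ0 τ1 := ⟨by linarith, by linarith⟩
  have m0 : (0 : ℝ) ∈ Icc τ0 τ1 := ⟨by linarith, by linarith⟩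
  have hτ1 : ρ / 2 ≤ τ1 := by linarith
  have hτ1' : 0 < τ1 := by linarith
  obtain ⟨p0, p1, -, -, p4, -, -⟩ := hb _ m1
  have q0 := (hb _ m2).1
  have hf : f (τ + σ) ≤ (2 + L) * σ ^ 2 := by linarith [hsd τ σ m2 m1]
  have hθ : (τ + σ) / τ1 ∈ Icc (0 : ℝ) 1 :=
    ⟨div_nonneg (by linarith) hτ1'.le, (div_le_one hτ1').2 m1.2⟩
  have hg := hcv 0 m0 τ1 ⟨h01, le_rfl⟩ _ hθ
  rw [mul_zero, zero_add, div_mul_cancel₀ _ hτ1'.ne'] at hg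
  obtain ⟨-, -, -, -, r4, r5, -⟩ := hb 0 m0
  have s6 := (hb τ1 ⟨h01, le_rfl⟩).2.2.2.2.2.2
  have s5 := (hb τ1 ⟨h01, le_rfl⟩).2.2.2.2.2.1
  have hθ2 : (τ + σ) / τ1 ≤ 3 * σ / ρ := by
    rw [div_le_div_iff₀ hτ1' hρ0]
    have h2 : (τ + σ) * ρ ≤ 3 / 2 * σ * ρ := mul_le_mul_of_nonneg_right (by linarith) hρ0.le
    have h3 := mul_le_mul_of_nonneg_left hτ1 hσ0.le
    linarith
  have hg2 : g (τ + σ) ≤ g 0 + 3 * σ / ρ * (Λ * D ^ 2) := by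
    have h2 := mul_le_mul hθ2 s6 s5 (by positivity)
    have h3 := mul_nonneg hθ.1 r5
    linarith
  have hN1 : 0 ≤ N (τ + σ) := by
    by_contra h
    push Not at h
    have := mul_nonpos_of_nonneg_of_nonpos p0 h.le
    linarith
  have hN2 : 1 ≤ (2 + L) * σ ^ 2 * N (τ + σ) := p1.trans (mul_le_mul_of_nonneg_right hf hN1)
  have hN3 : 1 / (4 * (2 + L)) ≤ (τ + σ) ^ 2 * N (τ + σ) := by
    rw [div_le_iff₀ (by positivity)]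
    have h2 : (σ / 2) ^ 2 ≤ (τ + σ) ^ 2 := pow_le_pow_left₀ (by positivity) (by linarith) 2
    have := mul_le_mul_of_nonneg_right h2 (mul_nonneg hN1 (by positivity : 0 ≤ 2 + L))
    linarith
  have hN4 : k * (τ + σ) ^ 2 ≤ k * (9 / 4) * σ ^ 2 := by
    have h2 : (τ + σ) ^ 2 ≤ (3 / 2 * σ) ^ 2 := pow_le_pow_left₀ (by linarith) (by linarith) 2
    have := mul_le_mul_of_nonneg_left h2 hk.le
    linarith
  rw [p4, r4] at hg2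
  linarith

variable {M : Type*} [MetricSpace M] {E : Type} [NormedAddCommGroup E] [InnerProductSpace ℝ E]
  {exp : M → E → M} {vel : M → E → E} {A P : M → E → E →L[ℝ] E} {c0 L : ℝ}

/-- Cauchy–Schwarz for a non-negative symmetric operator -/
theorem cs_op {W : E →L[ℝ] E} (hs : ∀ u v, ⟪W u, v⟫_ℝ = ⟪u, W v⟫_ℝ) (hn : ∀ u, 0 ≤ ⟪W u, u⟫_ℝ)
    (u v : E) : ⟪W u, v⟫_ℝ ^ 2 ≤ ⟪W u, u⟫_ℝ * ⟪W v, v⟫_ℝ := by
  have h : ∀ t : ℝ, 0 ≤ ⟪W v, v⟫_ℝ * (t * t) + 2 * ⟪W u, v⟫_ℝ * t + ⟪W u, u⟫_ℝ := fun t => by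
    have h1 := hn (u + t • v)
    have h2 : ⟪W v, u⟫_ℝ = ⟪W u, v⟫_ℝ := by rw [hs, real_inner_comm]
    simp only [map_add, map_smul, inner_add_left, inner_add_right, real_inner_smul_left,
      real_inner_smul_right, h2] at h1
    linarith
  have := discrim_le_zero h
  rw [discrim] at this
  nlinarith

theorem two_op {W : E →L[ℝ] E} (hn : ∀ u, 0 ≤ ⟪W u, u⟫_ℝ)
    (u v : E) : ⟪W (u + v), u + v⟫_ℝ ≤ 2 * ⟪W u, u⟫_ℝ + 2 * ⟪W v, v⟫_ℝ := by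
  have h1 := hn (u - v)
  simp only [map_add, map_sub, inner_add_left, inner_add_right, inner_sub_left,
    inner_sub_right] at h1 ⊢
  linarith

/-- pointwise algebra at `q = w + τ e`. -/
theorem lemF_pt {W Q : E →L[ℝ] E} {k Λ τ : ℝ} {w e : E} (hs : ∀ u v, ⟪W u, v⟫_ℝ = ⟪u, W v⟫_ℝ)
    (h1 : ∀ u, ‖u‖ ^ 2 ≤ ⟪W u, u⟫_ℝ) (hQ : W (Q e) = e) (he : ‖e‖ = 1) (hw : ⟪w, e⟫_ℝ = 0)
    (hr : W (w + τ • e) = k • (w + τ • e)) (hΛ : 0 ≤ Λ)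
    (hp : ∀ ζ, ⟪e, ζ⟫_ℝ = 0 → ⟪W ζ, ζ⟫_ℝ ≤ Λ * ‖ζ‖ ^ 2) :
    0 ≤ ⟪Q e, e⟫_ℝ ∧ 1 ≤ ⟪Q e, e⟫_ℝ * ⟪W e, e⟫_ℝ ∧ ⟪Q e, e⟫_ℝ * ⟪W e, e⟫_ℝ ≤ 2 * (1 + Λ) ∧
      τ ^ 2 ≤ ⟪Q e, e⟫_ℝ * (k * ‖w + τ • e‖ ^ 2) ∧
      ⟪W w, w⟫_ℝ = k * (‖w‖ ^ 2 - τ ^ 2) + τ ^ 2 * ⟪W e, e⟫_ℝ := by
  have hn : ∀ u, 0 ≤ ⟪W u, u⟫_ℝ := fun u => (sq_nonneg _).trans (h1 u)
  have hee : ⟪e, e⟫_ℝ = 1 := by rw [real_inner_self_eq_norm_sq, he]; norm_num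
  set y := ⟪Q e, e⟫_ℝ with hy
  have hy1 : ⟪W (Q e), Q e⟫_ℝ = y := by rw [hQ, real_inner_comm]
  have hy0 : 0 ≤ y := hy1 ▸ hn _
  have a1 : 1 ≤ y * ⟪W e, e⟫_ℝ := by
    have := cs_op hs hn (Q e) e
    rwa [hy1, hQ, hee, one_pow] at this
  have hew : ⟪e, w⟫_ℝ = 0 := by rw [real_inner_comm, hw]
  refine ⟨hy0, a1, ?_, ?_, ?_⟩
  · have hypos : 0 < y := by
      rcases hy0.eq_or_lt with h | h
      · rw [← h] at a1; linarith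
      · exact h
    have b1 : ⟪e, y • e - Q e⟫_ℝ = 0 := by
      rw [inner_sub_right, real_inner_smul_right, hee, real_inner_comm]; ring
    have b2 : ‖y • e - Q e‖ ^ 2 ≤ y := by
      have h2 := h1 (Q e)
      rw [hy1] at h2
      rw [norm_sub_sq_real, norm_smul, he, real_inner_smul_left, real_inner_comm, ← hy,
        Real.norm_eq_abs, mul_one, sq_abs]
      nlinarith [sq_nonneg y]
    have b3 := two_op hn (Q e) (y • e - Q e)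
    rw [add_sub_cancel, hy1, map_smul, real_inner_smul_left, real_inner_smul_right] at b3
    have b4 := (hp _ b1).trans (mul_le_mul_of_nonneg_left b2 hΛ)
    refine le_of_mul_le_mul_left ?_ hypos
    nlinarith
  · have := cs_op hs hn (Q e) (w + τ • e)
    rw [hy1, hQ, hr, real_inner_smul_left, real_inner_self_eq_norm_sq, inner_add_right, hew,
      real_inner_smul_right, hee] at this
    simpa using this
  · have c1 : ⟪W (w + τ • e), w⟫_ℝ = k * ‖w‖ ^ 2 := by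
      rw [hr, real_inner_smul_left, inner_add_left, real_inner_smul_left, hew,
        real_inner_self_eq_norm_sq]; ring
    have c2 : ⟪W (w + τ • e), e⟫_ℝ = k * τ := by
      rw [hr, real_inner_smul_left, inner_add_left, real_inner_smul_left, hw, hee]; ring
    have c3 : ⟪W e, w⟫_ℝ = ⟪W w, e⟫_ℝ := by rw [hs, real_inner_comm]
    rw [map_add, map_smul, inner_add_left, real_inner_smul_left] at c1 c2
    rw [c3] at c1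
    linear_combination c1 - τ * c2

theorem lemF_line (G : Geo2 exp vel A P c0 L) (hL : 0 < L) (D Λ : ℝ) : ∃ Λ' : ℝ,
    ∀ (x : M) (w e : E) (τ0 τ1 : ℝ), ‖e‖ = 1 → ⟪w, e⟫_ℝ = 0 →
      (∀ τ ∈ Icc τ0 τ1, w + τ • e ∈ InjS exp x ∧ ‖w + τ • e‖ ≤ D) →
      (∀ u, -Λ * ‖u‖ ^ 2 ≤ ⟪A x (w + τ0 • e) u, u⟫_ℝ) →
      (∀ u, -Λ * ‖u‖ ^ 2 ≤ ⟪A x (w + τ1 • e) u, u⟫_ℝ) →
      ∀ τ ∈ Icc τ0 τ1, ∀ u, -Λ' * ‖u‖ ^ 2 ≤ ⟪A x (w + τ • e) u, u⟫_ℝ := by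
  have hc := G.c0_ge
  set Λ1 : ℝ := c0 + |Λ| with hΛ1
  have hΛ1' : 0 < Λ1 := by positivity
  obtain ⟨N0, hN0⟩ := lemF_real (k := c0 - 1) (D := D) (by linarith) hL hΛ1'
  refine ⟨2 * Λ1 + 2 * |N0|, fun x w e τ0 τ1 he hw hI h0 h1 τ hτ u => ?_⟩
  have h01 : τ0 ≤ τ1 := hτ.1.trans hτ.2
  set W : ℝ → E →L[ℝ] E := fun τ => c0 • (1 : E →L[ℝ] E) - A x (w + τ • e) with hW
  have hWa : ∀ τ u v, ⟪W τ u, v⟫_ℝ = c0 * ⟪u, v⟫_ℝ - ⟪A x (w + τ • e) u, v⟫_ℝ := fun τ u v => by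
    simp [hW, inner_sub_left, real_inner_smul_left]
  have hWu : ∀ τ u, ⟪W τ u, u⟫_ℝ = c0 * ‖u‖ ^ 2 - ⟪A x (w + τ • e) u, u⟫_ℝ := fun τ u => by
    rw [hWa, real_inner_self_eq_norm_sq]
  have hcomb : ∀ a b θ : ℝ, (1 - θ) • (w + a • e) + θ • (w + b • e) =
      w + ((1 - θ) * a + θ * b) • e := fun a b θ => by module
  have hseg : ∀ a ∈ Icc τ0 τ1, ∀ b ∈ Icc τ0 τ1,
      segment ℝ (w + a • e) (w + b • e) ⊆ InjS exp x := fun a ha b hb q hq => by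
    rw [segment_eq_image] at hq
    obtain ⟨θ, hθ, rfl⟩ := hq
    simp only [hcomb]
    exact (hI _ ⟨by nlinarith [ha.1, hb.1, hθ.1, hθ.2], by nlinarith [ha.2, hb.2, hθ.1, hθ.2]⟩).1
  have hcv : ∀ ζ, ⟪e, ζ⟫_ℝ = 0 → ∀ a ∈ Icc τ0 τ1, ∀ b ∈ Icc τ0 τ1, ∀ θ ∈ Icc (0 : ℝ) 1,
      ⟪W ((1 - θ) * a + θ * b) ζ, ζ⟫_ℝ ≤ (1 - θ) * ⟪W a ζ, ζ⟫_ℝ + θ * ⟪W b ζ, ζ⟫_ℝ :=
    fun ζ hζ a ha b hb θ hθ => by
      have := G.mtw x _ _ (hseg a ha b hb) ζ (by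
        rw [add_sub_add_left_eq_sub, ← sub_smul, real_inner_smul_left, hζ, mul_zero]) θ hθ
      rw [hcomb] at this
      simp only [hWu]
      linarith
  have hend : ∀ τ, (∀ u, -Λ * ‖u‖ ^ 2 ≤ ⟪A x (w + τ • e) u, u⟫_ℝ) →
      ∀ u, ⟪W τ u, u⟫_ℝ ≤ Λ1 * ‖u‖ ^ 2 := fun τ h u => by
    rw [hWu]
    nlinarith [h u, le_abs_self Λ, sq_nonneg ‖u‖]
  have hperp : ∀ τ ∈ Icc τ0 τ1, ∀ ζ, ⟪e, ζ⟫_ℝ = 0 → ⟪W τ ζ, ζ⟫_ℝ ≤ Λ1 * ‖ζ‖ ^ 2 :=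
    fun τ hτ ζ hζ => by
      obtain ⟨θ, hθ, rfl⟩ : ∃ θ ∈ Icc (0 : ℝ) 1, (1 - θ) * τ0 + θ * τ1 = τ := by
        rw [← segment_eq_Icc h01, segment_eq_image] at hτ
        simpa using hτ
      have := hcv ζ hζ τ0 ⟨le_rfl, h01⟩ τ1 ⟨h01, le_rfl⟩ θ hθ
      nlinarith [hend τ0 h0 ζ, hend τ1 h1 ζ, hθ.1, hθ.2]
  have hsy : ∀ τ ∈ Icc τ0 τ1, ∀ u v, ⟪W τ u, v⟫_ℝ = ⟪u, W τ v⟫_ℝ := fun τ hτ u v => by
    rw [hWa, real_inner_comm (W τ v), hWa, G.symm x _ (hI τ hτ).1, real_inner_comm u v,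
      real_inner_comm u]
  have hge : ∀ τ ∈ Icc τ0 τ1, ∀ u, ‖u‖ ^ 2 ≤ ⟪W τ u, u⟫_ℝ := fun τ hτ u => by
    rw [hWu]
    linarith [G.A_le x _ (hI τ hτ).1 u]
  have hew : ⟪e, w⟫_ℝ = 0 := by rw [real_inner_comm, hw]
  have hN := hN0 (fun τ => ⟪P x (w + τ • e) e, e⟫_ℝ) (fun τ => ⟪W τ e, e⟫_ℝ)
    (fun τ => ⟪W τ w, w⟫_ℝ) τ0 τ1 (‖w‖ ^ 2) (fun τ hτ => by
      obtain ⟨a1, a2, a3, a4, a5⟩ := lemF_pt (W := W τ) (Q := P x (w + τ • e)) (k := c0 - 1)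
        (τ := τ) (hsy τ hτ) (hge τ hτ) (by simpa [hW] using G.WP x _ (hI τ hτ).1 e) he hw
        (by
          have := G.A_rad x _ (hI τ hτ).1
          simp only [hW, sub_apply, smul_apply, one_apply_eq_self, this]
          module) hΛ1'.le (hperp τ hτ)
      have b1 : ‖w + τ • e‖ ^ 2 ≤ D ^ 2 := pow_le_pow_left₀ (norm_nonneg _) (hI τ hτ).2 2
      have b2 : ‖w‖ ^ 2 ≤ ‖w + τ • e‖ ^ 2 := by
        rw [norm_add_sq_real, real_inner_smul_right, hw]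
        nlinarith [sq_nonneg ‖τ • e‖]
      refine ⟨a1, a2, a3, a4.trans (mul_le_mul_of_nonneg_left
        (mul_le_mul_of_nonneg_left b1 (by linarith)) a1), a5,
        (sq_nonneg _).trans (hge τ hτ w), (hperp τ hτ w hew).trans ?_⟩
      exact mul_le_mul_of_nonneg_left (b2.trans b1) hΛ1'.le)
    (fun a ha b hb => by
      have := G.P_lip x _ _ (hseg a ha b hb) e
      rwa [add_sub_add_left_eq_sub, ← sub_smul, norm_smul, he, Real.norm_eq_abs, mul_one, one_pow,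
        mul_one] at this)
    (fun τ σ ha hb => by
      have e1 : w + τ • e - σ • e = w + (τ - σ) • e := by module
      have e2 : w + τ • e + σ • e = w + (τ + σ) • e := by module
      have := G.P_sd x (w + τ • e) (σ • e) (by rw [e1, e2]; exact hseg _ ha _ hb) e
      rwa [e1, e2, norm_smul, he, Real.norm_eq_abs, mul_one, one_pow, mul_one, sq_abs] at this)
    (hcv w hew) (by simpa [he] using hend τ0 h0 e) (by simpa [he] using hend τ1 h1 e) τ hτ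
  have hee : ⟪e, e⟫_ℝ = 1 := by rw [real_inner_self_eq_norm_sq, he]; norm_num
  have d1 : ⟪e, u - ⟪e, u⟫_ℝ • e⟫_ℝ = 0 := by
    rw [inner_sub_right, real_inner_smul_right, hee]; ring
  have d2 := two_op (fun u => (sq_nonneg _).trans (hge τ hτ u))
    (u - ⟪e, u⟫_ℝ • e) (⟪e, u⟫_ℝ • e)
  rw [sub_add_cancel, map_smul, real_inner_smul_left, real_inner_smul_right, hWu] at d2
  have d3 : ‖u - ⟪e, u⟫_ℝ • e‖ ^ 2 = ‖u‖ ^ 2 - ⟪e, u⟫_ℝ ^ 2 := by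
    rw [norm_sub_sq_real, norm_smul, he, real_inner_smul_right, real_inner_comm e u,
      Real.norm_eq_abs, mul_one, sq_abs]; ring
  have d4 := hperp τ hτ _ d1
  have d5 : ⟪e, u⟫_ℝ ^ 2 ≤ ‖u‖ ^ 2 := by linarith [sq_nonneg ‖u - ⟪e, u⟫_ℝ • e‖]
  have d6 : ⟪e, u⟫_ℝ ^ 2 * ⟪W τ e, e⟫_ℝ ≤ ‖u‖ ^ 2 * |N0| :=
    (mul_le_mul_of_nonneg_left (hN.trans (le_abs_self _)) (sq_nonneg _)).trans
      (mul_le_mul_of_nonneg_right d5 (abs_nonneg _))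
  rw [d3] at d4
  nlinarith [mul_nonneg hΛ1'.le (sq_nonneg ⟪e, u⟫_ℝ),
    mul_nonneg (by linarith : 0 ≤ c0) (sq_nonneg ‖u‖)]

theorem lemF (G : Geo2 exp vel A P c0 L) (hL : 0 < L) (D Λ : ℝ) : ∃ Λ' : ℝ, Λ ≤ Λ' ∧
    ∀ (x : M) (q0 q1 : E), segment ℝ q0 q1 ⊆ InjS exp x → ‖q0‖ ≤ D → ‖q1‖ ≤ D →
      (∀ u, -Λ * ‖u‖ ^ 2 ≤ ⟪A x q0 u, u⟫_ℝ) → (∀ u, -Λ * ‖u‖ ^ 2 ≤ ⟪A x q1 u, u⟫_ℝ) →
      ∀ q ∈ segment ℝ q0 q1, ∀ u, -Λ' * ‖u‖ ^ 2 ≤ ⟪A x q u, u⟫_ℝ := by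
  obtain ⟨Λ', h⟩ := lemF_line G hL D Λ
  refine ⟨max Λ Λ', le_max_left _ _, fun x q0 q1 hs n0 n1 h0 h1 q hq u => ?_⟩
  rcases eq_or_ne q0 q1 with rfl | hne
  · rw [segment_same, mem_singleton_iff] at hq
    rw [hq]
    nlinarith [h0 u, le_max_left Λ Λ', sq_nonneg ‖u‖]
  have hl : 0 < ‖q1 - q0‖ := norm_pos_iff.2 (sub_ne_zero.2 hne.symm)
  set l := ‖q1 - q0‖ with hl'
  set e : E := l⁻¹ • (q1 - q0) with he
  have he1 : ‖e‖ = 1 := by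
    rw [he, norm_smul, norm_inv, Real.norm_eq_abs, abs_of_pos hl, ← hl', inv_mul_cancel₀ hl.ne']
  have hee : ⟪e, e⟫_ℝ = 1 := by rw [real_inner_self_eq_norm_sq, he1]; norm_num
  set τ0 := ⟪q0, e⟫_ℝ with hτ0
  have hpar : ∀ θ : ℝ, q0 - τ0 • e + (τ0 + θ * l) • e = (1 - θ) • q0 + θ • q1 := fun θ => by
    have : (θ * l) • e = θ • (q1 - q0) := by
      rw [he, smul_smul, mul_assoc, mul_inv_cancel₀ hl.ne', mul_one]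
    rw [add_smul, this]; module
  have hp0 : q0 - τ0 • e + τ0 • e = q0 := sub_add_cancel _ _
  have hp1 : q0 - τ0 • e + (τ0 + l) • e = q1 := by simpa using hpar 1
  rw [segment_eq_image] at hq
  obtain ⟨θ, hθ, rfl⟩ := hq
  have := h x (q0 - τ0 • e) e τ0 (τ0 + l) he1
    (by rw [inner_sub_left, real_inner_smul_left, hee]; ring) (fun τ hτ => by
      have h2 : τ = τ0 + (τ - τ0) / l * l := by field_simp; ring
      have h3 : (τ - τ0) / l ∈ Icc (0 : ℝ) 1 :=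
        ⟨div_nonneg (by linarith [hτ.1]) hl.le, (div_le_one hl).2 (by linarith [hτ.2])⟩
      have h4 : q0 - τ0 • e + τ • e ∈ segment ℝ q0 q1 := by
        rw [h2, hpar, segment_eq_image]
        exact ⟨_, h3, rfl⟩
      exact ⟨hs h4, mem_closedBall_zero_iff.1 ((convex_closedBall (0 : E) D).segment_subset
        (mem_closedBall_zero_iff.2 n0) (mem_closedBall_zero_iff.2 n1) h4)⟩)
    (by rwa [hp0]) (by rwa [hp1]) (τ0 + θ * l)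
    ⟨by nlinarith [hθ.1], by nlinarith [hθ.2]⟩ u
  rw [hpar] at this
  nlinarith [le_max_right Λ Λ', sq_nonneg ‖u‖]

/-- Lemma F on convex hulls. -/
theorem lemF_hull [FiniteDimensional ℝ E] (G : Geo2 exp vel A P c0 L) (hL : 0 < L) (D Λ : ℝ) :
    ∃ Λ' : ℝ, ∀ (x : M) (R : Set E), convexHull ℝ R ⊆ InjS exp x → (∀ p ∈ R, ‖p‖ ≤ D) →
      (∀ p ∈ R, ∀ u, -Λ * ‖u‖ ^ 2 ≤ ⟪A x p u, u⟫_ℝ) →
      ∀ q ∈ convexHull ℝ R, ∀ u, -Λ' * ‖u‖ ^ 2 ≤ ⟪A x q u, u⟫_ℝ := by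
  have key : ∀ k, ∃ Λ' : ℝ, Λ ≤ Λ' ∧ ∀ (x : M) (R : Set E), convexHull ℝ R ⊆ InjS exp x →
      (∀ p ∈ R, ‖p‖ ≤ D) → (∀ p ∈ R, ∀ u, -Λ * ‖u‖ ^ 2 ≤ ⟪A x p u, u⟫_ℝ) →
      ∀ q ∈ J R k, ∀ u, -Λ' * ‖u‖ ^ 2 ≤ ⟪A x q u, u⟫_ℝ := by
    intro k
    induction k with
    | zero => exact ⟨Λ, le_rfl, fun x R _ _ h q hq => h q hq⟩
    | succ k ih =>
      obtain ⟨Λ1, h1, ih⟩ := ih
      obtain ⟨Λ2, h2, hF⟩ := lemF G hL D Λ1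
      refine ⟨Λ2, h1.trans h2, fun x R hR hD h q hq => ?_⟩
      obtain ⟨a, ha, b, hb, hq⟩ := mem_convexJoin.1 hq
      have hb' := J_subset R k hb
      refine hF x a b (((convex_convexHull ℝ R).segment_subset (subset_convexHull ℝ R ha)
        hb').trans hR) (hD a ha) ?_ (fun u => ?_) (ih x R hR hD h b hb) q hq
      · exact mem_closedBall_zero_iff.1 (convexHull_min
          (fun p hp => mem_closedBall_zero_iff.2 (hD p hp)) (convex_closedBall (0 : E) D) hb')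
      · nlinarith [h a ha u, sq_nonneg ‖u‖]
  obtain ⟨Λ', -, h⟩ := key (Module.finrank ℝ E)
  exact ⟨Λ', fun x R hR hD hA q hq => h x R hR hD hA q (hull_eq_J R ▸ hq)⟩

end Crest.Agent.R226.L

end
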