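import Crest.Agent.R226.LDefs
import Crest.Agent.R226.LAux

/-! # rid 226, part L: first order consequences (rays, Danskin, the step lemma) -/

set_option autoImplicit false

open Set Filter Topology
open scoped InnerProductSpace

noncomputable section

namespace Crest.Agent.R226.L

variable {M : Type*} [MetricSpace M] {E : Type} [NormedAddCommGroup E] [InnerProductSpace ℝ E]
  {exp : M → E → M} {vel : M → E → E} {L δ : ℝ}

theorem cst_comm (x y : M) : cst x y = cst y x := by rw [cst, cst, dist_comm]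

theorem cst_nonneg (x y : M) : 0 ≤ cst x y := by unfold cst; positivity

theorem continuous_cst : Continuous fun w : M × M => cst w.1 w.2 := by unfold cst; fun_prop

omit [InnerProductSpace ℝ E] in
theorem cst_of_min {x : M} {p : E} (hp : p ∈ MinS exp x) : cst x (exp x p) = ‖p‖ ^ 2 / 2 := by
  rw [cst, show dist x (exp x p) = ‖p‖ from hp]

theorem cst_le_of_dist {x y : M} {r : ℝ} (h : dist x y ≤ r) : cst x y ≤ r ^ 2 / 2 := by
  unfold cst
  gcongr

theorem cst_lip {D : ℝ} (hD : ∀ x y : M, dist x y ≤ D) (x x' y : M) :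
    cst x y - cst x' y ≤ D * dist x x' := by
  unfold cst
  have h1 := dist_triangle x x' y
  have h2 := hD x y
  have h3 := hD x' y
  have h4 := dist_nonneg (x := x) (y := y)
  have h5 := dist_nonneg (x := x') (y := y)
  have h6 := dist_nonneg (x := x) (y := x')
  nlinarith

/-- `c(a,b) ≤ c(a,m)/t + c(m,b)/(1-t)` in multiplied form. -/
theorem cst_split (a m b : M) {t s r : ℝ} (ht : 0 < t) (hs : 0 < s) (hr : dist m b ≤ s * r) :
    cst a b / (t + s) ≤ cst a m / t + s * r ^ 2 / 2 := by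
  have h1 : dist a b ≤ dist a m + s * r := (dist_triangle a m b).trans (by linarith)
  have h2 := cst_le_of_dist h1
  rw [div_le_iff₀ (by positivity), cst.eq_1 a m]
  refine h2.trans ?_
  have : (dist a m ^ 2 / 2 / t + s * r ^ 2 / 2) * (t + s) - (dist a m + s * r) ^ 2 / 2 =
      s / t * (dist a m - t * r) ^ 2 / 2 := by field_simp; ring
  have h3 : 0 ≤ s / t * (dist a m - t * r) ^ 2 / 2 := by positivity
  linarith

theorem exists_diam [CompactSpace M] : ∃ D : ℝ, 0 < D ∧ ∀ x y : M, dist x y ≤ D := by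
  obtain ⟨C, hC⟩ := Metric.isBounded_iff.1 (isCompact_univ (X := M)).isBounded
  exact ⟨|C| + 1, by positivity, fun x y =>
    (hC (mem_univ x) (mem_univ y)).trans (by linarith [le_abs_self C])⟩

theorem ct_lip {Φ : M → ℝ} (hΦ : ∀ x, ∃ y, Ct Φ x y) {D : ℝ} (hD : ∀ x y : M, dist x y ≤ D)
    (x z : M) : Φ z - Φ x ≤ D * dist z x := by
  obtain ⟨y, hy⟩ := hΦ x
  linarith [hy z, cst_lip hD z x y]

theorem ct_continuous [CompactSpace M] {Φ : M → ℝ} (hΦ : ∀ x, ∃ y, Ct Φ x y) : Continuous Φ := by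
  obtain ⟨D, hD0, hD⟩ := exists_diam (M := M)
  refine (LipschitzWith.of_dist_le_mul (K := ⟨D, hD0.le⟩) fun x z => ?_).continuous
  rw [Real.dist_eq, abs_le]
  have h1 := ct_lip hΦ hD x z
  have h2 := ct_lip hΦ hD z x
  rw [dist_comm] at h1
  exact ⟨(by linarith : -(D * dist x z) ≤ Φ x - Φ z), h2⟩

theorem isClosed_ct {Φ : M → ℝ} (hc : Continuous Φ) : IsClosed {w : M × M | Ct Φ w.1 w.2} := by
  simp only [Ct, ofPred_forall]
  refine isClosed_iInter fun z => isClosed_le (continuous_cst.sub (hc.comp continuous_fst)) ?_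
  exact (continuous_cst.comp (continuous_const.prodMk continuous_snd)).sub continuous_const

namespace Geo1

variable (G : Geo1 exp vel L δ)
include G

/-- the geodesic flow at an arbitrary time. -/
theorem shift (x : M) (v : E) (t : ℝ) : ∃ u : E, ‖u‖ = ‖v‖ ∧ (t ≠ 0 → u = t⁻¹ • vel x (t • v)) ∧
    ∀ s : ℝ, exp (exp x (t • v)) (s • u) = exp x ((t + s) • v) := by
  rcases eq_or_ne t 0 with rfl | ht
  · exact ⟨v, rfl, fun h => (h rfl).elim, fun s => by rw [zero_smul, G.exp_zero, zero_add]⟩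
  · refine ⟨t⁻¹ • vel x (t • v), ?_, fun _ => rfl, fun s => ?_⟩
    · rw [norm_smul, G.norm_vel, norm_smul, norm_inv, ← mul_assoc,
        inv_mul_cancel₀ (norm_ne_zero_iff.2 ht), one_mul]
    · rw [smul_smul, G.flow, smul_smul]
      congr 2
      field_simp

theorem dist_ray (x : M) (v : E) (t s : ℝ) :
    dist (exp x (t • v)) (exp x (s • v)) ≤ |s - t| * ‖v‖ := by
  obtain ⟨u, hu, -, h⟩ := G.shift x v t
  have := G.dist_le (exp x (t • v)) ((s - t) • u)
  rwa [h, add_sub_cancel, norm_smul, hu, Real.norm_eq_abs] at this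

theorem min_smul {x : M} {v : E} (hv : v ∈ MinS exp x) {t : ℝ} (h0 : 0 ≤ t) (h1 : t ≤ 1) :
    t • v ∈ MinS exp x := by
  refine le_antisymm (G.dist_le _ _) ?_
  have h2 := G.dist_ray x v t 1
  have h3 := dist_triangle x (exp x (t • v)) (exp x ((1 : ℝ) • v))
  rw [one_smul] at h2 h3
  rw [show dist x (exp x v) = ‖v‖ from hv] at h3
  rw [abs_of_nonneg (by linarith)] at h2
  rw [norm_smul, Real.norm_eq_abs, abs_of_nonneg h0]
  linarith

theorem inj_smul {x : M} {v : E} {s t : ℝ} (hv : s • v ∈ MinS exp x) (h0 : 0 ≤ t) (h1 : t < s) :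
    t • v ∈ InjS exp x := by
  have hs : 0 < s := h0.trans_lt h1
  rcases h0.eq_or_lt with rfl | h
  · refine ⟨2, by norm_num, ?_⟩
    simp [MinS, G.exp_zero]
  · refine ⟨s / t, (one_lt_div h).2 h1, ?_⟩
    rwa [smul_smul, div_mul_cancel₀ _ h.ne']

theorem min_of_inj {x : M} {v : E} (hv : v ∈ InjS exp x) : v ∈ MinS exp x := by
  obtain ⟨a, ha, h⟩ := hv
  have := G.min_smul h (t := a⁻¹) (by positivity) (inv_le_one_of_one_le₀ ha.le)
  rwa [smul_smul, inv_mul_cancel₀ (by positivity), one_smul] at this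

theorem cst_exp_le (x : M) (v : E) : cst x (exp x v) ≤ ‖v‖ ^ 2 / 2 :=
  cst_le_of_dist (G.dist_le x v)

theorem min_of_le_cst {x : M} {v : E} (h : ‖v‖ ^ 2 / 2 ≤ cst x (exp x v)) : v ∈ MinS exp x := by
  refine le_antisymm (G.dist_le _ _) (abs_le_of_sq_le_sq' ?_ dist_nonneg).2
  unfold cst at h
  linarith

theorem isCompact_R [CompactSpace M] [FiniteDimensional ℝ E] {Φ : M → ℝ} (hc : Continuous Φ)
    (x : M) : IsCompact {p | p ∈ MinS exp x ∧ Ct Φ x (exp x p)} := by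
  obtain ⟨D, -, hD⟩ := exists_diam (M := M)
  refine Metric.isCompact_of_isClosed_isBounded (IsClosed.inter ?_ ?_) ?_
  · exact isClosed_eq (continuous_const.dist (G.exp_cont x)) continuous_norm
  · exact (isClosed_ct hc).preimage (continuous_const.prodMk (G.exp_cont x))
  · refine (Metric.isBounded_closedBall (x := (0 : E)) (r := D)).subset fun p hp => ?_
    rw [mem_closedBall_zero_iff, ← show dist x (exp x p) = ‖p‖ from hp.1]
    exact hD _ _

/-- semiconcavity of `τ ↦ c(exp (τ ξ), y)` in difference form. -/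
theorem sc_slope (x y : M) (ξ : E) {h r : ℝ} (h0 : 0 < h) (hr : h < r) :
    h * (cst (exp x (r • ξ)) y - cst (exp x (h • ξ)) y) - L * ‖ξ‖ ^ 2 * r * (h * (r - h)) ≤
      (r - h) * (cst (exp x (h • ξ)) y - cst x y) := by
  obtain ⟨u, hu, -, hs⟩ := G.shift x ξ h
  obtain ⟨p, hp, hp'⟩ := G.surj (exp x (h • ξ)) y
  have hm : p ∈ MinS exp (exp x (h • ξ)) := by rw [MinS, mem_ofPred_eq, hp, hp']
  have h1 := G.sc _ p hm ((-h) • u)
  have h2 := G.sc _ p hm ((r - h) • u)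
  rw [hs, hp, ← cst_of_min hm, hp, real_inner_smul_right, norm_smul, hu, Real.norm_eq_abs,
    mul_pow, sq_abs] at h1 h2
  rw [add_neg_cancel, zero_smul, G.exp_zero] at h1
  rw [add_sub_cancel] at h2
  have h3 := mul_le_mul_of_nonneg_left h1 (sub_pos.2 hr).le
  have h4 := mul_le_mul_of_nonneg_left h2 h0.le
  linarith

/-- Danskin: supergradients lie in the convex hull of the active vectors. -/
theorem danskin [CompactSpace M] [FiniteDimensional ℝ E] {Φ : M → ℝ} (hΦ : ∀ x, ∃ y, Ct Φ x y)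
    (x : M) (u : E) (hu : ∀ (ξ : E) (ε : ℝ), 0 < ε → ∀ᶠ h in 𝓝[>] (0 : ℝ),
      Φ (exp x (h • ξ)) ≤ Φ x - h * ⟪u, ξ⟫_ℝ + ε * h) :
    u ∈ convexHull ℝ {p | p ∈ MinS exp x ∧ Ct Φ x (exp x p)} := by
  have hc := ct_continuous hΦ
  by_contra hcon
  obtain ⟨f, a, hf1, hf2⟩ := geometric_hahn_banach_closed_point (convex_convexHull ℝ _)
    (hull_compact (G.isCompact_R hc x)).isClosed hcon
  set ξ : E := (InnerProductSpace.toDual ℝ E).symm f with hξ
  have hfξ : ∀ w, ⟪w, ξ⟫_ℝ = f w := fun w => by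
    rw [real_inner_comm, hξ, InnerProductSpace.toDual_symm_apply]
  set ε : ℝ := (f u - a) / 4 with hε
  have hε0 : 0 < ε := by linarith
  obtain ⟨h, hh, hh0⟩ := exists_seq_forall_of_frequently
    (((hu ξ ε hε0).and self_mem_nhdsWithin).frequently)
  have hh' : Tendsto h atTop (𝓝 0) := hh.mono_right nhdsWithin_le_nhds
  choose y hy using fun k => hΦ (exp x (h k • ξ))
  obtain ⟨y0, -, φ, hφ, hlim⟩ := isCompact_univ.tendsto_subseq fun k => mem_univ (y k)
  have hhφ := hh'.comp hφ.tendsto_atTop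
  have hx : Tendsto (fun k => exp x (h (φ k) • ξ)) atTop (𝓝 x) := by
    have := ((G.exp_cont x).tendsto ((0 : ℝ) • ξ)).comp (hhφ.smul_const ξ)
    rwa [zero_smul, G.exp_zero] at this
  have hy0 : Ct Φ x y0 :=
    (isClosed_ct hc).mem_of_tendsto (hx.prodMk_nhds hlim) (Eventually.of_forall fun k => hy _)
  obtain ⟨p, hp, hpy, hfv⟩ := G.fv x y0 ξ ε hε0
  have hsm : ∀ᶠ r in 𝓝[>] (0 : ℝ), L * ‖ξ‖ ^ 2 * r < ε := by
    refine nhdsWithin_le_nhds (ContinuousAt.eventually_lt (by fun_prop) continuousAt_const ?_)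
    simpa using hε0
  obtain ⟨r, ⟨hr1, hr2⟩, hr0⟩ := ((hfv.and hsm).and self_mem_nhdsWithin).exists
  have hr0 : 0 < r := hr0
  have hpa : f p < a := hf1 p (subset_convexHull ℝ _ ⟨hp, hpy ▸ hy0⟩)
  rw [hfξ] at hr1
  have key : ∀ᶠ k in atTop, cst (exp x (r • ξ)) (y (φ k)) - cst (exp x (h (φ k) • ξ)) (y (φ k)) -
      L * ‖ξ‖ ^ 2 * r * (r - h (φ k)) ≤ (r - h (φ k)) * (-f u + ε) := by
    filter_upwards [hhφ.eventually (Iio_mem_nhds hr0)] with k hk
    have hk : h (φ k) < r := hk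
    obtain ⟨h1, h2⟩ := hh0 (φ k)
    have h2 : 0 < h (φ k) := h2
    have h3 := G.sc_slope x (y (φ k)) ξ h2 hk
    have h4 := hy (φ k) x
    rw [hfξ] at h1
    have h5 : cst (exp x (h (φ k) • ξ)) (y (φ k)) - cst x (y (φ k)) ≤ h (φ k) * (-f u + ε) := by
      linarith
    have h6 := mul_le_mul_of_nonneg_left h5 (sub_pos.2 hk).le
    refine le_of_mul_le_mul_left ?_ h2
    linarith
  have l1 : Tendsto (fun k => cst (exp x (r • ξ)) (y (φ k)) -
      cst (exp x (h (φ k) • ξ)) (y (φ k)) - L * ‖ξ‖ ^ 2 * r * (r - h (φ k))) atTop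
      (𝓝 (cst (exp x (r • ξ)) y0 - cst x y0 - L * ‖ξ‖ ^ 2 * r * (r - 0))) :=
    (((continuous_cst.tendsto (_, y0)).comp (tendsto_const_nhds.prodMk_nhds hlim)).sub
      ((continuous_cst.tendsto (x, y0)).comp (hx.prodMk_nhds hlim))).sub
      ((tendsto_const_nhds.sub hhφ).const_mul _)
  have l2 : Tendsto (fun k => (r - h (φ k)) * (-f u + ε)) atTop (𝓝 ((r - 0) * (-f u + ε))) :=
    (tendsto_const_nhds.sub hhφ).mul_const _
  have l3 := le_of_tendsto_of_tendsto l1 l2 key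
  have l4 := mul_lt_mul_of_pos_right hr2 hr0
  have l5 := mul_lt_mul_of_pos_right hpa hr0
  have l6 : f u = a + 4 * ε := by rw [hε]; ring
  rw [l6] at l3
  nlinarith [mul_pos hε0 hr0]

/-- the step lemma. -/
theorem step (C D : ℝ) : ∃ σ0 : ℝ, 0 < σ0 ∧ ∀ (f : M → ℝ) (m : M) (p : E) (a : ℝ), ‖p‖ ≤ D →
    (∀ μ, a + ⟪p, μ⟫_ℝ - C * ‖μ‖ ^ 2 ≤ f (exp m μ)) → ∀ σ, 0 < σ → σ ≤ σ0 → ∀ m',
      a + σ * ‖p‖ ^ 2 / 2 ≤ f m' + cst m' (exp m (σ • p)) / σ := by
  have hδ := G.δ_pos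
  set K : ℝ := |D| / δ with hK
  have hK0 : 0 ≤ K := by positivity
  have hKδ : K * δ = |D| := by rw [hK]; field_simp
  refine ⟨min (1 / (2 * K + 1)) (1 / (8 * (|C| + 2 * K) + 1)), by positivity,
    fun f m p a hp hf σ h0 h1 m' => ?_⟩
  have s1 : σ * (2 * K + 1) ≤ 1 := (le_div_iff₀ (by positivity)).1 (h1.trans (min_le_left _ _))
  have s2 : σ * (8 * (|C| + 2 * K) + 1) ≤ 1 :=
    (le_div_iff₀ (by positivity)).1 (h1.trans (min_le_right _ _))
  obtain ⟨μ, rfl, hμ⟩ := G.surj m m'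
  have hp' : ‖p‖ ≤ K * δ := hKδ ▸ hp.trans (le_abs_self D)
  have hσp : ‖σ • p‖ = σ * ‖p‖ := by rw [norm_smul, Real.norm_eq_abs, abs_of_pos h0]
  have hσK : σ * K ≤ 1 / 2 := by linarith
  have hσp' : σ * ‖p‖ ≤ δ / 2 := by nlinarith
  have hC : C * ‖μ‖ ^ 2 ≤ |C| * ‖μ‖ ^ 2 := mul_le_mul_of_nonneg_right (le_abs_self C) (sq_nonneg _)
  have hf' := hf μ
  rw [← sub_le_iff_le_add', le_div_iff₀ h0]
  have hσC : σ * |C| ≤ 1 / 8 := by nlinarith [mul_nonneg h0.le hK0]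
  rcases le_total ‖μ‖ δ with hm | hm
  · have h2 := G.lc m μ (σ • p) hm (by rw [hσp]; linarith)
    rw [hσp, real_inner_smul_left] at h2
    have h3 := mul_le_mul_of_nonneg_right hσC (sq_nonneg ‖μ‖)
    have h4 := mul_le_mul_of_nonneg_left
      (hf'.trans' (by linarith : a + ⟪p, μ⟫_ℝ - |C| * ‖μ‖ ^ 2 ≤ _)) h0.le
    nlinarith [sq_nonneg ‖μ‖]
  · have h2 : ‖μ‖ / 2 ≤ dist (exp m μ) (exp m (σ • p)) := by
      have h3 := dist_triangle_right m (exp m μ) (exp m (σ • p))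
      have h4 := G.dist_le m (σ • p)
      linarith
    have h3 : (‖μ‖ / 2) ^ 2 / 2 ≤ cst (exp m μ) (exp m (σ • p)) := by
      unfold cst
      gcongr
    have h4 : ‖p‖ ≤ K * ‖μ‖ := hp'.trans (mul_le_mul_of_nonneg_left hm hK0)
    have h5 : -(K * ‖μ‖ ^ 2) ≤ ⟪p, μ⟫_ℝ := by
      have := (abs_le.1 (abs_real_inner_le_norm p μ)).1
      nlinarith [norm_nonneg μ]
    have h6 : σ * ‖p‖ ^ 2 ≤ K * ‖μ‖ ^ 2 := by
      have h7 : ‖p‖ ^ 2 ≤ (K * ‖μ‖) ^ 2 := pow_le_pow_left₀ (norm_nonneg _) h4 2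
      have h8 := mul_le_mul_of_nonneg_left h7 h0.le
      have h9 := mul_le_mul_of_nonneg_right hσK (by positivity : 0 ≤ K * ‖μ‖ ^ 2)
      nlinarith [mul_nonneg hK0 (sq_nonneg ‖μ‖)]
    have h7 : a + σ * ‖p‖ ^ 2 / 2 - f (exp m μ) ≤ (|C| + 2 * K) * ‖μ‖ ^ 2 := by
      nlinarith [mul_nonneg hK0 (sq_nonneg ‖μ‖)]
    have h8 := mul_le_mul_of_nonneg_right h7 h0.le
    have h9 : σ * (|C| + 2 * K) ≤ 1 / 8 := by linarith
    have h10 := mul_le_mul_of_nonneg_right h9 (sq_nonneg ‖μ‖)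
    linarith

end Geo1

end Crest.Agent.R226.L

end
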