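import Crest.Agent.R226.LF
import Crest.Agent.R226.LOne

/-! # rid 226, part L: the Hopf–Lax property `PP` and the uniform semiconvexity estimate -/

set_option autoImplicit false

open Set Filter Topology Pointwise
open scoped InnerProductSpace

noncomputable section

namespace Crest.Agent.R226.L

variable {M : Type*} [MetricSpace M] {E : Type} [NormedAddCommGroup E] [InnerProductSpace ℝ E]
  {exp : M → E → M} {vel : M → E → E} {A P : M → E → E →L[ℝ] E} {c0 L L' δ : ℝ} {Φ : M → ℝ}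

/-- active vectors -/
def RS (exp : M → E → M) (Φ : M → ℝ) (x : M) : Set E := {p | p ∈ MinS exp x ∧ Ct Φ x (exp x p)}

/-- the characteristics are minimising up to time `s` -/
def PP (exp : M → E → M) (Φ : M → ℝ) (s : ℝ) : Prop :=
  ∀ x, ∀ v ∈ convexHull ℝ (RS exp Φ x), ∀ z,
    s * ‖v‖ ^ 2 / 2 - Φ x ≤ cst z (exp x (s • v)) / s - Φ z

theorem hull_norm_le {D : ℝ} (hD : ∀ x y : M, dist x y ≤ D) {x : M} {v : E}
    (hv : v ∈ convexHull ℝ (RS exp Φ x)) : ‖v‖ ≤ D :=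
  mem_closedBall_zero_iff.1 (convexHull_min (fun p hp => mem_closedBall_zero_iff.2 (by
    rw [← show dist x (exp x p) = ‖p‖ from hp.1]; exact hD _ _)) (convex_closedBall (0 : E) D) hv)

namespace Geo1

variable (G : Geo1 exp vel L δ)
include G

theorem super_of_hull {x : M} {v : E} (hv : v ∈ convexHull ℝ (RS exp Φ x)) (ξ : E) :
    Φ (exp x ξ) ≤ Φ x - ⟪v, ξ⟫_ℝ + L * ‖ξ‖ ^ 2 := by
  have hc : Convex ℝ {w : E | ⟪ξ, w⟫_ℝ ≤ Φ x + L * ‖ξ‖ ^ 2 - Φ (exp x ξ)} :=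
    convex_halfSpace_le (innerSL ℝ ξ).isLinear _
  have := convexHull_min (s := RS exp Φ x) (fun p hp => by
    have h1 := hp.2 (exp x ξ)
    have h2 := G.sc x p hp.1 ξ
    rw [cst_of_min hp.1] at h1
    change ⟪ξ, p⟫_ℝ ≤ _
    rw [real_inner_comm]
    linarith) hc hv
  change ⟪ξ, v⟫_ℝ ≤ _ at this
  rw [real_inner_comm] at this
  linarith

theorem PP_mono {s t : ℝ} (h : PP exp Φ s) (h0 : 0 < t) (h1 : t < s) : PP exp Φ t := by
  intro x v hv z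
  have h2 := G.dist_ray x v t s
  rw [abs_of_pos (sub_pos.2 h1)] at h2
  have h3 := cst_split z _ _ h0 (sub_pos.2 h1) h2
  rw [add_sub_cancel] at h3
  linarith [h x v hv z]

theorem PP_min {s : ℝ} (h : PP exp Φ s) (h0 : 0 < s) {x : M} {v : E}
    (hv : v ∈ convexHull ℝ (RS exp Φ x)) : s • v ∈ MinS exp x := by
  refine G.min_of_le_cst ?_
  have := h x v hv x
  rw [sub_le_sub_iff_right, le_div_iff₀ h0] at this
  rw [norm_smul, mul_pow, Real.norm_eq_abs, sq_abs]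
  linarith

theorem PP_unique {s t : ℝ} (h : PP exp Φ s) (h0 : 0 < t) (h1 : t < s) {x z : M} {v : E}
    (hv : v ∈ convexHull ℝ (RS exp Φ x))
    (hz : cst z (exp x (t • v)) / t - Φ z ≤ t * ‖v‖ ^ 2 / 2 - Φ x) : z = x := by
  have hst : 0 < s - t := sub_pos.2 h1
  have hL := G.L_pos
  obtain ⟨p, hp, -, hs⟩ := G.shift x v t
  obtain ⟨u, hu, hu'⟩ := G.surj (exp x (t • v)) z
  have hum : u ∈ MinS exp (exp x (t • v)) := by rw [MinS, mem_ofPred_eq, hu, hu']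
  have hn : ‖(s - t) • p‖ = (s - t) * ‖v‖ := by rw [norm_smul, hp, Real.norm_eq_abs, abs_of_pos hst]
  have hpm : (s - t) • p ∈ MinS exp (exp x (t • v)) := by
    refine le_antisymm (G.dist_le _ _) ?_
    have a1 : dist x (exp x (s • v)) = ‖s • v‖ := G.PP_min h (h0.trans h1) hv
    have a2 := G.dist_le x (t • v)
    have a3 := dist_triangle x (exp x (t • v)) (exp x (s • v))
    rw [norm_smul, Real.norm_eq_abs, abs_of_pos (by linarith)] at a1 a2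
    rw [hs, add_sub_cancel, hn]
    linarith
  set w : E := t⁻¹ • u + p with hw
  set K : ℝ := L / t + L / (s - t) with hK
  have hK0 : 0 < K := by positivity
  have key : ∀ μ : E, ⟪w, μ⟫_ℝ ≤ K * ‖μ‖ ^ 2 := fun μ => by
    have a1 := G.sc _ u hum μ
    have a2 := G.sc _ _ hpm μ
    rw [hs, add_sub_cancel, hn, real_inner_smul_left] at a2
    rw [hu, ← cst_of_min hum, hu, cst_comm _ z, cst_comm _ z] at a1
    have a3 := cst_split z (exp (exp x (t • v)) μ) (exp x (s • v)) h0 hst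
      (r := dist (exp (exp x (t • v)) μ) (exp x (s • v)) / (s - t)) (by field_simp; exact le_rfl)
    have a4 : (s - t) * (dist (exp (exp x (t • v)) μ) (exp x (s • v)) / (s - t)) ^ 2 / 2 =
        cst (exp (exp x (t • v)) μ) (exp x (s • v)) / (s - t) := by
      unfold cst; field_simp
    rw [add_sub_cancel, a4] at a3
    have a5 := div_le_div_of_nonneg_right a1 h0.le
    have a6 := div_le_div_of_nonneg_right a2 hst.le
    have a7 : (((s - t) * ‖v‖) ^ 2 / 2 - (s - t) * ⟪p, μ⟫_ℝ + L * ‖μ‖ ^ 2) / (s - t) =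
        (s - t) * ‖v‖ ^ 2 / 2 - ⟪p, μ⟫_ℝ + L / (s - t) * ‖μ‖ ^ 2 := by field_simp
    have a8 : (cst z (exp x (t • v)) - ⟪u, μ⟫_ℝ + L * ‖μ‖ ^ 2) / t =
        cst z (exp x (t • v)) / t - t⁻¹ * ⟪u, μ⟫_ℝ + L / t * ‖μ‖ ^ 2 := by field_simp
    rw [hw, inner_add_left, real_inner_smul_left, hK]
    linarith [h x v hv z]
  have hw0 : w = 0 := by
    have a1 := key ((2 * K)⁻¹ • w)
    rw [real_inner_smul_right, real_inner_self_eq_norm_sq, norm_smul, mul_pow, Real.norm_eq_abs,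
      sq_abs] at a1
    have a2 : K * ((2 * K)⁻¹ ^ 2 * ‖w‖ ^ 2) = (2 * K)⁻¹ * ‖w‖ ^ 2 / 2 := by field_simp
    have a3 : (2 * K)⁻¹ * ‖w‖ ^ 2 ≤ 0 := by linarith
    have a4 : ‖w‖ ^ 2 ≤ 0 := le_of_mul_le_mul_left (by simpa using a3) (by positivity : 0 < (2 * K)⁻¹)
    exact norm_eq_zero.1 (pow_eq_zero_iff two_ne_zero |>.1 (le_antisymm a4 (sq_nonneg _)))
  have hup : u = (-t) • p := by
    have : u = t • (w - p) := by rw [hw, add_sub_cancel_right, smul_inv_smul₀ h0.ne']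
    rw [this, hw0, zero_sub, smul_neg, neg_smul]
  rw [← hu, hup, hs, add_neg_cancel, zero_smul, G.exp_zero]

theorem exists_foot [CompactSpace M] [FiniteDimensional ℝ E] (hΦ : ∀ x, ∃ y, Ct Φ x y) {t : ℝ}
    (h0 : 0 < t) (m : M) : ∃ z, ∃ v ∈ convexHull ℝ (RS exp Φ z), exp z (t • v) = m := by
  have hc := ct_continuous hΦ
  obtain ⟨z, -, hz⟩ := isCompact_univ.exists_isMinOn ⟨m, mem_univ m⟩
    (f := fun z => cst z m / t - Φ z)
    (((continuous_cst.comp (continuous_id.prodMk continuous_const)).div_const t).sub hc).continuousOn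
  obtain ⟨u, hu, hu'⟩ := G.surj z m
  have hum : u ∈ MinS exp z := by rw [MinS, mem_ofPred_eq, hu, hu']
  refine ⟨z, t⁻¹ • u, G.danskin hΦ z _ fun ξ ε hε => ?_, by rw [smul_inv_smul₀ h0.ne', hu]⟩
  have hsm : ∀ᶠ r in 𝓝[>] (0 : ℝ), L * ‖ξ‖ ^ 2 / t * r < ε := by
    refine nhdsWithin_le_nhds (ContinuousAt.eventually_lt (by fun_prop) continuousAt_const ?_)
    simpa using hε
  filter_upwards [hsm, self_mem_nhdsWithin] with h h1 h2
  have h2 : 0 < h := h2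
  have a1 : cst z m / t - Φ z ≤ cst (exp z (h • ξ)) m / t - Φ (exp z (h • ξ)) := hz (mem_univ _)
  have a2 := G.sc z u hum (h • ξ)
  rw [← cst_of_min hum, hu, real_inner_smul_right, norm_smul, mul_pow, Real.norm_eq_abs,
    sq_abs] at a2
  have a3 := div_le_div_of_nonneg_right a2 h0.le
  have a4 : (cst z m - h * ⟪u, ξ⟫_ℝ + L * (h ^ 2 * ‖ξ‖ ^ 2)) / t =
      cst z m / t - h * (t⁻¹ * ⟪u, ξ⟫_ℝ) + L * ‖ξ‖ ^ 2 / t * h * h := by field_simp
  have a5 := mul_lt_mul_of_pos_right h1 h2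
  rw [real_inner_smul_left]
  linarith

end Geo1

/-- the near part of the key estimate. -/
theorem key_near [CompactSpace M] [FiniteDimensional ℝ E] (G : Geo1 exp vel L δ)
    (G2 : Geo2 exp vel A P c0 L') (hL' : 0 < L') {t0 t1 : ℝ} (h0 : 0 < t0) (h1 : t1 < 1) :
    ∃ C : ℝ, ∀ (Φ : M → ℝ) (s t : ℝ), t0 ≤ t → t < s → s ≤ t1 → PP exp Φ s →
      ∀ x, ∀ v ∈ convexHull ℝ (RS exp Φ x), ∀ᶠ w in 𝓝 ((0, 0) : E × E),
        t * ‖v‖ ^ 2 / 2 - Φ x + t⁻¹ * ⟪vel x (t • v), w.2⟫_ℝ - C * ‖w.2‖ ^ 2 ≤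
          cst (exp x w.1) (exp (exp x (t • v)) w.2) / t - Φ (exp x w.1) := by
  obtain ⟨D, -, hD⟩ := exists_diam (M := M)
  obtain ⟨κ, hκ, hmono⟩ := G2.mono t0 h0 ((1 - t1) / 2) (by linarith)
  obtain ⟨Λ0, hΛ0⟩ := G2.inner_bd t1 h1
  obtain ⟨Λ, hΛ⟩ := lemF_hull G2 hL' D Λ0
  obtain ⟨C, hC⟩ := G2.tay_lo Λ (κ * t0 / 8) (by positivity)
  refine ⟨|C| / t0, fun Φ s t ht hts hs hP x v hv => ?_⟩
  have ht0 : 0 < t := h0.trans_le ht
  set t' : ℝ := (1 + t1) / 2 with ht'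
  have ht'1 : t' < 1 := by linarith
  have htt' : t + (1 - t1) / 2 ≤ t' := by linarith
  have ht'0 : 0 < t' := by linarith
  have hin : convexHull ℝ (t • RS exp Φ x) ⊆ InjS exp x := by
    rw [convexHull_smul]
    rintro _ ⟨q, hq, rfl⟩
    exact G.inj_smul (G.PP_min hP (ht0.trans hts) hq) ht0.le hts
  have htv : t • v ∈ convexHull ℝ (t • RS exp Φ x) := by
    rw [convexHull_smul]; exact smul_mem_smul_set hv
  have hA := hΛ x _ hin (by
      rintro _ ⟨p, hp, rfl⟩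
      have := hull_norm_le hD (subset_convexHull ℝ _ hp)
      change ‖t • p‖ ≤ D
      rw [norm_smul, Real.norm_eq_abs, abs_of_pos ht0]
      nlinarith [norm_nonneg p]) (by
      rintro _ ⟨p, hp, rfl⟩
      exact hΛ0 x p hp.1 t ⟨ht0.le, by linarith⟩) _ htv
  obtain ⟨ι, _, z, θ, hz, -, hθ, hθ1, hθv⟩ := eq_pos_convex_span_of_mem_convexHull hv
  have hzi : ∀ i, z i ∈ RS exp Φ x := fun i => hz ⟨i, rfl⟩
  have hk := kink (d := fun i => z i - v) (θ := θ)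
    (B := fun i => (2 * t)⁻¹ • A x (t • v) - (2 * t')⁻¹ • A x (t' • z i)) (half_pos hκ) hθ hθ1
    (by simp only [smul_sub, Finset.sum_sub_distrib, hθv, ← Finset.sum_smul, hθ1, one_smul,
      sub_self]) (fun ζ hζ => by
      have hcc : ConcaveOn ℝ (convexHull ℝ (t • RS exp Φ x) ∩ {q | ⟪ζ, q⟫_ℝ = ⟪ζ, t • v⟫_ℝ})
          fun q => ⟪A x q ζ, ζ⟫_ℝ := by
        refine ⟨(convex_convexHull ℝ _).inter (convex_hyperplane (innerSL ℝ ζ).isLinear _),
          fun q hq q' hq' a b ha hb hab => ?_⟩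
        have := G2.mtw x q q' (((convex_convexHull ℝ _).segment_subset hq.1 hq'.1).trans hin) ζ
          (by
            rw [real_inner_comm, inner_sub_right, show ⟪ζ, q⟫_ℝ = _ from hq.2,
              show ⟪ζ, q'⟫_ℝ = _ from hq'.2, sub_self]) b ⟨hb, by linarith⟩
        rwa [show 1 - b = a by linarith] at this
      have hj := hcc.le_map_sum (t := Finset.univ) (w := θ) (p := fun i => t • z i)
        (fun i _ => (hθ i).le) hθ1 (fun i _ => ⟨subset_convexHull ℝ _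
          (smul_mem_smul_set (hzi i)), by
            have := hζ i
            rw [real_inner_comm, inner_sub_right, sub_eq_zero] at this
            simp only [mem_ofPred_eq, real_inner_smul_right, this]⟩)
      have he : ∑ i, θ i • t • z i = t • v := by
        rw [← hθv, Finset.smul_sum]
        exact Finset.sum_congr rfl fun i _ => smul_comm _ _ _
      rw [he] at hj
      have hterm : ∀ i, θ i * (κ / 2 * ‖ζ‖ ^ 2 + (2 * t)⁻¹ * ⟪A x (t • v) ζ, ζ⟫_ℝ) -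
          (2 * t)⁻¹ * (θ i • ⟪A x (t • z i) ζ, ζ⟫_ℝ) ≤
          θ i * ⟪((2 * t)⁻¹ • A x (t • v) - (2 * t')⁻¹ • A x (t' • z i)) ζ, ζ⟫_ℝ := fun i => by
        have a1 := hmono x (z i) (hzi i).1 t t' ht htt' ht'1 ζ
        have a2 := mul_le_mul_of_nonneg_left a1 (hθ i).le
        simp only [sub_apply, smul_apply, inner_sub_left, real_inner_smul_left, smul_eq_mul,
          mul_inv, div_eq_mul_inv] at a2 ⊢
        linarith
      have hsum := Finset.sum_le_sum fun i (_ : i ∈ Finset.univ) => hterm i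
      rw [Finset.sum_sub_distrib, ← Finset.sum_mul, hθ1, ← Finset.mul_sum] at hsum
      have := mul_le_mul_of_nonneg_left hj (by positivity : 0 ≤ (2 * t)⁻¹)
      linarith)
  have hu : ∀ᶠ ζ in 𝓝 (0 : E), ∀ i, cst (exp x ζ) (exp x (t' • z i)) ≤ ‖t' • z i‖ ^ 2 / 2 -
      ⟪t' • z i, ζ⟫_ℝ + ⟪A x (t' • z i) ζ, ζ⟫_ℝ / 2 + κ * t0 / 8 * ‖ζ‖ ^ 2 :=
    eventually_all.2 fun i => G2.tay_up x _
      (G.inj_smul (s := 1) (by rw [one_smul]; exact (hzi i).1) ht'0.le ht'1) _ (by positivity)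
  have hfst : Tendsto (fun w : E × E => w.1) (𝓝 (0, 0)) (𝓝 0) := continuous_fst.tendsto' _ _ rfl
  filter_upwards [hC x _ (hin htv) hA, hfst.eventually hk, hfst.eventually hu] with w a1 a2 a3
  obtain ⟨i, a2⟩ := a2
  have a4 := (hzi i).2 (exp x w.1)
  have a5 := G.dist_ray x (z i) t' 1
  rw [abs_of_pos (sub_pos.2 ht'1), one_smul] at a5
  have a6 := cst_split (exp x w.1) _ _ ht'0 (sub_pos.2 ht'1) a5
  rw [add_sub_cancel, div_one] at a6
  rw [cst_of_min (hzi i).1] at a4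
  have a7 := div_le_div_of_nonneg_right (a3 i) ht'0.le
  have a8 := div_le_div_of_nonneg_right a1 ht0.le
  simp only [norm_smul, Real.norm_eq_abs, mul_pow, sq_abs, real_inner_smul_left] at a7 a8
  simp only [sub_apply, smul_apply, inner_sub_left, real_inner_smul_left] at a2
  have b1 : (t' ^ 2 * ‖z i‖ ^ 2 / 2 - t' * ⟪z i, w.1⟫_ℝ + ⟪A x (t' • z i) w.1, w.1⟫_ℝ / 2 +
      κ * t0 / 8 * ‖w.1‖ ^ 2) / t' = t' * ‖z i‖ ^ 2 / 2 - ⟪z i, w.1⟫_ℝ +
      (2 * t')⁻¹ * ⟪A x (t' • z i) w.1, w.1⟫_ℝ + t0 / t' * (κ / 8 * ‖w.1‖ ^ 2) := by field_simp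
  have b2 : (t ^ 2 * ‖v‖ ^ 2 / 2 - t * ⟪v, w.1⟫_ℝ + ⟪vel x (t • v), w.2⟫_ℝ +
      ⟪A x (t • v) w.1, w.1⟫_ℝ / 2 - κ * t0 / 8 * ‖w.1‖ ^ 2 - C * ‖w.2‖ ^ 2) / t =
      t * ‖v‖ ^ 2 / 2 - ⟪v, w.1⟫_ℝ + t⁻¹ * ⟪vel x (t • v), w.2⟫_ℝ +
      (2 * t)⁻¹ * ⟪A x (t • v) w.1, w.1⟫_ℝ - t0 / t * (κ / 8 * ‖w.1‖ ^ 2) -
      C / t * ‖w.2‖ ^ 2 := by field_simp
  have b3 : t0 / t' * (κ / 8 * ‖w.1‖ ^ 2) ≤ κ / 8 * ‖w.1‖ ^ 2 :=
    mul_le_of_le_one_left (by positivity) ((div_le_one ht'0).2 (by linarith))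
  have b4 : t0 / t * (κ / 8 * ‖w.1‖ ^ 2) ≤ κ / 8 * ‖w.1‖ ^ 2 :=
    mul_le_of_le_one_left (by positivity) ((div_le_one ht0).2 ht)
  have b5 : C / t * ‖w.2‖ ^ 2 ≤ |C| / t0 * ‖w.2‖ ^ 2 :=
    mul_le_mul_of_nonneg_right (div_le_div₀ (abs_nonneg C) (le_abs_self C) h0 ht) (sq_nonneg _)
  rw [b1] at a7
  rw [b2] at a8
  linarith

end Crest.Agent.R226.L

end
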