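import Mathlib

/-!
# R226 / OT : Kantorovich duality and the structure of optimal maps (no manifold here)

`X`, `Y` compact metric spaces, `c` a cost which is Lipschitz in each variable.  A maximiser of the dual problem exists
(Arzela-Ascoli).  If contact points of conjugate pairs are a.e. unique, the contact map pushes `μ` to `ν`
(perturb `Ψ` by `ε h`), hence every optimal map is a.e. a contact map and the contact relation preserves measures.
-/

set_option autoImplicit false

namespace Crest.Agent.R226.OT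

open MeasureTheory Set Filter Topology
open scoped NNReal ENNReal BoundedContinuousFunction

variable {X Y : Type*} [MetricSpace X] [MetricSpace Y]

/-- a cost which is Lipschitz in each variable -/
structure LipCost (L : ℝ≥0) (c : X → Y → ℝ) : Prop where
  lx : ∀ y, LipschitzWith L fun x => c x y
  ly : ∀ x, LipschitzWith L (c x)

/-- a pair of `c`-conjugate potentials -/
structure Conj (c : X → Y → ℝ) (Φ : X → ℝ) (Ψ : Y → ℝ) : Prop where
  le : ∀ x y, Φ x + Ψ y ≤ c x y
  exl : ∀ x, ∃ y, Φ x + Ψ y = c x y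
  exr : ∀ y, ∃ x, Φ x + Ψ y = c x y

variable {L : ℝ≥0} {c : X → Y → ℝ} {Φ : X → ℝ} {Ψ : Y → ℝ}

theorem LipCost.symm (h : LipCost L c) : LipCost L fun y x => c x y := ⟨h.ly, h.lx⟩

theorem LipCost.cont (h : LipCost L c) : Continuous fun p : X × Y => c p.1 p.2 :=
  continuous_prod_of_continuous_lipschitzWith _ L (fun x => (h.ly x).continuous) h.lx

theorem Conj.symm (h : Conj c Φ Ψ) : Conj (fun y x => c x y) Ψ Φ :=
  ⟨fun y x => by rw [add_comm]; exact h.le x y, fun y => by simpa only [add_comm] using h.exr y,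
    fun x => by simpa only [add_comm] using h.exl x⟩

theorem lip_of_exl (hc : LipCost L c) (hle : ∀ x y, Φ x + Ψ y ≤ c x y) (hex : ∀ x, ∃ y, Φ x + Ψ y = c x y) :
    LipschitzWith L Φ := by
  refine LipschitzWith.of_le_add_mul L fun x x' => ?_
  obtain ⟨y, hy⟩ := hex x'
  have h1 := hle x y
  have h2 := (hc.lx y).le_add_mul x x'
  linarith

theorem Conj.lip_left (h : Conj c Φ Ψ) (hc : LipCost L c) : LipschitzWith L Φ := lip_of_exl hc h.le h.exl

theorem Conj.lip_right (h : Conj c Φ Ψ) (hc : LipCost L c) : LipschitzWith L Ψ := h.symm.lip_left hc.symm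

/-- the `c`-transform -/
noncomputable def ct (c : X → Y → ℝ) (Ψ : Y → ℝ) (x : X) : ℝ := ⨅ y, (c x y - Ψ y)

section compact

variable [CompactSpace Y] [Nonempty Y]

theorem ct_ex (hc : LipCost L c) (hΨ : Continuous Ψ) (x : X) :
    ∃ y, ct c Ψ x + Ψ y = c x y ∧ ∀ y', c x y - Ψ y ≤ c x y' - Ψ y' := by
  obtain ⟨y, -, hy⟩ := isCompact_univ.exists_isMinOn univ_nonempty ((hc.ly x).continuous.sub hΨ).continuousOn
  have h1 : ∀ y', c x y - Ψ y ≤ c x y' - Ψ y' := fun y' => hy (mem_univ y')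
  refine ⟨y, ?_, h1⟩
  have : ct c Ψ x = c x y - Ψ y := le_antisymm (ciInf_le ⟨_, forall_mem_range.2 h1⟩ y) (le_ciInf h1)
  linarith

theorem ct_le (hc : LipCost L c) (hΨ : Continuous Ψ) (x : X) (y : Y) : ct c Ψ x + Ψ y ≤ c x y := by
  obtain ⟨y', h1, h2⟩ := ct_ex hc hΨ x
  linarith [h2 y]

theorem ct_exl (hc : LipCost L c) (hΨ : Continuous Ψ) (x : X) : ∃ y, ct c Ψ x + Ψ y = c x y :=
  (ct_ex hc hΨ x).imp fun _ h => h.1

theorem le_ct (hc : LipCost L c) (hΨ : Continuous Ψ) {x : X} {a : ℝ} (h : ∀ y, a + Ψ y ≤ c x y) :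
    a ≤ ct c Ψ x := by
  obtain ⟨y, hy⟩ := ct_exl hc hΨ x
  linarith [h y]

theorem ct_lip (hc : LipCost L c) (hΨ : Continuous Ψ) : LipschitzWith L (ct c Ψ) :=
  lip_of_exl hc (ct_le hc hΨ) (ct_exl hc hΨ)

/-- almost contact points converge to a unique contact point -/
theorem tendsto_of_unique (hc : LipCost L c) (hΦ : Continuous Φ) (hΨ : Continuous Ψ) {ι : Type*} {l : Filter ι}
    [l.IsCountablyGenerated] {a : ι → X} {b : ι → Y} {x : X} {y : Y} (ha : Tendsto a l (𝓝 x))
    (hb : Tendsto (fun i => c (a i) (b i) - Φ (a i) - Ψ (b i)) l (𝓝 0))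
    (hu : ∀ y', Φ x + Ψ y' = c x y' → y' = y) : Tendsto b l (𝓝 y) := by
  refine tendsto_of_subseq_tendsto fun ns hns => ?_
  obtain ⟨y', φ, hφ, h1⟩ := CompactSpace.tendsto_subseq fun n => b (ns n)
  refine ⟨φ, ?_⟩
  have h2 : Tendsto (fun n => a (ns (φ n))) atTop (𝓝 x) := (ha.comp hns).comp hφ.tendsto_atTop
  have h3 := (((hc.cont.tendsto (x, y')).comp (h2.prodMk_nhds h1)).sub ((hΦ.tendsto x).comp h2)).sub
    ((hΨ.tendsto y').comp h1)
  have h4 := tendsto_nhds_unique h3 ((hb.comp hns).comp hφ.tendsto_atTop)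
  rw [← hu y' (by simp only at h4; linarith)]
  exact h1

end compact

variable [CompactSpace X] [Nonempty X] [CompactSpace Y] [Nonempty Y] [MeasurableSpace X] [BorelSpace X]
  [MeasurableSpace Y] [BorelSpace Y] {μ : Measure X} {ν : Measure Y} [IsProbabilityMeasure μ]
  [IsProbabilityMeasure ν]

theorem int_cont {Z : Type*} [MetricSpace Z] [CompactSpace Z] [MeasurableSpace Z] [BorelSpace Z] {m : Measure Z}
    [IsFiniteMeasure m] {f : Z → ℝ} (hf : Continuous f) : Integrable f m :=
  hf.integrable_of_hasCompactSupport (HasCompactSupport.of_compactSpace f)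

variable (μ ν) in
/-- the dual problem has a solution -/
theorem exists_dual (hc : LipCost L c) : ∃ Φ Ψ, Conj c Φ Ψ ∧ ∀ (Φ' : X → ℝ) (Ψ' : Y → ℝ), Continuous Φ' →
    Continuous Ψ' → (∀ x y, Φ' x + Ψ' y ≤ c x y) →
      ∫ x, Φ' x ∂μ + ∫ y, Ψ' y ∂ν ≤ ∫ x, Φ x ∂μ + ∫ y, Ψ y ∂ν := by
  obtain ⟨x₀⟩ := ‹Nonempty X›
  obtain ⟨R, hR⟩ := (Metric.isBounded_iff_subset_closedBall x₀).1 (isCompact_univ (X := X)).isBounded
  let A : Set (X →ᵇ ℝ) := {f | (∀ x x', dist (f x) (f x') ≤ L * dist x x') ∧ f x₀ = 0}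
  have hA : IsCompact A := by
    refine BoundedContinuousFunction.arzela_ascoli₂ (Metric.closedBall 0 (L * R)) (isCompact_closedBall _ _) A ?_
      (fun f x hf => ?_) ?_
    · simp only [A, ofPred_and, ofPred_forall]
      refine (isClosed_iInter fun x => isClosed_iInter fun x' => isClosed_le (by fun_prop) continuous_const).inter
        (isClosed_eq (by fun_prop) continuous_const)
    · rw [Metric.mem_closedBall, ← hf.2]
      exact (hf.1 x x₀).trans (mul_le_mul_of_nonneg_left (hR (mem_univ x)) L.2)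
    · refine (Metric.uniformEquicontinuous_of_continuity_modulus (fun t => L * t) ?_ _
        fun x x' f => f.2.1 x x').equicontinuous
      exact (by fun_prop : Continuous fun t : ℝ => (L : ℝ) * t).tendsto' 0 0 (mul_zero _)
  let d : Y → X → ℝ := fun y x => c x y
  have hd : LipCost L d := hc.symm
  let J : (X →ᵇ ℝ) → ℝ := fun f => ∫ x, f x ∂μ + ∫ y, ct d f y ∂ν
  have hJ : ∀ f g : X →ᵇ ℝ, J f ≤ J g + 2 * dist f g := fun f g => by
    have h1 : ∫ x, f x ∂μ ≤ ∫ x, (g x + dist f g) ∂μ :=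
      integral_mono (int_cont f.continuous) (int_cont (g.continuous.add continuous_const)) fun x => by
        have := BoundedContinuousFunction.dist_coe_le_dist (f := f) (g := g) x
        rw [Real.dist_eq, abs_le] at this
        show f x ≤ g x + dist f g
        linarith [this.2]
    have h2 : ∫ y, ct d f y ∂ν ≤ ∫ y, (ct d g y + dist f g) ∂ν :=
      integral_mono (int_cont (ct_lip hd f.continuous).continuous)
        (int_cont ((ct_lip hd g.continuous).continuous.add continuous_const)) fun y => by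
        obtain ⟨x, hx⟩ := ct_exl hd g.continuous y
        have h3 := ct_le hd f.continuous y x
        have := BoundedContinuousFunction.dist_coe_le_dist (f := f) (g := g) x
        rw [Real.dist_eq, abs_le] at this
        show ct d f y ≤ ct d g y + dist f g
        linarith [this.1]
    rw [integral_add (int_cont g.continuous) (integrable_const _), integral_const] at h1
    rw [integral_add (int_cont (ct_lip hd g.continuous).continuous) (integrable_const _), integral_const] at h2
    simp only [probReal_univ, smul_eq_mul, one_mul] at h1 h2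
    simp only [J]
    linarith
  have hJc : Continuous J := (LipschitzWith.of_le_add_mul 2 fun f g => by simpa using hJ f g).continuous
  obtain ⟨f, -, hf⟩ := hA.exists_isMaxOn ⟨0, fun x x' => by simpa using mul_nonneg L.2 dist_nonneg, rfl⟩ hJc.continuousOn
  have cΨ := (ct_lip hd f.continuous).continuous
  have l1 : ∀ x, f x ≤ ct c (ct d f) x := fun x =>
    le_ct hc cΨ fun y => by linarith [ct_le hd f.continuous y x]
  refine ⟨ct c (ct d f), ct d f, ⟨ct_le hc cΨ, ct_exl hc cΨ, fun y => ?_⟩, fun Φ' Ψ' h1 h2 h3 => ?_⟩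
  · obtain ⟨x, hx⟩ := ct_exl hd f.continuous y
    exact ⟨x, le_antisymm (ct_le hc cΨ x y) (by linarith [l1 x])⟩
  · have k1 := ct_lip hc h2
    let g : X →ᵇ ℝ := BoundedContinuousFunction.mkOfCompact
      ⟨fun x => ct c Ψ' x - ct c Ψ' x₀, k1.continuous.sub continuous_const⟩
    have eg : ∀ x, g x = ct c Ψ' x - ct c Ψ' x₀ := fun x => rfl
    have hg : g ∈ A := ⟨fun x x' => by
      rw [eg, eg, dist_sub_right]
      exact k1.dist_le_mul x x', by rw [eg, sub_self]⟩
    have k2 : J g ≤ J f := hf hg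
    have k3 : ∫ x, (Φ' x - ct c Ψ' x₀) ∂μ ≤ ∫ x, g x ∂μ :=
      integral_mono (int_cont (h1.sub continuous_const)) (int_cont g.continuous) fun x => by
        have := le_ct hc h2 (h3 x)
        show Φ' x - _ ≤ g x
        rw [eg]
        linarith
    have k4 : ∫ y, (Ψ' y + ct c Ψ' x₀) ∂ν ≤ ∫ y, ct d g y ∂ν :=
      integral_mono (int_cont (h2.add continuous_const)) (int_cont (ct_lip hd g.continuous).continuous) fun y =>
        le_ct hd g.continuous fun x => by
          rw [eg]
          linarith [ct_le hc h2 x y]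
    have k5 : ∫ x, f x ∂μ ≤ ∫ x, ct c (ct d f) x ∂μ :=
      integral_mono (int_cont f.continuous) (int_cont (ct_lip hc cΨ).continuous) l1
    rw [integral_sub (int_cont h1) (integrable_const _), integral_const] at k3
    rw [integral_add (int_cont h2) (integrable_const _), integral_const] at k4
    simp only [probReal_univ, smul_eq_mul, one_mul] at k3 k4
    simp only [J] at k2
    linarith

/-- the contact map pushes `μ` to `ν` -/
theorem exists_map (hc : LipCost L c) (h : Conj c Φ Ψ)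
    (hmax : ∀ (Φ' : X → ℝ) (Ψ' : Y → ℝ), Continuous Φ' → Continuous Ψ' → (∀ x y, Φ' x + Ψ' y ≤ c x y) →
      ∫ x, Φ' x ∂μ + ∫ y, Ψ' y ∂ν ≤ ∫ x, Φ x ∂μ + ∫ y, Ψ y ∂ν)
    (hu : ∀ᵐ x ∂μ, ∀ y y', Φ x + Ψ y = c x y → Φ x + Ψ y' = c x y' → y = y') :
    ∃ S : X → Y, Measurable S ∧ μ.map S = ν ∧ ∀ᵐ x ∂μ, Φ x + Ψ (S x) = c x (S x) := by
  have cΦ := (h.lip_left hc).continuous
  have cΨ := (h.lip_right hc).continuous
  choose S₀ hS₀ using h.exl
  have hS : AEMeasurable S₀ μ := by
    obtain ⟨U, hU, hUm, hU'⟩ := hu.exists_measurable_mem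
    have h1 : ContinuousOn S₀ U := fun x hx =>
      (tendsto_of_unique hc cΦ cΨ (a := id) (b := S₀) tendsto_id
        (tendsto_const_nhds.congr fun x' => by simp only [id]; linarith [hS₀ x'])
        fun y' hy' => hU' x hx _ _ hy' (hS₀ x)).mono_left nhdsWithin_le_nhds
    have h2 := h1.aemeasurable (μ := μ) hUm
    rwa [Measure.restrict_eq_self_of_ae_mem hU] at h2
  have key : ∀ g : Y →ᵇ ℝ, ∫ y, g y ∂ν ≤ ∫ x, g (S₀ x) ∂μ := fun g => by
    let e : ℕ → ℝ := fun n => 1 / ((n : ℝ) + 1)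
    have e0 : ∀ n, 0 < e n := fun n => by positivity
    have et : Tendsto e atTop (𝓝 0) := tendsto_one_div_add_atTop_nhds_zero_nat
    have cP : ∀ n, Continuous fun y => Ψ y + e n * g y := fun n => cΨ.add (continuous_const.mul g.continuous)
    let F : ℕ → X → ℝ := fun n x => (Φ x - ct c (fun y => Ψ y + e n * g y) x) / e n
    have cF : ∀ n, Continuous (F n) := fun n => (cΦ.sub (ct_lip hc (cP n)).continuous).div_const _
    have lo : ∀ n x, g (S₀ x) ≤ F n x := fun n x => by
      rw [le_div_iff₀ (e0 n)]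
      linarith [ct_le hc (cP n) x (S₀ x), hS₀ x]
    choose b hb using fun n x => ct_exl hc (cP n) x
    have up : ∀ n x, F n x ≤ g (b n x) := fun n x => by
      rw [div_le_iff₀ (e0 n)]
      linarith [hb n x, h.le x (b n x)]
    have gb : ∀ y, |g y| ≤ ‖g‖ := fun y => g.norm_coe_le_norm y
    have t1 := tendsto_integral_of_dominated_convergence (μ := μ) (F := F) (f := fun x => g (S₀ x))
      (fun _ => ‖g‖) (fun n => (cF n).aestronglyMeasurable) (integrable_const _)
      (fun n => Eventually.of_forall fun x => by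
        rw [Real.norm_eq_abs, abs_le]
        exact ⟨(abs_le.1 (gb _)).1.trans (lo n x), (up n x).trans (abs_le.1 (gb _)).2⟩)
      (hu.mono fun x hx => by
        have t2 : Tendsto (fun n => b n x) atTop (𝓝 (S₀ x)) := by
          refine tendsto_of_unique hc cΦ cΨ (a := fun _ => x) tendsto_const_nhds ?_
            fun y' hy' => hx _ _ hy' (hS₀ x)
          refine squeeze_zero (fun n => by linarith [h.le x (b n x)]) (fun n => ?_)
            (g := fun n => e n * (2 * ‖g‖)) (by simpa using et.mul_const (2 * ‖g‖))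
          have k1 := ct_le hc (cP n) x (S₀ x)
          have k2 := mul_le_mul_of_nonneg_left (show g (b n x) - g (S₀ x) ≤ 2 * ‖g‖ by
            linarith [(abs_le.1 (gb (b n x))).2, (abs_le.1 (gb (S₀ x))).1]) (e0 n).le
          linarith [hb n x, hS₀ x]
        exact tendsto_of_tendsto_of_tendsto_of_le_of_le tendsto_const_nhds
          ((g.continuous.tendsto _).comp t2) (fun n => lo n x) fun n => up n x)
    refine ge_of_tendsto' t1 fun n => ?_
    have k1 := hmax _ _ (ct_lip hc (cP n)).continuous (cP n) (ct_le hc (cP n))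
    rw [integral_add (int_cont cΨ) ((int_cont g.continuous).const_mul _), integral_const_mul] at k1
    simp only [F]
    rw [integral_div, integral_sub (int_cont cΦ) (int_cont (ct_lip hc (cP n)).continuous), le_div_iff₀ (e0 n)]
    linarith
  refine ⟨hS.mk S₀, hS.measurable_mk, ?_, ?_⟩
  · rw [← Measure.map_congr hS.ae_eq_mk]
    refine ext_of_forall_integral_eq_of_IsFiniteMeasure fun g => ?_
    rw [integral_map hS g.continuous.aestronglyMeasurable]
    refine le_antisymm ?_ (key g)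
    have := key (-g)
    simp only [BoundedContinuousFunction.neg_apply, integral_neg] at this
    linarith
  · filter_upwards [hS.ae_eq_mk] with x hx
    rw [← hx]
    exact hS₀ x

theorem int_cost (hc : LipCost L c) {T : X → Y} (hT : Measurable T) : Integrable (fun x => c x (T x)) μ := by
  obtain ⟨C, hC⟩ := isCompact_univ.exists_bound_of_continuousOn hc.cont.continuousOn
  exact Integrable.of_bound (hc.cont.measurable.comp (measurable_id.prodMk hT)).aestronglyMeasurable C
    (Eventually.of_forall fun x => hC (x, T x) (mem_univ _))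

/-- an optimal map is a contact map -/
theorem contact_of_le (hc : LipCost L c) (h0 : ∀ x y, 0 ≤ c x y) (h : Conj c Φ Ψ) {S T : X → Y}
    (hS : Measurable S) (hS' : μ.map S = ν) (hS'' : ∀ᵐ x ∂μ, Φ x + Ψ (S x) = c x (S x))
    (hT : Measurable T) (hT' : μ.map T = ν)
    (hle : ∫⁻ x, ENNReal.ofReal (c x (T x)) ∂μ ≤ ∫⁻ x, ENNReal.ofReal (c x (S x)) ∂μ) :
    ∀ᵐ x ∂μ, Φ x + Ψ (T x) = c x (T x) := by
  have cΦ := (h.lip_left hc).continuous
  have cΨ := (h.lip_right hc).continuous
  rw [← ofReal_integral_eq_lintegral_ofReal (int_cost hc hT) (Eventually.of_forall fun x => h0 _ _),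
    ← ofReal_integral_eq_lintegral_ofReal (int_cost hc hS) (Eventually.of_forall fun x => h0 _ _),
    ENNReal.ofReal_le_ofReal_iff (integral_nonneg fun x => h0 _ _)] at hle
  have i1 : ∀ {R : X → Y}, Measurable R → μ.map R = ν → Integrable (fun x => Φ x + Ψ (R x)) μ ∧
      ∫ x, (Φ x + Ψ (R x)) ∂μ = ∫ x, Φ x ∂μ + ∫ y, Ψ y ∂ν := fun {R} hR hR' => by
    have k : Integrable (fun x => Ψ (R x)) μ :=
      (integrable_map_measure cΨ.aestronglyMeasurable hR.aemeasurable).1 (int_cont cΨ)
    refine ⟨(int_cont cΦ).add k, ?_⟩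
    rw [integral_add (int_cont cΦ) k, ← hR', integral_map hR.aemeasurable cΨ.aestronglyMeasurable]
  have k1 : ∫ x, (c x (T x) - (Φ x + Ψ (T x))) ∂μ = 0 := by
    refine le_antisymm ?_ (integral_nonneg fun x => sub_nonneg.2 (h.le _ _))
    rw [integral_sub (int_cost hc hT) (i1 hT hT').1, (i1 hT hT').2, ← (i1 hS hS').2, integral_congr_ae hS'']
    exact sub_nonpos.2 hle
  rw [integral_eq_zero_iff_of_nonneg (fun x => sub_nonneg.2 (h.le _ _))
    ((int_cost hc hT).sub (i1 hT hT').1)] at k1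
  filter_upwards [k1] with x hx
  exact (sub_eq_zero.1 hx).symm

variable (μ ν) in
/-- Main theorem.  The sets `A`, `B` are arbitrary (outer measure). -/
theorem ot_main (hc : LipCost L c) (h0 : ∀ x y, 0 ≤ c x y)
    (hμ : ∀ Φ Ψ, Conj c Φ Ψ → ∀ᵐ x ∂μ, ∀ y y', Φ x + Ψ y = c x y → Φ x + Ψ y' = c x y' → y = y')
    (hν : ∀ Φ Ψ, Conj c Φ Ψ → ∀ᵐ y ∂ν, ∀ x x', Φ x + Ψ y = c x y → Φ x' + Ψ y = c x' y → x = x') :
    ∃ Φ Ψ, Conj c Φ Ψ ∧
      (∀ T : X → Y, Measurable T → μ.map T = ν → (∀ S : X → Y, Measurable S → μ.map S = ν →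
        ∫⁻ x, ENNReal.ofReal (c x (T x)) ∂μ ≤ ∫⁻ x, ENNReal.ofReal (c x (S x)) ∂μ) →
        ∀ᵐ x ∂μ, Φ x + Ψ (T x) = c x (T x)) ∧
      (∀ A : Set X, ν {y | ∃ x ∈ A, Φ x + Ψ y = c x y} = μ A) ∧
      ∀ B : Set Y, μ {x | ∃ y ∈ B, Φ x + Ψ y = c x y} = ν B := by
  obtain ⟨Φ, Ψ, h, hmax⟩ := exists_dual μ ν hc
  obtain ⟨S, hS, hS', hS''⟩ := exists_map hc h hmax (hμ Φ Ψ h)
  obtain ⟨R, hR, hR', hR''⟩ := exists_map (μ := ν) (ν := μ) hc.symm h.symm (fun Ψ' Φ' h1 h2 h3 => by
    linarith [hmax Φ' Ψ' h2 h1 fun x y => by linarith [h3 y x]]) ((hν Φ Ψ h).mono fun y hy x x' h1 h2 =>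
      hy x x' (by linarith) (by linarith))
  refine ⟨Φ, Ψ, h, fun T hT hT' hT'' => contact_of_le hc h0 h hS hS' hS'' hT hT' (hT'' S hS hS'),
    fun A => le_antisymm ?_ ?_, fun B => le_antisymm ?_ ?_⟩
  · rw [← measure_toMeasurable A, ← hR', Measure.map_apply hR (measurableSet_toMeasurable _ _), hR']
    refine measure_mono_ae ?_
    filter_upwards [hν Φ Ψ h, hR''] with y h1 h2 ⟨x, hx, h3⟩
    have e : R y = x := h1 _ _ (by linarith) h3
    show R y ∈ toMeasurable μ A
    rw [e]
    exact subset_toMeasurable μ A hx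
  · rw [← hS']
    refine le_trans (measure_mono_ae ?_) (Measure.le_map_apply hS.aemeasurable _)
    filter_upwards [hS''] with x h1 hx using ⟨x, hx, h1⟩
  · rw [← measure_toMeasurable B, ← hS', Measure.map_apply hS (measurableSet_toMeasurable _ _), hS']
    refine measure_mono_ae ?_
    filter_upwards [hμ Φ Ψ h, hS''] with x h1 h2 ⟨y, hy, h3⟩
    have e : S x = y := h1 _ _ h2 h3
    show S x ∈ toMeasurable ν B
    rw [e]
    exact subset_toMeasurable ν B hy
  · rw [← hR']
    refine le_trans (measure_mono_ae ?_) (Measure.le_map_apply hR.aemeasurable _)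
    filter_upwards [hR''] with y h1 hy using ⟨y, hy, by linarith⟩

end Crest.Agent.R226.OT
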