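import Crest.Agent.R226.OTU
import Crest.Prelude.Def_RiemannianMTW

/-!
# R226 / OTF : from pinched densities to a conjugate pair whose contact relation almost preserves the volume; the final
homeomorphism; small measure theoretic tools
-/

set_option autoImplicit false

namespace Crest.Agent.R226.OT

open MeasureTheory Set Filter Topology
open scoped NNReal ENNReal
open Crest.GeometryTopology.MTW

section homeo

variable {X Y : Type*} [MetricSpace X] [MetricSpace Y] {c : X → Y → ℝ} {Φ : X → ℝ} {Ψ : Y → ℝ}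

theorem continuous_of_holder {f : X → Y} {C α : ℝ} (hα : 0 < α) (h : ∀ x x', dist (f x) (f x') ≤ C * dist x x' ^ α) :
    Continuous f := by
  refine continuous_iff_continuousAt.2 fun x => tendsto_iff_dist_tendsto_zero.2
    (squeeze_zero (fun _ => dist_nonneg) (fun x' => h x' x) ?_)
  exact (continuous_const.mul ((continuous_id.dist continuous_const).rpow_const fun _ => Or.inr hα.le)).tendsto' x 0
    (by simp [Real.zero_rpow hα.ne'])

/-- Hölder bounds for the contact relation in both directions give a homeomorphism -/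
theorem exists_homeo (h : Conj c Φ Ψ) {C α : ℝ} (hα : 0 < α)
    (h1 : ∀ x y x' y', Φ x + Ψ y = c x y → Φ x' + Ψ y' = c x' y' → dist y y' ≤ C * dist x x' ^ α)
    (h2 : ∀ x y x' y', Φ x + Ψ y = c x y → Φ x' + Ψ y' = c x' y' → dist x x' ≤ C * dist y y' ^ α) :
    ∃ Th : X ≃ₜ Y, (∀ x y, Φ x + Ψ y = c x y → y = Th x) ∧
      (∀ x x', dist (Th x) (Th x') ≤ C * dist x x' ^ α) ∧
      ∀ y y', dist (Th.symm y) (Th.symm y') ≤ C * dist y y' ^ α := by
  choose S hS using h.exl
  choose R hR using h.exr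
  have u1 : ∀ x y, Φ x + Ψ y = c x y → y = S x := fun x y hy => by
    have := h1 x y x (S x) hy (hS x)
    rwa [dist_self, Real.zero_rpow hα.ne', mul_zero, dist_le_zero] at this
  have u2 : ∀ x y, Φ x + Ψ y = c x y → x = R y := fun x y hy => by
    have := h2 x y (R y) y hy (hR y)
    rwa [dist_self, Real.zero_rpow hα.ne', mul_zero, dist_le_zero] at this
  have a1 : ∀ x x', dist (S x) (S x') ≤ C * dist x x' ^ α := fun x x' => h1 _ _ _ _ (hS x) (hS x')
  have a2 : ∀ y y', dist (R y) (R y') ≤ C * dist y y' ^ α := fun y y' => h2 _ _ _ _ (hR y) (hR y')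
  exact ⟨⟨⟨S, R, fun x => (u2 x _ (hS x)).symm, fun y => (u1 _ y (hR y)).symm⟩, continuous_of_holder hα a1,
    continuous_of_holder hα a2⟩, u1, a1, a2⟩

end homeo

section dens

variable {X : Type*} [MeasurableSpace X] {vol : Measure X} {ρ : X → ℝ} {lam Lam : ℝ}

theorem le_withDensity (h : ∀ᵐ x ∂vol, lam ≤ ρ x) (A : Set X) :
    ENNReal.ofReal lam * vol A ≤ vol.withDensity (fun x => ENNReal.ofReal (ρ x)) A := by
  have h1 : (ENNReal.ofReal lam • vol) ≤ vol.withDensity fun x => ENNReal.ofReal (ρ x) := by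
    rw [← withDensity_const]
    exact withDensity_mono (h.mono fun x hx => ENNReal.ofReal_le_ofReal hx)
  exact h1 A

theorem withDensity_le (h : ∀ᵐ x ∂vol, ρ x ≤ Lam) (A : Set X) :
    vol.withDensity (fun x => ENNReal.ofReal (ρ x)) A ≤ ENNReal.ofReal Lam * vol A := by
  have h1 : (vol.withDensity fun x => ENNReal.ofReal (ρ x)) ≤ ENNReal.ofReal Lam • vol := by
    rw [← withDensity_const]
    exact withDensity_mono (h.mono fun x hx => ENNReal.ofReal_le_ofReal hx)
  exact h1 A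

/-- fibres of length at most `l` -/
theorem prod_le_of_fibre (μ : Measure X) {S : Set (X × ℝ)} (hS : MeasurableSet S) {l : ℝ}
    (h : ∀ x a b, (x, a) ∈ S → (x, b) ∈ S → |a - b| ≤ l) :
    μ.prod volume S ≤ ENNReal.ofReal l * μ (Prod.fst '' S) := by
  rw [Measure.prod_apply hS, ← measure_toMeasurable (Prod.fst '' S),
    ← lintegral_indicator_const (measurableSet_toMeasurable _ _)]
  refine lintegral_mono fun x => ?_
  by_cases hx : x ∈ toMeasurable μ (Prod.fst '' S)
  · rw [indicator_of_mem hx]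
    refine (Real.volume_le_diam _).trans (Metric.ediam_le fun a ha b hb => ?_)
    rw [edist_dist]
    exact ENNReal.ofReal_le_ofReal (h x a b ha hb)
  · have : Prod.mk x ⁻¹' S = ∅ := eq_empty_of_forall_notMem fun a ha =>
      hx (subset_toMeasurable _ _ ⟨(x, a), ha, rfl⟩)
    simp [this]

end dens

variable {M : Type*} [MetricSpace M]

theorem halfDistSq_comm (x y : M) : halfDistSq x y = halfDistSq y x := by
  rw [halfDistSq, halfDistSq, dist_comm]

theorem halfDistSq_nonneg (x y : M) : 0 ≤ halfDistSq x y := by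
  unfold halfDistSq
  positivity

theorem lipCost_halfDistSq {D : ℝ≥0} (hD : ∀ x y : M, dist x y ≤ D) : LipCost D (halfDistSq : M → M → ℝ) := by
  have key : ∀ y : M, LipschitzWith D fun x => halfDistSq x y := fun y => by
    refine LipschitzWith.of_le_add_mul D fun x x' => ?_
    have h1 := dist_triangle x x' y
    have h2 := hD x y
    have h3 := hD x' y
    have h4 : 0 ≤ dist x x' := dist_nonneg
    have h5 : 0 ≤ dist x y := dist_nonneg
    have h6 : 0 ≤ dist x' y := dist_nonneg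
    unfold halfDistSq
    nlinarith [mul_nonneg (add_nonneg h5 h6) (sub_nonneg.2 h1), mul_nonneg h4 (sub_nonneg.2 h2),
      mul_nonneg h4 (sub_nonneg.2 h3)]
  exact ⟨key, fun x => by simpa only [halfDistSq_comm _ x] using key x⟩

theorem exists_lipCost [CompactSpace M] : ∃ D : ℝ≥0, (∀ x y : M, dist x y ≤ D) ∧
    LipCost D (halfDistSq : M → M → ℝ) := by
  have h : ∀ x y : M, dist x y ≤ (⟨Metric.diam (univ : Set M), Metric.diam_nonneg⟩ : ℝ≥0) := fun x y =>
    Metric.dist_le_diam_of_mem isCompact_univ.isBounded (mem_univ x) (mem_univ y)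
  exact ⟨_, h, lipCost_halfDistSq h⟩

theorem Conj.swap {Φ Ψ : M → ℝ} (h : Conj halfDistSq Φ Ψ) : Conj halfDistSq Ψ Φ := by
  simpa only [halfDistSq_comm] using h.symm

/-- the contact relation changes the volume at most by the factor `Lam / lam` (all sets, outer measure) -/
def VolCmp [MeasurableSpace M] (vol : Measure M) (lam Lam : ℝ) (Φ Ψ : M → ℝ) : Prop :=
  ∀ A : Set M, ENNReal.ofReal lam * vol A ≤ ENNReal.ofReal Lam * vol {y | ∃ x ∈ A, Φ x + Ψ y = halfDistSq x y} ∧
    ENNReal.ofReal lam * vol {y | ∃ x ∈ A, Φ x + Ψ y = halfDistSq x y} ≤ ENNReal.ofReal Lam * vol A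

/-- Reduction of S0350 to a one-sided Hölder bound for conjugate pairs. -/
theorem holder_reduction [CompactSpace M] [Nonempty M] [MeasurableSpace M] [BorelSpace M] (vol : Measure M)
    (hU : ∀ Φ Ψ : M → ℝ, Conj halfDistSq Φ Ψ →
      ∀ᵐ x ∂vol, ∀ y y', Φ x + Ψ y = halfDistSq x y → Φ x + Ψ y' = halfDistSq x y' → y = y')
    {lam Lam α C : ℝ} (hα : 0 < α)
    (hH : ENNReal.ofReal lam * vol univ ≤ 1 → 1 ≤ ENNReal.ofReal Lam * vol univ →
      ∀ Φ Ψ : M → ℝ, Conj halfDistSq Φ Ψ → VolCmp vol lam Lam Φ Ψ → VolCmp vol lam Lam Ψ Φ →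
      ∀ x y x' y', Φ x + Ψ y = halfDistSq x y → Φ x' + Ψ y' = halfDistSq x' y' → dist x x' ≤ C * dist y y' ^ α)
    (ρ₀ ρ₁ : M → ℝ) (h : ∀ᵐ x ∂vol, lam ≤ ρ₀ x ∧ ρ₀ x ≤ Lam ∧ lam ≤ ρ₁ x ∧ ρ₁ x ≤ Lam)
    (h0 : ∫⁻ x, ENNReal.ofReal (ρ₀ x) ∂vol = 1) (h1 : ∫⁻ x, ENNReal.ofReal (ρ₁ x) ∂vol = 1) (T : M → M)
    (hT : IsMongeOptimal (vol.withDensity fun x => ENNReal.ofReal (ρ₀ x))
      (vol.withDensity fun x => ENNReal.ofReal (ρ₁ x)) T) :
    ∃ Th : M ≃ₜ M, (∀ᵐ x ∂(vol.withDensity fun x => ENNReal.ofReal (ρ₀ x)), T x = Th x) ∧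
      (∀ x x' : M, dist (Th x) (Th x') ≤ C * dist x x' ^ α) ∧
      ∀ y y' : M, dist (Th.symm y) (Th.symm y') ≤ C * dist y y' ^ α := by
  obtain ⟨D, -, hD⟩ := exists_lipCost (M := M)
  have e0 : (vol.withDensity fun x => ENNReal.ofReal (ρ₀ x)) univ = 1 := by
    rw [withDensity_apply _ MeasurableSet.univ, Measure.restrict_univ, h0]
  have e1 : (vol.withDensity fun x => ENNReal.ofReal (ρ₁ x)) univ = 1 := by
    rw [withDensity_apply _ MeasurableSet.univ, Measure.restrict_univ, h1]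
  have : IsProbabilityMeasure (vol.withDensity fun x => ENNReal.ofReal (ρ₀ x)) := ⟨e0⟩
  have : IsProbabilityMeasure (vol.withDensity fun x => ENNReal.ofReal (ρ₁ x)) := ⟨e1⟩
  have l0 := le_withDensity (h.mono fun _ hx => hx.1)
  have u0 := withDensity_le (h.mono fun _ hx => hx.2.1)
  have l1 := le_withDensity (h.mono fun _ hx => hx.2.2.1)
  have u1 := withDensity_le (h.mono fun _ hx => hx.2.2.2)
  obtain ⟨Φ, Ψ, hc, a1, a2, a3⟩ := ot_main (vol.withDensity fun x => ENNReal.ofReal (ρ₀ x))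
    (vol.withDensity fun x => ENNReal.ofReal (ρ₁ x)) hD halfDistSq_nonneg
    (fun Φ Ψ hc => (withDensity_absolutelyContinuous _ _).ae_le (hU Φ Ψ hc))
    (fun Φ Ψ hc => (withDensity_absolutelyContinuous _ _).ae_le ((hU Ψ Φ hc.swap).mono fun y hy x x' b1 b2 =>
      hy x x' (by rw [halfDistSq_comm]; linarith) (by rw [halfDistSq_comm]; linarith)))
  have v1 : VolCmp vol lam Lam Φ Ψ := fun A =>
    ⟨(l0 A).trans ((a2 A).ge.trans (u1 _)), (l1 _).trans ((a2 A).le.trans (u0 A))⟩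
  have v2 : VolCmp vol lam Lam Ψ Φ := fun B => by
    have e : {x | ∃ y ∈ B, Ψ y + Φ x = halfDistSq y x} = {x | ∃ y ∈ B, Φ x + Ψ y = halfDistSq x y} := by
      simp only [add_comm (Ψ _), halfDistSq_comm]
    rw [e]
    exact ⟨(l1 B).trans ((a3 B).ge.trans (u0 _)), (l0 _).trans ((a3 B).le.trans (u1 B))⟩
  have hH' := hH ((l0 univ).trans e0.le) (e0.ge.trans (u0 univ))
  obtain ⟨Th, b1, b2, b3⟩ := exists_homeo hc (C := C) hα (fun x y x' y' k1 k2 => hH' Ψ Φ hc.swap v2 v1 y x y' x'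
    (by rw [halfDistSq_comm]; linarith) (by rw [halfDistSq_comm]; linarith)) (hH' Φ Ψ hc v1 v2)
  exact ⟨Th, (a1 T hT.1 hT.2.1 hT.2.2).mono fun x hx => b1 x _ hx, b2, b3⟩

end Crest.Agent.R226.OT
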