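import Crest.Agent.R226.OT

/-!
# R226 / OTU : a.e. statements for the Hausdorff measure through Lipschitz parametrisations; a.e. uniqueness of contact points
-/

set_option autoImplicit false

namespace Crest.Agent.R226.OT

open MeasureTheory MeasureTheory.Measure Set Filter Topology Module
open scoped NNReal ENNReal

variable {X Y : Type*} [MetricSpace X] [MetricSpace Y] [MeasurableSpace X] [BorelSpace X]
  {E : Type*} [NormedAddCommGroup E] [NormedSpace ℝ E] [FiniteDimensional ℝ E] [MeasurableSpace E] [BorelSpace E]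

/-- Lipschitz images of null sets are null for the Hausdorff measure -/
theorem hausdorff_image_null (m : Measure E) [m.IsAddHaarMeasure] {e : E → X} {V N : Set E} {K : ℝ≥0}
    (he : LipschitzOnWith K e V) (hN : m N = 0) : μH[(finrank ℝ E : ℝ)] (e '' (V ∩ N)) = 0 := by
  have h1 : μH[(finrank ℝ E : ℝ)] (V ∩ N) = 0 :=
    measure_mono_null inter_subset_right (absolutelyContinuous_isAddHaarMeasure _ m hN)
  have h2 := (he.mono (inter_subset_left (t := N))).hausdorffMeasure_image_le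
    (d := (finrank ℝ E : ℝ)) (Nat.cast_nonneg _)
  rw [h1, mul_zero] at h2
  exact le_antisymm h2 zero_le

/-- an a.e. statement may be checked in Lipschitz parametrisations -/
theorem ae_of_param [CompactSpace X] (m : Measure E) [m.IsAddHaarMeasure] {P : X → Prop}
    (H : ∀ x₀ : X, ∃ (V : Set E) (e : E → X) (K : ℝ≥0), LipschitzOnWith K e V ∧ e '' V ∈ 𝓝 x₀ ∧
      ∀ᵐ u ∂m, u ∈ V → P (e u)) : ∀ᵐ x ∂(μH[(finrank ℝ E : ℝ)] : Measure X), P x := by
  choose V e K h1 h2 h3 using H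
  obtain ⟨t, -, ht⟩ := isCompact_univ.elim_nhds_subcover (fun x => e x '' V x) fun x _ => h2 x
  rw [ae_iff]
  refine measure_mono_null (t := ⋃ x ∈ t, e x '' (V x ∩ {u | ¬ (u ∈ V x → P (e x u))})) (fun x hx => ?_)
    ((measure_biUnion_null_iff t.countable_toSet).2 fun x _ => hausdorff_image_null m (h1 x) (ae_iff.1 (h3 x)))
  obtain ⟨z, hz, u, hu, rfl⟩ := mem_iUnion₂.1 (ht (mem_univ x))
  exact mem_iUnion₂.2 ⟨z, hz, u, ⟨hu, fun h => hx (h hu)⟩, rfl⟩

variable {L : ℝ≥0} {c : X → Y → ℝ} {Φ : X → ℝ} {Ψ : Y → ℝ}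

omit [MetricSpace X] [MetricSpace Y] [MeasurableSpace X] [BorelSpace X] [FiniteDimensional ℝ E]
  [MeasurableSpace E] [BorelSpace E] in
/-- at a point of differentiability the derivative of the potential is that of any upper support of the cost -/
theorem fderiv_eq_of_contact (hle : ∀ x y, Φ x + Ψ y ≤ c x y) {e : E → X} {u : E} {y : Y}
    (hy : Φ (e u) + Ψ y = c (e u) y) (hd : DifferentiableAt ℝ (fun w => Φ (e w)) u) {g : E → ℝ} {l : E →L[ℝ] ℝ}
    (hg : HasFDerivAt g l u) (h0 : g u = c (e u) y) (h1 : ∀ᶠ w in 𝓝 u, c (e w) y ≤ g w) :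
    fderiv ℝ (fun w => Φ (e w)) u = l := by
  have hm : IsLocalMin (fun w => g w - Φ (e w)) u := h1.mono fun w hw => by
    show g u - Φ (e u) ≤ g w - Φ (e w)
    linarith [hle (e w) y]
  exact (sub_eq_zero.1 (hm.hasFDerivAt_eq_zero (hg.sub hd.hasFDerivAt))).symm

/-- a.e. uniqueness of contact points: `c (·, y)` has differentiable upper supports whose derivative determines `y` -/
theorem ae_unique [CompactSpace X] (hc : LipCost L c) (h : Conj c Φ Ψ)
    (H : ∀ x₀ : X, ∃ (V : Set E) (e : E → X) (K : ℝ≥0) (F : E → (E →L[ℝ] ℝ) → Y), IsOpen V ∧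
      LipschitzOnWith K e V ∧ e '' V ∈ 𝓝 x₀ ∧ ∀ u ∈ V, ∀ y, ∃ (g : E → ℝ) (l : E →L[ℝ] ℝ), HasFDerivAt g l u ∧
        g u = c (e u) y ∧ (∀ᶠ w in 𝓝 u, c (e w) y ≤ g w) ∧ y = F u l) :
    ∀ᵐ x ∂(μH[(finrank ℝ E : ℝ)] : Measure X),
      ∀ y y', Φ x + Ψ y = c x y → Φ x + Ψ y' = c x y' → y = y' := by
  refine ae_of_param (E := E) (μH[(finrank ℝ E : ℝ)]) fun x₀ => ?_
  obtain ⟨V, e, K, F, h1, h2, h3, h4⟩ := H x₀
  refine ⟨V, e, K, h2, h3, ?_⟩
  have h5 : LipschitzOnWith (L * K) (fun w => Φ (e w)) V := (h.lip_left hc).comp_lipschitzOnWith h2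
  filter_upwards [h5.ae_differentiableWithinAt_of_mem (μ := μH[(finrank ℝ E : ℝ)])] with u hu huV y y' hy hy'
  have hd := (hu huV).differentiableAt (h1.mem_nhds huV)
  obtain ⟨g, l, a1, a2, a3, a4⟩ := h4 u huV y
  obtain ⟨g', l', b1, b2, b3, b4⟩ := h4 u huV y'
  rw [a4, b4, ← fderiv_eq_of_contact h.le hy hd a1 a2 a3, ← fderiv_eq_of_contact h.le hy' hd b1 b2 b3]

end Crest.Agent.R226.OT
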