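import Crest.Agent.R226.QDefs

/-!
# rid 226 / QA (part Q, sub-lead helper74): rays, Taylor formula, gradient of the cost

Prefix for auxiliary lemmas: `qa_`.
-/

set_option autoImplicit false
set_option maxSynthPendingDepth 3
set_option linter.unusedSectionVars false

open Set Filter Topology
open scoped InnerProductSpace ContDiff

noncomputable section

namespace Crest.Agent.R226.Q

open Crest.Agent.R226.L

variable {M : Type*} [MetricSpace M] {E : Type} [NormedAddCommGroup E] [InnerProductSpace ℝ E] [FiniteDimensional ℝ E]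
  {exp : M → E → M} {vel : M → E → E} {L1 δ c0 L : ℝ} {x : M} {q : E}

/-- Taylor formula of order two with Peano remainder (`Convex.isLittleO_pow_succ` on a ball where `f` is `C¹`, applied to
`w ↦ f (p + w) - fderiv f p w - fderiv (fderiv f) p w w / 2`; symmetry `ContDiffAt.isSymmSndFDerivAt`). -/
theorem taylor2 {F : Type} [NormedAddCommGroup F] [NormedSpace ℝ F] {f : F → ℝ} {p : F} (hf : ContDiffAt ℝ 2 f p)
    {ε : ℝ} (hε : 0 < ε) :
    ∀ᶠ w in 𝓝 (0 : F), |f (p + w) - (f p + fderiv ℝ f p w + fderiv ℝ (fderiv ℝ f) p w w / 2)| ≤ ε * ‖w‖ ^ 2 := by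
  set B := fderiv ℝ (fderiv ℝ f) p with hB
  have hsymm : ∀ u v, B u v = B v u := fun u v =>
    (hf.isSymmSndFDerivAt (by simp)).eq u v
  have h1 : ContDiffAt ℝ 1 (fderiv ℝ f) p := hf.fderiv_right (by norm_num)
  have hd : HasFDerivAt (fderiv ℝ f) B p := (h1.differentiableAt (by norm_num)).hasFDerivAt
  have e1 : ∀ᶠ w in 𝓝 (0 : F), ‖fderiv ℝ f (p + w) - fderiv ℝ f p - B w‖ ≤ ε * ‖w‖ :=
    (hasFDerivAt_iff_isLittleO_nhds_zero.1 hd).bound hε
  have e2 : ∀ᶠ w in 𝓝 (0 : F), DifferentiableAt ℝ f (p + w) := by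
    have h2 : ∀ᶠ y in 𝓝 p, DifferentiableAt ℝ f y :=
      (hf.eventually (by simp)).mono fun y hy => hy.differentiableAt (by norm_num)
    have ht : Tendsto (fun w : F => p + w) (𝓝 0) (𝓝 p) := by
      have : Continuous fun w : F => p + w := by fun_prop
      simpa using this.tendsto 0
    exact ht.eventually h2
  obtain ⟨r, hr, hball⟩ := Metric.eventually_nhds_iff_ball.1 (e1.and e2)
  filter_upwards [Metric.ball_mem_nhds (0 : F) hr] with w hw
  have hsub : Metric.closedBall (0 : F) ‖w‖ ⊆ Metric.ball 0 r :=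
    Metric.closedBall_subset_ball (by simpa using hw)
  have hder : ∀ z ∈ Metric.closedBall (0 : F) ‖w‖,
      HasFDerivWithinAt (fun z => f (p + z) - (f p + fderiv ℝ f p z + B z z / 2))
        (fderiv ℝ f (p + z) - fderiv ℝ f p - B z) (Metric.closedBall (0 : F) ‖w‖) z := by
    intro z hz
    have a1 : HasFDerivAt (fun z => f (p + z)) (fderiv ℝ f (p + z)) z := by
      have := (hball z (hsub hz)).2.hasFDerivAt.comp z ((hasFDerivAt_id z).const_add p)
      simpa [Function.comp_def] using this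
    have a2 : HasFDerivAt (fun z => B z z) _ z := B.hasFDerivAt.clm_apply (hasFDerivAt_id z)
    have a3 := a1.sub ((((fderiv ℝ f p).hasFDerivAt (x := z)).const_add (f p)).add (a2.mul_const (1 / 2 : ℝ)))
    refine HasFDerivAt.hasFDerivWithinAt ((a3.congr_fderiv ?_).congr_of_eventuallyEq
      (Eventually.of_forall fun z => ?_))
    · ext v
      simp [hsymm v z]
      ring
    · simp only [Pi.sub_apply, Pi.add_apply]
      ring
  have hbd : ∀ z ∈ Metric.closedBall (0 : F) ‖w‖, ‖fderiv ℝ f (p + z) - fderiv ℝ f p - B z‖ ≤ ε * ‖w‖ := by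
    intro z hz
    refine (hball z (hsub hz)).1.trans (mul_le_mul_of_nonneg_left ?_ hε.le)
    simpa using hz
  have key := (convex_closedBall (0 : F) ‖w‖).norm_image_sub_le_of_norm_hasFDerivWithin_le hder hbd
    (Metric.mem_closedBall_self (norm_nonneg w)) (show w ∈ Metric.closedBall (0 : F) ‖w‖ by simp)
  simp only [add_zero, map_zero, zero_div, sub_self, sub_zero, Real.norm_eq_abs] at key
  calc _ ≤ ε * ‖w‖ * ‖w‖ := key
    _ = ε * ‖w‖ ^ 2 := by ring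

/-- comparison of second order terms: test along `h • u`, `h → 0` -/
theorem le_of_eventually_quad {F : Type} [NormedAddCommGroup F] [NormedSpace ℝ F] {a b : ℝ} {u : F}
    (h : ∀ ε : ℝ, 0 < ε → ∀ᶠ t in 𝓝[>] (0 : ℝ), t ^ 2 * a ≤ t ^ 2 * b + ε * ‖t • u‖ ^ 2) : a ≤ b := by
  refine le_of_forall_pos_le_add fun η hη => ?_
  have hp : 0 < ‖u‖ ^ 2 + 1 := by positivity
  obtain ⟨t, ht, ht0⟩ := ((h (η / (‖u‖ ^ 2 + 1)) (by positivity)).and self_mem_nhdsWithin).exists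
  have ht0 : 0 < t := ht0
  rw [norm_smul, Real.norm_of_nonneg ht0.le, mul_pow] at ht
  have h2 : η / (‖u‖ ^ 2 + 1) * ‖u‖ ^ 2 ≤ η := by
    rw [div_mul_eq_mul_div, div_le_iff₀ hp]
    nlinarith
  have ht2 : 0 < t ^ 2 := by positivity
  refine le_of_mul_le_mul_left ?_ ht2
  nlinarith

theorem exp_neg_vel (h1 : Geo1 exp vel L1 δ) (x : M) (q : E) : exp (exp x q) (-vel x q) = x := by
  have := h1.flow x q (-1)
  simpa [h1.exp_zero] using this

/-- `exp x (t • u) = exp (exp x (s • u)) (((t - s) / s) • vel x (s • u))` for `s ≠ 0` -/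
theorem dist_ray_le (h1 : Geo1 exp vel L1 δ) (x : M) (u : E) {s t : ℝ} (hs : 0 ≤ s) (hst : s ≤ t) :
    dist (exp x (s • u)) (exp x (t • u)) ≤ (t - s) * ‖u‖ := by
  rcases hs.eq_or_lt with rfl | hs0
  · have := h1.dist_le x (t • u)
    rw [norm_smul, Real.norm_of_nonneg hst] at this
    simpa [h1.exp_zero] using this
  · have e := h1.flow x (s • u) ((t - s) / s)
    have e2 : (1 + (t - s) / s) • s • u = t • u := by
      rw [smul_smul]
      congr 1
      field_simp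
      ring
    rw [e2] at e
    rw [← e]
    refine (h1.dist_le _ _).trans (le_of_eq ?_)
    rw [norm_smul, h1.norm_vel, norm_smul, Real.norm_of_nonneg hs,
      Real.norm_of_nonneg (div_nonneg (sub_nonneg.2 hst) hs)]
    field_simp

theorem dist_ray (h1 : Geo1 exp vel L1 δ) {u : E} (hu : u ∈ MinS exp x) {s t : ℝ} (hs : 0 ≤ s) (hst : s ≤ t)
    (ht : t ≤ 1) : dist (exp x (s • u)) (exp x (t • u)) = (t - s) * ‖u‖ := by
  refine le_antisymm (dist_ray_le h1 x u hs hst) ?_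
  have a1 := dist_ray_le h1 x u le_rfl hs
  have a2 := dist_ray_le h1 x u (hs.trans hst) ht
  have hu' : dist x (exp x u) = ‖u‖ := hu
  simp only [zero_smul, h1.exp_zero, one_smul, sub_zero] at a1 a2
  have a3 := dist_triangle4 x (exp x (s • u)) (exp x (t • u)) (exp x u)
  nlinarith

theorem min_smul (h1 : Geo1 exp vel L1 δ) {u : E} (hu : u ∈ MinS exp x) {t : ℝ} (h0 : 0 ≤ t) (ht : t ≤ 1) :
    t • u ∈ MinS exp x := by
  have a := dist_ray h1 hu le_rfl h0 ht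
  simp only [zero_smul, h1.exp_zero, sub_zero] at a
  show dist x (exp x (t • u)) = ‖t • u‖
  rw [a, norm_smul, Real.norm_of_nonneg h0]

theorem min_of_inj (h1 : Geo1 exp vel L1 δ) (hq : q ∈ InjS exp x) : q ∈ MinS exp x := by
  obtain ⟨a, ha, hm⟩ := hq
  have ha0 : 0 < a := by linarith
  have := min_smul h1 hm (t := a⁻¹) (by positivity) (inv_le_one_of_one_le₀ ha.le)
  rwa [smul_smul, inv_mul_cancel₀ ha0.ne', one_smul] at this

theorem inj_smul (h1 : Geo1 exp vel L1 δ) {u : E} (hu : u ∈ MinS exp x) {t : ℝ} (h0 : 0 ≤ t) (ht : t < 1) :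
    t • u ∈ InjS exp x := by
  rcases h0.eq_or_lt with rfl | h0
  · refine ⟨2, by norm_num, ?_⟩
    show dist x (exp x ((2 : ℝ) • (0 : ℝ) • u)) = ‖(2 : ℝ) • (0 : ℝ) • u‖
    simp [h1.exp_zero]
  · refine ⟨t⁻¹, (one_lt_inv₀ h0).2 ht, ?_⟩
    rwa [smul_smul, inv_mul_cancel₀ h0.ne', one_smul]

theorem kx_zero (h1 : Geo1 exp vel L1 δ) (hq : q ∈ MinS exp x) : kx exp x (0, q) = ‖q‖ ^ 2 / 2 := by
  have hq' : dist x (exp x q) = ‖q‖ := hq
  simp only [kx, cst, h1.exp_zero, hq']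

theorem contDiffAt_k1 (h0 : GeoS0 exp vel) (hq : q ∈ InjS exp x) : ContDiffAt ℝ ∞ (fun ζ => kx exp x (ζ, q)) 0 :=
  ContDiffAt.comp (g := kx exp x) (f := fun ζ : E => (ζ, q)) 0 (h0.k_smooth x q hq)
    (contDiffAt_id.prodMk contDiffAt_const)

/-- `ζ ↦ ‖q‖² / 2 - ⟪q, ζ⟫ + L1 ‖ζ‖² - kx (ζ, q)` is minimal at `0` (`Geo1.sc`), `IsLocalMin.hasFDerivAt_eq_zero` -/
theorem fderiv_k1 (h1 : Geo1 exp vel L1 δ) (h0 : GeoS0 exp vel) (hq : q ∈ InjS exp x) (u : E) :
    fderiv ℝ (fun ζ => kx exp x (ζ, q)) 0 u = -⟪q, u⟫_ℝ := by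
  have hm := min_of_inj h1 hq
  have hk := ((contDiffAt_k1 h0 hq).differentiableAt (by simp)).hasFDerivAt
  have a1 : HasFDerivAt (fun ζ : E => ⟪q, ζ⟫_ℝ) (innerSL ℝ q) 0 := (innerSL ℝ q).hasFDerivAt
  have a2 : HasFDerivAt (fun ζ : E => ‖ζ‖ ^ 2) _ 0 := (hasFDerivAt_id (0 : E)).norm_sq
  have a3 := ((a1.const_sub (‖q‖ ^ 2 / 2)).add (a2.const_mul L1)).sub hk
  have hmin : IsLocalMin (fun ζ : E => ‖q‖ ^ 2 / 2 - ⟪q, ζ⟫_ℝ + L1 * ‖ζ‖ ^ 2 - kx exp x (ζ, q)) 0 := by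
    refine Eventually.of_forall fun ζ => ?_
    have := h1.sc x q hm ζ
    simp only [kx_zero h1 hm, inner_zero_right, norm_zero]
    have e : kx exp x (ζ, q) = cst (exp x ζ) (exp x q) := rfl
    rw [e]
    nlinarith
  have z := hmin.hasFDerivAt_eq_zero a3
  have z2 := congrArg (fun l : E →L[ℝ] ℝ => l u) z
  simp at z2
  linarith

/-- `taylor2`, `kx_zero`, `fderiv_k1`, `inner_Aop` -/
theorem tay_k (h1 : Geo1 exp vel L1 δ) (h0 : GeoS0 exp vel) (hq : q ∈ InjS exp x) {ε : ℝ} (hε : 0 < ε) :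
    ∀ᶠ ζ in 𝓝 (0 : E), |cst (exp x ζ) (exp x q) - (‖q‖ ^ 2 / 2 - ⟪q, ζ⟫_ℝ + ⟪Aop exp x q ζ, ζ⟫_ℝ / 2)| ≤
      ε * ‖ζ‖ ^ 2 := by
  have h2 : ContDiffAt ℝ 2 (fun ζ => kx exp x (ζ, q)) 0 := (contDiffAt_k1 h0 hq).of_le
    (WithTop.coe_le_coe.2 (le_top : ((2 : ℕ∞)) ≤ ⊤))
  filter_upwards [taylor2 h2 hε] with ζ hζ
  rw [zero_add, kx_zero h1 (min_of_inj h1 hq), fderiv_k1 h1 h0 hq, ← inner_Aop] at hζ
  exact hζ

end Crest.Agent.R226.Q

end
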