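import Crest.Agent.R226.QA

/-!
# rid 226 / QA2 (part Q, sub-lead helper74): algebra of the operators A, W, P

Prefix for auxiliary lemmas: `qa2_`.
-/

set_option autoImplicit false
set_option maxSynthPendingDepth 3
set_option linter.unusedSectionVars false

open Set Filter Topology
open scoped InnerProductSpace ContDiff

noncomputable section

namespace Crest.Agent.R226.Q

open Crest.Agent.R226.L

variable {M : Type*} [MetricSpace M] {E : Type} [NormedAddCommGroup E] [InnerProductSpace ℝ E] [FiniteDimensional ℝ E]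
  {exp : M → E → M} {vel : M → E → E} {L1 δ c0 L : ℝ} {x : M} {q : E}

theorem Aop_symm (h0 : GeoS0 exp vel) (hq : q ∈ InjS exp x) (u v : E) :
    ⟪Aop exp x q u, v⟫_ℝ = ⟪u, Aop exp x q v⟫_ℝ := by
  rw [real_inner_comm (Aop exp x q v) u, inner_Aop, inner_Aop]
  exact (contDiffAt_k1 h0 hq).isSymmSndFDerivAt (by simp; norm_cast) u v

/-- `tay_k`, `Geo1.sc`, `le_of_eventually_quad` -/
theorem Aop_le (h1 : Geo1 exp vel L1 δ) (h0 : GeoS0 exp vel) (hq : q ∈ InjS exp x) (u : E) :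
    ⟪Aop exp x q u, u⟫_ℝ ≤ 2 * L1 * ‖u‖ ^ 2 := by
  have key : ⟪Aop exp x q u, u⟫_ℝ / 2 ≤ L1 * ‖u‖ ^ 2 := by
    refine le_of_eventually_quad (u := u) fun ε hε => ?_
    have hc : Tendsto (fun t : ℝ => t • u) (𝓝[>] 0) (𝓝 0) := by
      have : Continuous fun t : ℝ => t • u := by fun_prop
      simpa using (this.tendsto 0).mono_left (nhdsWithin_le_nhds (s := Ioi 0))
    filter_upwards [hc.eventually (tay_k h1 h0 hq hε)] with t ht
    have a1 := h1.sc x q (min_of_inj h1 hq) (t • u)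
    have a2 := (abs_le.1 ht).1
    have e1 : ⟪Aop exp x q (t • u), t • u⟫_ℝ = t ^ 2 * ⟪Aop exp x q u, u⟫_ℝ := by
      rw [map_smul, real_inner_smul_left, real_inner_smul_right]
      ring
    have e2 : ‖t • u‖ ^ 2 = t ^ 2 * ‖u‖ ^ 2 := by rw [norm_smul, mul_pow, Real.norm_eq_abs, sq_abs]
    rw [e1] at a2
    rw [e2] at a1
    linarith
  linarith

theorem qa2_ray (h1 : Geo1 exp vel L1 δ) (hq : q ∈ InjS exp x) (hq0 : q ≠ 0) {t : ℝ} (ht0 : 0 < t) (ht1 : t < 1)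
    (hd : DifferentiableAt ℝ (fun ζ => kx exp x (ζ, q)) (t • q)) (v : E) :
    fderiv ℝ (fun ζ => kx exp x (ζ, q)) (t • q) v = -(1 - t) * ⟪q, v⟫_ℝ := by
  have hm := min_of_inj h1 hq
  have hn : 0 < ‖q‖ := norm_pos_iff.2 hq0
  have hc : HasDerivAt (fun s : ℝ => t • q + s • v) v 0 := by
    simpa using ((hasDerivAt_id (0 : ℝ)).smul_const v).const_add (t • q)
  have hF : HasDerivAt (fun s : ℝ => kx exp x (t • q + s • v, q))
      (fderiv ℝ (fun ζ => kx exp x (ζ, q)) (t • q) v) 0 :=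
    HasFDerivAt.comp_hasDerivAt_of_eq (0 : ℝ) hd.hasFDerivAt hc (by simp)
  have hN : HasDerivAt (fun s : ℝ => t * ‖q‖ + s * (⟪q, v⟫_ℝ / ‖q‖) + s ^ 2 * (‖v‖ ^ 2 / (2 * (t * ‖q‖))))
      (⟪q, v⟫_ℝ / ‖q‖) 0 := by
    simpa using (((hasDerivAt_id (0 : ℝ)).mul_const (⟪q, v⟫_ℝ / ‖q‖)).const_add (t * ‖q‖)).fun_add
      ((hasDerivAt_pow 2 (0 : ℝ)).mul_const (‖v‖ ^ 2 / (2 * (t * ‖q‖))))
  set N : ℝ → ℝ := fun s => t * ‖q‖ + s * (⟪q, v⟫_ℝ / ‖q‖) + s ^ 2 * (‖v‖ ^ 2 / (2 * (t * ‖q‖))) with hNdef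
  have hN0 : N 0 = t * ‖q‖ := by simp [hNdef]
  have hG : HasDerivAt (fun s : ℝ => (‖q‖ - N s) ^ 2 / 2) (-(1 - t) * ⟪q, v⟫_ℝ) 0 := by
    refine (((hN.const_sub ‖q‖).fun_pow 2).div_const 2).congr_deriv ?_
    rw [hN0]
    field_simp
    norm_num
    ring
  have hlt : ∀ᶠ s in 𝓝 (0 : ℝ), N s < ‖q‖ :=
    hN.continuousAt.eventually_lt continuousAt_const (by rw [hN0]; nlinarith)
  have hmin : IsLocalMin (fun s : ℝ => kx exp x (t • q + s • v, q) - (‖q‖ - N s) ^ 2 / 2) 0 := by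
    filter_upwards [hlt] with s hs
    have e0 : kx exp x (t • q + (0 : ℝ) • v, q) = (‖q‖ - N 0) ^ 2 / 2 := by
      have := dist_ray h1 hm ht0.le ht1.le le_rfl
      rw [one_smul] at this
      rw [zero_smul, add_zero, hN0, kx, cst, this]
      ring
    have a1 : ‖t • q + s • v‖ ≤ N s := by
      have ha : 0 < t * ‖q‖ := by positivity
      have e : ‖t • q + s • v‖ ^ 2 = (t * ‖q‖) ^ 2 + 2 * (t * s * ⟪q, v⟫_ℝ) + s ^ 2 * ‖v‖ ^ 2 := by
        rw [norm_add_sq_real, norm_smul, norm_smul, real_inner_smul_left, real_inner_smul_right, Real.norm_eq_abs,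
          Real.norm_eq_abs, abs_of_pos ht0, mul_pow |s|, sq_abs]
        ring
      have e' : N s = (‖t • q + s • v‖ ^ 2 + (t * ‖q‖) ^ 2) / (2 * (t * ‖q‖)) := by
        rw [e, hNdef]
        field_simp
        ring
      rw [e', le_div_iff₀ (by positivity)]
      nlinarith [sq_nonneg (‖t • q + s • v‖ - t * ‖q‖)]
    have a2 : ‖q‖ - N s ≤ dist (exp x (t • q + s • v)) (exp x q) := by
      have b1 := dist_triangle x (exp x (t • q + s • v)) (exp x q)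
      have b2 := h1.dist_le x (t • q + s • v)
      have b3 : dist x (exp x q) = ‖q‖ := hm
      linarith
    have a3 := pow_le_pow_left₀ (sub_nonneg.2 hs.le) a2 2
    simp only [e0, sub_self]
    simp only [kx, cst]
    linarith
  exact sub_eq_zero.1 (hmin.hasDerivAt_eq_zero (hF.fun_sub hG))

/-- Let `f ζ = kx (ζ, q)`, `q ≠ 0`.  By the triangle inequality and `dist_le`, `f ζ ≥ (‖q‖ - ‖ζ‖)² / 2` for `‖ζ‖ ≤ ‖q‖`,
with equality at `ζ = t • q` (`dist_ray`).  For small `t > 0` both sides are differentiable at `t • q`, so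
`fderiv f (t • q) v = -(1 - t) ⟪q, v⟫`; differentiate in `t` at `0` from the right (`HasDerivWithinAt` on `Ioi 0`,
`UniqueDiffWithinAt.eq_deriv`; the value at `t = 0` is `fderiv_k1`). -/
theorem Aop_rad (h1 : Geo1 exp vel L1 δ) (h0 : GeoS0 exp vel) (hq : q ∈ InjS exp x) : Aop exp x q q = q := by
  by_cases hq0 : q = 0
  · rw [hq0, map_zero]
  refine ext_inner_right ℝ fun v => ?_
  rw [inner_Aop]
  have hf : ContDiffAt ℝ 2 (fun ζ => kx exp x (ζ, q)) 0 := (contDiffAt_k1 h0 hq).of_le (by norm_cast)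
  have hc : HasDerivAt (fun t : ℝ => t • q) q 0 := by simpa using (hasDerivAt_id (0 : ℝ)).smul_const q
  have hd : DifferentiableAt ℝ (fderiv ℝ fun ζ => kx exp x (ζ, q)) 0 :=
    (hf.fderiv_right (m := 1) (by norm_num)).differentiableAt one_ne_zero
  have k1 : HasDerivAt (fun t : ℝ => fderiv ℝ (fun ζ => kx exp x (ζ, q)) (t • q) v)
      (fderiv ℝ (fderiv ℝ fun ζ => kx exp x (ζ, q)) 0 q v) 0 := by
    have := HasFDerivAt.comp_hasDerivAt_of_eq (0 : ℝ) hd.hasFDerivAt hc (by simp)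
    simpa using this.clm_apply (hasDerivAt_const (0 : ℝ) v)
  have k2 : HasDerivAt (fun t : ℝ => -(1 - t) * ⟪q, v⟫_ℝ) ⟪q, v⟫_ℝ 0 := by
    simpa using (((hasDerivAt_id (0 : ℝ)).const_sub 1).fun_neg).mul_const ⟪q, v⟫_ℝ
  have hct : Tendsto (fun t : ℝ => t • q) (𝓝 0) (𝓝 0) := by simpa using hc.continuousAt.tendsto
  have k3 : HasDerivWithinAt (fun t : ℝ => fderiv ℝ (fun ζ => kx exp x (ζ, q)) (t • q) v) ⟪q, v⟫_ℝ (Ioi 0) 0 := by
    refine k2.hasDerivWithinAt.congr_of_eventuallyEq ?_ ?_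
    · filter_upwards [self_mem_nhdsWithin, mem_nhdsWithin_of_mem_nhds (hct.eventually (hf.eventually (by simp))),
        mem_nhdsWithin_of_mem_nhds (eventually_lt_nhds (zero_lt_one' ℝ))] with t a1 a2 a3
      exact qa2_ray h1 hq hq0 a1 a3 (ContDiffAt.differentiableAt a2 (by simp)) v
    · rw [zero_smul, fderiv_k1 h1 h0 hq]
      ring
  exact (uniqueDiffWithinAt_Ioi (0 : ℝ)).eq_deriv _ k1.hasDerivWithinAt k3

theorem Wop_symm (h0 : GeoS0 exp vel) (hq : q ∈ InjS exp x) (u v : E) :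
    ⟪Wop c0 exp x q u, v⟫_ℝ = ⟪u, Wop c0 exp x q v⟫_ℝ := by
  rw [Wop_apply, Wop_apply, inner_sub_left, inner_sub_right, real_inner_smul_left, real_inner_smul_right,
    Aop_symm h0 hq]

theorem Wop_ge (h1 : Geo1 exp vel L1 δ) (h0 : GeoS0 exp vel) (hc : 2 * L1 + 2 ≤ c0) (hq : q ∈ InjS exp x) (u : E) :
    ‖u‖ ^ 2 ≤ ⟪Wop c0 exp x q u, u⟫_ℝ := by
  have a1 := Aop_le h1 h0 hq u
  have a2 := mul_le_mul_of_nonneg_right hc (sq_nonneg ‖u‖)
  have a3 := sq_nonneg ‖u‖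
  rw [Wop_apply, inner_sub_left, real_inner_smul_left, real_inner_self_eq_norm_sq]
  linarith

theorem norm_le_Wop (h1 : Geo1 exp vel L1 δ) (h0 : GeoS0 exp vel) (hc : 2 * L1 + 2 ≤ c0) (hq : q ∈ InjS exp x) (u : E) :
    ‖u‖ ≤ ‖Wop c0 exp x q u‖ := by
  have a1 := (Wop_ge h1 h0 hc hq u).trans (real_inner_le_norm _ _)
  rcases (norm_nonneg u).eq_or_lt with a | a
  · rw [← a]
    exact norm_nonneg _
  · rw [sq] at a1
    exact le_of_mul_le_mul_right a1 a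

/-- an injective endomorphism of a finite dimensional space is a unit (`LinearMap.injective_iff_surjective`,
`ContinuousLinearMap.isUnit_iff_bijective`) -/
theorem isUnit_of_injective {T : E →L[ℝ] E} (h : Function.Injective T) : IsUnit T := by
  have := FiniteDimensional.complete ℝ E
  exact ContinuousLinearMap.isUnit_iff_bijective.2
    ⟨h, (LinearMap.injective_iff_surjective (f := (T : E →ₗ[ℝ] E))).1 h⟩

theorem isUnit_Wop (h1 : Geo1 exp vel L1 δ) (h0 : GeoS0 exp vel) (hc : 2 * L1 + 2 ≤ c0) (hq : q ∈ InjS exp x) :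
    IsUnit (Wop c0 exp x q) := by
  refine isUnit_of_injective ((injective_iff_map_eq_zero _).2 fun u hu => ?_)
  have := norm_le_Wop h1 h0 hc hq u
  rw [hu, norm_zero] at this
  exact norm_le_zero_iff.1 this

theorem Wop_Pop (h1 : Geo1 exp vel L1 δ) (h0 : GeoS0 exp vel) (hc : 2 * L1 + 2 ≤ c0) (hq : q ∈ InjS exp x) (u : E) :
    Wop c0 exp x q (Pop c0 exp x q u) = u := by
  have := Ring.mul_inverse_cancel _ (isUnit_Wop h1 h0 hc hq)
  exact congrArg (fun T : E →L[ℝ] E => T u) this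

theorem Pop_Wop (h1 : Geo1 exp vel L1 δ) (h0 : GeoS0 exp vel) (hc : 2 * L1 + 2 ≤ c0) (hq : q ∈ InjS exp x) (u : E) :
    Pop c0 exp x q (Wop c0 exp x q u) = u := by
  have := Ring.inverse_mul_cancel _ (isUnit_Wop h1 h0 hc hq)
  exact congrArg (fun T : E →L[ℝ] E => T u) this

theorem Pop_symm (h1 : Geo1 exp vel L1 δ) (h0 : GeoS0 exp vel) (hc : 2 * L1 + 2 ≤ c0) (hq : q ∈ InjS exp x) (u v : E) :
    ⟪Pop c0 exp x q u, v⟫_ℝ = ⟪u, Pop c0 exp x q v⟫_ℝ := by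
  have := Wop_symm (c0 := c0) h0 hq (Pop c0 exp x q u) (Pop c0 exp x q v)
  rw [Wop_Pop h1 h0 hc hq, Wop_Pop h1 h0 hc hq] at this
  exact this.symm

theorem norm_Pop_le (h1 : Geo1 exp vel L1 δ) (h0 : GeoS0 exp vel) (hc : 2 * L1 + 2 ≤ c0) (hq : q ∈ InjS exp x) (u : E) :
    ‖Pop c0 exp x q u‖ ≤ ‖u‖ := by
  have := norm_le_Wop h1 h0 hc hq (Pop c0 exp x q u)
  rwa [Wop_Pop h1 h0 hc hq] at this

theorem sq_Pop_le (h1 : Geo1 exp vel L1 δ) (h0 : GeoS0 exp vel) (hc : 2 * L1 + 2 ≤ c0) (hq : q ∈ InjS exp x) (u : E) :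
    ‖Pop c0 exp x q u‖ ^ 2 ≤ ⟪Pop c0 exp x q u, u⟫_ℝ := by
  have := Wop_ge h1 h0 hc hq (Pop c0 exp x q u)
  rwa [Wop_Pop h1 h0 hc hq, real_inner_comm] at this

/-- a symmetric operator with `0 ≤ T ≤ N` has norm at most `N` (Cauchy-Schwarz for the form `⟪T u, v⟫`) -/
theorem norm_le_of_form {T : E →L[ℝ] E} {N : ℝ} (hN : 0 ≤ N) (hs : ∀ u v, ⟪T u, v⟫_ℝ = ⟪u, T v⟫_ℝ)
    (h0 : ∀ u, 0 ≤ ⟪T u, u⟫_ℝ) (h1 : ∀ u, ⟪T u, u⟫_ℝ ≤ N * ‖u‖ ^ 2) (u : E) : ‖T u‖ ≤ N * ‖u‖ := by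
  have h2 := discrim_le_zero (a := ⟪T u, u⟫_ℝ) (b := 2 * ‖T u‖ ^ 2) (c := ⟪T (T u), T u⟫_ℝ) fun t => by
    have := h0 (t • u + T u)
    simp only [map_add, map_smul, inner_add_left, inner_add_right, real_inner_smul_left, real_inner_smul_right]
      at this
    rw [hs (T u) u, real_inner_self_eq_norm_sq] at this
    linarith
  rw [discrim] at h2
  have h3 := mul_le_mul (h1 u) (h1 (T u)) (h0 _) (by positivity)
  have h4 : ‖T u‖ ^ 2 * ‖T u‖ ^ 2 ≤ (N * ‖u‖) ^ 2 * ‖T u‖ ^ 2 := by linarith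
  rcases (norm_nonneg (T u)).eq_or_lt with a | a
  · rw [← a]
    positivity
  · exact (pow_le_pow_iff_left₀ a.le (by positivity) two_ne_zero).1 (le_of_mul_le_mul_right h4 (by positivity))

/-- `ContDiffAt.fderiv` (parametric version, twice) for `(q, ζ) ↦ kx exp x (ζ, q)`; `contDiffAt_infty` if needed -/
theorem contDiffAt_Aop (h0 : GeoS0 exp vel) (hq : q ∈ InjS exp x) : ContDiffAt ℝ ∞ (Aop exp x) q := by
  have k0 : ContDiffAt ℝ ∞ (fun w : (E × E) × E => kx exp x (w.2, w.1.1)) ((q, 0), 0) :=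
    ContDiffAt.comp ((q, 0), 0) (g := kx exp x) (f := fun w : (E × E) × E => (w.2, w.1.1)) (h0.k_smooth x q hq)
      (by fun_prop)
  have k1 : ContDiffAt ℝ ∞ (fun p : E × E => fderiv ℝ (fun ζ => kx exp x (ζ, p.1)) p.2) (q, 0) :=
    ContDiffAt.fderiv (f := fun (p : E × E) ζ => kx exp x (ζ, p.1)) (g := fun p => p.2) k0 contDiffAt_snd
      (by simp)
  have k2 : ContDiffAt ℝ ∞ (fun q => fderiv ℝ (fderiv ℝ fun ζ => kx exp x (ζ, q)) 0) q :=
    ContDiffAt.fderiv (f := fun q ζ => fderiv ℝ (fun ζ => kx exp x (ζ, q)) ζ) (g := fun _ => 0) k1 contDiffAt_const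
      (by simp)
  exact contDiffAt_const.clm_comp k2

/-- `contDiffAt_ringInverse` -/
theorem contDiffAt_Pop (h1 : Geo1 exp vel L1 δ) (h0 : GeoS0 exp vel) (hc : 2 * L1 + 2 ≤ c0) (hq : q ∈ InjS exp x) :
    ContDiffAt ℝ ∞ (Pop c0 exp x) q := by
  have := FiniteDimensional.complete ℝ E
  obtain ⟨u, hu⟩ := isUnit_Wop h1 h0 hc hq
  have k1 : ContDiffAt ℝ ∞ (Wop c0 exp x) q := contDiffAt_const.sub (contDiffAt_Aop h0 hq)
  have k2 : ContDiffAt ℝ ∞ Ring.inverse (Wop c0 exp x q) := hu ▸ contDiffAt_ringInverse ℝ u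
  exact k2.comp q k1

end Crest.Agent.R226.Q

end
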