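import Crest.Agent.R226.QA2

/-!
# rid 226 / QB (part Q, sub-lead helper74): Lipschitz and second difference bounds for P, integrated MTW

Prefix for auxiliary lemmas: `qb_`.
-/

set_option autoImplicit false
set_option maxSynthPendingDepth 3
set_option linter.unusedSectionVars false

open Set Filter Topology
open scoped InnerProductSpace ContDiff

noncomputable section

namespace Crest.Agent.R226.Q

open Crest.Agent.R226.L

variable {M : Type*} [MetricSpace M] {E : Type} [NormedAddCommGroup E] [InnerProductSpace ℝ E] [FiniteDimensional ℝ E]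
  {exp : M → E → M} {vel : M → E → E} {L1 δ c0 L : ℝ} {x : M} {q : E}

theorem qb_form (T : E →L[ℝ] E) (e : E) : ⟪T e, e⟫_ℝ ≤ ‖T‖ * ‖e‖ ^ 2 := by
  refine (real_inner_le_norm _ _).trans ?_
  rw [sq, ← mul_assoc]
  exact mul_le_mul_of_nonneg_right (T.le_opNorm e) (norm_nonneg e)

theorem qb_sd {Y : Type} [NormedAddCommGroup Y] [NormedSpace ℝ Y] {F : E → Y} {η : E}
    (hF : ∀ y ∈ segment ℝ (q - η) (q + η), ContDiffAt ℝ ∞ F y)
    (h2 : ∀ y ∈ segment ℝ (q - η) (q + η), ‖fderiv ℝ (fderiv ℝ F) y‖ ≤ L) :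
    ‖F (q + η) + F (q - η) - (F q + F q)‖ ≤ L * ‖η‖ ^ 2 := by
  have hm : ∀ t : ℝ, -1 ≤ t → t ≤ 1 → q + t • η ∈ segment ℝ (q - η) (q + η) := fun t h1 h2 =>
    ⟨(1 - t) / 2, (1 + t) / 2, by linarith, by linarith, by ring, by module⟩
  have hd : ∀ t : ℝ, -1 ≤ t → t ≤ 1 → HasDerivAt (fun t : ℝ => F (q + t • η)) (fderiv ℝ F (q + t • η) η) t :=
    fun t h1 h2 => by
      have h3 : HasDerivAt (fun t : ℝ => q + t • η) η t := by
        simpa using ((hasDerivAt_id t).smul_const η).const_add q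
      exact ((hF _ (hm t h1 h2)).differentiableAt (by simp)).hasFDerivAt.comp_hasDerivAt t h3
  have hg : ∀ t ∈ Icc (0 : ℝ) 1, HasDerivAt (fun t : ℝ => F (q + t • η) + F (q + (-t) • η) - (F q + F q))
      (fderiv ℝ F (q + t • η) η - fderiv ℝ F (q + (-t) • η) η) t := fun t ht => by
    have h3 := (hd (-t) (by linarith [ht.2]) (by linarith [ht.1])).scomp t (hasDerivAt_neg t)
    have h4 := ((hd t (by linarith [ht.1]) ht.2).add h3).sub_const (F q + F q)
    rwa [neg_one_smul, ← sub_eq_add_neg] at h4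
  have key := image_norm_le_of_norm_deriv_right_le_deriv_boundary
    (fun t ht => (hg t ht).continuousAt.continuousWithinAt)
    (fun t ht => (hg t (Ico_subset_Icc_self ht)).hasDerivWithinAt) (B := fun t => L * ‖η‖ ^ 2 * t ^ 2)
    (B' := fun t => L * ‖η‖ ^ 2 * (2 * t)) (by simp)
    (fun t => by simpa using (hasDerivAt_pow 2 t).const_mul (L * ‖η‖ ^ 2)) (fun t ht => ?_)
    (right_mem_Icc.2 zero_le_one)
  · simpa [← sub_eq_add_neg] using key
  · have h3 := (convex_segment (q - η) (q + η)).norm_image_sub_le_of_norm_fderiv_le (𝕜 := ℝ) (f := fderiv ℝ F)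
      (fun y hy => ((hF y hy).fderiv_right (m := 1) (by norm_cast)).differentiableAt one_ne_zero) h2
      (hm (-t) (by linarith [ht.2]) (by linarith [ht.1])) (hm t (by linarith [ht.1]) ht.2.le)
    rw [show q + t • η - (q + (-t) • η) = (2 * t) • η by module, norm_smul,
      Real.norm_of_nonneg (by linarith [ht.1])] at h3
    rw [← sub_apply]
    refine (ContinuousLinearMap.le_opNorm _ _).trans ((mul_le_mul_of_nonneg_right h3 (norm_nonneg η)).trans_eq ?_)
    ring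

/-- `p s = ⟪P (q' + s • (q - q')) e, e⟫` has `|p'| ≤ L ‖q - q'‖ ‖e‖²` on `[0, 1]` (`contDiffAt_Pop`, `P_d1`). -/
theorem P_lip (h1 : Geo1 exp vel L1 δ) (hs : GeoS exp vel c0 L) (hc : 2 * L1 + 2 ≤ c0) (x : M) (q q' : E)
    (hq : segment ℝ q q' ⊆ InjS exp x) (e : E) :
    ⟪Pop c0 exp x q e, e⟫_ℝ ≤ ⟪Pop c0 exp x q' e, e⟫_ℝ + L * ‖q - q'‖ * ‖e‖ ^ 2 := by
  have h := (convex_segment q q').norm_image_sub_le_of_norm_fderiv_le (𝕜 := ℝ) (f := Pop c0 exp x)
    (fun y hy => (contDiffAt_Pop h1 hs.toGeoS0 hc (hq hy)).differentiableAt (by simp))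
    (fun y hy => hs.P_d1 x y (hq hy)) (right_mem_segment ℝ q q') (left_mem_segment ℝ q q')
  have h2 := (qb_form _ e).trans (mul_le_mul_of_nonneg_right h (sq_nonneg ‖e‖))
  rw [sub_apply, inner_sub_left] at h2
  linarith

/-- `p s = ⟪P (q + s • η) e, e⟫` has `p'' ≤ K = L ‖η‖² ‖e‖²` on `[-1, 1]`, so `p s - K s² / 2` is concave
(`concaveOn_of_hasDerivWithinAt2_nonpos` or `concaveOn_of_deriv2_nonpos`). -/
theorem P_sd (h1 : Geo1 exp vel L1 δ) (hs : GeoS exp vel c0 L) (hc : 2 * L1 + 2 ≤ c0) (x : M) (q η : E)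
    (hq : segment ℝ (q - η) (q + η) ⊆ InjS exp x) (e : E) :
    ⟪Pop c0 exp x (q + η) e, e⟫_ℝ + ⟪Pop c0 exp x (q - η) e, e⟫_ℝ ≤
      2 * ⟪Pop c0 exp x q e, e⟫_ℝ + L * ‖η‖ ^ 2 * ‖e‖ ^ 2 := by
  have h := qb_sd (fun y hy => contDiffAt_Pop h1 hs.toGeoS0 hc (hq hy)) fun y hy => hs.P_d2 x y (hq hy)
  have h2 := (qb_form _ e).trans (mul_le_mul_of_nonneg_right h (sq_nonneg ‖e‖))
  rw [sub_apply, add_apply, add_apply, inner_sub_left, inner_add_left, inner_add_left] at h2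
  linarith

end Crest.Agent.R226.Q

end
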