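import Crest.Agent.R226.QA2

/-!
# rid 226 / QD (part Q, sub-lead helper74): joint Taylor expansion

Prefix for auxiliary lemmas: `qd_`.
-/

set_option autoImplicit false
set_option maxSynthPendingDepth 3
set_option linter.unusedSectionVars false

open Set Filter Topology
open scoped InnerProductSpace ContDiff

noncomputable section

namespace Crest.Agent.R226.Q

open Crest.Agent.R226.L

variable {M : Type*} [MetricSpace M] {E : Type} [NormedAddCommGroup E] [InnerProductSpace ℝ E] [FiniteDimensional ℝ E]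
  {exp : M → E → M} {vel : M → E → E} {L1 δ c0 L : ℝ} {x : M} {q : E}

/-- second derivative of a partial function: `f ∘ T` for a continuous linear `T` -/
theorem fderiv2_comp_clm {F G : Type} [NormedAddCommGroup F] [NormedSpace ℝ F] [NormedAddCommGroup G] [NormedSpace ℝ G]
    {f : G → ℝ} (T : F →L[ℝ] G) {p : F} (hf : ContDiffAt ℝ 2 f (T p)) (u v : F) :
    fderiv ℝ (fderiv ℝ fun w => f (T w)) p u v = fderiv ℝ (fderiv ℝ f) (T p) (T u) (T v) := by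
  have h1 : (fderiv ℝ fun w => f (T w)) =ᶠ[𝓝 p] fun w => (fderiv ℝ f (T w)).comp T := by
    filter_upwards [T.continuous.continuousAt.eventually (hf.eventually (by simp))] with w hw
    exact ((hw.differentiableAt (by simp)).hasFDerivAt.comp w T.hasFDerivAt).fderiv
  have h2 : HasFDerivAt (fderiv ℝ f) (fderiv ℝ (fderiv ℝ f) (T p)) (T p) :=
    ((hf.fderiv_right (m := 1) (by norm_num)).differentiableAt (by simp)).hasFDerivAt
  have h3 := ((ContinuousLinearMap.compL ℝ F G ℝ).flip T).hasFDerivAt.comp p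
    (h2.comp p T.hasFDerivAt)
  rw [h1.fderiv_eq]
  exact congrArg (fun B => B u v) h3.fderiv

theorem qd_cst_comm (a b : M) : cst a b = cst b a := by
  unfold cst
  rw [dist_comm]

theorem qd_smooth (h0 : GeoS0 exp vel) (hq : q ∈ InjS exp x) : ContDiffAt ℝ 2 (hx exp x q) (0, 0) :=
  (h0.h_smooth x q hq).of_le (by norm_cast)

theorem qd_symm (h0 : GeoS0 exp vel) (hq : q ∈ InjS exp x) (a b : E × E) :
    fderiv ℝ (fderiv ℝ (hx exp x q)) (0, 0) a b = fderiv ℝ (fderiv ℝ (hx exp x q)) (0, 0) b a :=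
  (qd_smooth h0 hq).isSymmSndFDerivAt (by simp) a b

theorem qd_inl (h1 : Geo1 exp vel L1 δ) (x : M) (q : E) :
    (fun w => hx exp x q (ContinuousLinearMap.inl ℝ E E w)) = fun ζ => kx exp x (ζ, q) := by
  funext w
  simp only [hx, kx, ContinuousLinearMap.inl_apply, h1.exp_zero]

theorem qd_inr (h1 : Geo1 exp vel L1 δ) (x : M) (q : E) :
    (fun w => hx exp x q (ContinuousLinearMap.inr ℝ E E w)) =
      fun ζ => kx exp (exp x q) (ζ, -vel x q) := by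
  funext w
  simp only [hx, kx, ContinuousLinearMap.inr_apply, h1.exp_zero, exp_neg_vel h1]
  exact qd_cst_comm _ _

/-- `hx (w, 0) = kx exp x (w, q)` (`exp_zero`), `hx (0, w) = kx exp (exp x q) (w, -vel x q)` (`exp_neg_vel`, symmetry of
`dist`); `taylor2` for `hx` at `(0, 0)`, bilinearity and symmetry of the second derivative, `fderiv_k1` at `(x, q)` and at
`(exp x q, -vel x q)` (`rev`), `fderiv2_comp_clm` with `inl`, `inr`; `‖w‖² ≤ ‖w.1‖² + ‖w.2‖²`. -/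
theorem tay_h (h1 : Geo1 exp vel L1 δ) (h0 : GeoS0 exp vel) (hq : q ∈ InjS exp x) {ε : ℝ} (hε : 0 < ε) :
    ∀ᶠ w in 𝓝 ((0, 0) : E × E), |cst (exp x w.1) (exp (exp x q) w.2) -
      (‖q‖ ^ 2 / 2 - ⟪q, w.1⟫_ℝ + ⟪vel x q, w.2⟫_ℝ + ⟪Aop exp x q w.1, w.1⟫_ℝ / 2 + Kop exp x q w.2 w.1 +
        ⟪Aop exp (exp x q) (-vel x q) w.2, w.2⟫_ℝ / 2)| ≤ ε * (‖w.1‖ ^ 2 + ‖w.2‖ ^ 2) := by
  have hs := qd_smooth h0 hq
  have hd := (hs.differentiableAt (by simp)).hasFDerivAt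
  have hq' := h0.rev x q hq
  have e0 : hx exp x q (0, 0) = ‖q‖ ^ 2 / 2 := by
    rw [← kx_zero h1 (min_of_inj h1 hq)]
    simp only [hx, kx, h1.exp_zero]
  have e1 : ∀ u, fderiv ℝ (hx exp x q) (0, 0) (u, 0) = -⟪q, u⟫_ℝ := by
    intro u
    rw [← fderiv_k1 h1 h0 hq u, ← qd_inl h1 x q]
    have := (HasFDerivAt.comp (0 : E) (f := ContinuousLinearMap.inl ℝ E E) hd
      (ContinuousLinearMap.inl ℝ E E).hasFDerivAt).fderiv
    exact (congrArg (fun B => B u) this).symm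
  have e2 : ∀ μ, fderiv ℝ (hx exp x q) (0, 0) (0, μ) = ⟪vel x q, μ⟫_ℝ := by
    intro μ
    have h2 := fderiv_k1 h1 h0 hq' μ
    rw [inner_neg_left, neg_neg] at h2
    rw [← h2, ← qd_inr h1 x q]
    have := (HasFDerivAt.comp (0 : E) (f := ContinuousLinearMap.inr ℝ E E) hd
      (ContinuousLinearMap.inr ℝ E E).hasFDerivAt).fderiv
    exact (congrArg (fun B => B μ) this).symm
  have e3 : ∀ u, fderiv ℝ (fderiv ℝ (hx exp x q)) (0, 0) (u, 0) (u, 0) = ⟪Aop exp x q u, u⟫_ℝ := by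
    intro u
    rw [inner_Aop, ← qd_inl h1 x q]
    exact (fderiv2_comp_clm (ContinuousLinearMap.inl ℝ E E) (p := 0) hs u u).symm
  have e4 : ∀ μ, fderiv ℝ (fderiv ℝ (hx exp x q)) (0, 0) (0, μ) (0, μ) =
      ⟪Aop exp (exp x q) (-vel x q) μ, μ⟫_ℝ := by
    intro μ
    rw [inner_Aop, ← qd_inr h1 x q]
    exact (fderiv2_comp_clm (ContinuousLinearMap.inr ℝ E E) (p := 0) hs μ μ).symm
  filter_upwards [taylor2 hs hε] with w hw
  obtain ⟨u, μ⟩ := w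
  have s1 : ((u, μ) : E × E) = (u, 0) + (0, μ) := by simp
  have f1 : fderiv ℝ (hx exp x q) (0, 0) (u, μ) = -⟪q, u⟫_ℝ + ⟪vel x q, μ⟫_ℝ := by
    rw [s1, map_add, e1, e2]
  have f2 : fderiv ℝ (fderiv ℝ (hx exp x q)) (0, 0) (u, μ) (u, μ) =
      ⟪Aop exp x q u, u⟫_ℝ + 2 * Kop exp x q μ u + ⟪Aop exp (exp x q) (-vel x q) μ, μ⟫_ℝ := by
    rw [s1, map_add, map_add, add_apply, add_apply, e3, e4, qd_symm h0 hq (u, 0) (0, μ), Kop]
    ring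
  have f3 : hx exp x q ((0, 0) + (u, μ)) = cst (exp x u) (exp (exp x q) μ) := by
    simp only [hx, Prod.mk_add_mk, zero_add]
  have f4 : ‖((u, μ) : E × E)‖ ^ 2 ≤ ‖u‖ ^ 2 + ‖μ‖ ^ 2 := by
    rw [Prod.norm_mk]
    rcases max_choice ‖u‖ ‖μ‖ with h | h <;> rw [h]
    · exact le_add_of_nonneg_right (sq_nonneg _)
    · exact le_add_of_nonneg_left (sq_nonneg _)
  rw [f1, f2, f3, e0] at hw
  refine le_trans (le_of_eq ?_) (hw.trans (mul_le_mul_of_nonneg_left f4 hε.le))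
  congr 1
  ring

/-- `hx exp (exp x q) (-vel x q) = hx exp x q ∘ swap` (`exp_neg_vel`), `fderiv2_comp_clm`, symmetry -/
theorem Kop_rev (h1 : Geo1 exp vel L1 δ) (h0 : GeoS0 exp vel) (hq : q ∈ InjS exp x) (μ u : E) :
    Kop exp (exp x q) (-vel x q) u μ = Kop exp x q μ u := by
  have e : hx exp (exp x q) (-vel x q) = fun w =>
      hx exp x q ((ContinuousLinearEquiv.prodComm ℝ E E : E × E →L[ℝ] E × E) w) := by
    funext w
    simp only [hx, exp_neg_vel h1]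
    exact qd_cst_comm _ _
  unfold Kop
  rw [e, qd_symm h0 hq]
  exact fderiv2_comp_clm (ContinuousLinearEquiv.prodComm ℝ E E : E × E →L[ℝ] E × E) (p := (0, 0))
    (qd_smooth h0 hq) (0, u) (μ, 0)

/-- With `y = exp x q`, `W' = Wop y (-vel)`, `R, R'` from `mixed`: `⟪W' μ, R' u⟫ = ⟪W u, R μ⟫` (`Kop_rev`).  `R'` is
injective, hence onto; take `u` with `R' u = μ`, `‖u‖ ≤ L ‖μ‖`. -/
theorem Wop_rev_le (h1 : Geo1 exp vel L1 δ) (hs : GeoS exp vel c0 L) (hq : q ∈ InjS exp x) {N : ℝ} (hN : 0 ≤ N)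
    (hW : ∀ u, ‖Wop c0 exp x q u‖ ≤ N * ‖u‖) (μ : E) :
    ⟪Wop c0 exp (exp x q) (-vel x q) μ, μ⟫_ℝ ≤ N * L ^ 2 * ‖μ‖ ^ 2 := by
  obtain ⟨R, hR, -, hK⟩ := hs.mixed x q hq
  obtain ⟨R', -, hR', hK'⟩ := hs.mixed _ _ (hs.rev x q hq)
  have hinj : Function.Injective (R' : E →ₗ[ℝ] E) := by
    refine (injective_iff_map_eq_zero _).2 fun u hu => norm_le_zero_iff.1 ?_
    have h2 := hR' u
    have h3 : R' u = 0 := hu
    rwa [h3, norm_zero, mul_zero] at h2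
  obtain ⟨u, hu⟩ := LinearMap.injective_iff_surjective.1 hinj μ
  have hu' : R' u = μ := hu
  have h2 := hK' μ u
  rw [Kop_rev h1 hs.toGeoS0 hq, hK, hu', neg_inj] at h2
  have h3 := hR' u
  rw [hu'] at h3
  have hL := hs.L_pos
  rw [← h2]
  refine (real_inner_le_norm _ _).trans ?_
  calc ‖Wop c0 exp x q u‖ * ‖R μ‖ ≤ N * (L * ‖μ‖) * (L * ‖μ‖) :=
        mul_le_mul ((hW u).trans (mul_le_mul_of_nonneg_left h3 hN)) (hR μ) (norm_nonneg _)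
          (by positivity)
    _ = N * L ^ 2 * ‖μ‖ ^ 2 := by ring

/-- `N = c0 + |Λ|` bounds `W` (`norm_le_of_form`, `Wop_ge`), `|Kop μ u| ≤ N L ‖u‖ ‖μ‖ ≤ (ε / 2) ‖u‖² + (N L)² / (2 ε) ‖μ‖²`,
`⟪A' μ, μ⟫ ≥ -N L² ‖μ‖²` (`Wop_rev_le`, `c0 ≥ 0`), `tay_h` with `ε / 2`. -/
theorem tay_lo (h1 : Geo1 exp vel L1 δ) (hs : GeoS exp vel c0 L) (hc : 2 * L1 + 2 ≤ c0) (Λ ε : ℝ) (hε : 0 < ε) :
    ∃ C : ℝ, ∀ x, ∀ q ∈ InjS exp x, (∀ u, -Λ * ‖u‖ ^ 2 ≤ ⟪Aop exp x q u, u⟫_ℝ) → ∀ᶠ w in 𝓝 ((0, 0) : E × E),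
      ‖q‖ ^ 2 / 2 - ⟪q, w.1⟫_ℝ + ⟪vel x q, w.2⟫_ℝ + ⟪Aop exp x q w.1, w.1⟫_ℝ / 2 - ε * ‖w.1‖ ^ 2 -
        C * ‖w.2‖ ^ 2 ≤ cst (exp x w.1) (exp (exp x q) w.2) := by
  have hc0 : 0 ≤ c0 := by linarith [h1.L_pos]
  obtain ⟨N, hN⟩ : ∃ N, N = c0 + |Λ| := ⟨_, rfl⟩
  have hN0 : 0 ≤ N := by rw [hN]; positivity
  have hL := hs.L_pos
  refine ⟨(N * L) ^ 2 / (2 * ε) + N * L ^ 2 / 2 + ε / 2, fun x q hq hA => ?_⟩
  have hWi : ∀ (x : M) (q u : E),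
      ⟪Wop c0 exp x q u, u⟫_ℝ = c0 * ‖u‖ ^ 2 - ⟪Aop exp x q u, u⟫_ℝ := fun x q u => by
    rw [Wop_apply, inner_sub_left, real_inner_smul_left, real_inner_self_eq_norm_sq]
  have hW : ∀ u, ‖Wop c0 exp x q u‖ ≤ N * ‖u‖ :=
    norm_le_of_form hN0 (Wop_symm hs.toGeoS0 hq)
      (fun u => (sq_nonneg _).trans (Wop_ge h1 hs.toGeoS0 hc hq u)) fun u => by
        have h2 := hA u
        have h3 := mul_le_mul_of_nonneg_right (le_abs_self Λ) (sq_nonneg ‖u‖)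
        rw [hWi, hN]
        linarith
  obtain ⟨R, hR, -, hK⟩ := hs.mixed x q hq
  filter_upwards [tay_h h1 hs.toGeoS0 hq (half_pos hε)] with w hw
  have a1 := (abs_le.1 hw).1
  have a2 := Wop_rev_le h1 hs hq hN0 hW w.2
  rw [hWi] at a2
  have a3 : ⟪Wop c0 exp x q w.1, R w.2⟫_ℝ ≤ ‖w.1‖ * (N * L * ‖w.2‖) := by
    refine (real_inner_le_norm _ _).trans ((mul_le_mul (hW _) (hR _) (norm_nonneg _)
      (by positivity)).trans (le_of_eq ?_))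
    ring
  have a4 : ‖w.1‖ * (N * L * ‖w.2‖) ≤ ε / 2 * ‖w.1‖ ^ 2 + (N * L) ^ 2 / (2 * ε) * ‖w.2‖ ^ 2 := by
    have e : ε / 2 * ‖w.1‖ ^ 2 + (N * L) ^ 2 / (2 * ε) * ‖w.2‖ ^ 2 - ‖w.1‖ * (N * L * ‖w.2‖) =
        (ε * ‖w.1‖ - N * L * ‖w.2‖) ^ 2 / (2 * ε) := by
      field_simp
      ring
    have : 0 ≤ (ε * ‖w.1‖ - N * L * ‖w.2‖) ^ 2 / (2 * ε) := by positivity
    linarith
  have a5 : 0 ≤ c0 * ‖w.2‖ ^ 2 := by positivity
  rw [hK] at a1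
  linarith

end Crest.Agent.R226.Q

end
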