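import Crest.Agent.R226.LDefs

/-!
# rid 226, part Q (owner helper74): from smoothness of the cost to the second order axioms `L.Geo2`

`Aop exp x q` is the Hessian at `0` of `ζ ↦ c (exp x ζ) (exp x q)`, `Wop = c0 - Aop`, `Pop = Wop⁻¹`.
`GeoS0`, `GeoS` are the facts which come from the manifold (files `QM*`); the files `QA` .. `QG` derive `L.Geo2`
from `L.Geo1` and `GeoS` by calculus in `E`.  DO NOT CHANGE.
-/

set_option autoImplicit false
set_option maxSynthPendingDepth 3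

open Set Filter Topology
open scoped InnerProductSpace ContDiff

noncomputable section

namespace Crest.Agent.R226.Q

open Crest.Agent.R226.L

variable {M : Type*} [MetricSpace M] {E : Type} [NormedAddCommGroup E] [InnerProductSpace ℝ E] [FiniteDimensional ℝ E]

variable (E) in
/-- the Riesz map -/
def sharp : (E →L[ℝ] ℝ) →L[ℝ] E :=
  haveI := FiniteDimensional.complete ℝ E
  LinearMap.mkContinuous
    { toFun := fun l => (InnerProductSpace.toDual ℝ E).symm l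
      map_add' := fun a b => map_add _ a b
      map_smul' := fun c a => by simp }
    1 (fun l => by simp)

theorem inner_sharp (l : E →L[ℝ] ℝ) (v : E) : ⟪sharp E l, v⟫_ℝ = l v := by
  have := FiniteDimensional.complete ℝ E
  exact InnerProductSpace.toDual_symm_apply

/-- the cost in normal coordinates at `x` (both points) -/
def kx (exp : M → E → M) (x : M) (w : E × E) : ℝ := cst (exp x w.1) (exp x w.2)

/-- the cost in normal coordinates at `x` and at `exp x q` -/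
def hx (exp : M → E → M) (x : M) (q : E) (w : E × E) : ℝ := cst (exp x w.1) (exp (exp x q) w.2)

/-- the Hessian at `x` of `c (·, exp x q)` -/
def Aop (exp : M → E → M) (x : M) (q : E) : E →L[ℝ] E :=
  (sharp E).comp (fderiv ℝ (fderiv ℝ fun ζ => kx exp x (ζ, q)) 0)

def Wop (c0 : ℝ) (exp : M → E → M) (x : M) (q : E) : E →L[ℝ] E := c0 • (1 : E →L[ℝ] E) - Aop exp x q

def Pop (c0 : ℝ) (exp : M → E → M) (x : M) (q : E) : E →L[ℝ] E := Ring.inverse (Wop c0 exp x q)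

/-- the mixed Hessian of the cost at `(x, exp x q)`; `μ` is tangent at `exp x q`, `u` at `x` -/
def Kop (exp : M → E → M) (x : M) (q μ u : E) : ℝ := fderiv ℝ (fderiv ℝ (hx exp x q)) (0, 0) (0, μ) (u, 0)

theorem inner_Aop (exp : M → E → M) (x : M) (q u v : E) :
    ⟪Aop exp x q u, v⟫_ℝ = fderiv ℝ (fderiv ℝ fun ζ => kx exp x (ζ, q)) 0 u v := inner_sharp _ _

theorem Wop_apply (c0 : ℝ) (exp : M → E → M) (x : M) (q u : E) : Wop c0 exp x q u = c0 • u - Aop exp x q u := rfl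

/-- qualitative facts -/
structure GeoS0 (exp : M → E → M) (vel : M → E → E) : Prop where
  k_smooth : ∀ x, ∀ q ∈ InjS exp x, ContDiffAt ℝ ∞ (kx exp x) (0, q)
  h_smooth : ∀ x, ∀ q ∈ InjS exp x, ContDiffAt ℝ ∞ (hx exp x q) (0, 0)
  isOpen : ∀ x, IsOpen (InjS exp x)
  rev : ∀ x, ∀ q ∈ InjS exp x, -vel x q ∈ InjS exp (exp x q)

/-- uniform facts -/
structure GeoS (exp : M → E → M) (vel : M → E → E) (c0 L : ℝ) : Prop extends GeoS0 exp vel where
  L_pos : 0 < L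
  mixed : ∀ x, ∀ q ∈ InjS exp x, ∃ R : E →L[ℝ] E, (∀ μ, ‖R μ‖ ≤ L * ‖μ‖) ∧ (∀ μ, ‖μ‖ ≤ L * ‖R μ‖) ∧
    ∀ u μ, Kop exp x q μ u = -⟪Wop c0 exp x q u, R μ⟫_ℝ
  P_d1 : ∀ x, ∀ q ∈ InjS exp x, ‖fderiv ℝ (Pop c0 exp x) q‖ ≤ L
  P_d2 : ∀ x, ∀ q ∈ InjS exp x, ‖fderiv ℝ (fderiv ℝ (Pop c0 exp x)) q‖ ≤ L

/-- the weak MTW condition as in the statements -/
def MTWRaw (exp : M → E → M) : Prop :=
  ∀ x, ∀ v ∈ InjS exp x, ∀ ξ η : E, ⟪ξ, η⟫_ℝ = 0 →
    iteratedFDeriv ℝ 4 (fun p : ℝ × ℝ => cst (exp x (p.2 • ξ)) (exp x (v + p.1 • η))) (0, 0)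
      ![((1 : ℝ), (0 : ℝ)), (1, 0), (0, 1), (0, 1)] ≤ 0

end Crest.Agent.R226.Q

end
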