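import Crest.Agent.R226.QD

/-!
# rid 226 / QE (part Q, sub-lead helper74): monotonicity along rays

Prefix for auxiliary lemmas: `qe_`.
-/

set_option autoImplicit false
set_option maxSynthPendingDepth 3
set_option linter.unusedSectionVars false

open Set Filter Topology
open scoped InnerProductSpace ContDiff

noncomputable section

namespace Crest.Agent.R226.Q

open Crest.Agent.R226.L

variable {M : Type*} [MetricSpace M] {E : Type} [NormedAddCommGroup E] [InnerProductSpace ℝ E] [FiniteDimensional ℝ E]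
  {exp : M → E → M} {vel : M → E → E} {L1 δ c0 L : ℝ} {x : M} {q : E}

theorem qe_tri {t t' : ℝ} (ht : 0 < t) (htt : t < t') (a b c : M) :
    cst a c / t' ≤ cst a b / t + cst b c / (t' - t) := by
  have ht' : 0 < t' := ht.trans htt
  have hd : 0 < t' - t := sub_pos.2 htt
  have h1 : dist a c ^ 2 ≤ (dist a b + dist b c) ^ 2 :=
    pow_le_pow_left₀ dist_nonneg (dist_triangle a b c) 2
  have h2 : dist a b ^ 2 / 2 / t + dist b c ^ 2 / 2 / (t' - t) - (dist a b + dist b c) ^ 2 / 2 / t' =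
      (dist a b * (t' - t) - dist b c * t) ^ 2 / (2 * t * t' * (t' - t)) := by
    field_simp
    ring
  have h3 : 0 ≤ (dist a b * (t' - t) - dist b c * t) ^ 2 / (2 * t * t' * (t' - t)) := by positivity
  have h4 : dist a c ^ 2 / 2 / t' ≤ (dist a b + dist b c) ^ 2 / 2 / t' := by gcongr
  unfold cst
  linarith

theorem qe_arith {t t' n α β A A' K Z Mu W L1 ε c1 c2 c3 : ℝ} (ht : 0 < t) (htt : t < t') (hε : 0 ≤ ε)
    (hZ0 : 0 ≤ Z) (hZ : Z ≤ W) (hM : Mu ≤ W)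
    (h1 : t' ^ 2 * n / 2 - t' * α + A' / 2 - ε * t / 6 * Z ≤ c1)
    (h2 : c2 ≤ t ^ 2 * n / 2 - t * α + β + A / 2 + K + L1 * Mu + ε * t / 6 * (Z + Mu))
    (h3 : c3 ≤ (t' - t) ^ 2 * n / 2 - (t' - t) / t * β + L1 * Mu)
    (h4 : c1 / t' ≤ c2 / t + c3 / (t' - t)) :
    A' / t' ≤ A / t + 2 * K / t + 2 * L1 * (1 / t + 1 / (t' - t)) * Mu + ε * W := by
  have ht' : 0 < t' := ht.trans htt
  have hd : 0 < t' - t := sub_pos.2 htt
  have d1 := div_le_div_of_nonneg_right h1 ht'.le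
  have d2 := div_le_div_of_nonneg_right h2 ht.le
  have d3 := div_le_div_of_nonneg_right h3 hd.le
  have e1 : (t' ^ 2 * n / 2 - t' * α + A' / 2 - ε * t / 6 * Z) / t' =
      t' * n / 2 - α + A' / t' / 2 - t / t' * (ε * Z) / 6 := by field_simp
  have e2 : (t ^ 2 * n / 2 - t * α + β + A / 2 + K + L1 * Mu + ε * t / 6 * (Z + Mu)) / t =
      t * n / 2 - α + β / t + A / t / 2 + K / t + L1 * (1 / t) * Mu + ε * (Z + Mu) / 6 := by field_simp
  have e3 : ((t' - t) ^ 2 * n / 2 - (t' - t) / t * β + L1 * Mu) / (t' - t) =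
      (t' - t) * n / 2 - β / t + L1 * (1 / (t' - t)) * Mu := by field_simp
  have e4 : 2 * K / t = 2 * (K / t) := by ring
  have f1 : t / t' * (ε * Z) ≤ ε * Z :=
    mul_le_of_le_one_left (mul_nonneg hε hZ0) ((div_le_one ht').2 htt.le)
  have f2 := mul_le_mul_of_nonneg_left hZ hε
  have f3 := mul_le_mul_of_nonneg_left hM hε
  rw [e1] at d1
  rw [e2] at d2
  rw [e3] at d3
  rw [e4]
  linarith

theorem qe_Kop_smul (q μ ζ : E) (h : ℝ) : Kop exp x q (h • μ) (h • ζ) = h ^ 2 * Kop exp x q μ ζ := by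
  have e1 : ((0 : E), h • μ) = h • ((0 : E), μ) := by simp
  have e2 : (h • ζ, (0 : E)) = h • (ζ, (0 : E)) := by simp
  rw [Kop, Kop, e1, e2, map_smul, map_smul, smul_apply, smul_eq_mul, smul_eq_mul]
  ring

theorem qe_form_smul (T : E →L[ℝ] E) (ζ : E) (h : ℝ) : ⟪T (h • ζ), h • ζ⟫_ℝ = h ^ 2 * ⟪T ζ, ζ⟫_ℝ := by
  rw [map_smul, real_inner_smul_left, real_inner_smul_right]
  ring

/-- Let `y = exp x (t • u)`, `v = vel x (t • u)`, `y' = exp x (t' • u) = exp y p`, `p = ((t' - t) / t) • v ∈ MinS y`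
(`flow`, `dist_ray`, `norm_vel`).  For all `ζ, μ`:
`c (exp x ζ) y' / t' ≤ c (exp x ζ) (exp y μ) / t + c (exp y μ) y' / (t' - t)` (triangle inequality and
`(a + b)² / t' ≤ a² / t + b² / (t' - t)`).  Bound the left side below by `tay_k` at `t' • u`, the first term above by
`tay_h` at `t • u` (and `Aop_le` at `(y, -v)`), the second one by `sc` at `(y, p)`.  The terms of order zero and one
cancel; use `(h • ζ, h • μ)`, `h → 0` (`le_of_eventually_quad` with the vector `(ζ, μ)`). -/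
theorem ray_key (h1 : Geo1 exp vel L1 δ) (h0 : GeoS0 exp vel) {u : E} (hu : u ∈ MinS exp x) {t t' : ℝ} (ht : 0 < t)
    (htt : t < t') (ht' : t' < 1) (ζ μ : E) :
    ⟪Aop exp x (t' • u) ζ, ζ⟫_ℝ / t' ≤ ⟪Aop exp x (t • u) ζ, ζ⟫_ℝ / t + 2 * Kop exp x (t • u) μ ζ / t +
      2 * L1 * (1 / t + 1 / (t' - t)) * ‖μ‖ ^ 2 := by
  have ht0 : 0 < t' := ht.trans htt
  have hd : 0 < t' - t := sub_pos.2 htt
  have hq := inj_smul h1 hu ht.le (htt.trans ht')
  have hq' := inj_smul h1 hu ht0.le ht'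
  have hy : exp (exp x (t • u)) (((t' - t) / t) • vel x (t • u)) = exp x (t' • u) := by
    rw [h1.flow, smul_smul]
    congr 2
    field_simp
    ring
  have hn : ‖((t' - t) / t) • vel x (t • u)‖ = (t' - t) * ‖u‖ := by
    rw [norm_smul, h1.norm_vel, norm_smul, Real.norm_of_nonneg (div_pos hd ht).le, Real.norm_of_nonneg ht.le]
    field_simp
  have hp : ((t' - t) / t) • vel x (t • u) ∈ MinS exp (exp x (t • u)) := by
    change dist _ _ = _
    rw [hy, hn, dist_ray h1 hu ht.le htt.le ht'.le]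
  refine le_of_eventually_quad (u := (ζ, μ)) fun ε hε => ?_
  have hε' : 0 < ε * t / 6 := by positivity
  have c1 : Tendsto (fun h : ℝ => h • ζ) (𝓝[>] 0) (𝓝 0) := by
    have : Continuous fun h : ℝ => h • ζ := by fun_prop
    simpa using (this.tendsto 0).mono_left (nhdsWithin_le_nhds (s := Ioi 0))
  have c2 : Tendsto (fun h : ℝ => (h • ζ, h • μ)) (𝓝[>] 0) (𝓝 (0, 0)) := by
    have : Continuous fun h : ℝ => (h • ζ, h • μ) := by fun_prop
    simpa using (this.tendsto 0).mono_left (nhdsWithin_le_nhds (s := Ioi 0))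
  filter_upwards [c1.eventually (tay_k h1 h0 hq' hε'), c2.eventually (tay_h h1 h0 hq hε')] with h a1 a2
  have a3 := h1.sc _ _ hp (h • μ)
  rw [hy, hn, real_inner_smul_left] at a3
  have a4 := Aop_le h1 h0 (h0.rev x _ hq) (h • μ)
  have b1 := (abs_le.1 a1).1
  have b2 := (abs_le.1 a2).2
  rw [norm_smul t', Real.norm_of_nonneg ht0.le, real_inner_smul_left u] at b1
  rw [norm_smul t, Real.norm_of_nonneg ht.le, real_inner_smul_left u] at b2
  have w1 : ‖h • ζ‖ ^ 2 ≤ ‖h • (ζ, μ)‖ ^ 2 :=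
    pow_le_pow_left₀ (norm_nonneg _) (norm_fst_le (h • (ζ, μ))) 2
  have w2 : ‖h • μ‖ ^ 2 ≤ ‖h • (ζ, μ)‖ ^ 2 :=
    pow_le_pow_left₀ (norm_nonneg _) (norm_snd_le (h • (ζ, μ))) 2
  have key := qe_arith (n := ‖u‖ ^ 2) (α := ⟪u, h • ζ⟫_ℝ) (β := ⟪vel x (t • u), h • μ⟫_ℝ)
    (A := ⟪Aop exp x (t • u) (h • ζ), h • ζ⟫_ℝ) (A' := ⟪Aop exp x (t' • u) (h • ζ), h • ζ⟫_ℝ)
    (K := Kop exp x (t • u) (h • μ) (h • ζ)) (L1 := L1) ht htt hε.le (sq_nonneg _) w1 w2
    (by linarith) (by linarith) (by linarith)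
    (qe_tri ht htt (exp x (h • ζ)) (exp (exp x (t • u)) (h • μ)) (exp x (t' • u)))
  rw [qe_form_smul, qe_form_smul, qe_Kop_smul, norm_smul h μ, mul_pow, Real.norm_eq_abs, sq_abs] at key
  refine le_trans (le_of_eq (by ring)) (key.trans (le_of_eq (by ring)))

/-- `ray_key` with `R μ = λ • W ζ` (`R` from `mixed` is onto, `‖μ‖ ≤ L λ ‖W ζ‖`), `λ = (t' - t) / (2 L1 L² t')`. -/
theorem ray_key2 (h1 : Geo1 exp vel L1 δ) (hs : GeoS exp vel c0 L) {u : E} (hu : u ∈ MinS exp x) {t t' : ℝ} (ht : 0 < t)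
    (htt : t < t') (ht' : t' < 1) (ζ : E) :
    ⟪Aop exp x (t' • u) ζ, ζ⟫_ℝ / t' + (t' - t) / (2 * L1 * L ^ 2 * t * t') * ‖Wop c0 exp x (t • u) ζ‖ ^ 2 ≤
      ⟪Aop exp x (t • u) ζ, ζ⟫_ℝ / t := by
  have ht0 : 0 < t' := ht.trans htt
  have hd : 0 < t' - t := sub_pos.2 htt
  have hL := hs.L_pos
  have hL1 := h1.L_pos
  have hq := inj_smul h1 hu ht.le (htt.trans ht')
  obtain ⟨R, -, hR, hK⟩ := hs.mixed x _ hq
  have hinj : Function.Injective R := by
    refine (injective_iff_map_eq_zero R).2 fun μ hμ => ?_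
    have := hR μ
    rw [hμ, norm_zero, mul_zero] at this
    exact norm_le_zero_iff.1 this
  have hsurj : Function.Surjective R :=
    (LinearMap.injective_iff_surjective (f := (R : E →ₗ[ℝ] E))).1 hinj
  set l := (t' - t) / (2 * L1 * L ^ 2 * t') with hl
  have hl0 : 0 < l := by positivity
  obtain ⟨μ, hμ⟩ := hsurj (l • Wop c0 exp x (t • u) ζ)
  have k1 := ray_key h1 hs.toGeoS0 hu ht htt ht' ζ μ
  rw [hK, hμ, real_inner_smul_right, real_inner_self_eq_norm_sq] at k1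
  have k2 : ‖μ‖ ^ 2 ≤ (L * (l * ‖Wop c0 exp x (t • u) ζ‖)) ^ 2 := by
    have := hR μ
    rw [hμ, norm_smul, Real.norm_of_nonneg hl0.le] at this
    exact pow_le_pow_left₀ (norm_nonneg _) this 2
  have k3 := mul_le_mul_of_nonneg_left k2 (show 0 ≤ 2 * L1 * (1 / t + 1 / (t' - t)) by positivity)
  set w := ‖Wop c0 exp x (t • u) ζ‖ with hw
  have e1 : 2 * L1 * (1 / t + 1 / (t' - t)) * (L * (l * w)) ^ 2 =
      (t' - t) / (2 * L1 * L ^ 2 * t * t') * w ^ 2 := by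
    rw [hl]
    field_simp
    ring
  have e2 : 2 * -(l * w ^ 2) / t = -2 * ((t' - t) / (2 * L1 * L ^ 2 * t * t') * w ^ 2) := by
    rw [hl]
    field_simp
  rw [e1] at k3
  rw [e2] at k1
  linarith

/-- `κ = r / (2 L1 L²)`, `norm_le_Wop`, `t t' ≤ 1` -/
theorem mono (h1 : Geo1 exp vel L1 δ) (hs : GeoS exp vel c0 L) (hc : 2 * L1 + 2 ≤ c0) (t0 : ℝ) (ht0 : 0 < t0) (r : ℝ)
    (hr : 0 < r) : ∃ κ : ℝ, 0 < κ ∧ ∀ x, ∀ u ∈ MinS exp x, ∀ t t' : ℝ, t0 ≤ t → t + r ≤ t' → t' < 1 → ∀ ζ,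
      ⟪Aop exp x (t' • u) ζ, ζ⟫_ℝ / t' + κ * ‖ζ‖ ^ 2 ≤ ⟪Aop exp x (t • u) ζ, ζ⟫_ℝ / t := by
  have hL := hs.L_pos
  have hL1 := h1.L_pos
  refine ⟨r / (2 * L1 * L ^ 2), by positivity, fun x u hu t t' a1 a2 a3 ζ => ?_⟩
  have ht : 0 < t := ht0.trans_le a1
  have htt : t < t' := by linarith
  have ht' : 0 < t' := ht.trans htt
  have k1 := ray_key2 h1 hs hu ht htt a3 ζ
  have k2 := norm_le_Wop h1 hs.toGeoS0 hc (inj_smul h1 hu ht.le (htt.trans a3)) ζ
  have k3 : r / (2 * L1 * L ^ 2) ≤ (t' - t) / (2 * L1 * L ^ 2 * t * t') := by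
    refine div_le_div₀ (by linarith) (by linarith) (by positivity) ?_
    have h2 : t * t' ≤ 1 := by nlinarith
    rw [mul_assoc _ t]
    exact mul_le_of_le_one_right (by positivity) h2
  have k4 : r / (2 * L1 * L ^ 2) * ‖ζ‖ ^ 2 ≤
      (t' - t) / (2 * L1 * L ^ 2 * t * t') * ‖Wop c0 exp x (t • u) ζ‖ ^ 2 :=
    mul_le_mul k3 (pow_le_pow_left₀ (norm_nonneg _) k2 2) (sq_nonneg _) (le_trans (by positivity) k3)
  linarith

end Crest.Agent.R226.Q

end
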