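import Crest.Agent.R226.G8
import Crest.Agent.R226.QDefs

/-! # rid 226 / QM0b: the qualitative facts `GeoS0` (helper85) -/

set_option autoImplicit false
set_option linter.unusedSectionVars false

open scoped ContDiff Manifold Topology
open Bundle Set Filter Metric

noncomputable section

namespace Crest.Agent.R226.G

variable {n : ℕ} {M : Type*} [MetricSpace M] [ChartedSpace (EE n) M] [IsManifold 𝓘(ℝ, EE n) ∞ M]

namespace Riem

variable [CompactSpace M] {R : Riem n M}

/-- the cost in normal coordinates at `x` and at `exp x v` is smooth near `(0, 0)` -/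
theorem InI.contDiffAt_cst' {x : M} {v : EE n} (h : R.InI x v) :
    ContDiffAt ℝ ∞ (fun p : EE n × EE n => cst (R.exp x p.1) (R.exp (R.exp x v) p.2)) (0, 0) := by
  have hs := (InI.smoothAt (ξ := mkT x v) h (R.dom_self _)).sm
  set y := R.exp x v with hy
  have hs' : ContDiffAt ℝ ∞ (cc n x y) (ch n x (R.exp x 0), ch n y (R.exp y 0)) := by
    rw [exp_zero, exp_zero]
    exact hs
  have m0 : ∀ z : M, R.exp z 0 ∈ (ch n z).source := fun z => by
    rw [exp_zero]
    exact mem_chart_source _ z
  have c0 : ContDiffAt ℝ ∞ (fun p : EE n × EE n => ch n x (R.exp x p.1)) (0, 0) :=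
    ContDiffAt.comp (g := fun u => ch n x (R.exp x u)) (f := Prod.fst) (0, 0)
      (R.contDiffAt_exp (m0 x)) contDiffAt_fst
  have c1 : ContDiffAt ℝ ∞ (fun p : EE n × EE n => ch n y (R.exp y p.2)) (0, 0) :=
    ContDiffAt.comp (g := fun u => ch n y (R.exp y u)) (f := Prod.snd) (0, 0)
      (R.contDiffAt_exp (m0 y)) contDiffAt_snd
  have c2 : ContDiffAt ℝ ∞ (fun p : EE n × EE n =>
      cc n x y (ch n x (R.exp x p.1), ch n y (R.exp y p.2))) (0, 0) :=
    ContDiffAt.comp (g := cc n x y)
      (f := fun p : EE n × EE n => (ch n x (R.exp x p.1), ch n y (R.exp y p.2))) (0, 0) hs'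
      (c0.prodMk c1)
  refine c2.congr_of_eventuallyEq ?_
  have t0 : ContinuousAt (fun p : EE n × EE n => R.exp x p.1) (0, 0) :=
    ((R.continuous_exp x).comp continuous_fst).continuousAt
  have t1 : ContinuousAt (fun p : EE n × EE n => R.exp y p.2) (0, 0) :=
    ((R.continuous_exp y).comp continuous_snd).continuousAt
  filter_upwards [t0.eventually ((ch n x).open_source.mem_nhds (m0 x)),
    t1.eventually ((ch n y).open_source.mem_nhds (m0 y))] with p h0 h1
  simp only [cc, (ch n x).left_inv h0, (ch n y).left_inv h1]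

theorem geoS0b (R : Riem n M) : Q.GeoS0 R.expE R.velE where
  k_smooth x q hq := by
    have h := (R.mem_injS.1 hq).contDiffAt_cst
    have hl : ContDiffAt ℝ ∞ (fun w : EE n × EE n => (R.fr x w.1, R.fr x w.2)) (0, q) := by
      fun_prop
    have h' : ContDiffAt ℝ ∞ (fun p : EE n × EE n => cst (R.exp x p.1) (R.exp x p.2))
        (R.fr x 0, R.fr x q) := by rwa [map_zero]
    exact ContDiffAt.comp (f := fun w : EE n × EE n => (R.fr x w.1, R.fr x w.2)) (0, q) h' hl
  h_smooth x q hq := by
    have h := (R.mem_injS.1 hq).contDiffAt_cst'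
    have hl : ContDiffAt ℝ ∞ (fun w : EE n × EE n => (R.fr x w.1, R.fr (R.expE x q) w.2))
        (0, 0) := by fun_prop
    have h' : ContDiffAt ℝ ∞ (fun p : EE n × EE n =>
        cst (R.exp x p.1) (R.exp (R.expE x q) p.2)) (R.fr x 0, R.fr (R.expE x q) 0) := by
      rwa [map_zero, map_zero]
    exact ContDiffAt.comp (f := fun w : EE n × EE n => (R.fr x w.1, R.fr (R.expE x q) w.2))
      (0, 0) h' hl
  isOpen x := by
    have : L.InjS R.expE x = R.fr x ⁻¹' {v | R.InI x v} := Set.ext fun _ => R.mem_injS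
    rw [this]
    exact (R.isOpen_inI_fib x).preimage (R.fr x).continuous
  rev x q hq := by
    rw [R.mem_injS, map_neg, velE, ContinuousLinearEquiv.apply_symm_apply]
    exact (R.mem_injS.1 hq).rev

end Riem

end Crest.Agent.R226.G

end
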