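import Crest.Agent.R226.QM0
import Crest.Agent.R226.G7

/-!
# rid 226 / QM1 (part Q, sub-lead helper74): qualitative facts GeoS0, MTWRaw, mixed derivative

Prefix for auxiliary lemmas: `qm1_`.
-/

set_option autoImplicit false
set_option maxSynthPendingDepth 3
set_option linter.unusedSectionVars false

open scoped ContDiff Manifold Topology InnerProductSpace
open Bundle Set Filter Metric

noncomputable section

namespace Crest.Agent.R226.G

open Crest.Agent.R226.Q

variable {n : ℕ} {M : Type*} [MetricSpace M] [ChartedSpace (EE n) M] [IsManifold 𝓘(ℝ, EE n) ∞ M]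

theorem qm1_slice {E : Type} [NormedAddCommGroup E] [NormedSpace ℝ E] {f : E × E → ℝ} {p : E}
    (hf : ContDiffAt ℝ 2 f (0, p)) (u : E) : ∃ L : E →L[ℝ] ℝ, HasFDerivAt (fun η => fderiv ℝ f (0, η) (u, 0)) L p ∧
      ∀ η, L η = fderiv ℝ (fderiv ℝ f) (0, p) (0, η) (u, 0) := by
  have h1 := ((hf.fderiv_right (m := 1) (by norm_num)).differentiableAt one_ne_zero).hasFDerivAt
  have h2 := h1.comp p (hasFDerivAt_prodMk_right (𝕜 := ℝ) (0 : E) p)
  exact ⟨_, (ContinuousLinearMap.apply ℝ ℝ ((u, 0) : E × E)).hasFDerivAt.comp p h2, fun _ => rfl⟩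

/-- Mixed second derivatives of `(ζ, η) ↦ c (ζ, m η)` only depend on `D m`.  Near `(0, p)` the derivative of this function
in the direction `(u, 0)` is `fderiv c (ζ, m η) (u, 0)`; differentiate `η ↦ fderiv c (0, m η) (u, 0)`. -/
theorem mixed_comp {E : Type} [NormedAddCommGroup E] [NormedSpace ℝ E] {c : E × E → ℝ} {m : E → E} {p : E}
    (hc : ContDiffAt ℝ 2 c (0, m p)) (hm : ContDiffAt ℝ 2 m p) (η u : E) :
    fderiv ℝ (fderiv ℝ fun w : E × E => c (w.1, m w.2)) (0, p) (0, η) (u, 0) =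
      fderiv ℝ (fderiv ℝ c) (0, m p) (0, fderiv ℝ m p η) (u, 0) := by
  have hF : ContDiffAt ℝ 2 (fun w : E × E => c (w.1, m w.2)) (0, p) :=
    hc.comp ((0 : E), p) (f := fun w : E × E => (w.1, m w.2))
      (contDiffAt_fst.prodMk (hm.comp ((0 : E), p) contDiffAt_snd))
  obtain ⟨L1, a1, b1⟩ := qm1_slice hF u
  obtain ⟨L2, a2, b2⟩ := qm1_slice hc u
  have a3 := a2.comp p (hm.differentiableAt two_ne_zero).hasFDerivAt
  have h1 : ContinuousAt (fun η => ((0 : E), m η)) p := continuousAt_const.prodMk hm.continuousAt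
  have e : (fun η => fderiv ℝ (fun w : E × E => c (w.1, m w.2)) (0, η) (u, 0)) =ᶠ[𝓝 p]
      (fun η => fderiv ℝ c (0, η) (u, 0)) ∘ m := by
    filter_upwards [h1.eventually (hc.eventually (by simp)), hm.eventually (by simp)] with η h2 h3
    have h4 := (h2.differentiableAt two_ne_zero).hasFDerivAt.comp ((0 : E), η) (f := fun w : E × E => (w.1, m w.2))
      (hasFDerivAt_fst.prodMk ((h3.differentiableAt two_ne_zero).hasFDerivAt.comp ((0 : E), η) hasFDerivAt_snd))
    rw [show (fun w : E × E => c (w.1, m w.2)) = c ∘ fun w : E × E => (w.1, m w.2) from rfl, h4.fderiv]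
    simp
  rw [← b1, ← b2, a1.unique (a3.congr_of_eventuallyEq e)]
  rfl

/-- `fderiv (kx exp x) (0, η) (u, 0) = -⟪η, u⟫` for `η` near `q` (`isOpen`, `fderiv_k1`); differentiate in `η`. -/
theorem kx_mixed {M : Type*} [MetricSpace M] {E : Type} [NormedAddCommGroup E] [InnerProductSpace ℝ E]
    [FiniteDimensional ℝ E] {exp : M → E → M} {vel : M → E → E} {L1 δ : ℝ} (h1 : L.Geo1 exp vel L1 δ)
    (h0 : GeoS0 exp vel) {x : M} {q : E} (hq : q ∈ L.InjS exp x) (η u : E) :
    fderiv ℝ (fderiv ℝ (kx exp x)) (0, q) (0, η) (u, 0) = -⟪η, u⟫_ℝ := by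
  obtain ⟨L1, a1, b1⟩ := qm1_slice ((h0.k_smooth x q hq).of_le (by norm_cast)) u
  have e : (fun η => fderiv ℝ (kx exp x) (0, η) (u, 0)) =ᶠ[𝓝 q] fun η => (-innerSL ℝ u) η := by
    filter_upwards [(h0.isOpen x).mem_nhds hq] with η hη
    have h2 := ((h0.k_smooth x η hη).differentiableAt (by simp)).hasFDerivAt.comp (0 : E)
      (hasFDerivAt_prodMk_left (𝕜 := ℝ) (0 : E) η)
    have h3 := fderiv_k1 h1 h0 hη u
    rw [show (fun ζ => kx exp x (ζ, η)) = kx exp x ∘ fun ζ => (ζ, η) from rfl, h2.fderiv, real_inner_comm] at h3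
    exact h3
  rw [← b1, a1.unique ((-innerSL ℝ u).hasFDerivAt.congr_of_eventuallyEq e), real_inner_comm]
  rfl

namespace Riem

variable [CompactSpace M] (R : Riem n M)

theorem qm1_zero (x : M) : R.expE x 0 = x := by rw [expE, map_zero, exp_zero]

/-- `cst (expE x ζ) ((ch b).symm β) = cc x b (ch x (expE x ζ), β)` for `ζ` near `0`; `InI.smoothAt`, `contDiffAt_expE` -/
theorem contDiffAt_semi {x b : M} {q : EE n} (hq : q ∈ L.InjS R.expE x) (hb : R.expE x q ∈ (ch n b).source) :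
    ContDiffAt ℝ ∞ (fun w : EE n × EE n => cst (R.expE x w.1) ((ch n b).symm w.2)) (0, ch n b (R.expE x q)) := by
  have hx : R.expE x 0 ∈ (ch n x).source := by rw [R.qm1_zero]; exact mem_chart_source _ x
  have h1 : ContDiffAt ℝ ∞ (cc n x b) (ch n x (R.expE x 0), ch n b (R.expE x q)) := by
    rw [R.qm1_zero]
    exact (InI.smoothAt (ξ := R.tv x q) (R.mem_injS.1 hq) (R.dom_tv.2 ⟨mem_chart_source _ x, hb⟩)).sm
  have h2 := h1.comp ((0 : EE n), ch n b (R.expE x q)) (f := fun w : EE n × EE n => (ch n x (R.expE x w.1), w.2))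
    (((R.contDiffAt_expE hx).comp ((0 : EE n), ch n b (R.expE x q)) contDiffAt_fst).prodMk contDiffAt_snd)
  have h3 : ContinuousAt (fun w : EE n × EE n => R.expE x w.1) (0, ch n b (R.expE x q)) :=
    ((R.continuous_expE x).comp continuous_fst).continuousAt
  refine h2.congr_of_eventuallyEq ?_
  filter_upwards [h3.eventually ((ch n x).open_source.mem_nhds hx)] with w hw
  simp only [Function.comp_apply, cc]
  rw [(ch n x).left_inv hw]

theorem qm1_ev (x : M) {z b : M} {p : EE n} (h : R.expE z p ∈ (ch n b).source) :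
    (fun w : EE n × EE n => cst (R.expE x w.1) (R.expE z w.2)) =ᶠ[𝓝 (0, p)]
      fun w => cst (R.expE x w.1) ((ch n b).symm (ch n b (R.expE z w.2))) := by
  have h1 : ContinuousAt (fun w : EE n × EE n => R.expE z w.2) (0, p) :=
    ((R.continuous_expE z).comp continuous_snd).continuousAt
  filter_upwards [h1.eventually ((ch n b).open_source.mem_nhds h)] with w hw
  rw [(ch n b).left_inv hw]

theorem qm1_smooth {x z : M} {q p : EE n} (hq : q ∈ L.InjS R.expE x) (e : R.expE z p = R.expE x q) :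
    ContDiffAt ℝ ∞ (fun w : EE n × EE n => cst (R.expE x w.1) (R.expE z w.2)) (0, p) := by
  have hb : R.expE z p ∈ (ch n (R.expE z p)).source := mem_chart_source _ _
  have h1 := R.contDiffAt_semi hq (e ▸ hb : R.expE x q ∈ (ch n (R.expE z p)).source)
  rw [← e] at h1
  have h2 := (R.contDiffAt_expE hb).comp ((0 : EE n), p) (f := Prod.snd) contDiffAt_snd
  exact (h1.comp ((0 : EE n), p) (f := fun w : EE n × EE n => (w.1, ch n (R.expE z p) (R.expE z w.2)))
    (contDiffAt_fst.prodMk h2)).congr_of_eventuallyEq (R.qm1_ev x hb)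

theorem qm1_mixed {x z b : M} {q p : EE n} (hq : q ∈ L.InjS R.expE x) (e : R.expE z p = R.expE x q)
    (hb : R.expE x q ∈ (ch n b).source) (η u : EE n) :
    fderiv ℝ (fderiv ℝ fun w : EE n × EE n => cst (R.expE x w.1) (R.expE z w.2)) (0, p) (0, η) (u, 0) =
      fderiv ℝ (fderiv ℝ fun w : EE n × EE n => cst (R.expE x w.1) ((ch n b).symm w.2)) (0, ch n b (R.expE x q))
        (0, fderiv ℝ (fun μ => ch n b (R.expE z μ)) p η) (u, 0) := by
  have h1 := R.contDiffAt_semi hq hb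
  rw [← e] at hb h1 ⊢
  rw [(R.qm1_ev x hb).fderiv.fderiv_eq]
  exact mixed_comp (c := fun w : EE n × EE n => cst (R.expE x w.1) ((ch n b).symm w.2))
    (m := fun μ => ch n b (R.expE z μ)) (h1.of_le (by norm_cast))
    ((R.contDiffAt_expE hb).of_le (by norm_cast)) η u

/-- `contDiffAt_semi` composed with `contDiffAt_expE` (chart at `y = expE x q`; `expE y 0 = y`); `isOpen_inI_fib`;
`InI.rev` (`L.cst` and `G.cst` are definitionally equal) -/
theorem geoS0 : GeoS0 R.expE R.velE := by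
  refine ⟨fun x q hq => R.qm1_smooth hq rfl, fun x q hq => R.qm1_smooth hq (R.qm1_zero _), fun x => ?_,
    fun x q hq => R.mem_injS.2 ?_⟩
  · rw [show L.InjS R.expE x = R.fr x ⁻¹' {v | R.InI x v} from Set.ext fun v => R.mem_injS]
    exact (R.isOpen_inI_fib x).preimage (R.fr x).continuous
  · rw [map_neg, velE, ContinuousLinearEquiv.apply_symm_apply]
    exact (R.mem_injS.1 hq).rev

/-- With `y = expE x q`, `c w = cst (expE x w.1) ((ch y).symm w.2)`: near the base points `kx = c (w.1, m₁ w.2)`,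
`m₁ η = ch y (expE x η)`, and `hx = c (w.1, m₂ w.2)`, `m₂ μ = ch y (expE y μ)`, `fderiv m₂ 0 = fr y` (`fderiv_ex_zero`,
`ex_Jc`, `Jc_self`, or `Dc_par`), `fderiv m₁ q η = fr y (dE x q η)`.  `mixed_comp` twice, `kx_mixed`, `geo1`. -/
theorem Kop_dE {x : M} {q : EE n} (hq : q ∈ L.InjS R.expE x) (η u : EE n) :
    Kop R.expE x q (R.dE x q η) u = -⟪η, u⟫_ℝ := by
  obtain ⟨K, δ, h1⟩ := R.geo1
  have hy : R.expE x q ∈ (ch n (R.expE x q)).source := mem_chart_source _ _
  have e1 := R.qm1_mixed hq rfl hy η u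
  have e2 := R.qm1_mixed hq (R.qm1_zero _) hy (R.dE x q η) u
  have e3 : fderiv ℝ (fun μ => ch n (R.expE x q) (R.expE (R.expE x q) μ)) 0 (R.dE x q η) =
      fderiv ℝ (fun μ => ch n (R.expE x q) (R.expE x μ)) q η := by
    rw [← R.Dc_par (R.dom_tv.2 ⟨hy, by rw [R.qm1_zero]; exact hy⟩), Dc_apply, pt_par, map_zero,
      R.fderiv_ex_zero hy, zero_add]
    exact R.Jc_dE hy η
  rw [e3, ← e1] at e2
  exact e2.trans (kx_mixed h1 R.geoS0 hq η u)

end Riem

/-- `mtw_exp` with the vectors `fr x v`, `fr x ξ`, `fr x η` (`q_fr`, `map_smul`, `map_add`) -/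
theorem mtwRaw [CompactSpace M] [RiemannianBundle (fun p : M => TangentSpace 𝓘(ℝ, EE n) p)]
    [IsRiemannianManifold 𝓘(ℝ, EE n) M] {R : Riem n M} (hg : Compat R.g)
    (h : Crest.GeometryTopology.MTW.SatisfiesWeakMTW M n) : MTWRaw R.expE := by
  intro x v hv ξ η ho
  have := mtw_exp hg h (R.mem_injS.1 hv) (ξ := R.fr x ξ) (η := R.fr x η) (by rw [R.q_fr]; exact ho)
  simp only [Riem.expE, map_smul, map_add]
  exact this

end Crest.Agent.R226.G

end
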