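import Crest.Agent.R226.QM0

/-!
# rid 226 / QM2a (part Q, sub-lead helper74): the identity  C = D A

Prefix for auxiliary lemmas: `qm2a_`.
-/

set_option autoImplicit false
set_option maxSynthPendingDepth 3
set_option linter.unusedSectionVars false

open scoped ContDiff Manifold Topology InnerProductSpace
open Bundle Set Filter Metric

noncomputable section

namespace Crest.Agent.R226.G

open Crest.Agent.R226.Q

variable {n : ℕ} {M : Type*} [MetricSpace M] [ChartedSpace (EE n) M] [IsManifold 𝓘(ℝ, EE n) ∞ M]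

/-- Calculus in a chart.  `f` is `C²` with `Df α = -g α (Λ α)`, so
`D²f(α, β) = -Dg(α)(v, β) - g(DΛ α, β) = -g(Γ(α, v) + DΛ α, β) - g(v, Γ(α, β))` (`compat`), hence
`T(α, β) = g(Γ(α, v) + DΛ α, β)` is symmetric.  Along the curve `s ↦ N (s • u)` (velocity `c'`, acceleration `-Γ`):
`D²(f ∘ N)(u, u) = d/ds (Df (N (s • u)) (c' s)) = D²f(J u, J u) + g(v, Γ(J u, J u)) = -T(J u, J u)` (`Q.deriv2_line`).
Both sides are symmetric bilinear forms, so they agree (polarisation). -/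
theorem hess_chart {E : Type} [NormedAddCommGroup E] [NormedSpace ℝ E] {g : E → E →L[ℝ] E →L[ℝ] ℝ}
    {Γ : E → E →L[ℝ] E →L[ℝ] E} {U : Set E} (hL : IsLC g Γ U) {a : E} (ha : a ∈ U) {f : E → ℝ} {Λ N : E → E}
    {J : E →L[ℝ] E} (hf : ContDiffAt ℝ 2 f a) (hΛ : DifferentiableAt ℝ Λ a)
    (hfΛ : ∀ᶠ α in 𝓝 a, ∀ β, fderiv ℝ f α β = -g α (Λ α) β) (hN : ContDiffAt ℝ 2 N 0) (hN0 : N 0 = a)
    (hgeo : ∀ u, ∃ c' : ℝ → E, (∀ᶠ s in 𝓝 (0 : ℝ), HasDerivAt (fun r : ℝ => N (r • u)) (c' s) s) ∧ c' 0 = J u ∧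
      HasDerivAt c' (-Γ a (J u) (J u)) 0) (u w : E) :
    fderiv ℝ (fderiv ℝ fun ζ => f (N ζ)) 0 u w = -g a (Γ a (J u) (Λ a) + fderiv ℝ Λ a (J u)) (J w) := by
  have hg : DifferentiableAt ℝ g a :=
    (hL.g_smooth.contDiffAt (hL.isOpen.mem_nhds ha)).differentiableAt (by simp)
  have e1 : fderiv ℝ f =ᶠ[𝓝 a] fun α => -g α (Λ α) := by
    filter_upwards [hfΛ] with α hα
    ext β
    exact hα β
  have h1 : ∀ α β, fderiv ℝ (fderiv ℝ f) a α β =
      -g a (Γ a α (Λ a) + fderiv ℝ Λ a α) β - g a (Λ a) (Γ a α β) := fun α β => by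
    rw [e1.fderiv_eq, (hg.hasFDerivAt.clm_apply hΛ.hasFDerivAt).fun_neg.fderiv]
    simp only [ContinuousLinearMap.neg_apply, ContinuousLinearMap.add_apply, ContinuousLinearMap.comp_apply,
      ContinuousLinearMap.flip_apply, map_add, hL.compat a ha]
    ring
  have hsym : ∀ α β, g a (Γ a α (Λ a) + fderiv ℝ Λ a α) β = g a (Γ a β (Λ a) + fderiv ℝ Λ a β) α := fun α β => by
    have h2 := (hf.isSymmSndFDerivAt (by simp)).eq α β
    rw [h1, h1, hL.Γ_symm a ha α β] at h2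
    linarith
  have hfN : ContDiffAt ℝ 2 (fun ζ => f (N ζ)) 0 := ContDiffAt.comp (g := f) 0 (hN0 ▸ hf) hN
  have hdiag : ∀ u, fderiv ℝ (fderiv ℝ fun ζ => f (N ζ)) 0 u u =
      -g a (Γ a (J u) (Λ a) + fderiv ℝ Λ a (J u)) (J u) := fun u => by
    obtain ⟨c', hc, hc0, hc'⟩ := hgeo u
    have h0 := hc.self_of_nhds
    have hNa : N ((0 : ℝ) • u) = a := by rw [zero_smul, hN0]
    have ht : Tendsto (fun r : ℝ => N (r • u)) (𝓝 0) (𝓝 a) := hNa ▸ h0.continuousAt.tendsto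
    have e2 : (deriv fun t : ℝ => f (N (0 + t • u))) =ᶠ[𝓝 0] fun s => fderiv ℝ f (N (s • u)) (c' s) := by
      filter_upwards [hc, ht.eventually (hf.eventually (by simp))] with s h2 h3
      simp only [zero_add]
      exact ((h3.differentiableAt (by simp)).hasFDerivAt.comp_hasDerivAt s h2).deriv
    have hd : DifferentiableAt ℝ (fderiv ℝ f) (N ((0 : ℝ) • u)) := by
      rw [hNa]
      exact (hf.fderiv_right (m := 1) le_rfl).differentiableAt (by simp)
    have h4 := (hd.hasFDerivAt.comp_hasDerivAt (0 : ℝ) h0).clm_apply hc'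
    rw [← deriv2_line hfN u, e2.deriv_eq]
    refine h4.deriv.trans ?_
    simp only [Function.comp_apply, hNa, hc0, h1, hfΛ.self_of_nhds, map_neg]
    ring
  have hB := (hfN.isSymmSndFDerivAt (by simp)).eq u w
  have h5 := hdiag (u + w)
  have h6 := hsym (J u) (J w)
  have h7 := hdiag u
  have h8 := hdiag w
  simp only [map_add, ContinuousLinearMap.add_apply] at h5 h6 h7 h8 ⊢
  linarith

end Crest.Agent.R226.G

end
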