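import Crest.Agent.R226.QM1
import Crest.Agent.R226.QM2a

/-!
# rid 226 / QM2 (part Q, sub-lead helper74): the identity  C = D A

Prefix for auxiliary lemmas: `qm2_`.
-/

set_option autoImplicit false
set_option maxSynthPendingDepth 3
set_option linter.unusedSectionVars false

open scoped ContDiff Manifold Topology InnerProductSpace
open Bundle Set Filter Metric

noncomputable section

namespace Crest.Agent.R226.G

open Crest.Agent.R226.Q

variable {n : ℕ} {M : Type*} [MetricSpace M] [ChartedSpace (EE n) M] [IsManifold 𝓘(ℝ, EE n) ∞ M]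

theorem qm2_two_le : (2 : WithTop ℕ∞) ≤ ∞ := WithTop.coe_le_coe.2 (le_top : (2 : ℕ∞) ≤ ⊤)

namespace Riem

variable [CompactSpace M] (R : Riem n M)

/-- the geodesic equation in the chart of `a`: `c' s = (tmChart a (Φ s (tv x u))).2` (`hasDerivAt_exp`, second component
of `flow.sol` at time `0`, `flow.zero`, `tmChart_tv`) -/
theorem geo_chart {a x : M} (hx : x ∈ (ch n a).source) (u : EE n) :
    ∃ c' : ℝ → EE n, (∀ᶠ s in 𝓝 (0 : ℝ), HasDerivAt (fun r : ℝ => ch n a (R.expE x (r • u))) (c' s) s) ∧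
      c' 0 = R.Jc a x u ∧ HasDerivAt c' (-chartΓ R.g a (ch n a x) (R.Jc a x u) (R.Jc a x u)) 0 := by
  have e : ∀ r : ℝ, R.expE x (r • u) = R.exp x (r • R.fr x u) := fun r => by rw [expE, map_smul]
  refine ⟨fun s => (tmChart n a (R.Φ s (R.tv x u))).2, ?_, ?_, ?_⟩
  · have hc : ContinuousAt (fun s : ℝ => R.exp x (s • R.fr x u)) 0 :=
      ((R.continuous_exp x).comp (continuous_id.smul continuous_const)).continuousAt
    have h0 : R.exp x ((0 : ℝ) • R.fr x u) ∈ (ch n a).source := by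
      rw [zero_smul, exp_zero]; exact hx
    filter_upwards [hc.eventually ((ch n a).open_source.mem_nhds h0)] with s hs
    simp only [e]
    exact R.hasDerivAt_exp x _ hs
  · simp only [R.flow.zero, tmChart_tv]
  · have h := (R.flow.sol (R.tv x u) 0).2 a (by simp only [R.flow.zero]; exact hx)
    have h2 := (ContinuousLinearMap.snd ℝ (EE n) (EE n)).hasFDerivAt.comp_hasDerivAt 0 h
    simp only [R.flow.zero, tmChart_tv] at h2
    exact h2

/-- Let `ξ = tv x q`, `β = ch b (expE x q)`, `Λ` from `SmoothAt.log` (`InI.smoothAt`), `Λ₁ α = Λ (α, β)`,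
`f α = cc a b (α, β)`.  For `α` near `ch a x` the vector `ξ' = (tmChart a).symm (α, Λ₁ α)` is close to `ξ`, so it is in
`I` (`isOpen_inI`) and `Dom a b ξ'`; it ends at `(ch b).symm β`; `SmoothAt.der` at `ξ'` gives `Df α = -G a α (Λ₁ α)`, and
`ex a b (α, Λ₁ α) = β`. -/
theorem exists_Λ {a b x : M} {q : EE n} (hq : q ∈ L.InjS R.expE x) (hd : R.Dom a b (R.tv x q)) :
    ∃ Λ : EE n → EE n, DifferentiableAt ℝ Λ (ch n a x) ∧ Λ (ch n a x) = R.Jc a x q ∧
      ContDiffAt ℝ 2 (fun α => cst ((ch n a).symm α) (R.expE x q)) (ch n a x) ∧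
      (∀ᶠ α in 𝓝 (ch n a x), ∀ β, fderiv ℝ (fun α => cst ((ch n a).symm α) (R.expE x q)) α β = -R.G a α (Λ α) β) ∧
      ∀ᶠ α in 𝓝 (ch n a x), R.ex a b (α, Λ α) = ch n b (R.expE x q) := by
  have hI : R.InI (R.tv x q).proj (vecT (R.tv x q)) := R.mem_injS.1 hq
  have S := hI.smoothAt hd
  obtain ⟨Λ, hΛ, hΛ0, h1, -⟩ := S.log
  have hsm := S.sm
  rw [tv_proj, Φ_tv_proj] at hΛ hΛ0 h1 hsm
  rw [tmChart_tv] at hΛ0
  obtain ⟨β, hβ⟩ : ∃ β, β = ch n b (R.expE x q) := ⟨_, rfl⟩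
  have hβ' : (ch n b).symm β = R.expE x q := by rw [hβ]; exact (ch n b).left_inv hd.2
  rw [← hβ] at hΛ hΛ0 h1 hsm ⊢
  have hι : ∀ α : EE n, ContDiffAt ℝ ∞ (fun α : EE n => (α, β)) α := fun α =>
    contDiffAt_id.prodMk contDiffAt_const
  have hΛ1 : ContDiffAt ℝ ∞ (fun α => Λ (α, β)) (ch n a x) := hΛ.comp (ch n a x) (hι _)
  have hf : (fun α => cst ((ch n a).symm α) (R.expE x q)) = fun α => cc n a b (α, β) := by
    funext α
    simp only [cc, hβ']
  have hT : Tendsto (fun α => (α, Λ (α, β))) (𝓝 (ch n a x)) (𝓝 (tmChart n a (R.tv x q))) := by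
    rw [tmChart_tv]
    refine tendsto_id.prodMk_nhds ?_
    have := hΛ1.continuousAt.tendsto
    rwa [hΛ0] at this
  have hs : R.tv x q ∈ (tmChart n a).source := mem_tmChart_source.2 hd.1
  have hT2 : Tendsto (fun α => (tmChart n a).symm (α, Λ (α, β))) (𝓝 (ch n a x)) (𝓝 (R.tv x q)) := by
    have := ((tmChart n a).continuousAt_symm ((tmChart n a).map_source hs)).tendsto.comp hT
    rwa [(tmChart n a).left_inv hs] at this
  have key : ∀ᶠ α in 𝓝 (ch n a x), (∀ δ, fderiv ℝ (fun α => cc n a b (α, β)) α δ = -R.G a α (Λ (α, β)) δ) ∧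
      R.ex a b (α, Λ (α, β)) = β := by
    filter_upwards [hT.eventually hd.eventually, hT2.eventually (R.isOpen_inI.mem_nhds hI),
      (hι _).continuousAt.tendsto.eventually h1] with α ha hI' h2
    obtain ⟨ξ, hξ⟩ : ∃ ξ, ξ = (tmChart n a).symm (α, Λ (α, β)) := ⟨_, rfl⟩
    have e1 : tmChart n a ξ = (α, Λ (α, β)) := by rw [hξ]; exact (tmChart n a).right_inv ha.1
    have hD : R.Dom a b ξ := by rw [hξ]; exact ha.2
    have hI2 : R.InI ξ.proj (vecT ξ) := by rw [hξ]; exact hI'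
    have e2 : ch n a ξ.proj = α := by rw [← tmChart_fst, e1]
    have e3 : ch n b (R.Φ 1 ξ).proj = β := by
      have : (R.Φ 1 ξ).proj = (ch n b).symm β := by rw [hξ]; exact h2.1
      rw [this, hβ', hβ]
    have S' := hI2.smoothAt hD
    have sm := S'.sm
    have der := S'.der
    rw [e2, e3] at sm der
    rw [e1] at der
    refine ⟨fun δ => ?_, ?_⟩
    · have h3 : HasFDerivAt (fun α : EE n => (α, β)) (ContinuousLinearMap.inl ℝ (EE n) (EE n)) α :=
        hasFDerivAt_prodMk_left α β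
      have h4 := ((sm.differentiableAt (by simp)).hasFDerivAt.comp α h3).fderiv
      have h5 : fderiv ℝ (fun α => cc n a b (α, β)) α δ = fderiv ℝ (cc n a b) (α, β) (δ, 0) :=
        congrArg (fun L => L δ) h4
      rw [h5, der, map_zero, zero_sub]
    · rw [← e1, ex_apply hD.1, e3]
  refine ⟨fun α => Λ (α, β), hΛ1.differentiableAt (by simp), hΛ0, ?_, ?_, key.mono fun α h => h.2⟩
  · rw [hf]
    exact (hsm.comp (ch n a x) (hι _)).of_le qm2_two_le
  · rw [hf]
    exact key.mono fun α h => h.1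

/-- `hess_chart` with `N ζ = ch a (expE x ζ)` gives `⟪A u, w⟫ = -G (Γ(J u, v) + DΛ (J u)) (J w)`, so
`J (A u) = -(Γ(J u, v) + DΛ (J u))` (`G_Jc`, `surjective_of_iso`, `g_pos`); differentiating `ex (α, Λ α) = β` gives
`D ex (J u, DΛ (J u)) = 0`. -/
theorem Dc_Aop {a b x : M} {q : EE n} (hq : q ∈ L.InjS R.expE x) (hd : R.Dom a b (R.tv x q)) (u : EE n) :
    R.Dc a b (R.par a x q) (Aop R.expE x q u) = R.Cc a b (R.par a x q) u := by
  obtain ⟨Λ, hΛ, hΛ0, hf, hfΛ, hex⟩ := R.exists_Λ hq hd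
  have hx : x ∈ (ch n a).source := hd.1
  have e0 : R.expE x 0 = x := by rw [expE, map_zero, exp_zero]
  have hx0 : R.expE x 0 ∈ (ch n a).source := by rw [e0]; exact hx
  have hL := isLC_chart R.g a
  have hy := (ch n a).map_source hx
  have hev : (fun ζ => kx R.expE x (ζ, q)) =ᶠ[𝓝 0]
      fun ζ => cst ((ch n a).symm (ch n a (R.expE x ζ))) (R.expE x q) := by
    filter_upwards [(R.continuous_expE x).continuousAt.eventually ((ch n a).open_source.mem_nhds hx0)] with ζ hζ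
    rw [(ch n a).left_inv hζ]
    rfl
  obtain ⟨X, hX⟩ : ∃ X, X = chartΓ R.g a (ch n a x) (R.Jc a x u) (R.Jc a x q) +
      fderiv ℝ Λ (ch n a x) (R.Jc a x u) := ⟨_, rfl⟩
  have h1 : ∀ w, ⟪Aop R.expE x q u, w⟫_ℝ = -R.G a (ch n a x) X (R.Jc a x w) := fun w => by
    rw [inner_Aop, hev.fderiv.fderiv_eq, hX, ← hΛ0]
    exact hess_chart (N := fun ζ => ch n a (R.expE x ζ)) hL hy hf hΛ hfΛ
      ((R.contDiffAt_expE hx0).of_le qm2_two_le) (by rw [e0]) (R.geo_chart hx) u w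
  have h2 : R.Jc a x (Aop R.expE x q u) + X = 0 := by
    by_contra hne
    obtain ⟨w, hw⟩ := surjective_of_iso (R.G_Jc hx) (R.Jc a x (Aop R.expE x q u) + X)
    have h3 := hL.g_pos _ hy _ hne
    have h4 := h1 w
    rw [← R.G_Jc hx, hw] at h4
    rw [map_add (chartG R.g a (ch n a x)), add_apply] at h3
    linarith
  have h3 : fderiv ℝ (R.ex a b) (ch n a x, R.Jc a x q)
      (R.Jc a x u, fderiv ℝ Λ (ch n a x) (R.Jc a x u)) = 0 := by
    have d1 := hd.contDiffAt_ex.differentiableAt (by simp)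
    rw [R.tmChart_tv, ← hΛ0] at d1
    have d2 := (d1.hasFDerivAt.comp (ch n a x) ((hasFDerivAt_id (ch n a x)).prodMk hΛ.hasFDerivAt))
    have d3 : HasFDerivAt (fun α => R.ex a b (α, Λ α)) (0 : EE n →L[ℝ] EE n) (ch n a x) :=
      (hasFDerivAt_const _ _).congr_of_eventuallyEq hex
    have d4 := congrArg (fun L => L (R.Jc a x u)) (d2.unique d3)
    rw [← hΛ0]
    exact d4
  have h4 : ((0 : EE n), R.Jc a x (Aop R.expE x q u)) =
      (R.Jc a x u, -chartΓ R.g a (ch n a x) (R.Jc a x u) (R.Jc a x q)) -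
        (R.Jc a x u, fderiv ℝ Λ (ch n a x) (R.Jc a x u)) := by
    rw [Prod.mk_sub_mk, sub_self, eq_neg_of_add_eq_zero_left h2, hX, neg_add, sub_eq_add_neg]
  rw [Dc_apply, Cc_apply, pt_par]
  change fderiv ℝ (R.ex a b) (ch n a x, R.Jc a x q) (0, R.Jc a x (Aop R.expE x q u)) =
    fderiv ℝ (R.ex a b) (ch n a x, R.Jc a x q)
      (R.Jc a x u, -chartΓ R.g a (ch n a x) (R.Jc a x u) (R.Jc a x q))
  rw [h4, map_sub, h3, sub_zero]

theorem Dc_Wop (c0 : ℝ) {a b x : M} {q : EE n} (hq : q ∈ L.InjS R.expE x) (hd : R.Dom a b (R.tv x q)) (u : EE n) :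
    R.Dc a b (R.par a x q) (Wop c0 R.expE x q u) = R.Gc c0 a b (R.par a x q) u := by
  rw [Wop_apply, map_sub, map_smul, R.Dc_Aop hq hd, Gc_apply]

end Riem

end Crest.Agent.R226.G

end
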