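import Crest.Agent.R226.QM2

/-!
# rid 226 / QM3 (part Q, sub-lead helper74): G is invertible on the closure of the injectivity domain

Prefix for auxiliary lemmas: `qm3_`.
-/

set_option autoImplicit false
set_option maxSynthPendingDepth 3
set_option linter.unusedSectionVars false

open scoped ContDiff Manifold Topology InnerProductSpace
open Bundle Set Filter Metric

noncomputable section

namespace Crest.Agent.R226.G

open Crest.Agent.R226.Q

variable {n : ℕ} {M : Type*} [MetricSpace M] [ChartedSpace (EE n) M] [IsManifold 𝓘(ℝ, EE n) ∞ M]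

namespace Riem

variable [CompactSpace M] (R : Riem n M)

theorem qm3_fd {a b : M} {ξ : TM n M} (hd : R.Dom a b ξ) {θ : Par n} (hθ : θ.pt = tmChart n a ξ) :
    ContDiffAt ℝ ∞ (fun θ : Par n => fderiv ℝ (R.ex a b) θ.pt) θ :=
  ContDiffAt.comp (g := fderiv ℝ (R.ex a b)) θ ((hθ ▸ hd.contDiffAt_ex).fderiv_right (m := ∞) (by simp))
    (contDiffAt_fst.fst.prodMk (contDiffAt_fst.snd.clm_apply contDiffAt_snd))

/-- `Dom.contDiffAt_ex`, `ContDiffAt.fderiv_right`, `ContDiffAt.clm_comp`, `ContDiffAt.clm_apply` -/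
theorem contDiffAt_Dc {a b : M} {ξ : TM n M} (hd : R.Dom a b ξ) {θ : Par n} (hθ : θ.pt = tmChart n a ξ) :
    ContDiffAt ℝ ∞ (R.Dc a b) θ := by
  exact (R.qm3_fd hd hθ).clm_comp (contDiffAt_const.clm_comp contDiffAt_fst.snd)

/-- as before; `(isLC_chart R.g a).Γ_smooth`; `flip` and `prod` are continuous linear
(`ContinuousLinearMap.flipₗᵢ`, `ContinuousLinearMap.prodₗᵢ`), or use `contDiffAt_clm_apply_iff`-type lemmas
(`contDiffOn_clm_apply`, finite dimension) -/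
theorem contDiffAt_Gc (c0 : ℝ) {a b : M} {ξ : TM n M} (hd : R.Dom a b ξ) {θ : Par n} (hθ : θ.pt = tmChart n a ξ) :
    ContDiffAt ℝ ∞ (R.Gc c0 a b) θ := by
  refine ((R.contDiffAt_Dc hd hθ).const_smul c0).sub ((R.qm3_fd hd hθ).clm_comp ?_)
  have h1 : θ.1.1 ∈ (ch n a).target := (congrArg Prod.fst hθ).symm ▸ (ch n a).map_source hd.1
  have h2 : ContDiffAt ℝ ∞ (fun θ : Par n => chartΓ R.g a θ.1.1) θ :=
    ContDiffAt.comp (g := chartΓ R.g a) θ
      ((isLC_chart R.g a).Γ_smooth.contDiffAt ((ch n a).open_target.mem_nhds h1)) contDiffAt_fst.fst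
  have h3 : ContDiffAt ℝ ∞ (fun θ : Par n => θ.1.2) θ := contDiffAt_fst.snd
  have h4 : ContDiffAt ℝ ∞ (fun θ : Par n => ContinuousLinearMap.apply ℝ (EE n) (θ.1.2 θ.2)) θ :=
    contDiffAt_const.clm_apply (h3.clm_apply contDiffAt_snd)
  convert ((contDiffAt_const (c := ContinuousLinearMap.inl ℝ (EE n) (EE n))).clm_comp h3).add
    ((contDiffAt_const (c := ContinuousLinearMap.inr ℝ (EE n) (EE n))).clm_comp
      ((h4.clm_comp h2).clm_comp h3).neg) using 2 with θ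
  ext u : 1
  simp

/-- `fderiv fl` is injective, hence onto; `ex = fst ∘ fl` -/
theorem Dom.fderiv_ex_surjective {R : Riem n M} {a b : M} {ξ : TM n M} (hd : R.Dom a b ξ) :
    Function.Surjective (fderiv ℝ (R.ex a b) (tmChart n a ξ)) := by
  have h1 := (LinearMap.injective_iff_surjective
    (f := (fderiv ℝ (R.fl a b) (tmChart n a ξ) : EE n × EE n →ₗ[ℝ] EE n × EE n))).1 hd.fderiv_fl_injective
  intro y
  obtain ⟨p, hp⟩ := h1 (y, 0)
  refine ⟨p, ?_⟩
  have h2 : HasFDerivAt (R.ex a b) _ _ := (hd.contDiffAt_fl.differentiableAt (by simp)).hasFDerivAt.fst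
  rw [h2.fderiv]
  exact congrArg Prod.fst hp

/-- Take the limits of `exists_lim` (`‖q s‖ ≤ diam univ` by `min_of_inj`), `b = exp a (J q0)`.  If `G = Gc θ0` is not onto,
there is `l ≠ 0` orthogonal to its range.  Eventually `Dom a b (tv (x s) (q s))`, so
`⟪l, D_s w⟫ = ⟪l, G_s (P_s w)⟫ = ⟪l, (G_s - G) (P_s w)⟫ → 0` (`Dc_Wop`, `Wop_Pop`, `norm_Pop_le`, continuity of `Gc`), and
`⟪l, D w⟫ = 0` for all `w`; then `⟪l, C w⟫ = 0`.  Since `J` is onto, every `(δx, δw)` is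
`(J u, -Γ (J u) v) + (0, J u')`, so `l` is orthogonal to the range of `fderiv ex`, which is everything. -/
theorem lim_unit {K δ c0 : ℝ} (h1 : L.Geo1 R.expE R.velE K δ) (hc : 2 * K + 2 ≤ c0) {S : Type*} (F : Ultrafilter S)
    (x : S → M) (q : S → EE n) (hq : ∀ s, q s ∈ L.InjS R.expE (x s)) :
    ∃ (a b : M) (θ : Par n), Tendsto x F (𝓝 a) ∧ Tendsto (fun s => R.expE (x s) (q s)) F (𝓝 b) ∧
      Tendsto (fun s => R.par a (x s) (q s)) F (𝓝 θ) ∧ ContDiffAt ℝ ∞ (R.Dc a b) θ ∧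
      ContDiffAt ℝ ∞ (R.Gc c0 a b) θ ∧ IsUnit (R.Gc c0 a b θ) := by
  obtain ⟨a, J, q0, ha, hθ, hJ, hT, hE⟩ := R.exists_lim F x q (r := diam (univ : Set M)) fun s =>
    (min_of_inj h1 (hq s)).symm.trans_le (dist_le_diam_of_mem isCompact_univ.isBounded trivial trivial)
  have hd : R.Dom a (R.exp a (J q0)) (mkT a (J q0)) := R.dom_self (mkT a (J q0))
  have hp : Par.pt ((ch n a a, J), q0) = tmChart n a (mkT a (J q0)) := (tmChart_mkT a _).symm
  have hD := R.contDiffAt_Dc hd hp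
  have hG := R.contDiffAt_Gc c0 hd hp
  refine ⟨a, _, _, ha, hE, hθ, hD, hG, isUnit_of_injective ((LinearMap.injective_iff_surjective
    (f := (R.Gc c0 a (R.exp a (J q0)) ((ch n a a, J), q0) : EE n →ₗ[ℝ] EE n))).2 fun y => ?_)⟩
  have key : ∀ w, ∃ p, R.Gc c0 a (R.exp a (J q0)) ((ch n a a, J), q0) p =
      R.Dc a (R.exp a (J q0)) ((ch n a a, J), q0) w := fun w => by
    obtain ⟨p, -, hp⟩ := (isCompact_closedBall (0 : EE n) ‖w‖).ultrafilter_le_nhds
      (F.map fun s => Pop c0 R.expE (x s) (q s) w) (le_principal_iff.2 (Filter.mem_map.2 (univ_mem' fun s =>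
        mem_closedBall_zero_iff.2 (norm_Pop_le h1 R.geoS0 hc (hq s) w))))
    refine ⟨p, tendsto_nhds_unique (tendsto_clm_apply (hG.continuousAt.tendsto.comp hθ) hp)
      ((tendsto_clm_apply (hD.continuousAt.tendsto.comp hθ) tendsto_const_nhds).congr' ?_)⟩
    filter_upwards [hT.eventually hd.eventually_nhds] with s hs
    rw [Function.comp_apply, Function.comp_apply, ← R.Dc_Wop c0 (hq s) hs, Wop_Pop h1 R.geoS0 hc (hq s)]
  obtain ⟨⟨δx, δw⟩, rfl⟩ := hd.fderiv_ex_surjective y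
  obtain ⟨u, rfl⟩ := surjective_of_iso hJ δx
  obtain ⟨u', hu'⟩ := surjective_of_iso hJ (δw + chartΓ R.g a (ch n a a) (J u) (J q0))
  obtain ⟨p, hp'⟩ := key (c0 • u + u')
  refine ⟨p - u, ?_⟩
  rw [ContinuousLinearMap.coe_coe, map_sub, hp', Gc_apply, map_add, map_smul, add_sub_sub_cancel, Dc_apply, Cc_apply,
    ← map_add, hp]
  simp [hu']

end Riem

end Crest.Agent.R226.G

end
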