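import Crest.Agent.R226.QM3

/-!
# rid 226 / QM4 (part Q, sub-lead helper74): uniform bounds

Prefix for auxiliary lemmas: `qm4_`.
-/

set_option autoImplicit false
set_option maxSynthPendingDepth 3
set_option linter.unusedSectionVars false

open scoped ContDiff Manifold Topology InnerProductSpace
open Bundle Set Filter Metric

noncomputable section

namespace Crest.Agent.R226.G

open Crest.Agent.R226.Q

variable {n : ℕ} {M : Type*} [MetricSpace M] [ChartedSpace (EE n) M] [IsManifold 𝓘(ℝ, EE n) ∞ M]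

theorem qm4_par {P E F : Type} [NormedAddCommGroup P] [NormedSpace ℝ P] [NormedAddCommGroup E] [NormedSpace ℝ E]
    [NormedAddCommGroup F] [NormedSpace ℝ F] {f : P × E → F} {θ : P × E} {m k : WithTop ℕ∞} (hf : ContDiffAt ℝ k f θ)
    (hm : m + 1 ≤ k) : ContDiffAt ℝ m (fun θ' : P × E => fderiv ℝ (fun q => f (θ'.1, q)) θ'.2) θ := by
  have k0 : ContDiffAt ℝ k (fun w : (P × E) × E => f (w.1.1, w.2)) (θ, θ.2) :=
    ContDiffAt.comp (θ, θ.2) (g := f) (f := fun w : (P × E) × E => (w.1.1, w.2)) hf (by fun_prop)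
  exact ContDiffAt.fderiv (f := fun (θ' : P × E) (q : E) => f (θ'.1, q)) (g := fun θ' => θ'.2) k0 contDiffAt_snd hm

theorem qm4_bdd {X F : Type*} [TopologicalSpace X] [NormedAddCommGroup F] {g : X → F} {x : X}
    (h : ContinuousAt g x) : ∀ᶠ y in 𝓝 x, ‖g y‖ ≤ ‖g x‖ + 1 :=
  (h.norm.eventually (gt_mem_nhds (lt_add_one ‖g x‖))).mono fun _ hy => hy.le

/-- Partial derivatives of a `C²` function are locally bounded: on a neighbourhood where `f` is `C²`,
`fderiv (fun q => f (p, q)) q = (fderiv f (p, q)).comp inr`, and similarly for the second derivative. -/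
theorem partial_bound {P E F : Type} [NormedAddCommGroup P] [NormedSpace ℝ P] [NormedAddCommGroup E] [NormedSpace ℝ E]
    [NormedAddCommGroup F] [NormedSpace ℝ F] {f : P × E → F} {θ : P × E} (hf : ContDiffAt ℝ 2 f θ) :
    ∃ L : ℝ, ∀ᶠ θ' in 𝓝 θ, ‖fderiv ℝ (fun q => f (θ'.1, q)) θ'.2‖ ≤ L ∧
      ‖fderiv ℝ (fderiv ℝ fun q => f (θ'.1, q)) θ'.2‖ ≤ L := by
  have k1 := qm4_par (m := 1) hf (by norm_num)
  have k2 := qm4_par (m := 0) k1 (by norm_num)
  refine ⟨max _ _, ((qm4_bdd k1.continuousAt).and (qm4_bdd k2.continuousAt)).mono fun θ' h =>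
    ⟨h.1.trans (le_max_left _ _), h.2.trans (le_max_right _ _)⟩⟩

namespace Riem

variable [CompactSpace M] (R : Riem n M)

/-- `G P = D W P = D` -/
theorem Pop_eq {K δ c0 : ℝ} (h1 : L.Geo1 R.expE R.velE K δ) (hc : 2 * K + 2 ≤ c0) {a b x : M} {q : EE n}
    (hq : q ∈ L.InjS R.expE x) (hd : R.Dom a b (R.tv x q)) (hu : IsUnit (R.Gc c0 a b (R.par a x q))) :
    Pop c0 R.expE x q = Ring.inverse (R.Gc c0 a b (R.par a x q)) * R.Dc a b (R.par a x q) := by
  have e : R.Gc c0 a b (R.par a x q) * Pop c0 R.expE x q = R.Dc a b (R.par a x q) := by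
    ext1 u
    rw [ContinuousLinearMap.mul_apply, ← R.Dc_Wop c0 hq hd, Wop_Pop h1 R.geoS0 hc hq]
  rw [← e, ← mul_assoc, Ring.inverse_mul_cancel _ hu, one_mul]

/-- `exists_bound` on `S = {p : M × EE n // p.2 ∈ InjS p.1}`; `lim_unit`; `f θ = Ring.inverse (Gc θ) * Dc θ` is smooth at
the limit (`contDiffAt_ringInverse`), `partial_bound`; for `s` in the ultrafilter, `Pop x = fun q' => f ((par a x q).1, q')`
near `q` (`Pop_eq`, `isOpen`, `continuous_expE`, `Units.isOpen`, `Eventually.eventually_nhds`),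
`EventuallyEq.fderiv_eq`, `EventuallyEq.fderiv`. -/
theorem Pop_bound {K δ c0 : ℝ} (h1 : L.Geo1 R.expE R.velE K δ) (hc : 2 * K + 2 ≤ c0) :
    ∃ C : ℝ, 0 < C ∧ ∀ x, ∀ q ∈ L.InjS R.expE x, ‖fderiv ℝ (Pop c0 R.expE x) q‖ ≤ C ∧
      ‖fderiv ℝ (fderiv ℝ (Pop c0 R.expE x)) q‖ ≤ C := by
  obtain ⟨C, hC, h⟩ := exists_bound (S := {p : M × EE n // p.2 ∈ L.InjS R.expE p.1})
    (p := fun s C => ‖fderiv ℝ (Pop c0 R.expE s.1.1) s.1.2‖ ≤ C ∧
      ‖fderiv ℝ (fderiv ℝ (Pop c0 R.expE s.1.1)) s.1.2‖ ≤ C)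
    (fun s L L' hL hs => ⟨hs.1.trans hL, hs.2.trans hL⟩) fun F => by
      obtain ⟨a, b, θ, ha, hb, hθ, hD, hG, hu⟩ := R.lim_unit h1 hc F (fun s => s.1.1) (fun s => s.1.2) fun s => s.2
      obtain ⟨U, hU⟩ := hu
      have hf : ContDiffAt ℝ ∞ (fun θ' => Ring.inverse (R.Gc c0 a b θ') * R.Dc a b θ') θ :=
        (ContDiffAt.comp θ (g := Ring.inverse) (f := R.Gc c0 a b) (hU ▸ contDiffAt_ringInverse ℝ U) hG).mul hD
      obtain ⟨L, hL⟩ := partial_bound (hf.of_le (m := 2) (by norm_cast))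
      have hun : ∀ᶠ θ' in 𝓝 θ, IsUnit (R.Gc c0 a b θ') :=
        hG.continuousAt.eventually (Units.isOpen.mem_nhds ⟨U, hU⟩)
      refine ⟨L, ?_⟩
      filter_upwards [hθ.eventually hL, hθ.eventually hun.eventually_nhds,
        ha.eventually (chart_source_mem_nhds (EE n) a), hb.eventually (chart_source_mem_nhds (EE n) b)]
        with s s1 s2 s3 s4
      have hc' : ContinuousAt (fun q' => R.par a s.1.1 q') s.1.2 :=
        (continuous_const.prodMk continuous_id).continuousAt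
      have e : Pop c0 R.expE s.1.1 =ᶠ[𝓝 s.1.2] fun q' =>
          Ring.inverse (R.Gc c0 a b ((R.par a s.1.1 s.1.2).1, q')) * R.Dc a b ((R.par a s.1.1 s.1.2).1, q') := by
        filter_upwards [hc'.eventually s2, (R.geoS0.isOpen s.1.1).mem_nhds s.2,
          (R.continuous_expE s.1.1).continuousAt.eventually ((ch n b).open_source.mem_nhds s4)] with q' t1 t2 t3
        exact R.Pop_eq h1 hc t2 (R.dom_tv.2 ⟨s3, t3⟩) t1
      rw [e.fderiv_eq, e.fderiv.fderiv_eq]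
      exact s1
  exact ⟨C, hC, fun x q hq => h ⟨(x, q), hq⟩⟩

/-- `Jc b y (dE η) = D η = G (P η)` (`Jc_dE`, `Dc_par`, `Dc_Wop`, `Wop_Pop`); `G`, `G⁻¹` are bounded near the limit
(continuity; `NormedRing.inverse_continuousAt`), `Jc_bound b`. -/
theorem dE_bound {K δ c0 : ℝ} (h1 : L.Geo1 R.expE R.velE K δ) (hc : 2 * K + 2 ≤ c0) :
    ∃ C : ℝ, 0 < C ∧ ∀ x, ∀ q ∈ L.InjS R.expE x, ∀ η,
      ‖R.dE x q η‖ ≤ C * ‖Pop c0 R.expE x q η‖ ∧ ‖Pop c0 R.expE x q η‖ ≤ C * ‖R.dE x q η‖ := by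
  obtain ⟨C, hC, h⟩ := exists_bound (S := {p : M × EE n // p.2 ∈ L.InjS R.expE p.1})
    (p := fun s C => ∀ η, ‖R.dE s.1.1 s.1.2 η‖ ≤ C * ‖Pop c0 R.expE s.1.1 s.1.2 η‖ ∧
      ‖Pop c0 R.expE s.1.1 s.1.2 η‖ ≤ C * ‖R.dE s.1.1 s.1.2 η‖)
    (fun s L L' hL hs η => ⟨(hs η).1.trans (by gcongr), (hs η).2.trans (by gcongr)⟩) fun F => by
      obtain ⟨a, b, θ, ha, hb, hθ, hD, hG, hu⟩ := R.lim_unit h1 hc F (fun s => s.1.1) (fun s => s.1.2) fun s => s.2
      obtain ⟨U, hU⟩ := hu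
      have hi : ContinuousAt (fun θ' => Ring.inverse (R.Gc c0 a b θ')) θ :=
        ContinuousAt.comp (g := Ring.inverse) (f := R.Gc c0 a b) (hU ▸ NormedRing.inverse_continuousAt U)
          hG.continuousAt
      have hun : ∀ᶠ θ' in 𝓝 θ, IsUnit (R.Gc c0 a b θ') :=
        hG.continuousAt.eventually (Units.isOpen.mem_nhds ⟨U, hU⟩)
      obtain ⟨C, hC, hJ⟩ := R.Jc_bound b
      set A := ‖R.Gc c0 a b θ‖ + 1 with hA
      set B := ‖Ring.inverse (R.Gc c0 a b θ)‖ + 1 with hB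
      have A0 : 0 ≤ A := by positivity
      have B0 : 0 ≤ B := by positivity
      refine ⟨C * (A + B), ?_⟩
      filter_upwards [hθ.eventually (qm4_bdd hG.continuousAt), hθ.eventually (qm4_bdd hi), hθ.eventually hun,
        ha.eventually (chart_source_mem_nhds (EE n) a), hb.eventually hJ] with s s1 s2 s3 s4 s5 η
      have hd := R.dom_tv.2 ⟨s4, s5.1⟩
      have e : R.Jc b (R.expE s.1.1 s.1.2) (R.dE s.1.1 s.1.2 η) =
          R.Gc c0 a b (R.par a s.1.1 s.1.2) (Pop c0 R.expE s.1.1 s.1.2 η) := by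
        rw [R.Jc_dE s5.1, ← R.Dc_par hd, ← R.Dc_Wop c0 s.2 hd, Wop_Pop h1 R.geoS0 hc s.2]
      have e' : Pop c0 R.expE s.1.1 s.1.2 η = Ring.inverse (R.Gc c0 a b (R.par a s.1.1 s.1.2))
          (R.Jc b (R.expE s.1.1 s.1.2) (R.dE s.1.1 s.1.2 η)) := by
        rw [e, ← ContinuousLinearMap.mul_apply, Ring.inverse_mul_cancel _ s3, ContinuousLinearMap.one_apply]
      obtain ⟨j1, j2⟩ := s5.2 (R.dE s.1.1 s.1.2 η)
      constructor
      · calc ‖R.dE s.1.1 s.1.2 η‖ ≤ C * (A * ‖Pop c0 R.expE s.1.1 s.1.2 η‖) := by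
              refine j2.trans (mul_le_mul_of_nonneg_left ?_ hC.le)
              rw [e]
              exact (ContinuousLinearMap.le_opNorm _ _).trans (mul_le_mul_of_nonneg_right s1 (norm_nonneg _))
          _ = C * A * ‖Pop c0 R.expE s.1.1 s.1.2 η‖ := by ring
          _ ≤ _ := by gcongr; linarith
      · calc ‖Pop c0 R.expE s.1.1 s.1.2 η‖ ≤ B * (C * ‖R.dE s.1.1 s.1.2 η‖) := by
              rw [e']
              exact (ContinuousLinearMap.le_opNorm _ _).trans (mul_le_mul s2 j1 (norm_nonneg _) B0)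
          _ = C * B * ‖R.dE s.1.1 s.1.2 η‖ := by ring
          _ ≤ _ := by gcongr; linarith
  exact ⟨C, hC, fun x q hq => h ⟨(x, q), hq⟩⟩

end Riem

end Crest.Agent.R226.G

end
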