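import Crest.Agent.R226.SAvg1

/-!
# rid 226 / SAvg: choice of a good tilting time (prefix `sa_`)

`y_T = ex y (T • q y)`, `ψ_y(T) = cst (ex y (q y)) y_T - U y_T - (cst (ex y (q y)) y - U y) + K ‖q y‖² T²` is convex on `[0,1]` (`isCC_concaveOn`,
`cst_tilt`), `≥ 0` (support), `ψ_y(0) = 0`, `ψ_y(4τ) ≤ 4τβ + 16 K D² τ²`.  For `0 < s ≤ τ`, `∫_τ^{2τ} Δ²_s ψ / s² ≤ ψ(4τ)/τ` (`avg_real`).  Put
`f(y,T) = liminf_k ofReal (Δ²_{s_k} ψ_y(T) / s_k²)`, `s_k = τ/(k+1)`; Fatou, Tonelli, a point below the average in `T`, Chebyshev in `y`.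
Measurability: on a measurable set `F₀` of full measure the supporting vector is unique (`ae_supp_unique`), and there `(y,T) ↦ y_T` is continuous on
`F₀ ×ˢ [0,1]` (`tilt_continuousOn`: compactness; the relation "`x` supports `U` at `y`, `d(y,w) = T d(y,x)`, `d(w,x) = (1-T) d(y,x)`" is closed and
determines `w` and `x` by `nobranch`), and `‖q y‖ = d(y, y_1)`.
-/

set_option autoImplicit false
set_option linter.unusedSectionVars false

open scoped Topology RealInnerProductSpace ENNReal NNReal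
open Set Filter MeasureTheory Asymptotics
open Crest.Agent.R226.L

noncomputable section

namespace Crest.Agent.R226.S

variable {n : ℕ} {M : Type*} [MetricSpace M] [MeasurableSpace M]

/-- second differences of a convex function -/
theorem avg_real {ψ : ℝ → ℝ} {τ s : ℝ} (hτ : 0 < τ) (hψ : ConvexOn ℝ (Icc 0 (4 * τ)) ψ) (h0 : ψ 0 = 0)
    (hpos : ∀ T ∈ Icc 0 (4 * τ), 0 ≤ ψ T) (hs : 0 < s) (hsτ : s ≤ τ) :
    ∫⁻ T in Icc τ (2 * τ), ENNReal.ofReal ((ψ (T + s) + ψ (T - s) - 2 * ψ T) / s ^ 2) ≤ ENNReal.ofReal (ψ (4 * τ) / τ) :=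
  avg_real' hτ hψ h0 hpos hs hsτ

namespace Ge

variable (G : Ge n M)

theorem tilt_continuousOn [CompactSpace M] {U : M → ℝ} {q : M → E n} (hq : ∀ z, Supp G.ex U z (q z)) {F₀ : Set M}
    (hF : ∀ z ∈ F₀, ∀ q', Supp G.ex U z q' → q' = q z) :
    ContinuousOn (fun p : M × ℝ => G.ex p.1 (p.2 • q p.1)) (F₀ ×ˢ Icc 0 1) :=
  G.tilt_continuousOn' hq hF

theorem sa_liminf {α : Type*} [MeasurableSpace α] {μ : Measure α} {f : ℕ → α → ℝ≥0∞}
    (h : ∀ k, AEMeasurable (f k) μ) : AEMeasurable (fun a => liminf (fun k => f k a) atTop) μ := by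
  simp only [liminf_eq_iSup_iInf_of_nat']
  exact AEMeasurable.iSup fun k => AEMeasurable.iInf fun i => h _

/-- abstract averaging: Fatou, Tonelli, a point below the average, Chebyshev -/
theorem sa_abs [BorelSpace M] (μ : Measure M) [IsFiniteMeasure μ] {F : Set M} (hF : MeasurableSet F) {τ a : ℝ}
    (hτ : 0 < τ) (ha : 0 < a) {g : ℕ → M × ℝ → ℝ} (hg : ∀ k, ContinuousOn (g k) (F ×ˢ Icc τ (2 * τ)))
    (hb : ∀ k, ∀ y ∈ F, ∫⁻ T in Icc τ (2 * τ), ENNReal.ofReal (g k (y, T)) ≤ ENNReal.ofReal (a * τ)) :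
    ∃ t ∈ Icc τ (2 * τ), ∃ F' ⊆ F, μ F ≤ 2 * μ F' ∧ ∀ y ∈ F', ∃ᶠ k in atTop, g k (y, t) < 2 * a := by
  set f : M × ℝ → ℝ≥0∞ := fun p => liminf (fun k => ENNReal.ofReal (g k p)) atTop with hf
  have m1 : AEMeasurable f ((μ.restrict F).prod (volume.restrict (Icc τ (2 * τ)))) := by
    rw [Measure.prod_restrict]
    exact sa_liminf fun k =>
      ((hg k).aemeasurable (hF.prod measurableSet_Icc)).ennreal_ofReal
  have m2 : ∀ k, ∀ y ∈ F, AEMeasurable (fun T => ENNReal.ofReal (g k (y, T))) (volume.restrict (Icc τ (2 * τ))) :=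
    fun k y hy => (((hg k).comp (f := fun T : ℝ => (y, T)) (by fun_prop)
      fun T hT => ⟨hy, hT⟩).aemeasurable measurableSet_Icc).ennreal_ofReal
  have m3 : ∀ T ∈ Icc τ (2 * τ), AEMeasurable (fun y => f (y, T)) (μ.restrict F) :=
    fun T hT => sa_liminf fun k => (((hg k).comp (f := fun y : M => (y, T)) (by fun_prop)
      fun y hy => ⟨hy, hT⟩).aemeasurable hF).ennreal_ofReal
  have h1 : ∀ y ∈ F, ∫⁻ T in Icc τ (2 * τ), f (y, T) ≤ ENNReal.ofReal (a * τ) := fun y hy =>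
    (lintegral_liminf_le' fun k => m2 k y hy).trans
      (liminf_le_of_frequently_le' (Frequently.of_forall fun k => hb k y hy))
  have h2 : ∫⁻ T in Icc τ (2 * τ), ∫⁻ y in F, f (y, T) ∂μ ≤ ENNReal.ofReal (a * τ) * μ F := by
    rw [← lintegral_lintegral_swap (f := fun y T => f (y, T)) m1, ← setLIntegral_const]
    exact setLIntegral_mono' hF h1
  have hv : volume (Icc τ (2 * τ)) = ENNReal.ofReal τ := by
    rw [Real.volume_Icc]; congr 1; ring
  have hτ0 : ENNReal.ofReal τ ≠ 0 := (ENNReal.ofReal_pos.mpr hτ).ne'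
  obtain ⟨t, ht, ht2⟩ := exists_le_setLAverage (μ := volume) (s := Icc τ (2 * τ))
    (f := fun T => ∫⁻ y in F, f (y, T) ∂μ) (by rw [hv]; exact hτ0) (by rw [hv]; exact ENNReal.ofReal_ne_top)
    m1.lintegral_prod_left'
  have h3 : ∫⁻ y in F, f (y, t) ∂μ ≤ ENNReal.ofReal a * μ F := by
    refine ht2.trans ?_
    rw [setLAverage_eq, hv]
    refine ENNReal.div_le_of_le_mul (h2.trans (le_of_eq ?_))
    rw [ENNReal.ofReal_mul ha.le]; ring
  refine ⟨t, ht, {y | f (y, t) < ENNReal.ofReal (2 * a)} ∩ F, inter_subset_right, ?_, fun y hy => ?_⟩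
  · have h4 := (mul_meas_ge_le_lintegral₀ (m3 t ht) (ENNReal.ofReal (2 * a))).trans h3
    have h5 : μ ({y | ENNReal.ofReal (2 * a) ≤ f (y, t)} ∩ F) ≤
        μ.restrict F {y | ENNReal.ofReal (2 * a) ≤ f (y, t)} := Measure.le_restrict_apply _ _
    have h6 : 2 * μ ({y | ENNReal.ofReal (2 * a) ≤ f (y, t)} ∩ F) ≤ μ F := by
      have ha0 : ENNReal.ofReal a ≠ 0 := (ENNReal.ofReal_pos.mpr ha).ne'
      rw [← ENNReal.mul_le_mul_iff_right ha0 ENNReal.ofReal_ne_top]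
      refine le_trans (le_of_eq ?_) ((mul_le_mul_right h5 _).trans h4)
      rw [ENNReal.ofReal_mul zero_le_two, ENNReal.ofReal_ofNat]; ring
    have h7 : μ F ≤ μ ({y | f (y, t) < ENNReal.ofReal (2 * a)} ∩ F) +
        μ ({y | ENNReal.ofReal (2 * a) ≤ f (y, t)} ∩ F) := by
      refine (measure_mono fun y hy => ?_).trans (measure_union_le _ _)
      rcases lt_or_ge (f (y, t)) (ENNReal.ofReal (2 * a)) with h | h
      · exact Or.inl ⟨h, hy⟩
      · exact Or.inr ⟨h, hy⟩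
    rw [← ENNReal.add_le_add_iff_right (measure_ne_top μ F)]
    calc μ F + μ F = 2 * μ F := (two_mul _).symm
      _ ≤ 2 * (μ ({y | f (y, t) < ENNReal.ofReal (2 * a)} ∩ F) +
          μ ({y | ENNReal.ofReal (2 * a) ≤ f (y, t)} ∩ F)) := mul_le_mul_right h7 _
      _ ≤ _ := by rw [mul_add]; exact add_le_add_right h6 _
  · have hy1 : liminf (fun k => ENNReal.ofReal (g k (y, t))) atTop < ENNReal.ofReal (2 * a) := hy.1
    refine (frequently_lt_of_liminf_lt (h := hy1)).mono fun k hk => ?_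
    exact (ENNReal.ofReal_lt_ofReal_iff (by positivity)).mp hk

theorem avg [CompactSpace M] [BorelSpace M] {U : M → ℝ} {q : M → E n} (hq : ∀ z, Supp G.ex U z (q z)) {F : Set M}
    (hF : MeasurableSet F) {τ β : ℝ} (hτ : 0 < τ) (hτ1 : 4 * τ ≤ 1) (hβ : 0 ≤ β)
    (h : ∀ y ∈ F, ∀ T ∈ Icc 0 (4 * τ), cst (G.ex y (q y)) (G.ex y (T • q y)) - U (G.ex y (T • q y)) -
      (cst (G.ex y (q y)) y - U y) ≤ β * T) :
    ∃ t ∈ Icc τ (2 * τ), ∃ F' ⊆ F, G.μ F ≤ 2 * G.μ F' ∧ ∀ y ∈ F', ∀ ε : ℝ, 0 < ε → ∃ᶠ s in 𝓝[>] (0 : ℝ),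
      2 * U (G.ex y (t • q y)) - U (G.ex y ((t + s) • q y)) - U (G.ex y ((t + -s) • q y)) ≤
        (10 * β / τ + 40 * (G.K * G.D ^ 2) + ε) * s ^ 2 := by
  have : IsFiniteMeasure G.μ := ⟨G.fin.lt_top⟩
  have hU : IsCC U := fun z => ⟨_, (hq z).2⟩
  have cU : Continuous U := (LipschitzWith.of_dist_le' (K := G.D) fun x y => by
    rw [Real.dist_eq]; exact G.isCC_lip hU x y).continuous
  have hK := G.one_le_K
  have hD := G.one_le_D
  set B : Set M := toMeasurable G.μ {z | ¬ ∀ q q', Supp G.ex U z q → Supp G.ex U z q' → q = q'} with hB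
  have hB0 : G.μ B = 0 := by
    rw [hB, measure_toMeasurable]; exact ae_iff.mp (G.ae_supp_unique hU)
  have hF1 : MeasurableSet (F \ B) := hF.diff (measurableSet_toMeasurable _ _)
  have huq : ∀ z ∈ F \ B, ∀ q', Supp G.ex U z q' → q' = q z := by
    intro z hz q' hq'
    by_contra hne
    exact hz.2 (subset_toMeasurable _ _ fun hh => hne (hh q' (q z) hq' (hq z)))
  have c1 := G.tilt_continuousOn hq huq
  have cN : ContinuousOn (fun y => ‖q y‖) (F \ B) := by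
    have c2 : ContinuousOn (fun y => G.ex y ((1 : ℝ) • q y)) (F \ B) :=
      c1.comp (f := fun y : M => (y, (1 : ℝ))) (by fun_prop) fun y hy => ⟨hy, by simp⟩
    refine (continuous_dist.comp_continuousOn (continuousOn_id.prodMk c2)).congr fun y _ => ?_
    simp only [one_smul, id, Function.comp]
    exact (hq y).1.symm
  set φ : M → ℝ → ℝ := fun y T => (1 - T) ^ 2 * ‖q y‖ ^ 2 / 2 - U (G.ex y (T • q y)) - (‖q y‖ ^ 2 / 2 - U y) +
    G.K * ‖q y‖ ^ 2 * T ^ 2 with hφ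
  have cφ : ContinuousOn (fun p : M × ℝ => φ p.1 p.2) ((F \ B) ×ˢ Icc 0 1) := by
    have n1 : ContinuousOn (fun p : M × ℝ => ‖q p.1‖) ((F \ B) ×ˢ Icc 0 1) :=
      cN.comp continuousOn_fst fun p hp => hp.1
    have n2 : ContinuousOn (fun p : M × ℝ => U (G.ex p.1 (p.2 • q p.1))) ((F \ B) ×ˢ Icc 0 1) :=
      cU.comp_continuousOn c1
    have n3 : ContinuousOn (fun p : M × ℝ => U p.1) ((F \ B) ×ˢ Icc 0 1) := (cU.comp continuous_fst).continuousOn
    simp only [hφ]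
    fun_prop
  have conv : ∀ y, ConvexOn ℝ (Icc 0 (4 * τ)) (φ y) := by
    intro y
    have h1 := (G.isCC_concaveOn hU y (q y)).neg
    have h2 : ConvexOn ℝ univ fun T : ℝ => (1 - T) ^ 2 * ‖q y‖ ^ 2 / 2 - (‖q y‖ ^ 2 / 2 - U y) := by
      refine ⟨convex_univ, fun a _ b _ s t hs ht hst => ?_⟩
      simp only [smul_eq_mul]
      obtain rfl : t = 1 - s := by linarith
      nlinarith [mul_nonneg (mul_nonneg hs ht) (mul_nonneg (sq_nonneg (a - b)) (sq_nonneg ‖q y‖))]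
    refine ((h2.add h1).subset (subset_univ _) (convex_Icc _ _)).congr fun T _ => ?_
    simp only [hφ, Pi.add_apply, Pi.neg_apply]; ring
  have e1 : ∀ y, cst (G.ex y (q y)) y = ‖q y‖ ^ 2 / 2 := fun y => by
    rw [cst_comm]; exact G.cst_of_min (hq y).1
  have sub : ∀ T ∈ Icc 0 (4 * τ), T ∈ Icc (0 : ℝ) 1 := fun T hT => ⟨hT.1, hT.2.trans hτ1⟩
  have pos : ∀ y, ∀ T ∈ Icc 0 (4 * τ), 0 ≤ φ y T := by
    intro y T hT
    have h1 := (hq y).2 (G.ex y (T • q y))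
    rw [cst_comm y, cst_comm (G.ex y (T • q y)), e1, G.cst_tilt (hq y).1 (sub T hT)] at h1
    have : 0 ≤ G.K * ‖q y‖ ^ 2 * T ^ 2 := by positivity
    simp only [hφ]; linarith
  have zero : ∀ y, φ y 0 = 0 := fun y => by simp [hφ, G.g1.exp_zero]
  set a : ℝ := 4 * β / τ + 16 * (G.K * G.D ^ 2) with ha
  have ha0 : 0 < a := by positivity
  have top : ∀ y ∈ F, φ y (4 * τ) / τ ≤ a * τ := by
    intro y hy
    have hT : 4 * τ ∈ Icc 0 (4 * τ) := ⟨by positivity, le_rfl⟩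
    have h1 := h y hy _ hT
    rw [e1, G.cst_tilt (hq y).1 (sub _ hT)] at h1
    have h2 : ‖q y‖ ^ 2 ≤ G.D ^ 2 := pow_le_pow_left₀ (norm_nonneg _) (G.norm_le_D (hq y).1) 2
    have h3 : G.K * ‖q y‖ ^ 2 * (4 * τ) ^ 2 ≤ G.K * G.D ^ 2 * (4 * τ) ^ 2 := by gcongr
    rw [div_le_iff₀ hτ]
    have : a * τ * τ = β * (4 * τ) + G.K * G.D ^ 2 * (4 * τ) ^ 2 := by rw [ha]; field_simp; ring
    simp only [hφ]; linarith
  set s : ℕ → ℝ := fun k => τ / (k + 1) with hs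
  have s0 : ∀ k, 0 < s k := fun k => by positivity
  have s1 : ∀ k, s k ≤ τ := fun k => div_le_self hτ.le (by linarith [Nat.cast_nonneg (α := ℝ) k])
  have slim : Tendsto s atTop (𝓝[>] 0) := by
    refine tendsto_nhdsWithin_iff.mpr ⟨?_, Eventually.of_forall s0⟩
    simpa [hs, div_eq_mul_inv] using tendsto_one_div_add_atTop_nhds_zero_nat.const_mul τ
  obtain ⟨t, ht, F', hF', hμ, hfr⟩ := sa_abs G.μ hF1 hτ ha0
    (g := fun k p => (φ p.1 (p.2 + s k) + φ p.1 (p.2 - s k) - 2 * φ p.1 p.2) / s k ^ 2)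
    (fun k => by
      have d : ∀ r : ℝ, |r| ≤ τ → ContinuousOn (fun p : M × ℝ => φ p.1 (p.2 + r)) ((F \ B) ×ˢ Icc τ (2 * τ)) :=
        fun r hr => cφ.comp (f := fun p : M × ℝ => (p.1, p.2 + r)) (by fun_prop) fun p hp =>
          ⟨hp.1, by linarith [hp.2.1, (abs_le.mp hr).1], by linarith [hp.2.2, (abs_le.mp hr).2]⟩
      have d1 := d (s k) (by rw [abs_of_pos (s0 k)]; exact s1 k)
      have d2 := d (-s k) (by rw [abs_neg, abs_of_pos (s0 k)]; exact s1 k)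
      have d3 := d 0 (by simpa using hτ.le)
      simp only [add_zero, ← sub_eq_add_neg] at d2 d3
      exact ((d1.add d2).sub (continuousOn_const.mul d3)).div_const _)
    (fun k y hy => (avg_real hτ (conv y) (zero y) (pos y) (s0 k) (s1 k)).trans
      (ENNReal.ofReal_le_ofReal (top y hy.1)))
  refine ⟨t, ht, F', hF'.trans sdiff_subset, by rwa [measure_sdiff_null hB0] at hμ, fun y hy ε hε => ?_⟩
  refine slim.frequently ((hfr y hy).mono fun k hk => ?_)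
  have hk2 := (div_lt_iff₀ (pow_pos (s0 k) 2)).mp hk
  simp only [hφ] at hk2
  rw [← sub_eq_add_neg]
  have h1 : 0 ≤ (1 + 2 * G.K) * ‖q y‖ ^ 2 * s k ^ 2 := by positivity
  have h2 : 2 * a * s k ^ 2 ≤ (10 * β / τ + 40 * (G.K * G.D ^ 2) + ε) * s k ^ 2 := by
    refine mul_le_mul_of_nonneg_right ?_ (sq_nonneg _)
    have : 0 ≤ β / τ := by positivity
    have h3 : 0 ≤ G.K * G.D ^ 2 := by positivity
    have e2 : 4 * β / τ = 4 * (β / τ) := by ring
    have e3 : 10 * β / τ = 10 * (β / τ) := by ring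
    rw [ha, e2, e3]; linarith
  nlinarith

end Ge

end Crest.Agent.R226.S

end
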