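import Crest.Agent.R226.SSyn

/-!
# rid 226 / SAvg1: `avg_real` and `tilt_continuousOn` (prefix `sa_`, primed names)
-/

set_option autoImplicit false
set_option linter.unusedSectionVars false

open scoped Topology RealInnerProductSpace ENNReal NNReal
open Set Filter MeasureTheory Asymptotics
open Crest.Agent.R226.L

noncomputable section

namespace Crest.Agent.R226.S

variable {n : ℕ} {M : Type*} [MetricSpace M] [MeasurableSpace M]

/-- second differences of a convex function -/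
theorem avg_real' {ψ : ℝ → ℝ} {τ s : ℝ} (hτ : 0 < τ) (hψ : ConvexOn ℝ (Icc 0 (4 * τ)) ψ) (h0 : ψ 0 = 0)
    (hpos : ∀ T ∈ Icc 0 (4 * τ), 0 ≤ ψ T) (hs : 0 < s) (hsτ : s ≤ τ) :
    ∫⁻ T in Icc τ (2 * τ), ENNReal.ofReal ((ψ (T + s) + ψ (T - s) - 2 * ψ T) / s ^ 2) ≤
      ENNReal.ofReal (ψ (4 * τ) / τ) := by
  have hmono : MonotoneOn ψ (Icc 0 (4 * τ)) := fun a ha b hb hab => by
    have := hψ.le_max_of_mem_Icc (x := 0) (y := b) (z := a) ⟨le_rfl, by linarith⟩ hb ⟨ha.1, hab⟩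
    rwa [h0, max_eq_right (hpos b hb)] at this
  have hI : ∀ a b : ℝ, a ∈ Icc 0 (4 * τ) → b ∈ Icc 0 (4 * τ) → IntervalIntegrable ψ volume a b := fun a b ha hb =>
    (hmono.mono (uIcc_subset_Icc ha hb)).intervalIntegrable
  set g : ℝ → ℝ := fun T => ψ (T + s) - ψ T with hg
  have hgI : ∀ a b : ℝ, a ∈ Icc 0 (2 * τ) → b ∈ Icc 0 (2 * τ) → IntervalIntegrable g volume a b := fun a b ha hb => by
    have h1 := (hI (a + s) (b + s) ⟨by linarith [ha.1], by linarith [ha.2]⟩
      ⟨by linarith [hb.1], by linarith [hb.2]⟩).comp_add_right s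
    simp only [add_sub_cancel_right] at h1
    exact h1.sub (hI a b ⟨ha.1, by linarith [ha.2]⟩ ⟨hb.1, by linarith [hb.2]⟩)
  have hg0 : ∀ T ∈ Icc 0 (2 * τ), 0 ≤ g T := fun T hT =>
    sub_nonneg.2 (hmono ⟨hT.1, by linarith [hT.2]⟩ ⟨by linarith [hT.1], by linarith [hT.2]⟩ (by linarith))
  have h4 : 0 ≤ ψ (4 * τ) := hpos _ ⟨by linarith, le_rfl⟩
  have hg1 : ∀ T ∈ Icc 0 (2 * τ), g T ≤ s * (ψ (4 * τ) / τ) := fun T hT => by
    have h1 := hψ.slope_mono_adjacent (x := T) (y := T + s) (z := 4 * τ) ⟨hT.1, by linarith [hT.2]⟩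
      ⟨by linarith, le_rfl⟩ (by linarith) (by linarith [hT.2])
    have h2 : 0 ≤ ψ (T + s) := hpos _ ⟨by linarith [hT.1], by linarith [hT.2]⟩
    have h3 : (ψ (4 * τ) - ψ (T + s)) / (4 * τ - (T + s)) ≤ ψ (4 * τ) / τ :=
      div_le_div₀ h4 (by linarith) hτ (by linarith [hT.2])
    rw [add_sub_cancel_left, div_le_iff₀ hs] at h1
    have := mul_le_mul_of_nonneg_right h3 hs.le
    simp only [hg]
    linarith
  have m1 : τ ∈ Icc 0 (2 * τ) := ⟨hτ.le, by linarith⟩
  have m2 : 2 * τ ∈ Icc 0 (2 * τ) := ⟨by linarith, le_rfl⟩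
  have m3 : τ - s ∈ Icc 0 (2 * τ) := ⟨by linarith, by linarith⟩
  have m4 : 2 * τ - s ∈ Icc 0 (2 * τ) := ⟨by linarith, by linarith⟩
  have hsh : IntervalIntegrable (fun T => g (T - s)) volume τ (2 * τ) := by
    have h1 := (hgI _ _ m3 m4).comp_sub_right s
    simpa only [sub_add_cancel] using h1
  have e : ∀ T, (ψ (T + s) + ψ (T - s) - 2 * ψ T) / s ^ 2 = (g T - g (T - s)) / s ^ 2 := fun T => by
    simp only [hg, sub_add_cancel]
    ring
  simp only [e]
  have hF : IntervalIntegrable (fun T => (g T - g (T - s)) / s ^ 2) volume τ (2 * τ) :=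
    ((hgI _ _ m1 m2).sub hsh).div_const _
  have hle : τ ≤ 2 * τ := by linarith
  rw [← ofReal_integral_eq_lintegral_ofReal ((intervalIntegrable_iff_integrableOn_Icc_of_le hle).1 hF)]
  · refine ENNReal.ofReal_le_ofReal ?_
    rw [integral_Icc_eq_integral_Ioc, ← intervalIntegral.integral_of_le hle, intervalIntegral.integral_div,
      intervalIntegral.integral_sub (hgI _ _ m1 m2) hsh, intervalIntegral.integral_comp_sub_right g s,
      div_le_iff₀ (by positivity)]
    have a1 := intervalIntegral.integral_add_adjacent_intervals (hgI _ _ m3 m1) (hgI _ _ m1 m2)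
    have a2 := intervalIntegral.integral_add_adjacent_intervals (hgI _ _ m3 m4) (hgI _ _ m4 m2)
    have a3 : 0 ≤ ∫ T in (τ - s)..τ, g T :=
      intervalIntegral.integral_nonneg (by linarith) fun T hT => hg0 T ⟨by linarith [hT.1], by linarith [hT.2]⟩
    have a4 : ∫ T in (2 * τ - s)..(2 * τ), g T ≤ ∫ _ in (2 * τ - s)..(2 * τ), s * (ψ (4 * τ) / τ) :=
      intervalIntegral.integral_mono_on (by linarith) (hgI _ _ m4 m2) intervalIntegrable_const
        fun T hT => hg1 T ⟨by linarith [hT.1], hT.2⟩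
    rw [intervalIntegral.integral_const, smul_eq_mul] at a4
    nlinarith
  · refine (ae_restrict_iff' measurableSet_Icc).2 (Eventually.of_forall fun T hT => ?_)
    have k1 : T + s ∈ Icc 0 (4 * τ) := ⟨by linarith [hT.1], by linarith [hT.2]⟩
    have k2 : T - s ∈ Icc 0 (4 * τ) := ⟨by linarith [hT.1], by linarith [hT.2]⟩
    have k3 : (0 : ℝ) ≤ 1 / 2 := by norm_num
    have h1 := hψ.2 k1 k2 k3 k3 (by norm_num)
    have e2 : (1 / 2 : ℝ) • (T + s) + (1 / 2 : ℝ) • (T - s) = T := by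
      simp only [smul_eq_mul]
      ring
    rw [e2] at h1
    simp only [smul_eq_mul] at h1
    simp only [Pi.zero_apply, ← e]
    exact div_nonneg (by linarith) (by positivity)

namespace Ge

variable (G : Ge n M)

theorem tilt_continuousOn' [CompactSpace M] {U : M → ℝ} {q : M → E n} (hq : ∀ z, Supp G.ex U z (q z)) {F₀ : Set M}
    (hF : ∀ z ∈ F₀, ∀ q', Supp G.ex U z q' → q' = q z) :
    ContinuousOn (fun p : M × ℝ => G.ex p.1 (p.2 • q p.1)) (F₀ ×ˢ Icc 0 1) := by
  rintro ⟨y, T⟩ ⟨hy, hT⟩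
  have hU : Continuous U := (LipschitzWith.of_dist_le' (K := G.D) fun x x' => by
    rw [Real.dist_eq]
    exact G.isCC_lip (fun z => ⟨_, (hq z).2⟩) x x').continuous
  refine (tendsto_iff_ultrafilter _ _ _).2 fun g hg => ?_
  obtain ⟨w, -, hw⟩ := isCompact_univ.ultrafilter_le_nhds
    (g.map fun p : M × ℝ => G.ex p.1 (p.2 • q p.1)) (by simp)
  obtain ⟨x, -, hx⟩ := isCompact_univ.ultrafilter_le_nhds (g.map fun p : M × ℝ => G.ex p.1 (q p.1)) (by simp)
  have hw' : Tendsto (fun p : M × ℝ => G.ex p.1 (p.2 • q p.1)) g (𝓝 w) := hw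
  have hx' : Tendsto (fun p : M × ℝ => G.ex p.1 (q p.1)) g (𝓝 x) := hx
  have hp : Tendsto (fun p : M × ℝ => p) g (𝓝 (y, T)) := hg.trans nhdsWithin_le_nhds
  have h1 : Tendsto (fun p : M × ℝ => p.1) g (𝓝 y) := (continuous_fst.tendsto _).comp hp
  have h2 : Tendsto (fun p : M × ℝ => p.2) g (𝓝 T) := (continuous_snd.tendsto _).comp hp
  have hev : ∀ᶠ p : M × ℝ in g, p.2 ∈ Icc (0 : ℝ) 1 := by
    filter_upwards [hg self_mem_nhdsWithin] with p hp using hp.2
  have c1 : Ct U y x := fun z =>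
    le_of_tendsto_of_tendsto' (((continuous_cst.tendsto (y, x)).comp (h1.prodMk_nhds hx')).sub ((hU.tendsto y).comp h1))
      (((continuous_cst.tendsto (z, x)).comp (tendsto_const_nhds.prodMk_nhds hx')).sub tendsto_const_nhds)
      fun p => (hq p.1).2 z
  have c2 : dist y w = T * dist y x := by
    refine tendsto_nhds_unique_of_eventuallyEq (h1.dist hw') (h2.mul (h1.dist hx')) ?_
    filter_upwards [hev] with p hp
    have a1 : dist p.1 (G.ex p.1 (p.2 • q p.1)) = ‖p.2 • q p.1‖ := G.smul_mem_min (hq p.1).1 hp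
    have a2 : dist p.1 (G.ex p.1 (q p.1)) = ‖q p.1‖ := (hq p.1).1
    rw [a1, a2, norm_smul, Real.norm_of_nonneg hp.1]
  have c3 : dist w x = (1 - T) * dist y x := by
    refine tendsto_nhds_unique_of_eventuallyEq (hw'.dist hx') ((tendsto_const_nhds.sub h2).mul (h1.dist hx')) ?_
    filter_upwards [hev] with p hp
    have a1 := G.min_dist (hq p.1).1 hp (t := 1) ⟨zero_le_one, le_rfl⟩
    have a2 : dist p.1 (G.ex p.1 (q p.1)) = ‖q p.1‖ := (hq p.1).1
    rw [one_smul, abs_sub_comm, abs_of_nonneg (sub_nonneg.2 hp.2)] at a1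
    rw [a1, a2]
  have key : G.ex y (T • q y) = w := by
    rcases hT.1.eq_or_lt with h0 | h0
    · have h0' : T = 0 := h0.symm
      rw [h0', zero_mul, dist_eq_zero] at c2
      rw [h0', zero_smul, G.g1.exp_zero, c2]
    rcases hT.2.eq_or_lt with h1' | h1'
    · have h1'' : T = 1 := h1'
      rw [h1'', sub_self, zero_mul, dist_eq_zero] at c3
      obtain ⟨q', hq', e⟩ := G.exists_min y x
      have := hF y hy q' ⟨hq', e.symm ▸ c1⟩
      rw [h1'', one_smul, ← this, e, c3]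
    · obtain ⟨q', hq', e, e'⟩ := G.nobranch ⟨h0, h1'⟩ c2 c3
      have := hF y hy q' ⟨hq', e.symm ▸ c1⟩
      rw [← this, e']
  simpa only [key] using hw'

end Ge

end Crest.Agent.R226.S

end
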