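import Crest.Agent.R226.SDefs

/-!
# rid 226 / SBasic: elementary consequences of `Geo1` (prefix for auxiliary lemmas: `sb_`)

Hints.  `dist_ex_le`: for `t ≠ 0` use `flow` at `t • v` (`ex (ex z (t v)) (s • vel) = ex z ((1+s) t v)`, `norm_vel`, `dist_le`), the
case `t = 0` is `dist_le`.  `inj_small`: `lc` for `p` and `sc` for `p'` give `⟪p' - p, ξ⟫ ≤ L ‖ξ‖²` for small `ξ`.
`eq_of_vel_eq`: `flow` gives `ex z (τ q) = ex z (τ q')` for all `τ`; `inj_small` for small `τ > 0`.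
`tilt`: `d(x, y_t) ≥ |d(x,y) - t ‖q‖|`; the difference of the two sides is `t (d(x,y) - ‖q‖)² / 2`.
-/

set_option autoImplicit false
set_option linter.unusedSectionVars false

open scoped Topology RealInnerProductSpace ENNReal NNReal
open Set Filter MeasureTheory Asymptotics
open Crest.Agent.R226.L

noncomputable section

namespace Crest.Agent.R226.S

variable {n : ℕ} {M : Type*} [MetricSpace M] [MeasurableSpace M]

omit [MeasurableSpace M] in
theorem cst_comm (x y : M) : cst x y = cst y x := by simp [cst, dist_comm]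

omit [MeasurableSpace M] in
theorem cst_nonneg (x y : M) : 0 ≤ cst x y := by unfold cst; positivity

omit [MeasurableSpace M] in
theorem continuous_cst : Continuous fun p : M × M => cst p.1 p.2 := by unfold cst; fun_prop

omit [MeasurableSpace M] in
/-- inf-convolution inequality -/
theorem cst_split (x m y : M) {s t : ℝ} (hs : 0 < s) (ht : 0 < t) : cst x y / (s + t) ≤ cst x m / s + cst m y / t := by
  have h := dist_triangle x m y
  have h0 := dist_nonneg (x := x) (y := y)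
  have h1 : dist x y ^ 2 ≤ (dist x m + dist m y) ^ 2 := pow_le_pow_left₀ h0 h 2
  unfold cst
  rw [div_add_div _ _ hs.ne' ht.ne', div_le_div_iff₀ (by positivity) (by positivity)]
  nlinarith [sq_nonneg (dist x m * t - dist m y * s), mul_le_mul_of_nonneg_right h1 (mul_pos hs ht).le]

theorem norm_sg_sq (a b : E n) (s : ℝ) :
    ‖sg a b s‖ ^ 2 = (1 - s) * ‖a‖ ^ 2 + s * ‖b‖ ^ 2 - s * (1 - s) * ‖a - b‖ ^ 2 := by
  rw [norm_add_sq_real, norm_sub_sq_real, norm_smul, norm_smul, mul_pow, mul_pow, Real.norm_eq_abs, Real.norm_eq_abs,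
    sq_abs, sq_abs, inner_smul_left, inner_smul_right]
  simp only [conj_trivial]
  ring

namespace Ge

variable (G : Ge n M)

theorem exists_min (z y : M) : ∃ q ∈ MinS G.ex z, G.ex z q = y := by
  obtain ⟨v, hv, hd⟩ := G.g1.surj z y
  exact ⟨v, by show dist z (G.ex z v) = ‖v‖; rw [hv, hd], hv⟩

theorem cst_of_min {z : M} {q : E n} (hq : q ∈ MinS G.ex z) : cst z (G.ex z q) = ‖q‖ ^ 2 / 2 := by
  have h : dist z (G.ex z q) = ‖q‖ := hq
  rw [cst, h]

theorem norm_le_D {z : M} {q : E n} (hq : q ∈ MinS G.ex z) : ‖q‖ ≤ G.D := by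
  have h : dist z (G.ex z q) = ‖q‖ := hq
  exact h ▸ G.dist_le _ _

theorem dist_ex_le (z : M) (v : E n) (s t : ℝ) : dist (G.ex z (s • v)) (G.ex z (t • v)) ≤ |s - t| * ‖v‖ := by
  rw [dist_comm]
  rcases eq_or_ne t 0 with rfl | ht
  · rw [zero_smul, G.g1.exp_zero, sub_zero, ← Real.norm_eq_abs, ← norm_smul]
    exact G.g1.dist_le _ _
  · have e : s • v = (1 + (s - t) / t) • t • v := by
      rw [smul_smul]
      congr 1
      field_simp
      ring
    rw [e, ← G.g1.flow]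
    refine (G.g1.dist_le _ _).trans (le_of_eq ?_)
    rw [norm_smul, G.g1.norm_vel, norm_smul, ← mul_assoc, ← norm_mul, div_mul_cancel₀ _ ht, Real.norm_eq_abs]

theorem min_dist {z : M} {q : E n} (hq : q ∈ MinS G.ex z) {s t : ℝ} (hs : s ∈ Icc (0 : ℝ) 1) (ht : t ∈ Icc (0 : ℝ) 1) :
    dist (G.ex z (s • q)) (G.ex z (t • q)) = |s - t| * ‖q‖ := by
  refine le_antisymm (G.dist_ex_le z q s t) ?_
  have h : dist z (G.ex z q) = ‖q‖ := hq
  have key : ∀ s ∈ Icc (0 : ℝ) 1, ∀ t ∈ Icc (0 : ℝ) 1,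
      (t - s) * ‖q‖ ≤ dist (G.ex z (s • q)) (G.ex z (t • q)) := by
    intro s hs t ht
    have h1 := dist_triangle4 z (G.ex z (s • q)) (G.ex z (t • q)) (G.ex z q)
    have h2 := G.g1.dist_le z (s • q)
    have h3 := G.dist_ex_le z q t 1
    rw [norm_smul, Real.norm_of_nonneg hs.1] at h2
    rw [one_smul, abs_of_nonpos (by linarith [ht.2])] at h3
    linarith
  rcases abs_cases (s - t) with h1 | h1
  · rw [h1.1, dist_comm]
    exact key t ht s hs
  · rw [h1.1, neg_sub]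
    exact key s hs t ht

theorem smul_mem_min {z : M} {q : E n} (hq : q ∈ MinS G.ex z) {t : ℝ} (ht : t ∈ Icc (0 : ℝ) 1) :
    t • q ∈ MinS G.ex z := by
  have h := G.min_dist hq (s := 0) ⟨le_rfl, zero_le_one⟩ ht
  rw [zero_smul, G.g1.exp_zero, zero_sub, abs_neg, ← Real.norm_eq_abs, ← norm_smul] at h
  exact h

theorem cst_tilt {z : M} {q : E n} (hq : q ∈ MinS G.ex z) {t : ℝ} (ht : t ∈ Icc (0 : ℝ) 1) :
    cst (G.ex z q) (G.ex z (t • q)) = (1 - t) ^ 2 * ‖q‖ ^ 2 / 2 := by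
  have h := G.min_dist hq (s := 1) ⟨zero_le_one, le_rfl⟩ ht
  rw [one_smul] at h
  rw [cst, h, mul_pow, sq_abs]

theorem min_of_inj {z : M} {q : E n} (hq : q ∈ InjS G.ex z) : q ∈ MinS G.ex z := by
  obtain ⟨a, ha, h⟩ := hq
  have ha0 : 0 < a := by linarith
  have := G.smul_mem_min h (t := a⁻¹) ⟨by positivity, inv_le_one_of_one_le₀ ha.le⟩
  rwa [inv_smul_smul₀ ha0.ne'] at this

theorem mem_min_of_le {z : M} {q : E n} (hq : ‖q‖ ≤ G.δ) : q ∈ MinS G.ex z := by
  have h := G.g1.lc z 0 q (by rw [norm_zero]; exact G.g1.δ_pos.le) hq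
  rw [G.g1.exp_zero, inner_zero_right, norm_zero, cst] at h
  exact le_antisymm (G.g1.dist_le z q) (abs_le_of_sq_le_sq' (by linarith) dist_nonneg).2

theorem inj_small {z : M} {p p' : E n} (hp : ‖p‖ ≤ G.δ) (hp' : p' ∈ MinS G.ex z) (h : G.ex z p = G.ex z p') : p = p' := by
  have e1 : dist z (G.ex z p) = ‖p‖ := G.mem_min_of_le hp
  have e2 : dist z (G.ex z p') = ‖p'‖ := hp'
  have e : ‖p‖ = ‖p'‖ := by rw [← e1, ← e2, h]
  have hL := G.g1.L_pos
  have hδ := G.g1.δ_pos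
  by_contra hne
  have hw : 0 < ‖p' - p‖ := norm_pos_iff.2 (sub_ne_zero.2 (Ne.symm hne))
  obtain ⟨τ, hτ, h1, h2⟩ : ∃ τ : ℝ, 0 < τ ∧ τ ≤ G.δ / ‖p' - p‖ ∧ τ ≤ 1 / (2 * G.L) :=
    ⟨min _ _, lt_min (by positivity) (by positivity), min_le_left _ _, min_le_right _ _⟩
  have hn : ‖τ • (p' - p)‖ = τ * ‖p' - p‖ := by rw [norm_smul, Real.norm_of_nonneg hτ.le]
  have a1 := G.g1.lc z (τ • (p' - p)) p (by rw [hn]; exact (le_div_iff₀ hw).1 h1) hp
  have a2 := G.g1.sc z p' hp' (τ • (p' - p))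
  have a3 : ⟪p', τ • (p' - p)⟫ - ⟪p, τ • (p' - p)⟫ = τ * ‖p' - p‖ ^ 2 := by
    rw [← inner_sub_left, inner_smul_right, real_inner_self_eq_norm_sq]
  rw [h, e, hn] at a1
  rw [hn] at a2
  have a4 : τ * (2 * G.L) ≤ 1 := (le_div_iff₀ (by positivity)).1 h2
  have a5 : 0 < τ * ‖p' - p‖ ^ 2 := by positivity
  nlinarith [sq_nonneg (τ * ‖p' - p‖), mul_le_mul_of_nonneg_right a4 a5.le]

theorem rev_smul (z : M) (v : E n) (s : ℝ) : G.ex (G.ex z v) (s • -G.vel z v) = G.ex z ((1 - s) • v) := by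
  rw [smul_neg, ← neg_smul, G.g1.flow, ← sub_eq_add_neg]

theorem rev (z : M) (v : E n) : G.ex (G.ex z v) (-G.vel z v) = z := by
  have := G.rev_smul z v 1
  rwa [one_smul, sub_self, zero_smul, G.g1.exp_zero] at this

theorem rev_min {z : M} {q : E n} (hq : q ∈ MinS G.ex z) : -G.vel z q ∈ MinS G.ex (G.ex z q) := by
  change dist _ _ = _
  rw [G.rev, norm_neg, G.g1.norm_vel, dist_comm]
  exact hq

theorem eq_of_vel_eq {z : M} {q q' : E n} (hq : q ∈ MinS G.ex z) (hq' : q' ∈ MinS G.ex z) (h : G.ex z q = G.ex z q')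
    (hv : G.vel z q = G.vel z q') : q = q' := by
  have hD : 0 < G.D := one_pos.trans_le G.one_le_D
  have hτ : 0 < min 1 (G.δ / G.D) := lt_min one_pos (div_pos G.g1.δ_pos hD)
  set τ := min 1 (G.δ / G.D) with hτd
  have h1 := G.rev_smul z q (1 - τ)
  have h2 := G.rev_smul z q' (1 - τ)
  rw [h, hv, h2, sub_sub_cancel] at h1
  refine smul_right_injective _ hτ.ne' (G.inj_small ?_ (G.smul_mem_min hq' ⟨hτ.le, min_le_left _ _⟩) h1.symm)
  rw [norm_smul, Real.norm_of_nonneg hτ.le]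
  calc τ * ‖q‖ ≤ G.δ / G.D * G.D :=
        mul_le_mul (min_le_right _ _) (G.norm_le_D hq) (norm_nonneg _) (div_pos G.g1.δ_pos hD).le
    _ = G.δ := div_mul_cancel₀ _ hD.ne'

/-- the velocity of `T ↦ ex y (T • q)` at `T = t` -/
theorem exists_vel (y : M) (q : E n) (t : ℝ) :
    ∃ v : E n, ‖v‖ = ‖q‖ ∧ ∀ s : ℝ, G.ex (G.ex y (t • q)) (s • v) = G.ex y ((t + s) • q) := by
  rcases eq_or_ne t 0 with rfl | ht
  · exact ⟨q, rfl, fun s => by rw [zero_smul, G.g1.exp_zero, zero_add]⟩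
  · refine ⟨t⁻¹ • G.vel y (t • q), ?_, fun s => ?_⟩
    · rw [norm_smul, G.g1.norm_vel, norm_smul, norm_inv, inv_mul_cancel_left₀ (norm_ne_zero_iff.2 ht)]
    · rw [smul_smul, G.g1.flow, smul_smul]
      congr 2
      field_simp

/-- the tilt inequality (T) -/
theorem tilt {y : M} {q : E n} (hq : q ∈ MinS G.ex y) {t : ℝ} (ht : t ∈ Icc (0 : ℝ) 1) (x : M) :
    (1 - t) * (cst x y - cst (G.ex y q) y) ≤ cst x (G.ex y (t • q)) - cst (G.ex y q) (G.ex y (t • q)) := by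
  have h1 : dist y (G.ex y (t • q)) = t * ‖q‖ := by
    have := G.smul_mem_min hq ht
    rw [← Real.norm_of_nonneg ht.1, ← norm_smul, Real.norm_of_nonneg ht.1]
    exact this
  have h2 := abs_dist_sub_le x (G.ex y (t • q)) y
  rw [dist_comm (G.ex y (t • q)) y, h1] at h2
  have h3 := pow_le_pow_left₀ (abs_nonneg _) h2 2
  rw [sq_abs] at h3
  rw [G.cst_tilt hq ht, cst_comm (G.ex y q) y, G.cst_of_min hq]
  unfold cst
  nlinarith [mul_nonneg ht.1 (sq_nonneg (dist x y - ‖q‖))]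

theorem cst_lip (x y y' : M) : |cst x y - cst x y'| ≤ G.D * dist y y' := by
  have h1 := abs_dist_sub_le y y' x
  rw [dist_comm y x, dist_comm y' x] at h1
  have h2 : cst x y - cst x y' = (dist x y + dist x y') / 2 * (dist x y - dist x y') := by
    unfold cst
    ring
  rw [h2, abs_mul, abs_of_nonneg (by positivity)]
  exact mul_le_mul (by linarith [G.dist_le x y, G.dist_le x y']) h1 (abs_nonneg _)
    (zero_le_one.trans G.one_le_D)

theorem isCC_lip {U : M → ℝ} (hU : IsCC U) (x x' : M) : |U x - U x'| ≤ G.D * dist x x' := by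
  have key : ∀ a b : M, U a - U b ≤ G.D * dist a b := fun a b => by
    obtain ⟨y, hy⟩ := hU b
    have h1 := hy a
    have h2 := (le_abs_self _).trans (G.cst_lip y a b)
    rw [cst_comm y a, cst_comm y b] at h2
    linarith
  have h1 := key x' x
  rw [dist_comm] at h1
  exact abs_le.2 ⟨by linarith, key x x'⟩

include G in
theorem isCC_continuous {U : M → ℝ} (hU : IsCC U) : Continuous U := by
  exact (LipschitzWith.of_dist_le' (K := G.D) fun x x' => G.isCC_lip hU x x').continuous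

theorem isCC_supp {U : M → ℝ} (hU : IsCC U) (z : M) : ∃ q, Supp G.ex U z q := by
  obtain ⟨y, hy⟩ := hU z
  obtain ⟨q, hq, rfl⟩ := G.exists_min z y
  exact ⟨q, hq, hy⟩

theorem supp_upper {U : M → ℝ} {z : M} {q : E n} (h : Supp G.ex U z q) (ξ : E n) :
    U (G.ex z ξ) ≤ U z - ⟪q, ξ⟫ + G.K * ‖ξ‖ ^ 2 := by
  have h1 := h.2 (G.ex z ξ)
  have h2 := G.g1.sc z q h.1 ξ
  rw [G.cst_of_min h.1] at h1
  have h3 := mul_le_mul_of_nonneg_right G.L_le (sq_nonneg ‖ξ‖)
  linarith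

end Ge

end Crest.Agent.R226.S

end
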