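import Crest.Agent.R226.SL

/-! # rid 226 / SCrease2: the crease estimate from the injectivity of the crease map (prefix `sc2_`) -/

set_option autoImplicit false
set_option linter.unusedSectionVars false

open scoped Topology RealInnerProductSpace ENNReal NNReal
open Set Filter MeasureTheory Asymptotics
open Crest.Agent.R226.L

noncomputable section

namespace Crest.Agent.R226.S

variable {n : ℕ} {M : Type*} [MetricSpace M] [MeasurableSpace M]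

theorem sc2_det {S : E n →L[ℝ] E n} (h1 : ∀ u w, ⟪S u, w⟫ = ⟪u, S w⟫) (h2 : ∀ u, 0 ≤ ⟪S u, u⟫) :
    0 ≤ S.det := by
  have hp : (S : E n →ₗ[ℝ] E n).IsPositive := ⟨h1, h2⟩
  rw [ContinuousLinearMap.det, hp.isSymmetric.det_eq_prod_eigenvalues rfl]
  exact Finset.prod_nonneg fun i _ => hp.nonneg_eigenvalues rfl i

theorem sc2_ray (u : E n) : Tendsto (fun s : ℝ => s • u) (𝓝 0) (𝓝 0) := by
  simpa using (tendsto_id (x := 𝓝 (0 : ℝ))).smul_const u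

theorem sc2_tay {ex : M → E n → M} {U : M → ℝ} {z : M} {q : E n} {H : E n →L[ℝ] E n}
    (hT : Tay ex U z q H) (u : E n) {ε : ℝ} (hε : 0 < ε) : ∀ᶠ s in 𝓝 (0 : ℝ),
      U z - s * ⟪q, u⟫ + s ^ 2 * ⟪H u, u⟫ / 2 - ε * (s ^ 2 * ‖u‖ ^ 2) ≤ U (ex z (s • u)) ∧
      U (ex z (s • u)) ≤ U z - s * ⟪q, u⟫ + s ^ 2 * ⟪H u, u⟫ / 2 + ε * (s ^ 2 * ‖u‖ ^ 2) := by
  filter_upwards [(sc2_ray u).eventually (hT.2.def hε)] with s hs
  rw [Real.norm_eq_abs, Real.norm_of_nonneg (sq_nonneg _), map_smul, real_inner_smul_left,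
    real_inner_smul_right, real_inner_smul_right, norm_smul, mul_pow, Real.norm_eq_abs, sq_abs] at hs
  obtain ⟨h1, h2⟩ := abs_le.1 hs
  exact ⟨by linarith, by linarith⟩

theorem sc2_lim {a b c : ℝ} (hc : 0 ≤ c) (h : ∀ ε : ℝ, 0 < ε → a ≤ b + ε * c) : a ≤ b := by
  refine le_of_forall_pos_le_add fun η hη => (h (η / (c + 1)) (by positivity)).trans ?_
  have : η / (c + 1) * c ≤ η := by
    rw [div_mul_eq_mul_div, div_le_iff₀ (by positivity)]; nlinarith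
  linarith

namespace Ge

variable (G : Ge n M)

theorem tay_le' {U : M → ℝ} {z : M} {q : E n} {H : E n →L[ℝ] E n} (h : Supp G.ex U z q)
    (hq : q ∈ InjS G.ex z) (hT : Tay G.ex U z q H) (u : E n) : 0 ≤ ⟪(G.A z q - H) u, u⟫ := by
  rw [sub_apply, inner_sub_left, sub_nonneg]
  refine sc2_lim (c := 4 * ‖u‖ ^ 2) (by positivity) fun ε hε => ?_
  have h1 : ∀ᶠ s in 𝓝[>] (0 : ℝ), _ := nhdsWithin_le_nhds
    ((sc2_tay hT u hε).and ((sc2_ray u).eventually (G.g2.tay_up z q hq ε hε)))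
  obtain ⟨s, ⟨⟨h2, -⟩, h3⟩, h4⟩ := (h1.and self_mem_nhdsWithin).exists
  have h5 := h.2 (G.ex z (s • u))
  rw [G.cst_of_min h.1] at h5
  rw [map_smul, real_inner_smul_left, real_inner_smul_right, real_inner_smul_right, norm_smul, mul_pow,
    Real.norm_eq_abs, sq_abs] at h3
  refine le_of_mul_le_mul_left ?_ (pow_pos (show 0 < s from h4) 2)
  linarith

theorem tay_second' {U : M → ℝ} {z : M} {q v : E n} {H : E n →L[ℝ] E n} (hT : Tay G.ex U z q H) {B : ℝ}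
    (h : ∀ ε : ℝ, 0 < ε → ∃ᶠ s in 𝓝[>] (0 : ℝ),
      2 * U z - U (G.ex z (s • v)) - U (G.ex z ((-s) • v)) ≤ (B + ε) * s ^ 2) : -⟪H v, v⟫ ≤ B := by
  refine sc2_lim (c := 1 + 2 * ‖v‖ ^ 2) (by positivity) fun ε hε => ?_
  have h0 : Tendsto (fun s : ℝ => -s) (𝓝 0) (𝓝 0) := by simpa using (tendsto_id (x := 𝓝 (0 : ℝ))).neg
  have h1 : ∀ᶠ s in 𝓝[>] (0 : ℝ), _ := nhdsWithin_le_nhds
    ((sc2_tay hT v hε).and (h0.eventually (sc2_tay hT v hε)))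
  obtain ⟨s, h2, ⟨⟨-, h3⟩, -, h4⟩, h5⟩ := ((h ε hε).and_eventually (h1.and self_mem_nhdsWithin)).exists
  refine le_of_mul_le_mul_left ?_ (pow_pos (show 0 < s from h5) 2)
  linarith

theorem sc2_pt [CompactSpace M] {θ₀ c : ℝ} (h0 : 0 < θ₀) (h1 : θ₀ ≤ 1 / 4) (hc : 0 < c)
    (hH : G.Harnack θ₀ c) : ∃ c' : ℝ, 0 < c' ∧ ∀ (z : M) (a b v : E n) (H₁ H₂ : E n →L[ℝ] E n)
      (j s₀ Λ r : ℝ), a ∈ InjS G.ex z → b ∈ InjS G.ex z → ‖b‖ ≤ ‖a‖ →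
      (∀ u w, ⟪H₁ u, w⟫ = ⟪u, H₁ w⟫) → (∀ u w, ⟪H₂ u, w⟫ = ⟪u, H₂ w⟫) →
      (∀ u, 0 ≤ ⟪(G.A z a - H₁) u, u⟫) → (∀ u, 0 ≤ ⟪(G.A z b - H₂) u, u⟫) → 0 < j → 0 < s₀ → 0 < Λ →
      j < |(G.P z a).det * (G.A z a - H₁).det| → s₀ ≤ ⟪v, a - b⟫ → ⟪(G.A z a - H₁) v, v⟫ ≤ Λ →
      r ∈ Icc (θ₀ / 2) θ₀ → sg a b r ∈ InjS G.ex z ∧ c' * j * s₀ ^ 2 / Λ ≤
        |(G.P z (sg a b r)).det * (blk (G.A z (sg a b r) - (1 - r) • H₁ - r • H₂) (a - b)).det| := by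
  obtain ⟨cb, hcb, hb⟩ := blk_det_ge n
  refine ⟨c * cb, by positivity,
    fun z a b v H₁ H₂ j s₀ Λ r ha hb' hab s1 s2 p1 p2 hj hs hΛ hd hv hS hr => ?_⟩
  have r0 : 0 ≤ r := by linarith [hr.1]
  have r1 : r ≤ 1 / 4 := hr.2.trans h1
  have hseg := (G.inj_convex z).segment_subset ha hb'
  have hq : sg a b r ∈ InjS G.ex z := G.inj_convex z ha hb' (by linarith) r0 (by ring)
  refine ⟨hq, le_trans ?_ (le_abs_self _)⟩
  have sS : ∀ u w, ⟪(G.A z a - H₁) u, w⟫ = ⟪u, (G.A z a - H₁) w⟫ := fun u w => by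
    simp only [sub_apply, inner_sub_left, inner_sub_right, G.g2.symm z a ha, s1]
  have k1 := hb (G.A z (sg a b r) - (1 - r) • H₁ - r • H₂) (G.A z a - H₁) (a - b) v
    (fun u w => by
      simp only [sub_apply, smul_apply, inner_sub_left, inner_sub_right, real_inner_smul_left,
        real_inner_smul_right, G.g2.symm z _ hq, s1, s2]) sS p1 fun u hu => by
      have m := G.g2.mtw z a b hseg u (by rw [← neg_sub, inner_neg_left, real_inner_comm, hu, neg_zero])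
        r ⟨r0, by linarith⟩
      have q1 := p1 u
      have q2 := p2 u
      simp only [sub_apply, smul_apply, inner_sub_left, real_inner_smul_left] at q1 q2 ⊢
      have q3 := mul_nonneg r0 q2
      have q4 := mul_nonneg (show 0 ≤ 1 / 2 - r by linarith) q1
      linarith
  have d1 := G.det_P_pos ha
  have d2 := sc2_det sS p1
  have d3 := hH z a b hseg hab r ⟨r0, hr.2⟩
  rw [abs_of_nonneg (mul_nonneg d1.le d2)] at hd
  have d4 : 0 < (G.A z a - H₁).det := (pos_iff_pos_of_mul_pos (hj.trans hd)).1 d1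
  have d5 : cb * (G.A z a - H₁).det * s₀ ^ 2 ≤ cb * (G.A z a - H₁).det * ⟪v, a - b⟫ ^ 2 :=
    mul_le_mul_of_nonneg_left (pow_le_pow_left₀ hs.le hv 2) (by positivity)
  have d6 : 0 < cb * (G.A z a - H₁).det * s₀ ^ 2 := by positivity
  have d7 : 0 < (blk (G.A z (sg a b r) - (1 - r) • H₁ - r • H₂) (a - b)).det :=
    not_le.1 fun h => (d6.trans_le (d5.trans k1)).not_ge (mul_nonpos_of_nonpos_of_nonneg h (p1 v))
  have d8 := (d5.trans k1).trans (mul_le_mul_of_nonneg_left hS d7.le)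
  have d9 := mul_le_mul d3 d8 d6.le ((mul_pos hc d1).le.trans d3)
  have d10 := mul_le_mul_of_nonneg_left hd.le (show 0 ≤ c * cb * s₀ ^ 2 by positivity)
  rw [div_le_iff₀ hΛ]
  linarith

theorem crease_of' [CompactSpace M] [BorelSpace M] {θ₀ c : ℝ} (h0 : 0 < θ₀) (h1 : θ₀ ≤ 1 / 4) (hc : 0 < c)
    (hH : G.Harnack θ₀ c)
    (hinj : ∀ {U₁ U₂ : M → ℝ} {q₁ q₂ : M → E n}, (∀ z, Supp G.ex U₁ z (q₁ z)) →
      (∀ z, Supp G.ex U₂ z (q₂ z)) → ∃ N : Set (M × ℝ), (G.μ.prod volume) N = 0 ∧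
      ∀ z z', ∀ r ∈ Icc (0 : ℝ) 1, ∀ r' ∈ Icc (0 : ℝ) 1, q₁ z ≠ q₂ z →
        crease G.ex U₁ U₂ q₁ q₂ (z, r) = crease G.ex U₁ U₂ q₁ q₂ (z', r') →
        crease G.ex U₁ U₂ q₁ q₂ (z, r) ∉ N → z = z' ∧ r = r') :
    ∃ c' : ℝ, 0 < c' ∧ G.Crease θ₀ c' := by
  obtain ⟨c', hc', hp⟩ := G.sc2_pt h0 h1 hc hH
  have hK : 0 < G.K := by linarith [G.one_le_K]
  have hD : 0 < G.D := by linarith [G.one_le_D]
  refine ⟨c' * θ₀ / (4 * G.K ^ 2), by positivity,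
    fun U₁ U₂ q₁ q₂ v Z c₁ s₀ B a₀ lam s1 s2 hc₁ hs₀ hB hl hn hvol hv hf => ?_⟩
  obtain ⟨H₁, H₂, N₀, hN₀, hT, ja, jb⟩ := G.jac U₁ U₂ q₁ q₂ s1 s2
  obtain ⟨N, hN, hi⟩ := hinj s1 s2
  have hΛ : 0 < B + G.K * G.D ^ 2 := by positivity
  have hj : 0 < c₁ / (2 * G.K) := by positivity
  set Z₁ := {z ∈ Z | z ∉ N₀ ∧ |(G.P z (q₁ z)).det * (G.A z (q₁ z) - H₁ z).det| ≤ c₁ / (2 * G.K)}
  set Z' := {z ∈ Z | z ∉ N₀ ∧ c₁ / (2 * G.K) < |(G.P z (q₁ z)).det * (G.A z (q₁ z) - H₁ z).det|}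
  have z1 : G.μ Z₁ = 0 := by
    have k := (hvol Z₁ fun z hz => hz.1).trans
      (ja Z₁ _ (disjoint_left.2 fun z hz => hz.2.1) hj.le fun z hz => hz.2.2)
    by_contra h
    have := (ENNReal.mul_le_mul_iff_left h (ne_top_of_le_ne_top G.fin (measure_mono (subset_univ _)))).1 k
    rw [ENNReal.ofReal_le_ofReal_iff (by positivity),
      show G.K * (c₁ / (2 * G.K)) = c₁ / 2 by field_simp] at this
    linarith
  have z2 : G.μ Z ≤ G.μ Z' := by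
    calc G.μ Z ≤ G.μ (Z' ∪ (N₀ ∪ Z₁)) := measure_mono fun z hz => by
          by_cases h : z ∈ N₀
          · exact Or.inr (Or.inl h)
          · exact (lt_or_ge _ _).imp (fun h' => ⟨hz, h, h'⟩) fun h' => Or.inr ⟨hz, h, h'⟩
      _ ≤ G.μ Z' + G.μ (N₀ ∪ Z₁) := measure_union_le _ _
      _ = G.μ Z' := by rw [measure_union_null hN₀ z1, add_zero]
  have hI : ∀ r ∈ Icc (θ₀ / 2) θ₀, r ∈ Icc (0 : ℝ) 1 := fun r hr =>
    ⟨by linarith [hr.1], by linarith [hr.2]⟩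
  have k := jb Z' (c' * (c₁ / (2 * G.K)) * s₀ ^ 2 / (B + G.K * G.D ^ 2)) (θ₀ / 2) θ₀ N
    (disjoint_left.2 fun z hz => hz.2.1) (by positivity) (by linarith)
    (fun z hz r hr => by
      obtain ⟨i1, i2, t1, t2⟩ := hT z hz.2.1
      obtain ⟨v1, v2, v3⟩ := hv z hz.1
      refine hp z _ _ (v z) _ _ _ _ _ r i1 i2 (hn z hz.1) t1.1 t2.1 (G.tay_le' (s1 z) i1 t1)
        (G.tay_le' (s2 z) i2 t2) hj hs₀ hΛ hz.2.2 v2 ?_ hr
      have a1 := G.tay_second' t1 v3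
      have a2 := G.g2.A_le z _ i1 (v z)
      have a3 : (G.c0 - 1) * ‖v z‖ ^ 2 ≤ G.K * G.D ^ 2 :=
        mul_le_mul (by linarith [G.c0_le]) (pow_le_pow_left₀ (norm_nonneg _) v1 2) (sq_nonneg _) hK.le
      rw [sub_apply, inner_sub_left]
      linarith) hN fun z z' r hr r' hr' => hi z z' r (hI r hr) r' (hI r' hr')
  have k2 : (G.μ.prod volume) (crease G.ex U₁ U₂ q₁ q₂ '' (Z' ×ˢ Icc (θ₀ / 2) θ₀)) ≤
      ENNReal.ofReal lam * G.μ {x | ∃ z ∈ Z, ∃ r ∈ Icc (θ₀ / 2) θ₀, x = G.ex z (sg (q₁ z) (q₂ z) r)} := by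
    refine (measure_mono (t := {x | ∃ z ∈ Z, ∃ r ∈ Icc (θ₀ / 2) θ₀,
      x = G.ex z (sg (q₁ z) (q₂ z) r)} ×ˢ Icc a₀ (a₀ + lam)) ?_).trans
      ((Measure.prod_prod_le _ _).trans ?_)
    · rintro _ ⟨⟨z, r⟩, ⟨hz, hr⟩, rfl⟩
      exact ⟨⟨z, hz.1, r, hr, rfl⟩, hf z hz.1⟩
    · rw [Real.volume_Icc, add_sub_cancel_left, mul_comm]
  refine (ENNReal.mul_le_mul_iff_right (a := ENNReal.ofReal G.K) (by simpa using hK)
    ENNReal.ofReal_ne_top).1 ?_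
  refine le_trans ?_ (k.trans (mul_le_mul_right k2 _))
  rw [← mul_assoc, ← ENNReal.ofReal_mul hK.le]
  refine mul_le_mul' (le_of_eq ?_) z2
  congr 1
  field_simp
  ring

end Ge

end Crest.Agent.R226.S

end
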