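import Crest.Agent.R226.SCrease1_x
import Crest.Agent.R226.SCrease2

/-!
# rid 226 / SCrease: the crease estimate (prefix `sc_`)

`crease_inj`.  `V a = min (U₁ + a) U₂`, `W (x, a) = ⨅ y, cst x y - V a y` is Lipschitz on `M × ℝ`; `N` = points where `ξ ↦ W (ex x ξ, a)` is
not differentiable at 0 (`uq2`).  If `crease (z, r) = (x, a)`, `r ∈ [0,1]`, both `ex z (q₁ z)` and `ex z (q₂ z)` support `V a` at `z`, hence so does `x`
(`dasm`): `W (x, a) = cst x z - V a z`, and `W (x', a) ≤ cst x' z - V a z`; with `p = -vel z q_r` (`rev`, `rev_min`, `sc`) `W (ex x ξ, a) ≤ W (x,a) - ⟪p, ξ⟫ + L‖ξ‖²`.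
So `p` is determined by `(x, a) ∉ N` (`eq_of_upper`), `z = ex x p`, and `q_r` by `eq_of_vel_eq`.
`crease`.  Take `H₁ H₂ N₀` from `jac`.  `Sᵢ = A z (qᵢ z) - Hᵢ z ≥ 0` (support inequality, `tay_up`, `Tay`).  With `j₁ = c₁ / (2K)` the set
`Z₁ = {z ∈ Z \ N₀ | det P * det S₁ ≤ j₁}` has `c₁ μ Z₁ ≤ K j₁ μ Z₁`, so it is null (`fin`).  For `z ∈ Z' = Z \ N₀ \ Z₁`, `r ∈ [θ₀/2, θ₀]`: `q_r ∈ InjS` (`inj_convex`),
`K_r = A(q_r) - (1-r) H₁ - r H₂ ≥ (1-r) S₁ + r S₂ ≥ S₁ / 2` on `(q₁ - q₂)^⊥` (`mtw`), `⟪S₁ v, v⟫ ≤ K D² + B` (`A_le`, `Tay` at `± s v`), `> 0` is not needed: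
`blk_det_ge` gives `det blk ≥ c det S₁ s₀² / (B + K D²)` (note `det blk * ⟪S₁ v,v⟫ > 0` forces `det blk > 0`), `Harnack` gives `det P(q_r) ≥ c det P(q₁)`.
Finally the image of `crease` lies in `X ×ˢ Icc a₀ (a₀ + lam)` (`Measure.prod_prod`).
-/

set_option autoImplicit false
set_option linter.unusedSectionVars false

open scoped Topology RealInnerProductSpace ENNReal NNReal
open Set Filter MeasureTheory Asymptotics
open Crest.Agent.R226.L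

noncomputable section

namespace Crest.Agent.R226.S

variable {n : ℕ} {M : Type*} [MetricSpace M] [MeasurableSpace M]

namespace Ge

variable (G : Ge n M)

theorem crease_inj [CompactSpace M] [BorelSpace M] {U₁ U₂ : M → ℝ} {q₁ q₂ : M → E n} (h₁ : ∀ z, Supp G.ex U₁ z (q₁ z))
    (h₂ : ∀ z, Supp G.ex U₂ z (q₂ z)) : ∃ N : Set (M × ℝ), (G.μ.prod volume) N = 0 ∧
      ∀ z z', ∀ r ∈ Icc (0 : ℝ) 1, ∀ r' ∈ Icc (0 : ℝ) 1, q₁ z ≠ q₂ z →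
        crease G.ex U₁ U₂ q₁ q₂ (z, r) = crease G.ex U₁ U₂ q₁ q₂ (z', r') → crease G.ex U₁ U₂ q₁ q₂ (z, r) ∉ N →
          z = z' ∧ r = r' :=
  G.crease_inj' h₁ h₂

theorem tay_le {U : M → ℝ} {z : M} {q : E n} {H : E n →L[ℝ] E n} (h : Supp G.ex U z q) (hq : q ∈ InjS G.ex z)
    (hT : Tay G.ex U z q H) (u : E n) : 0 ≤ ⟪(G.A z q - H) u, u⟫ := by
  exact G.tay_le' h hq hT u
theorem tay_second {U : M → ℝ} {z : M} {q v : E n} {H : E n →L[ℝ] E n} (hT : Tay G.ex U z q H) {B : ℝ}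
    (h : ∀ ε : ℝ, 0 < ε → ∃ᶠ s in 𝓝[>] (0 : ℝ),
      2 * U z - U (G.ex z (s • v)) - U (G.ex z ((-s) • v)) ≤ (B + ε) * s ^ 2) : -⟪H v, v⟫ ≤ B := by
  exact G.tay_second' hT h
theorem crease_of [CompactSpace M] [BorelSpace M] {θ₀ c : ℝ} (h0 : 0 < θ₀) (h1 : θ₀ ≤ 1 / 4) (hc : 0 < c)
    (hH : G.Harnack θ₀ c) : ∃ c' : ℝ, 0 < c' ∧ G.Crease θ₀ c' := by
  exact G.crease_of' h0 h1 hc hH G.crease_inj
end Ge

end Crest.Agent.R226.S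

end
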