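import Crest.Agent.R226.SL

/-!
# rid 226 / SCrease1_x: `crease_inj'` (see the header of `SCrease.lean`)
-/

set_option autoImplicit false
set_option linter.unusedSectionVars false

open scoped Topology RealInnerProductSpace ENNReal NNReal
open Set Filter MeasureTheory Asymptotics
open Crest.Agent.R226.L

noncomputable section

namespace Crest.Agent.R226.S

variable {n : ℕ} {M : Type*} [MetricSpace M] [MeasurableSpace M]

namespace Ge

variable (G : Ge n M)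

theorem crease_inj' [CompactSpace M] [BorelSpace M] {U₁ U₂ : M → ℝ} {q₁ q₂ : M → E n}
    (h₁ : ∀ z, Supp G.ex U₁ z (q₁ z)) (h₂ : ∀ z, Supp G.ex U₂ z (q₂ z)) :
    ∃ N : Set (M × ℝ), (G.μ.prod volume) N = 0 ∧
      ∀ z z', ∀ r ∈ Icc (0 : ℝ) 1, ∀ r' ∈ Icc (0 : ℝ) 1, q₁ z ≠ q₂ z →
        crease G.ex U₁ U₂ q₁ q₂ (z, r) = crease G.ex U₁ U₂ q₁ q₂ (z', r') → crease G.ex U₁ U₂ q₁ q₂ (z, r) ∉ N →
          z = z' ∧ r = r' := by
  obtain ⟨f, hf⟩ : ∃ f : M × ℝ → M → ℝ, ∀ p y, f p y = cst p.1 y - min (U₁ y + p.2) (U₂ y) := ⟨_, fun _ _ => rfl⟩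
  have hb : ∀ p, BddBelow (range (f p)) := fun p => ⟨-(U₂ p.1 + G.D * G.D), by
    rintro _ ⟨y, rfl⟩
    have h0 := (abs_le.1 (G.isCC_lip (U := U₂) (fun z => ⟨_, (h₂ z).2⟩) y p.1)).2
    have h1 := mul_le_mul_of_nonneg_left (G.dist_le y p.1) (zero_le_one.trans G.one_le_D)
    have h2 := min_le_right (U₁ y + p.2) (U₂ y)
    have h3 := cst_nonneg p.1 y
    rw [hf]
    linarith⟩
  obtain ⟨W, hW⟩ : ∃ W : M × ℝ → ℝ, ∀ p, W p = ⨅ y, f p y := ⟨_, fun _ => rfl⟩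
  have hle : ∀ p y, W p ≤ f p y := fun p y => by rw [hW]; exact ciInf_le (hb p) y
  have hD : 0 ≤ G.D + 1 := by linarith [G.one_le_D]
  have hL : LipschitzWith ⟨G.D + 1, hD⟩ W := by
    refine LipschitzWith.of_le_add_mul _ fun p p' => ?_
    have : Nonempty M := ⟨p.1⟩
    rw [← sub_le_iff_le_add, hW p']
    refine le_ciInf fun y => ?_
    have h1 := hle p y
    have h2 := (abs_le.1 (G.cst_lip y p.1 p'.1)).2
    have h3 : dist p.1 p'.1 ≤ dist p p' := le_max_left _ _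
    have h4 : |p.2 - p'.2| ≤ dist p p' := le_max_right (dist p.1 p'.1) (dist p.2 p'.2)
    have h5 : min (U₁ y + p'.2) (U₂ y) ≤ min (U₁ y + p.2) (U₂ y) + dist p p' := by
      rw [← sub_le_iff_le_add]
      refine le_min ?_ ?_
      · linarith [min_le_left (U₁ y + p'.2) (U₂ y), (abs_le.1 h4).1]
      · linarith [min_le_right (U₁ y + p'.2) (U₂ y), dist_nonneg (x := p) (y := p')]
    have h6 := mul_le_mul_of_nonneg_left h3 (zero_le_one.trans G.one_le_D)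
    rw [hf] at h1
    rw [hf, cst_comm p'.1]
    rw [cst_comm p.1] at h1
    show W p - (G.D + 1) * dist p p' ≤ _
    linarith
  have key : ∀ z, ∀ r ∈ Icc (0 : ℝ) 1, ∀ ξ,
      W (G.ex (G.ex z (sg (q₁ z) (q₂ z) r)) ξ, U₂ z - U₁ z) ≤
        W (G.ex (G.ex z (sg (q₁ z) (q₂ z) r)) 0, U₂ z - U₁ z) - ⟪-G.vel z (sg (q₁ z) (q₂ z) r), ξ⟫ +
          G.L * ‖ξ‖ ^ 2 := by
    intro z r hr ξ
    have : Nonempty M := ⟨z⟩
    obtain ⟨hm, hd⟩ := G.dasm (h₁ z).1 (h₂ z).1 hr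
    have h1 := G.g1.sc _ _ (G.rev_min hm) ξ
    have h2 := G.cst_of_min (G.rev_min hm)
    rw [G.rev] at h1 h2
    have h3 := hle (G.ex (G.ex z (sg (q₁ z) (q₂ z) r)) ξ, U₂ z - U₁ z) z
    have h4 : cst (G.ex z (sg (q₁ z) (q₂ z) r)) z - U₂ z ≤ W (G.ex z (sg (q₁ z) (q₂ z) r), U₂ z - U₁ z) := by
      rw [hW]
      refine le_ciInf fun y => ?_
      have h5 := hd y
      have h6 := (h₁ z).2 y
      have h7 := (h₂ z).2 y
      have h8 := min_le_left (U₁ y + (U₂ z - U₁ z)) (U₂ y)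
      have h9 := min_le_right (U₁ y + (U₂ z - U₁ z)) (U₂ y)
      rw [hf, cst_comm _ z, cst_comm _ y]
      rcases min_le_iff.1 h5 with h | h <;> linarith
    rw [hf, add_sub_cancel, min_self] at h3
    rw [G.g1.exp_zero]
    linarith
  refine ⟨{p | ¬DifferentiableAt ℝ (fun ξ => W (G.ex p.1 ξ, p.2)) 0}, ae_iff.1 (G.uq2 W _ hL),
    fun z z' r hr r' hr' hne he hN => ?_⟩
  have hx : G.ex z (sg (q₁ z) (q₂ z) r) = G.ex z' (sg (q₁ z') (q₂ z') r') := congrArg Prod.fst he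
  have ha : U₂ z - U₁ z = U₂ z' - U₁ z' := congrArg Prod.snd he
  have hd : DifferentiableAt ℝ (fun ξ => W (G.ex (G.ex z (sg (q₁ z) (q₂ z) r)) ξ, U₂ z - U₁ z)) 0 := not_not.1 hN
  have hk := key z' r' hr'
  rw [← hx, ← ha] at hk
  have hp := eq_of_upper hd (key z r hr) hk
  have hz : z = z' := by
    have h1 := G.rev z (sg (q₁ z) (q₂ z) r)
    rw [hp, hx, G.rev] at h1
    exact h1.symm
  subst hz
  refine ⟨rfl, ?_⟩
  have hq := G.eq_of_vel_eq (G.dasm (h₁ z).1 (h₂ z).1 hr).1 (G.dasm (h₁ z).1 (h₂ z).1 hr').1 hx (neg_injective hp)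
  have h1 : (r - r') • (q₂ z - q₁ z) = 0 := by
    rw [← sub_eq_zero.2 hq]
    module
  exact sub_eq_zero.1 ((smul_eq_zero.1 h1).resolve_right (sub_ne_zero.2 hne.symm))

end Ge

end Crest.Agent.R226.S

end
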