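import Crest.Agent.R226.SSec
import Crest.Agent.R226.OTF

/-!
# rid 226 / SFin: from the power bound to the Hölder estimate (prefix `sf_`)

If `df x y = 0 = df x' y'` then `df x' y ≤ h := 2 D d(y,y')` (`df_lip`).  For `0 < h ≤ 1`, `a`, `b` minimising from `y` to `x`, `x'`: `chord_sq` and `GapBd` give
`‖a - b‖²/8 ≤ C h^β + h`, `lip` gives `d(x,x') ≤ K ‖a - b‖ ≤ C' h^(β/2)`.  For `h > 1` use `d ≤ D`; for `h = 0` let `h → 0` (or use the bound for all small `h > 0`).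
-/

set_option autoImplicit false
set_option linter.unusedSectionVars false

open scoped Topology RealInnerProductSpace ENNReal NNReal
open Set Filter MeasureTheory Asymptotics
open Crest.Agent.R226.L

noncomputable section

namespace Crest.Agent.R226.S

variable {n : ℕ} {M : Type*} [MetricSpace M] [MeasurableSpace M]

open Crest.GeometryTopology.MTW

namespace Ge

variable [CompactSpace M] [BorelSpace M] (G : Ge n M) {κ : ℝ}

theorem sf_small {β C : ℝ} (hβ1 : β ≤ 1) (hC : 0 ≤ C) (Q : Pot G.μ κ)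
    (H : ∀ h : ℝ, 0 < h → h ≤ 1 → ∀ y a b, Q.df a y ≤ h → Q.df b y ≤ h → Q.Φ b - Q.Φ a ≤ C * h ^ β)
    {h : ℝ} (h0 : 0 < h) (h1 : h ≤ 1) {x x' y : M} (hx : Q.df x y ≤ h) (hx' : Q.df x' y ≤ h) :
    dist x x' ≤ G.K * √(8 * (C + 1)) * h ^ (β / 2) := by
  obtain ⟨a, ha, rfl⟩ := G.exists_min y x
  obtain ⟨b, hb, rfl⟩ := G.exists_min y x'
  obtain ⟨m, hm, hm'⟩ := G.chord_sq Q ha hb hx hx'
  have e1 := H h h0 h1 y m _ hm hx
  have e2 := H h h0 h1 y m _ hm hx'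
  have e3 : h ≤ h ^ β := by
    have := Real.rpow_le_rpow_of_exponent_ge h0 h1 hβ1
    rwa [Real.rpow_one] at this
  have e4 : (h ^ (β / 2)) ^ 2 = h ^ β := by
    rw [← Real.rpow_natCast, ← Real.rpow_mul h0.le]; congr 1; push_cast; ring
  have e5 : ‖a - b‖ ≤ √(8 * (C + 1)) * h ^ (β / 2) := by
    refine abs_le_of_sq_le_sq' ?_ (by positivity) |>.2
    rw [mul_pow, e4, Real.sq_sqrt (by positivity)]
    nlinarith
  calc _ ≤ G.K * ‖a - b‖ := G.lip y a b (G.norm_le_D ha) (G.norm_le_D hb)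
    _ ≤ G.K * (√(8 * (C + 1)) * h ^ (β / 2)) := mul_le_mul_of_nonneg_left e5 (by linarith [G.one_le_K])
    _ = _ := by ring

theorem holder_of_gap (h : GapBd G.μ κ) : ∃ α C : ℝ, 0 < α ∧ α ≤ 1 ∧ ∀ (Q : Pot G.μ κ) (x y x' y' : M),
    Q.df x y = 0 → Q.df x' y' = 0 → dist x x' ≤ C * dist y y' ^ α := by
  obtain ⟨β, C, hβ, hβ1, hC, H⟩ := h
  have hK := G.one_le_K
  have hD := G.one_le_D
  set C₁ := G.K * √(8 * (C + 1)) with hC₁
  have hC₁0 : 0 ≤ C₁ := by positivity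
  refine ⟨β / 2, (C₁ + G.D) * (2 * G.D) ^ (β / 2), by linarith, by linarith, fun Q x y x' y' hx hx' => ?_⟩
  have hl : Q.df x' y ≤ 2 * G.D * dist y y' := by
    have := (abs_le.1 (G.df_lip Q x' y y')).2
    linarith
  have key : ∀ h : ℝ, 0 < h → h ≤ 1 → 2 * G.D * dist y y' ≤ h → dist x x' ≤ C₁ * h ^ (β / 2) :=
    fun h h0 h1 h2 => G.sf_small hβ1 hC Q (H Q) h0 h1 (by rw [hx]; exact h0.le) (hl.trans h2)
  have e : (C₁ + G.D) * (2 * G.D) ^ (β / 2) * dist y y' ^ (β / 2) =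
      (C₁ + G.D) * (2 * G.D * dist y y') ^ (β / 2) := by
    rw [Real.mul_rpow (by positivity) dist_nonneg, mul_assoc]
  rw [e]
  have hp : 0 ≤ (2 * G.D * dist y y') ^ (β / 2) := by positivity
  rcases (dist_nonneg : 0 ≤ dist y y').eq_or_lt with h0 | h0
  · have ht : Tendsto (fun h : ℝ => C₁ * h ^ (β / 2)) (𝓝[>] 0) (𝓝 (C₁ * (0 : ℝ) ^ (β / 2))) :=
      (((Real.continuousAt_rpow_const 0 (β / 2) (Or.inr (by linarith))).tendsto).const_mul C₁).mono_left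
        nhdsWithin_le_nhds
    rw [Real.zero_rpow (by linarith), mul_zero] at ht
    have : dist x x' ≤ 0 := by
      refine ge_of_tendsto ht ?_
      filter_upwards [Ioc_mem_nhdsGT (zero_lt_one' ℝ)] with h hh
      exact key h hh.1 hh.2 (by rw [← h0, mul_zero]; exact hh.1.le)
    exact this.trans (by positivity)
  · rcases le_or_gt (2 * G.D * dist y y') 1 with h1 | h1
    · have := key _ (by positivity) h1 le_rfl
      nlinarith
    · have h2 : 1 ≤ (2 * G.D * dist y y') ^ (β / 2) := Real.one_le_rpow h1.le (by linarith)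
      have := G.dist_le x x'
      nlinarith

omit [CompactSpace M] [BorelSpace M] in
theorem sf_div {lam Lam : ℝ} (hlam : 0 < lam) {a b : ℝ≥0∞}
    (h : ENNReal.ofReal lam * a ≤ ENNReal.ofReal Lam * b) : a ≤ ENNReal.ofReal (Lam / lam) * b := by
  have h0 : ENNReal.ofReal lam ≠ 0 := by simpa using hlam
  rw [ENNReal.ofReal_div_of_pos hlam, ENNReal.div_eq_inv_mul, mul_assoc]
  calc a = (ENNReal.ofReal lam)⁻¹ * (ENNReal.ofReal lam * a) := by
        rw [← mul_assoc, ENNReal.inv_mul_cancel h0 ENNReal.ofReal_ne_top, one_mul]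
    _ ≤ _ := by gcongr

/-- `κ = Lam / lam` -/
theorem exists_pot {lam Lam : ℝ} (hlam : 0 < lam) (hle : lam ≤ Lam) {Φ Ψ : M → ℝ} (h : OT.Conj halfDistSq Φ Ψ)
    (h1 : OT.VolCmp G.μ lam Lam Φ Ψ) (h2 : OT.VolCmp G.μ lam Lam Ψ Φ) :
    ∃ Q : Pot G.μ (Lam / lam), Q.Φ = Φ ∧ Q.Ψ = Ψ := by
  refine ⟨⟨Φ, Ψ, h.le, h.exl, h.exr, fun X Y hXY => ?_, fun X Y hXY => ?_⟩, rfl, rfl⟩
  · refine sf_div hlam (le_trans ?_ (h1 X).2)
    gcongr
    exact fun y hy => hXY y hy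
  · refine sf_div hlam (le_trans ?_ (h2 Y).2)
    gcongr
    intro x hx
    obtain ⟨y, hy, e⟩ := hXY x hx
    refine ⟨y, hy, ?_⟩
    rw [add_comm, e]
    exact cst_comm x y

/-- `ae_supp_unique`, `exists_min` -/
theorem ae_contact_unique {Φ Ψ : M → ℝ} (h : OT.Conj halfDistSq Φ Ψ) :
    ∀ᵐ x ∂G.μ, ∀ y y', Φ x + Ψ y = halfDistSq x y → Φ x + Ψ y' = halfDistSq x y' → y = y' := by
  have ct : ∀ x y, Φ x + Ψ y = halfDistSq x y → Ct Φ x y := fun x y e z => by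
    have h1 : Φ z + Ψ y ≤ cst z y := h.le z y
    have h2 : Φ x + Ψ y = cst x y := e
    linarith
  have hcc : IsCC Φ := fun z => by
    obtain ⟨y, hy⟩ := h.exl z
    exact ⟨y, ct z y hy⟩
  filter_upwards [G.ae_supp_unique hcc] with x hx y y' e e'
  obtain ⟨q, hq, rfl⟩ := G.exists_min x y
  obtain ⟨q', hq', rfl⟩ := G.exists_min x y'
  rw [hx q q' ⟨hq, ct _ _ e⟩ ⟨hq', ct _ _ e'⟩]

end Ge

end Crest.Agent.R226.S

end
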