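import Crest.Agent.R226.J3
import Crest.Agent.R226.J3a
import Crest.Agent.R226.J7
import Crest.Agent.R226.G7
import Crest.Prelude.Def_RiemannianMTW

/-!
# rid 226 / SGeo: the geometry `Ge` of the manifold of the statement (SUB-LEAD helper39)

`ex = R.expE`, `vel = R.velE`, `A, P` from part Q (helper74), `μ = μH[n]`.
-/

set_option autoImplicit false

open scoped ContDiff Topology Manifold Bundle
open Set Filter Bundle MeasureTheory
open Crest.GeometryTopology.MTW

noncomputable section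

namespace Crest.Agent.R226.S

theorem exists_ge (n : ℕ) (M : Type*) [MetricSpace M] [ChartedSpace (EuclideanSpace ℝ (Fin n)) M]
    [IsManifold (𝓡 n) ∞ M] [RiemannianBundle (fun p : M => TangentSpace (𝓡 n) p)]
    [IsContMDiffRiemannianBundle (𝓡 n) ∞ (EuclideanSpace ℝ (Fin n)) (fun p : M => TangentSpace (𝓡 n) p)]
    [IsRiemannianManifold (𝓡 n) M] [CompactSpace M] [ConnectedSpace M] [MeasurableSpace M] [BorelSpace M]
    (hMTW : SatisfiesWeakMTW M n) : ∃ G : Ge n M, G.μ = Measure.hausdorffMeasure (n : ℝ) := by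
  obtain ⟨R, hg⟩ := G.exists_riem (n := n) (M := M)
  obtain ⟨L1, δ, h1⟩ := R.geo1
  obtain ⟨C, -, hs, h2⟩ := G.geo2 hg hMTW h1 le_rfl
  obtain ⟨Λ, -, hΛ⟩ := Q.inner_lin h1 hs le_rfl
  obtain ⟨D, hD⟩ := Metric.isBounded_iff.1 (isCompact_univ (X := M)).isBounded
  obtain ⟨K₁, h₁, hl⟩ := R.exists_lip (max 1 D)
  obtain ⟨ρ, hρ, K₂, h₂, hx⟩ := R.exists_cross
  obtain ⟨K₃, hj⟩ := R.jac h1 hs le_rfl
  have hL := h1.L_pos
  have h₃ := abs_nonneg K₃
  refine ⟨{
    ex := R.expE
    vel := R.velE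
    A := Q.Aop R.expE
    P := Q.Pop (2 * L1 + 2) R.expE
    μ := μH[n]
    L := L1
    δ := δ
    c0 := 2 * L1 + 2
    L2 := C
    g1 := h1
    g2 := h2
    inner_lin := ⟨Λ, hΛ⟩
    D := max 1 D
    one_le_D := le_max_left _ _
    dist_le := fun x y => (hD (mem_univ x) (mem_univ y)).trans (le_max_right _ _)
    K := 2 * L1 + 2 + K₁ + K₂ + |K₃|
    one_le_K := by linarith
    L_le := by linarith
    c0_le := by linarith
    ρ := min ρ δ
    ρ_pos := lt_min hρ h1.δ_pos
    ρ_le := min_le_right _ _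
    lip := fun z q q' hq hq' => (hl z q q' hq hq').trans (mul_le_mul_of_nonneg_right (by linarith) (norm_nonneg _))
    cross := fun y y' w w' a b c =>
      (hx y y' w w' (a.trans (min_le_left _ _)) (b.trans (min_le_left _ _)) (c.trans (min_le_left _ _))).trans
        (mul_le_mul_of_nonneg_right (mul_le_mul_of_nonneg_right (by linarith) dist_nonneg) dist_nonneg)
    fin := R.jc_fin
    ball := R.jc_ball
    lipim := G.Riem.jc_lipim
    uq1 := R.jc_uq1
    uq2 := R.jc_uq2
    jac := hj _ (by linarith [le_abs_self K₃]) }, rfl⟩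

end Crest.Agent.R226.S

end
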