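import Crest.Agent.R226.SKDefs

/-!
# rid 226 / SKA: step A (prefix `ska_`)

`Λ = K D²`, `k = h/(ησ) ≤ 1`, `θ⁺ = θ + (1+2η)σ`, `x̃ = ex y q`, `a, b` from `Es`.  Not in `Gs` means: two points of level `≤ Kk h` at `y` have `Φ`-difference `< (1+η)σ`.
So `Φ b < θ + (1+η)σ ≤ θ⁺`, `Φ b ≥ θ⁺ - 3ησ`, and `U_le` at `b`: `k Φ x̃ - df x̃ y ≥ k Φ b - h ≥ k θ⁺ - 4h`; hence `Φ x̃ ≥ θ⁺ - 4ησ`, `df x̃ y ≤ 4h`, and `Φ x̃ < Φ a + (1+η)σ < θ⁺`.
`psi_le`: take `x` attaining at `y_T` (`exists_sel`), `tilt`, `U_le`: `ψ(T) ≤ T (1+k)(Φ x - Φ x̃) ≤ 8ησT`.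
`df_tilt`: `plateau` gives `u(T₀) = 0`, `T₀ = k/(1+k) ≥ k/2 ≥ 2τ`, for `u(T) = df x̃ y_T = (1-T)²‖q‖²/2 - Φ x̃ - Ψ y_T`; `u(T) + K‖q‖²T²` is convex on `[0,1]` (`isCC_concaveOn`
for `Ψ`), so `u(t) ≤ 4h + Λ t T₀ ≤ 4h + Λ h`.
`inner`: `q_a` minimising from `y` to `a`; `sc` with `ξ = t q`: `df a y_t - df x̃ y_t ≤ h + t ⟪q - q_a, q⟫ + Λ t²`, `⟪q - q_a, q⟫ = (‖q‖² - ‖q_a‖²)/2 + ‖q - q_a‖²/2 ≤ 11σ`
(`chord_sq` and not in `Gs` give `‖q - q_a‖² ≤ 16σ`), `t² ≤ h`.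
-/

set_option autoImplicit false
set_option linter.unusedSectionVars false

open scoped Topology RealInnerProductSpace ENNReal NNReal
open Set Filter MeasureTheory Asymptotics
open Crest.Agent.R226.L

noncomputable section

namespace Crest.Agent.R226.S

variable {n : ℕ} {M : Type*} [MetricSpace M] [MeasurableSpace M]

theorem ska_par {Λ B θ₀ h σ η : ℝ} (p : Par Λ B θ₀ h σ η) :
    0 < h / (η * σ) ∧ h / (η * σ) ≤ 1 ∧ h / (η * σ) * (η * σ) = h ∧ 4 * h ≤ η * σ ∧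
      2 * (B * h / σ) ≤ h / (η * σ) / (1 + h / (η * σ)) ∧ 2 * (B * h / σ) * (h / (η * σ)) ≤ h ∧
      (2 * (B * h / σ)) ^ 2 ≤ h := by
  have h0 := p.h_pos
  have s0 := p.σ_pos
  have e0 := p.η_pos
  have l1 := p.Λ1
  have b1 := p.B1
  have e1 := p.η_le
  have c1 : 1 ≤ Λ * B ^ 2 := one_le_mul_of_one_le_of_one_le l1 (one_le_pow₀ b1)
  have c2 : B ≤ Λ * B ^ 2 := by nlinarith
  have c3 : B ^ 2 ≤ Λ * B ^ 2 := by nlinarith
  have a1 : 4 * h ≤ η * σ := by nlinarith [p.h2]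
  have k0 : 0 < h / (η * σ) := by positivity
  have k1 : h / (η * σ) ≤ 1 := (div_le_one (by positivity)).2 (by linarith)
  refine ⟨k0, k1, div_mul_cancel₀ _ (by positivity), a1, ?_, ?_, ?_⟩
  · refine le_trans ?_ (div_le_div_of_nonneg_left k0.le (by positivity) (by linarith : 1 + h / (η * σ) ≤ 2))
    have e : 2 * (B * h / σ) = 4 * (η * B) * (h / (η * σ) / 2) := by field_simp; ring
    rw [e]
    exact mul_le_of_le_one_left (by positivity) (by linarith [p.ηB])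
  · have e : 2 * (B * h / σ) * (h / (η * σ)) = 2 * B * h / (η * σ ^ 2) * h := by field_simp
    rw [e]
    refine mul_le_of_le_one_left h0.le ((div_le_one (by positivity)).2 ?_)
    nlinarith [p.h1]
  · have e : (2 * (B * h / σ)) ^ 2 = 4 * B ^ 2 * h / σ ^ 2 * h := by field_simp; ring
    rw [e]
    refine mul_le_of_le_one_left h0.le ((div_le_one (by positivity)).2 ?_)
    nlinarith [p.h1, sq_nonneg σ]

namespace Ge

variable [CompactSpace M] (G : Ge n M) {μ : Measure M} {κ : ℝ} (Q : Pot μ κ) {B θ₀ h σ η θ Kk : ℝ}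

theorem ska_norm {y : M} {q : E n} (hq : q ∈ MinS G.ex y) : G.K * ‖q‖ ^ 2 ≤ G.K * G.D ^ 2 :=
  mul_le_mul_of_nonneg_left (pow_le_pow_left₀ (norm_nonneg _) (G.norm_le_D hq) 2) (by linarith [G.one_le_K])

/-- semiconvexity of the defect along the tilt -/
theorem ska_conv {y : M} {q : E n} (hq : q ∈ MinS G.ex y) {T t : ℝ} (hT0 : 0 < T) (hT1 : T ≤ 1) (ht0 : 0 ≤ t)
    (ht : t ≤ T) (h0 : Q.df (G.ex y q) (G.ex y (T • q)) = 0) :
    Q.df (G.ex y q) (G.ex y (t • q)) ≤ Q.df (G.ex y q) y + G.K * G.D ^ 2 * (t * T) := by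
  obtain ⟨s, rfl⟩ : ∃ s, t = s * T := ⟨t / T, (div_mul_cancel₀ _ hT0.ne').symm⟩
  have s0 : 0 ≤ s := nonneg_of_mul_nonneg_left ht0 hT0
  have s1 : s ≤ 1 := by nlinarith
  have c := (G.isCC_concaveOn Q.isCC_Ψ y q).2 (mem_univ 0) (mem_univ T) (by linarith : 0 ≤ 1 - s) s0 (by ring)
  simp only [smul_eq_mul, mul_zero, zero_add, zero_smul, G.g1.exp_zero] at c
  have d0 := Q.df_nonneg (G.ex y q) y
  have n1 := G.ska_norm hq
  have n2 : 0 ≤ G.K * ‖q‖ ^ 2 := mul_nonneg (by linarith [G.one_le_K]) (sq_nonneg _)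
  have n3 := mul_le_mul_of_nonneg_right n1 (mul_nonneg ht0 hT0.le)
  have n4 : 0 ≤ s * (1 - s) * (T ^ 2 * ‖q‖ ^ 2) := mul_nonneg (mul_nonneg s0 (by linarith)) (by positivity)
  have n5 := mul_nonneg s0 d0
  have n6 := mul_nonneg n2 (sq_nonneg (s * T))
  unfold Pot.df at *
  rw [G.cst_tilt hq ⟨hT0.le, hT1⟩] at h0
  rw [G.cst_tilt hq ⟨ht0, ht.trans hT1⟩]
  rw [cst_comm, G.cst_of_min hq] at *
  have h1 : s * ((1 - T) ^ 2 * ‖q‖ ^ 2 / 2 - Q.Φ (G.ex y q) - Q.Ψ (G.ex y (T • q))) = 0 := by rw [h0, mul_zero]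
  linarith

theorem stA (p : Par (G.K * G.D ^ 2) B θ₀ h σ η) (hK : 4 ≤ Kk) {y : M} {q : E n} (hy : y ∈ Q.Es h σ η θ)
    (hN : y ∉ Q.Gs (Kk * h) ((1 + η) * σ)) (hq : q ∈ MinS G.ex y)
    (hA : Q.Att (h / (η * σ)) (θ + (1 + 2 * η) * σ) y (G.ex y q)) : StA G Q B h σ η θ y q := by
  obtain ⟨k0, k1, k2, k3, k4, k5, k6⟩ := ska_par p
  obtain ⟨a, b, da, db, a0, a1, ab⟩ := hy
  have h0 := p.h_pos
  have s0 := p.σ_pos
  have e0 := p.η_pos
  have e1 := p.η_le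
  have l1 := p.Λ1
  have b1 := p.B1
  have es : 0 < η * σ := by positivity
  have es1 : η * σ ≤ σ / 22400 := by linarith [mul_le_mul_of_nonneg_right e1 s0.le]
  have hG : ∀ a' b', Q.df a' y ≤ 4 * h → Q.df b' y ≤ 4 * h → Q.Φ b' < Q.Φ a' + (1 + η) * σ := by
    intro a' b' h1 h2
    have h3 : 4 * h ≤ Kk * h := mul_le_mul_of_nonneg_right hK h0.le
    by_contra hc
    exact hN ⟨a', b', h1.trans h3, h2.trans h3, not_lt.1 hc⟩
  have hb := hG a b (by linarith) (by linarith)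
  have u1 := G.U_le Q (h / (η * σ)) (θ := θ + (1 + 2 * η) * σ) (x := b) (by linarith) y
  set k := h / (η * σ) with hk
  set x := G.ex y q with hx
  rw [hA.2] at u1
  have u2 : Q.df x y + k * (θ + (1 + 2 * η) * σ - Q.Φ x) ≤ 4 * h := by
    have := mul_le_mul_of_nonneg_left (show θ + (1 + 2 * η) * σ - 3 * (η * σ) ≤ Q.Φ b by linarith) k0.le
    unfold Pot.df at db ⊢
    linarith
  have d0 := Q.df_nonneg x y
  have d1 : Q.df x y ≤ 4 * h := by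
    have := mul_nonneg k0.le (sub_nonneg.2 hA.1)
    linarith
  have f1 : θ + (1 - 2 * η) * σ ≤ Q.Φ x := by
    have : θ + (1 + 2 * η) * σ - Q.Φ x ≤ 4 * (η * σ) := le_of_mul_le_mul_left (by linarith) k0
    linarith
  have f2 := hG a x (by linarith) d1
  have pl := G.plateau Q k0 hq hA (by linarith)
  have T0 : 0 < k / (1 + k) := by positivity
  have T1 : k / (1 + k) ≤ k := div_le_self k0.le (by linarith)
  have tl : ∀ t ∈ Icc 0 (2 * (B * h / σ)), Q.df x (G.ex y (t • q)) ≤ 5 * (G.K * G.D ^ 2) * h := by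
    intro t ht
    have c := G.ska_conv Q hq T0 (T1.trans k1) ht.1 (ht.2.trans k4) pl
    have c1 : t * (k / (1 + k)) ≤ h := (mul_le_mul ht.2 T1 T0.le (ht.1.trans ht.2)).trans k5
    have c2 := mul_le_mul_of_nonneg_left c1 (by linarith : 0 ≤ G.K * G.D ^ 2)
    have c3 := mul_le_mul_of_nonneg_right l1 h0.le
    linarith
  refine ⟨hq, hA, f1, d1, tl, fun t ht => ⟨a, a1, ?_⟩⟩
  obtain ⟨qa, hqa, rfl⟩ := G.exists_min y a
  obtain ⟨m, m1, m2⟩ := G.chord_sq Q hq hqa d1 (by linarith : Q.df (G.ex y qa) y ≤ 4 * h)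
  have m3 := hG m x m1 d1
  have m4 := hG m (G.ex y qa) m1 (by linarith)
  have t1 : t ≤ 1 := ht.2.trans (k4.trans (T1.trans k1))
  have c := tl t ht
  have sc := G.g1.sc y qa hqa (t • q)
  have da0 := Q.df_nonneg (G.ex y qa) y
  have n1 := G.ska_norm hq
  rw [inner_smul_right, norm_smul, Real.norm_of_nonneg ht.1, cst_comm] at sc
  have n2 : G.L * (t * ‖q‖) ^ 2 ≤ G.K * G.D ^ 2 * h := by
    have t2 : t ^ 2 ≤ h := (pow_le_pow_left₀ ht.1 ht.2 2).trans k6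
    calc G.L * (t * ‖q‖) ^ 2 = G.L * ‖q‖ ^ 2 * t ^ 2 := by ring
      _ ≤ G.K * G.D ^ 2 * h :=
        mul_le_mul ((mul_le_mul_of_nonneg_right G.L_le (sq_nonneg _)).trans n1) t2 (sq_nonneg _) (by linarith)
  unfold Pot.df at da da0 d0 d1 c ⊢
  rw [hx, G.cst_tilt hq ⟨ht.1, t1⟩] at c
  rw [hx, cst_comm, G.cst_of_min hq] at d0 d1
  rw [cst_comm, G.cst_of_min hqa] at da da0
  have n3 : ‖q‖ ^ 2 - ⟪qa, q⟫ ≤ 11 * σ := by
    have := norm_sub_sq_real q qa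
    rw [real_inner_comm] at this
    linarith
  have n4 : t * (‖q‖ ^ 2 - ⟪qa, q⟫) ≤ 22 * B * h := by
    refine (mul_le_mul_of_nonneg_left n3 ht.1).trans ((mul_le_mul_of_nonneg_right ht.2 (by positivity)).trans ?_)
    refine le_of_eq ?_
    field_simp
    ring
  have n5 : 0 ≤ t ^ 2 * ‖q‖ ^ 2 := by positivity
  have n6 : G.K * G.D ^ 2 * h ≤ G.K * G.D ^ 2 * B * h := by
    rw [mul_assoc _ B]
    exact mul_le_mul_of_nonneg_left (le_mul_of_one_le_left h0.le b1) (by linarith)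
  have n7 : B * h ≤ G.K * G.D ^ 2 * B * h := by
    rw [mul_assoc _ B]
    exact le_mul_of_one_le_left (by positivity) l1
  have n8 : h ≤ B * h := le_mul_of_one_le_left h0.le b1
  linarith

theorem psi_le (p : Par (G.K * G.D ^ 2) B θ₀ h σ η) {y : M} {q : E n} (hA : StA G Q B h σ η θ y q) {T : ℝ}
    (hT : T ∈ Icc (0 : ℝ) 1) :
    cst (G.ex y q) (G.ex y (T • q)) - Q.U (h / (η * σ)) (θ + (1 + 2 * η) * σ) (G.ex y (T • q)) -
      (cst (G.ex y q) y - Q.U (h / (η * σ)) (θ + (1 + 2 * η) * σ) y) ≤ 8 * η * σ * T := by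
  obtain ⟨k0, k1, -⟩ := ska_par p
  have es : 0 < η * σ := mul_pos p.η_pos p.σ_pos
  set k := h / (η * σ) with hk
  obtain ⟨sel, hsel⟩ := G.exists_sel Q k ⟨_, hA.att.1⟩
  obtain ⟨x, x1, x2⟩ : ∃ x, Q.Att k (θ + (1 + 2 * η) * σ) (G.ex y (T • q)) x := ⟨_, (hsel _).2⟩
  have t1 := G.tilt hA.min hT x
  have u1 := G.U_le Q k x1 y
  have f1 := hA.Φ_ge
  rw [hA.att.2] at u1
  rw [x2, hA.att.2]
  have a1 : (1 + k) * (Q.Φ x - Q.Φ (G.ex y q)) ≤ 8 * η * σ := by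
    have := mul_le_mul_of_nonneg_left (show Q.Φ x - Q.Φ (G.ex y q) ≤ 4 * (η * σ) by linarith)
      (by linarith : 0 ≤ 1 + k)
    nlinarith
  have a2 := mul_le_mul_of_nonneg_right a1 hT.1
  have a3 := mul_le_mul_of_nonneg_left
    (show (1 + k) * (Q.Φ x - Q.Φ (G.ex y q)) ≤ cst x y - cst (G.ex y q) y by linarith) (sub_nonneg.2 hT.2)
  linarith

end Ge

end Crest.Agent.R226.S

end
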