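import Crest.Agent.R226.SKDefs

/-!
# rid 226 / SKB1_b: step B (`stB`, `inner_v`; see the header of `SKB.lean`)
-/

set_option autoImplicit false
set_option linter.unusedSectionVars false

open scoped Topology RealInnerProductSpace ENNReal NNReal
open Set Filter MeasureTheory Asymptotics
open Crest.Agent.R226.L

noncomputable section

namespace Crest.Agent.R226.S

variable {n : ℕ} {M : Type*} [MetricSpace M] [MeasurableSpace M]

theorem Par.skb_small {Λ B θ₀ h σ η : ℝ} (p : Par Λ B θ₀ h σ η) :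
    Λ * h ≤ Λ * B * h ∧ 10000 * (Λ * B * h) ≤ σ ∧ 10000 * (Λ * (B * h / σ)) ≤ σ ∧ 10000 * (B * h / σ) ≤ 1 := by
  have hΛ := p.Λ1
  have hB := p.B1
  have hh := p.h_pos
  have hσ := p.σ_pos
  have hη := p.η_le
  have h0 : 0 < Λ * B * h := by positivity
  have h1 : Λ * B * h ≤ Λ * B ^ 2 * h := by nlinarith
  have h2 : 10000 * (Λ * B * h) ≤ σ := by nlinarith [p.h2]
  have h3 : B * h ≤ Λ * B * h := by nlinarith [mul_pos (zero_lt_one.trans_le hB) hh]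
  refine ⟨by nlinarith [mul_pos (zero_lt_one.trans_le hΛ) hh], h2, ?_, ?_⟩
  · rw [← mul_div_assoc, ← mul_div_assoc, div_le_iff₀ hσ]
    nlinarith [p.h1, sq_nonneg σ]
  · rw [← mul_div_assoc, div_le_one hσ]
    linarith

namespace Ge

variable [CompactSpace M] (G : Ge n M) {μ : Measure M} {κ : ℝ} (Q : Pot μ κ) {B θ₀ h σ η θ Kk : ℝ}

theorem stB' (p : Par (G.K * G.D ^ 2) B θ₀ h σ η) (hK : 29 * (G.K * G.D ^ 2) * B ≤ Kk) {y : M} {q : E n}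
    (hA : StA G Q B h σ η θ y q) {t : ℝ} (ht : t ∈ Icc (B * h / σ) (2 * (B * h / σ)))
    (hN : G.ex y (t • q) ∉ Q.Gs (Kk * h) ((1 + η) * σ)) {q₁ q₂ : E n} (h₁ : q₁ ∈ MinS G.ex (G.ex y (t • q)))
    (h₂ : q₂ ∈ MinS G.ex (G.ex y (t • q)))
    (a₁ : Q.Att (h / (η * σ)) (θ + (1 + 2 * η) * σ) (G.ex y (t • q)) (G.ex (G.ex y (t • q)) q₁))
    (a₂ : Q.Att 0 θ (G.ex y (t • q)) (G.ex (G.ex y (t • q)) q₂)) : StB G Q B h σ η θ (G.ex y (t • q)) q₁ q₂ := by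
  obtain ⟨s1, s2, -, -⟩ := p.skb_small
  have hΛ := p.Λ1
  have hh := p.h_pos
  have hσ := p.σ_pos
  have hη := p.η_pos
  have hηΛ := p.ηΛ
  have hη1 := p.η_le
  have ht0 : t ∈ Icc 0 (2 * (B * h / σ)) :=
    ⟨le_trans (by have := p.B1; positivity) ht.1, ht.2⟩
  have hdt := hA.df_tilt t ht0
  obtain ⟨a, ha1, ha2⟩ := hA.inner t ht0
  have hU1 := G.U_le Q (h / (η * σ)) hA.att.1 (G.ex y (t • q))
  have hU2 := G.U_le Q 0 ha1 (G.ex y (t • q))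
  have hΦ := hA.Φ_ge
  have c1 := G.cst_of_min h₁
  have c2 := G.cst_of_min h₂
  rw [cst_comm] at c1 c2
  have hG : ∀ a b, Q.df a (G.ex y (t • q)) ≤ 29 * (G.K * G.D ^ 2) * B * h →
      Q.df b (G.ex y (t • q)) ≤ 29 * (G.K * G.D ^ 2) * B * h → Q.Φ b < Q.Φ a + (1 + η) * σ := fun a b ha hb => by
    have := mul_le_mul_of_nonneg_right hK hh.le
    by_contra hc
    exact hN ⟨a, b, by linarith, by linarith, not_lt.1 hc⟩
  have hch := fun H d1 d2 => G.chord_sq Q h₁ h₂ (H := H) d1 d2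
  obtain ⟨b1, b1'⟩ := a₁
  obtain ⟨b2, b2'⟩ := a₂
  have n1 := Q.df_nonneg (G.ex (G.ex y (t • q)) q₁) (G.ex y (t • q))
  have n2 := Q.df_nonneg (G.ex (G.ex y (t • q)) q₂) (G.ex y (t • q))
  have hk : 0 < h / (η * σ) := by positivity
  have hkh : h / (η * σ) * (η * σ) = h := div_mul_cancel₀ _ (by positivity)
  set k := h / (η * σ) with hkd
  set Λ := G.K * G.D ^ 2 with hΛd
  have hΛh : h ≤ Λ * h := le_mul_of_one_le_left hh.le hΛ
  have gplus : k * (θ + (1 + 2 * η) * σ) - 9 * Λ * h ≤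
      Q.Ψ (G.ex y (t • q)) - Q.U k (θ + (1 + 2 * η) * σ) (G.ex y (t • q)) := by
    have := mul_le_mul_of_nonneg_left hΦ hk.le
    unfold Pot.df at hdt
    nlinarith
  have e1 := mul_le_mul_of_nonneg_left b1 hk.le
  have d1 : Q.df (G.ex (G.ex y (t • q)) q₁) (G.ex y (t • q)) ≤ 9 * Λ * h := by
    unfold Pot.df
    linarith
  have d2 : Q.df (G.ex (G.ex y (t • q)) q₂) (G.ex y (t • q)) ≤ 29 * Λ * B * h := by
    unfold Pot.df at ha2 ⊢
    linarith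
  have d1' : Q.df (G.ex (G.ex y (t • q)) q₁) (G.ex y (t • q)) ≤ 29 * Λ * B * h := by nlinarith
  have f1 : θ + (1 + 2 * η) * σ - 9 * Λ * η * σ ≤ Q.Φ (G.ex (G.ex y (t • q)) q₁) := by
    refine le_of_mul_le_mul_left ?_ hk
    have e : k * (θ + (1 + 2 * η) * σ - 9 * Λ * η * σ) = k * (θ + (1 + 2 * η) * σ) - 9 * Λ * (k * (η * σ)) := by
      ring
    rw [e, hkh]
    unfold Pot.df at n1
    linarith
  have f2 := hG _ _ d2 d1'
  obtain ⟨m, m1, m2⟩ := hch _ d1' d2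
  have f3 := hG _ _ m1 d1'
  have f4 := hG _ _ m1 d2
  have g1 : 0 < η * σ := by positivity
  have g2 : η * σ ≤ σ / 22400 := by nlinarith
  have g3 : Λ * η * σ ≤ σ / 22400 := by nlinarith
  refine ⟨d1, d2, f1, by linarith, ?_, ?_, by linarith, gplus, ?_, ?_⟩
  all_goals
    try simp only [← hkd, ← hΛd]
    unfold Pot.df at d1 d2 n1 n2
    linarith

theorem inner_v' (p : Par (G.K * G.D ^ 2) B θ₀ h σ η) {y : M} {q : E n} (hA : StA G Q B h σ η θ y q) {t : ℝ}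
    (ht : t ∈ Icc (B * h / σ) (2 * (B * h / σ))) {q₁ q₂ v : E n}
    (h₁ : Supp G.ex (Q.U (h / (η * σ)) (θ + (1 + 2 * η) * σ)) (G.ex y (t • q)) q₁) (h₂ : q₂ ∈ MinS G.ex (G.ex y (t • q)))
    (a₂ : Q.Att 0 θ (G.ex y (t • q)) (G.ex (G.ex y (t • q)) q₂)) (hB : StB G Q B h σ η θ (G.ex y (t • q)) q₁ q₂)
    (hv : ‖v‖ = ‖q‖) (hv' : ∀ s : ℝ, G.ex (G.ex y (t • q)) (s • v) = G.ex y ((t + s) • q)) : σ / 4 ≤ ⟪v, q₁ - q₂⟫ := by
  obtain ⟨-, s2, s3, s4⟩ := p.skb_small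
  have hh := p.h_pos
  have hσ := p.σ_pos
  have hη1 := p.η_le
  have hΛ := p.Λ1
  have ht0 : 0 < t := lt_of_lt_of_le (by have := p.B1; positivity) ht.1
  have ht1 : t < 1 := by linarith [ht.2]
  have hs := G.supp_upper h₁ ((-t) • v)
  rw [hv', add_neg_cancel, zero_smul, G.g1.exp_zero, real_inner_smul_right, norm_smul, hv, mul_pow, Real.norm_eq_abs,
    sq_abs] at hs
  have hU := G.U_le Q (h / (η * σ)) hA.att.1 (G.ex y (t • q))
  have hU' := hA.att.2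
  have c0 := G.cst_of_min hA.min
  have c1 := G.cst_tilt hA.min ⟨ht0.le, ht1.le⟩
  have c2 := G.cst_of_min h₂
  rw [cst_comm] at c0 c2
  have hq : ‖q‖ ^ 2 ≤ G.D ^ 2 := pow_le_pow_left₀ (norm_nonneg _) (G.norm_le_D hA.min) 2
  have hK := G.one_le_K
  have hKq : G.K * ‖q‖ ^ 2 ≤ G.K * G.D ^ 2 := mul_le_mul_of_nonneg_left hq (by linarith)
  have hq' : ‖q‖ ^ 2 ≤ G.K * ‖q‖ ^ 2 := le_mul_of_one_le_left (sq_nonneg _) hK
  have i1 : ‖q‖ ^ 2 - 2 * (G.K * G.D ^ 2) * t ≤ ⟪q₁, v⟫ := by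
    refine le_of_mul_le_mul_left ?_ ht0
    have e1 := mul_le_mul_of_nonneg_left hKq (sq_nonneg t)
    have e2 := mul_le_mul_of_nonneg_left hq' (sq_nonneg t)
    have e3 : 0 ≤ t ^ 2 * ‖q‖ ^ 2 := by positivity
    linarith
  have i2 : ⟪q₂, v⟫ ≤ ‖q‖ ^ 2 - σ / 2 := by
    have e1 : 0 ≤ ‖q₂ - (1 - t) • v‖ ^ 2 := sq_nonneg _
    rw [norm_sub_sq_real, real_inner_smul_right, norm_smul, hv, mul_pow, Real.norm_eq_abs, sq_abs] at e1
    have e2 := Q.df_nonneg (G.ex y q) (G.ex y (t • q))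
    have e3 := hB.d2
    have e4 := hA.Φ_ge
    have e5 := a₂.1
    have g2 : η * σ ≤ σ / 22400 := by nlinarith
    unfold Pot.df at e2 e3
    have e6 : σ / 2 ≤ (1 - t) * ((1 - t) * ‖q‖ ^ 2 - ⟪q₂, v⟫) := by linarith
    have e7 : 0 < (1 - t) * ‖q‖ ^ 2 - ⟪q₂, v⟫ := pos_of_mul_pos_left (by linarith) (by linarith : 0 ≤ 1 - t)
    have e8 : 0 ≤ t * ‖q‖ ^ 2 := by positivity
    nlinarith
  have i3 := mul_le_mul_of_nonneg_left ht.2 (zero_le_one.trans hΛ)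
  rw [inner_sub_right, real_inner_comm q₁, real_inner_comm q₂]
  linarith

end Ge

end Crest.Agent.R226.S

end
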