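import Crest.Agent.R226.SKDefs

/-!
# rid 226 / SKB2_c: step C
-/

set_option autoImplicit false
set_option linter.unusedSectionVars false

open scoped Topology RealInnerProductSpace ENNReal NNReal
open Set Filter MeasureTheory Asymptotics
open Crest.Agent.R226.L

noncomputable section

namespace Crest.Agent.R226.S

variable {n : ℕ} {M : Type*} [MetricSpace M] [MeasurableSpace M]

namespace Ge

variable [CompactSpace M] (G : Ge n M) {μ : Measure M} {κ : ℝ} (Q : Pot μ κ) {B θ₀ h σ η θ Kk : ℝ}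

theorem stC' (p : Par (G.K * G.D ^ 2) B θ₀ h σ η) (hK : 4000 * (G.K * G.D ^ 2) * B ≤ Kk) {y : M} {q : E n}
    (hA : StA G Q B h σ η θ y q) {t : ℝ} (ht : t ∈ Icc (B * h / σ) (2 * (B * h / σ))) {q₁ q₂ : E n}
    (h₁ : q₁ ∈ MinS G.ex (G.ex y (t • q))) (h₂ : q₂ ∈ MinS G.ex (G.ex y (t • q)))
    (a₂ : Q.Φ (G.ex (G.ex y (t • q)) q₂) ≤ θ) (hB : StB G Q B h σ η θ (G.ex y (t • q)) q₁ q₂)
    {r : ℝ} (hr : r ∈ Icc (θ₀ / 2) θ₀) {y'' : M} (h0 : Q.df (G.ex (G.ex y (t • q)) (sg q₁ q₂ r)) y'' = 0) :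
    y'' ∈ Q.Ys (Kk * h) θ (θ + (1 - 9 * (G.K * G.D ^ 2) * η) * σ) := by
  have hΛ := p.Λ1
  have hB1 := p.B1
  have hh := p.h_pos
  have hσ := p.σ_pos
  have hη := p.η_pos
  have hθ := p.θ₀_pos
  have hθ4 := p.θ₀_le
  have hηθ := p.η_le_θ₀
  have hBθ := p.Bθ
  have hp2 := p.h2
  have d1 := hB.d1
  have d2 := hB.d2
  have f1 := hB.Φ1_ge
  have f2 := hB.Φ1_lt
  have f3 := hA.Φ_ge
  have f4 := hA.df_le
  have hr0 : r ∈ Icc (0 : ℝ) (1 / 4) := ⟨by linarith [hr.1], by linarith [hr.2]⟩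
  have hr1 : r ∈ Icc (0 : ℝ) 1 := ⟨hr0.1, by linarith [hr0.2]⟩
  have hout := fun H hH hs e1 e2 => G.outward Q (H := H) h₁ h₂ hr0 hH hs e1 e2 hB.l1 hB.l2 hB.l3 h0
  obtain ⟨hm, hd⟩ := G.dasm h₁ h₂ hr1
  have hd := hd y''
  have c1 := G.cst_of_min h₁
  have c2 := G.cst_of_min h₂
  have c3 := G.cst_of_min hm
  have c4 := norm_sg_sq q₁ q₂ r
  have htl := fun ht1 => G.tilt_df Q hA.min (t := t) ht1 (G.ex (G.ex y (t • q)) (sg q₁ q₂ r))
  generalize G.K * G.D ^ 2 = Λ at *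
  generalize G.ex y (t • q) = z at *
  generalize G.ex z (sg q₁ q₂ r) = x at *
  generalize G.ex z q₁ = x₁ at *
  generalize G.ex z q₂ = x₂ at *
  generalize G.ex y q = x₀ at *
  have hΛh : h ≤ Λ * h := le_mul_of_one_le_left hh.le hΛ
  have hX : Λ * h ≤ Λ * B * h := by
    have := mul_le_mul_of_nonneg_left hB1 (show 0 ≤ Λ * h by positivity)
    linarith
  have hBh : B * h ≤ Λ * B * h := by
    have := mul_le_mul_of_nonneg_left hΛ (show 0 ≤ B * h by positivity)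
    linarith
  have hY : 10000 * (Λ * B * h) ≤ η * σ := by
    have := mul_le_mul_of_nonneg_left hB1 (show 0 ≤ Λ * B * h by positivity)
    linarith
  have hησ : 5600 * (η * σ) ≤ θ₀ * σ := by
    have := mul_le_mul_of_nonneg_right hηθ hσ.le
    linarith
  have hθσ : θ₀ * σ ≤ σ / 4 := by
    have := mul_le_mul_of_nonneg_right hθ4 hσ.le
    linarith
  have ht0 : B * h ≤ t * σ := (div_le_iff₀ hσ).1 ht.1
  have ht1 : t ∈ Icc (0 : ℝ) 1 := by
    refine ⟨le_trans (by positivity) ht.1, ht.2.trans ?_⟩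
    rw [← mul_div_assoc, div_le_one hσ]
    linarith
  have htl := htl ht1
  have e1 : ‖q₁‖ ^ 2 / 2 = Q.df x₁ z + Q.Φ x₁ + Q.Ψ z := by rw [← c1, cst_comm, Pot.df]; ring
  have e2 : ‖q₂‖ ^ 2 / 2 = Q.df x₂ z + Q.Φ x₂ + Q.Ψ z := by rw [← c2, cst_comm, Pot.df]; ring
  have e3 : ‖sg q₁ q₂ r‖ ^ 2 / 2 = Q.df x z + Q.Φ x + Q.Ψ z := by rw [← c3, cst_comm, Pot.df]; ring
  have g1 : Q.Φ x ≤ θ + (1 + 2 * η) * σ - r * σ + 29 * (Λ * B * h) := by
    have b0 := Q.df_nonneg x z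
    have b1 : 0 ≤ r * (1 - r) * ‖q₁ - q₂‖ ^ 2 := mul_nonneg (mul_nonneg hr1.1 (by linarith [hr1.2])) (sq_nonneg _)
    have b2 : (1 - r) * (‖q₁‖ ^ 2 / 2) ≤ (1 - r) * (29 * (Λ * B * h) + (θ + (1 + 2 * η) * σ) + Q.Ψ z) :=
      mul_le_mul_of_nonneg_left (by linarith) (by linarith [hr1.2])
    have b3 : r * (‖q₂‖ ^ 2 / 2) ≤ r * (29 * (Λ * B * h) + θ + Q.Ψ z) :=
      mul_le_mul_of_nonneg_left (by linarith) hr1.1
    have b4 : 0 ≤ r * (η * σ) := mul_nonneg hr1.1 (by positivity)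
    linarith
  have g2 : θ₀ * σ / 4 ≤ Q.Φ x₀ - Q.Φ x := by
    have : θ₀ / 2 * σ ≤ r * σ := mul_le_mul_of_nonneg_right hr.1 hσ.le
    have : 0 < η * σ := by positivity
    linarith
  have g3 : 10 * (Λ * h) ≤ Q.df x z := by
    have b0 := Q.df_nonneg x y
    have b1 := Q.df_nonneg x₀ z
    have b2 : t * (θ₀ * σ / 4) ≤ t * (Q.Φ x₀ - Q.Φ x) := mul_le_mul_of_nonneg_left g2 ht1.1
    have b3 : (1 - t) * (-(4 * h)) ≤ (1 - t) * (Q.df x y - Q.df x₀ y) :=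
      mul_le_mul_of_nonneg_left (by linarith) (by linarith [ht1.2])
    have b4 : B * h * θ₀ ≤ t * σ * θ₀ := mul_le_mul_of_nonneg_right ht0 hθ.le
    have b5 : 56 * Λ * h ≤ B * θ₀ * h := mul_le_mul_of_nonneg_right hBθ hh.le
    have b6 : 0 ≤ t * h := mul_nonneg ht1.1 hh.le
    linarith
  have hKh : 4000 * (Λ * B * h) ≤ Kk * h := by
    have := mul_le_mul_of_nonneg_right hK hh.le
    linarith
  have hpos : 0 < Λ * B * h := by positivity
  have g4 : Q.df x₂ y'' ≤ Q.df x₂ z := by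
    have b1 := Q.df_nonneg x₁ y''
    have b2 := Q.df_nonneg x z
    rw [cst_comm y'' x₁, cst_comm z x₁, cst_comm y'' x₂, cst_comm z x₂, cst_comm y'' x, cst_comm z x] at hd
    simp only [Pot.df] at *
    rcases min_le_iff.1 hd with hd | hd <;> linarith
  have g5 := hout (29 * (Λ * B * h)) (by positivity) (by linarith) (by linarith) (by linarith)
  refine ⟨x₂, x₁, by linarith, by linarith, a₂, ?_⟩
  have : 0 < η * σ := by positivity
  linarith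

end Ge

end Crest.Agent.R226.S

end
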