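import Crest.Agent.R226.SKDefs
import Crest.Agent.R226.SKB2_c
import Crest.Agent.R226.SKB1_b

/-!
# rid 226 / SKB: steps B and C (prefix `skb_`)

`z = ex y (t q)`, `t ∈ [τ, 2τ]`, `x̃ = ex y q`, `x⁺ = ex z q₁`, `x⁻ = ex z q₂`, `g⁺ = Ψ - U⁺ ≤ kθ⁺`, `g⁻ = U⁻ - Ψ ≥ 0`.
`stB`: `df x⁻ z = g⁻ z ≤ df a z` (`U_le`); `g⁺ z ≥ k Φ x̃ - df x̃ z ≥ kθ⁺ - 9Λh`; `df x⁺ z = k Φ x⁺ - g⁺ z`; not in `Gs` gives `Φ x⁺ < Φ x⁻ + (1+η)σ`;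
`‖q₁‖²/2 - ‖q₂‖²/2 = Φ x⁺ - Φ x⁻ + df x⁺ z - df x⁻ z`; `chord_sq` for `l3`.
`inner_v`: `supp_upper` for `U⁺` at `z` with `ξ = -t v` (`ex z (-t v) = y`), `U⁺ y = cst x̃ y - (1+k)Φ x̃`, `U⁺ z ≤ cst x̃ z - (1+k)Φ x̃` give `⟪q₁, v⟫ ≥ ‖q‖² - 2Λt`.
With `p = (1-t) v` (`ex z p = x̃`, `‖p‖²/2 = cst x̃ z` by `cst_tilt`): `⟪p - q₂, p⟫ ≥ (‖p‖² - ‖q₂‖²)/2 = Φ x̃ - Φ x⁻ + df x̃ z - df x⁻ z ≥ σ/2`, so `⟪q₂, v⟫ ≤ ‖q‖² - σ/2`.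
`stC`: `x = ex z (sg q₁ q₂ r)`, `a* = U⁻ z - U⁺ z`.  `dasm` at `z` with test point `y''` and the supports give
`min (a* - g⁺ y'') (g⁻ y'') ≤ g⁻ z - df x z`.  `Φ x ≤ ‖sg‖²/2 - Ψ z ≤ θ⁺ - rσ + 29ΛBh`, so `Φ x̃ - Φ x ≥ θ₀σ/4`, and `tilt_df` at `y` gives `df x z ≥ -4h + τ θ₀ σ/4 ≥ 10Λh`.
As `a* - g⁺ y'' ≥ g⁻ z - 9Λh`, the first branch is impossible: `g⁻ y'' ≤ 29ΛBh`, and a point attaining `U⁻ y''` (`exists_sel`) is the inner point.  Outer point `x⁺` by `outward`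
with `H = 29ΛBh`.
-/

set_option autoImplicit false
set_option linter.unusedSectionVars false

open scoped Topology RealInnerProductSpace ENNReal NNReal
open Set Filter MeasureTheory Asymptotics
open Crest.Agent.R226.L

noncomputable section

namespace Crest.Agent.R226.S

variable {n : ℕ} {M : Type*} [MetricSpace M] [MeasurableSpace M]

namespace Ge

variable [CompactSpace M] (G : Ge n M) {μ : Measure M} {κ : ℝ} (Q : Pot μ κ) {B θ₀ h σ η θ Kk : ℝ}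

theorem stB (p : Par (G.K * G.D ^ 2) B θ₀ h σ η) (hK : 29 * (G.K * G.D ^ 2) * B ≤ Kk) {y : M} {q : E n}
    (hA : StA G Q B h σ η θ y q) {t : ℝ} (ht : t ∈ Icc (B * h / σ) (2 * (B * h / σ)))
    (hN : G.ex y (t • q) ∉ Q.Gs (Kk * h) ((1 + η) * σ)) {q₁ q₂ : E n} (h₁ : q₁ ∈ MinS G.ex (G.ex y (t • q)))
    (h₂ : q₂ ∈ MinS G.ex (G.ex y (t • q)))
    (a₁ : Q.Att (h / (η * σ)) (θ + (1 + 2 * η) * σ) (G.ex y (t • q)) (G.ex (G.ex y (t • q)) q₁))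
    (a₂ : Q.Att 0 θ (G.ex y (t • q)) (G.ex (G.ex y (t • q)) q₂)) : StB G Q B h σ η θ (G.ex y (t • q)) q₁ q₂ := by
  exact G.stB' Q p hK hA ht hN h₁ h₂ a₁ a₂

theorem inner_v (p : Par (G.K * G.D ^ 2) B θ₀ h σ η) {y : M} {q : E n} (hA : StA G Q B h σ η θ y q) {t : ℝ}
    (ht : t ∈ Icc (B * h / σ) (2 * (B * h / σ))) {q₁ q₂ v : E n}
    (h₁ : Supp G.ex (Q.U (h / (η * σ)) (θ + (1 + 2 * η) * σ)) (G.ex y (t • q)) q₁) (h₂ : q₂ ∈ MinS G.ex (G.ex y (t • q)))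
    (a₂ : Q.Att 0 θ (G.ex y (t • q)) (G.ex (G.ex y (t • q)) q₂)) (hB : StB G Q B h σ η θ (G.ex y (t • q)) q₁ q₂)
    (hv : ‖v‖ = ‖q‖) (hv' : ∀ s : ℝ, G.ex (G.ex y (t • q)) (s • v) = G.ex y ((t + s) • q)) : σ / 4 ≤ ⟪v, q₁ - q₂⟫ := by
  exact G.inner_v' Q p hA ht h₁ h₂ a₂ hB hv hv'

theorem stC (p : Par (G.K * G.D ^ 2) B θ₀ h σ η) (hK : 4000 * (G.K * G.D ^ 2) * B ≤ Kk) {y : M} {q : E n}
    (hA : StA G Q B h σ η θ y q) {t : ℝ} (ht : t ∈ Icc (B * h / σ) (2 * (B * h / σ))) {q₁ q₂ : E n}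
    (h₁ : q₁ ∈ MinS G.ex (G.ex y (t • q))) (h₂ : q₂ ∈ MinS G.ex (G.ex y (t • q)))
    (a₁ : Q.Att (h / (η * σ)) (θ + (1 + 2 * η) * σ) (G.ex y (t • q)) (G.ex (G.ex y (t • q)) q₁))
    (a₂ : Q.Att 0 θ (G.ex y (t • q)) (G.ex (G.ex y (t • q)) q₂)) (hB : StB G Q B h σ η θ (G.ex y (t • q)) q₁ q₂)
    {r : ℝ} (hr : r ∈ Icc (θ₀ / 2) θ₀) {y'' : M} (h0 : Q.df (G.ex (G.ex y (t • q)) (sg q₁ q₂ r)) y'' = 0) :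
    y'' ∈ Q.Ys (Kk * h) θ (θ + (1 - 9 * (G.K * G.D ^ 2) * η) * σ) := by
  exact G.stC' Q p hK hA ht h₁ h₂ a₂.1 hB hr h0

end Ge

end Crest.Agent.R226.S

end
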