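import Crest.Agent.R226.SSec

/-!
# rid 226 / SKDefs: parameters of the key estimate (DO NOT CHANGE)

`Λ = K D²`, `k = h/(ησ)`, `θ⁺ = θ + (1+2η)σ`, tilting times `t ∈ [τ, 2τ]`, `τ = B h/σ`.
-/

set_option autoImplicit false
set_option linter.unusedSectionVars false

open scoped Topology RealInnerProductSpace ENNReal NNReal
open Set Filter MeasureTheory Asymptotics
open Crest.Agent.R226.L

noncomputable section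

namespace Crest.Agent.R226.S

variable {n : ℕ} {M : Type*} [MetricSpace M] [MeasurableSpace M]

structure Par (Λ B θ₀ h σ η : ℝ) : Prop where
  Λ1 : 1 ≤ Λ
  θ₀_pos : 0 < θ₀
  θ₀_le : θ₀ ≤ 1 / 4
  Bθ : 56 * Λ ≤ B * θ₀
  h_pos : 0 < h
  σ_pos : 0 < σ
  η_pos : 0 < η
  ηB : η * B ≤ 1 / 100
  h1 : 10000 * Λ * B ^ 2 * h ≤ η * σ ^ 2
  h2 : 10000 * Λ * B ^ 2 * h ≤ η * σ

/-- facts at a point `y` of the class which is not in the exceptional set; `x̃ = ex y q` -/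
structure StA {μ : Measure M} {κ : ℝ} (G : Ge n M) (Q : Pot μ κ) (B h σ η θ : ℝ) (y : M) (q : E n) : Prop where
  min : q ∈ MinS G.ex y
  att : Q.Att (h / (η * σ)) (θ + (1 + 2 * η) * σ) y (G.ex y q)
  Φ_ge : θ + (1 - 2 * η) * σ ≤ Q.Φ (G.ex y q)
  df_le : Q.df (G.ex y q) y ≤ 4 * h
  df_tilt : ∀ t ∈ Icc 0 (2 * (B * h / σ)), Q.df (G.ex y q) (G.ex y (t • q)) ≤ 5 * (G.K * G.D ^ 2) * h
  inner : ∀ t ∈ Icc 0 (2 * (B * h / σ)), ∃ a, Q.Φ a ≤ θ ∧ Q.df a (G.ex y (t • q)) ≤ 29 * (G.K * G.D ^ 2) * B * h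

/-- facts at the tilted point `z`; `x⁺ = ex z q₁`, `x⁻ = ex z q₂` -/
structure StB {μ : Measure M} {κ : ℝ} (G : Ge n M) (Q : Pot μ κ) (B h σ η θ : ℝ) (z : M) (q₁ q₂ : E n) : Prop where
  d1 : Q.df (G.ex z q₁) z ≤ 9 * (G.K * G.D ^ 2) * h
  d2 : Q.df (G.ex z q₂) z ≤ 29 * (G.K * G.D ^ 2) * B * h
  Φ1_ge : θ + (1 + 2 * η) * σ - 9 * (G.K * G.D ^ 2) * η * σ ≤ Q.Φ (G.ex z q₁)
  Φ1_lt : Q.Φ (G.ex z q₁) < θ + (1 + 2 * η) * σ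
  l1 : σ / 2 ≤ ‖q₁‖ ^ 2 / 2 - ‖q₂‖ ^ 2 / 2
  l2 : ‖q₁‖ ^ 2 / 2 - ‖q₂‖ ^ 2 / 2 ≤ 3 * σ
  l3 : ‖q₁ - q₂‖ ^ 2 ≤ 20 * σ
  gplus : h / (η * σ) * (θ + (1 + 2 * η) * σ) - 9 * (G.K * G.D ^ 2) * h ≤
    Q.Ψ z - Q.U (h / (η * σ)) (θ + (1 + 2 * η) * σ) z
  fibre : Q.U 0 θ z - Q.U (h / (η * σ)) (θ + (1 + 2 * η) * σ) z ∈
    Icc (h / (η * σ) * (θ + (1 + 2 * η) * σ) - 9 * (G.K * G.D ^ 2) * h)
      (h / (η * σ) * (θ + (1 + 2 * η) * σ) - 9 * (G.K * G.D ^ 2) * h + 38 * (G.K * G.D ^ 2) * B * h)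

namespace Par

variable {Λ B θ₀ h σ η : ℝ} (p : Par Λ B θ₀ h σ η)

include p

theorem B_ge : 224 * Λ ≤ B := by
  have := p.Bθ; have := p.θ₀_le; have := p.Λ1; have := p.θ₀_pos
  by_contra hc
  push Not at hc
  rcases le_or_gt B 0 with hB | hB <;> nlinarith

theorem B1 : 1 ≤ B := by linarith [p.B_ge, p.Λ1]

theorem ηΛ : η * Λ ≤ 1 / 22400 := by nlinarith [p.B_ge, p.ηB, p.η_pos]

theorem η_le : η ≤ 1 / 22400 := by nlinarith [p.ηΛ, p.Λ1, p.η_pos]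

theorem η_le_θ₀ : 5600 * η ≤ θ₀ := by
  have h1 : 0 < B := by linarith [p.B1]
  have h2 : 5600 * η * B ≤ θ₀ * B := by nlinarith [p.ηB, p.Bθ, p.Λ1]
  exact le_of_mul_le_mul_right h2 h1

end Par

end Crest.Agent.R226.S

end
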