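import Crest.Agent.R226.SKA
import Crest.Agent.R226.SKB
import Crest.Agent.R226.SAvg
import Crest.Agent.R226.SCrease

/-!
# rid 226 / SKP: the key estimate (helper79)
-/

set_option autoImplicit false
set_option linter.unusedSectionVars false

open scoped Topology RealInnerProductSpace ENNReal NNReal
open Set Filter MeasureTheory Asymptotics
open Crest.Agent.R226.L

noncomputable section

namespace Crest.Agent.R226.S

variable {n : ℕ} {M : Type*} [MetricSpace M] [MeasurableSpace M]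

theorem skp_real {μ : Measure M} [IsFiniteMeasure μ] {a b : ℝ} {S T : Set M} (ha : 0 ≤ a) (hb : 0 ≤ b)
    (h : ENNReal.ofReal a * μ S ≤ ENNReal.ofReal b * μ T) : a * μ.real S ≤ b * μ.real T := by
  have := ENNReal.toReal_mono (ENNReal.mul_ne_top ENNReal.ofReal_ne_top (measure_ne_top μ T)) h
  rwa [ENNReal.toReal_mul, ENNReal.toReal_mul, ENNReal.toReal_ofReal ha, ENNReal.toReal_ofReal hb] at this

theorem skp_Ys_mono {μ : Measure M} {κ : ℝ} (Q : Pot μ κ) {H H' θ θ₁ θ₂ : ℝ} (hH : H ≤ H') (h : θ₂ ≤ θ₁) :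
    Q.Ys H θ θ₁ ⊆ Q.Ys H' θ θ₂ := by
  rintro y ⟨a, b, h1, h2, h3, h4⟩
  exact ⟨a, b, h1.trans hH, h2.trans hH, h3, h.trans h4⟩

namespace Ge

variable [CompactSpace M] [BorelSpace M] (G : Ge n M) {κ : ℝ}

/-- the plateau case: the good tilted points sweep a large set -/
theorem skp_plateau (hκ : 1 ≤ κ) {θ₀ c' t₀ cv : ℝ} (hc' : 0 < c') (hC : G.Crease θ₀ c') (hcv : 0 < cv)
    (hcol : ∀ (U : M → ℝ) (q : M → E n) (F : Set M) (t : ℝ), (∀ y ∈ F, Supp G.ex U y (q y)) → t ∈ Icc 0 t₀ →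
      ENNReal.ofReal cv * G.μ F ≤ G.μ ((fun y => G.ex y (t • q y)) '' F))
    (Q : Pot G.μ κ) {B h σ η θ Kk : ℝ} (p : Par (G.K * G.D ^ 2) B θ₀ h σ η) (hK : 4000 * (G.K * G.D ^ 2) * B ≤ Kk)
    (ht₀ : h ≤ t₀ * (η * σ)) {q₁ q₂ : M → E n}
    (h₁ : ∀ z, Supp G.ex (Q.U (h / (η * σ)) (θ + (1 + 2 * η) * σ)) z (q₁ z) ∧
      Q.Att (h / (η * σ)) (θ + (1 + 2 * η) * σ) z (G.ex z (q₁ z)))
    (h₂ : ∀ z, Supp G.ex (Q.U 0 θ) z (q₂ z) ∧ Q.Att 0 θ z (G.ex z (q₂ z)))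
    {t : ℝ} (ht : t ∈ Icc (B * h / σ) (2 * (B * h / σ))) {Z : Set M}
    (hZ : ∀ z ∈ Z, z ∉ Q.Gs (Kk * h) ((1 + η) * σ) ∧ ∃ y, z = G.ex y (t • q₁ y) ∧ StA G Q B h σ η θ y (q₁ y) ∧
      ∀ ε : ℝ, 0 < ε → ∃ᶠ s in 𝓝[>] (0 : ℝ),
        2 * Q.U (h / (η * σ)) (θ + (1 + 2 * η) * σ) (G.ex y (t • q₁ y)) -
          Q.U (h / (η * σ)) (θ + (1 + 2 * η) * σ) (G.ex y ((t + s) • q₁ y)) -
          Q.U (h / (η * σ)) (θ + (1 + 2 * η) * σ) (G.ex y ((t + -s) • q₁ y)) ≤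
          (10 * (8 * η * σ) / (B * h / σ) + 40 * (G.K * G.D ^ 2) + ε) * s ^ 2) :
    c' * cv / (50000 * (G.K * G.D ^ 2) * κ ^ 2) * G.μ.real Z ≤
      η * G.μ.real (Q.Ys (Kk * h) θ (θ + (1 - 9 * (G.K * G.D ^ 2) * η) * σ)) := by
  have : IsFiniteMeasure G.μ := ⟨G.fin.lt_top⟩
  set Λ := G.K * G.D ^ 2 with hΛ
  have hΛ1 := p.Λ1
  have hB1 := p.B1
  have hh := p.h_pos
  have hσ := p.σ_pos
  have hη := p.η_pos
  have hκ0 : 0 < κ := by linarith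
  have hk : 0 < h / (η * σ) := by positivity
  have hK' : 29 * Λ * B ≤ Kk := by nlinarith
  have hB : ∀ z ∈ Z, StB G Q B h σ η θ z (q₁ z) (q₂ z) := by
    intro z hz
    obtain ⟨hN, y, rfl, hA, -⟩ := hZ z hz
    exact G.stB Q p hK' hA ht hN (h₁ _).1.1 (h₂ _).1.1 (h₁ _).2 (h₂ _).2
  have hv : ∀ z, ∃ v : E n, z ∈ Z → ‖v‖ ≤ G.D ∧ σ / 4 ≤ ⟪v, q₁ z - q₂ z⟫ ∧ ∀ ε : ℝ, 0 < ε → ∃ᶠ s in 𝓝[>] (0 : ℝ),
      2 * Q.U (h / (η * σ)) (θ + (1 + 2 * η) * σ) z - Q.U (h / (η * σ)) (θ + (1 + 2 * η) * σ) (G.ex z (s • v)) -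
        Q.U (h / (η * σ)) (θ + (1 + 2 * η) * σ) (G.ex z ((-s) • v)) ≤
        (10 * (8 * η * σ) / (B * h / σ) + 40 * Λ + ε) * s ^ 2 := by
    intro z
    by_cases hz : z ∈ Z
    swap
    · exact ⟨0, fun h => absurd h hz⟩
    have hBz := hB z hz
    obtain ⟨hN, y, rfl, hA, hs⟩ := hZ z hz
    obtain ⟨v, hv1, hv2⟩ := G.exists_vel y (q₁ y) t
    refine ⟨v, fun _ => ⟨hv1 ▸ G.norm_le_D hA.min, G.inner_v Q p hA ht (h₁ _).1 (h₂ _).1.1 (h₂ _).2 hBz hv1 hv2, ?_⟩⟩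
    intro ε hε
    simpa only [hv2] using hs ε hε
  choose v hv using hv
  have hT0 : h / (η * σ) / (1 + h / (η * σ)) ∈ Icc 0 t₀ := by
    refine ⟨by positivity, ?_⟩
    have h1 : h / (η * σ) ≤ t₀ := by rwa [div_le_iff₀ (by positivity)]
    exact (div_le_self hk.le (by linarith)).trans h1
  have hBavg : 0 ≤ 10 * (8 * η * σ) / (B * h / σ) + 40 * Λ := by positivity
  have key := hC _ _ q₁ q₂ v Z (cv / κ) (σ / 4) (10 * (8 * η * σ) / (B * h / σ) + 40 * Λ)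
    (h / (η * σ) * (θ + (1 + 2 * η) * σ) - 9 * Λ * h) (38 * Λ * B * h) (fun z => (h₁ z).1) (fun z => (h₂ z).1)
    (by positivity) (by positivity) hBavg (by positivity) (fun z hz => ?_) (fun Z' hZ' => ?_) hv
    (fun z hz => (hB z hz).fibre)
  rotate_left
  · have := (hB z hz).l1
    exact (pow_le_pow_iff_left₀ (norm_nonneg _) (norm_nonneg _) two_ne_zero).1 (by linarith)
  · have e1 := hcol _ q₁ Z' _ (fun y _ => (h₁ y).1) hT0
    have e2 : G.μ ((fun y => G.ex y ((h / (η * σ) / (1 + h / (η * σ))) • q₁ y)) '' Z') ≤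
        ENNReal.ofReal κ * G.μ ((fun z => G.ex z (q₁ z)) '' Z') := by
      refine Q.vol_y' ?_
      rintro _ ⟨z, hz, rfl⟩
      exact ⟨_, ⟨z, hz, rfl⟩, G.plateau Q hk (h₁ z).1.1 (h₁ z).2 (hB z (hZ' hz)).Φ1_lt⟩
    calc ENNReal.ofReal (cv / κ) * G.μ Z' = ENNReal.ofReal κ⁻¹ * (ENNReal.ofReal cv * G.μ Z') := by
          rw [← mul_assoc, ← ENNReal.ofReal_mul (by positivity), div_eq_inv_mul]
      _ ≤ ENNReal.ofReal κ⁻¹ * (ENNReal.ofReal κ * G.μ ((fun z => G.ex z (q₁ z)) '' Z')) :=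
          mul_le_mul_right (e1.trans e2) _
      _ = _ := by
          rw [← mul_assoc, ← ENNReal.ofReal_mul (by positivity), inv_mul_cancel₀ hκ0.ne', ENNReal.ofReal_one, one_mul]
  have hX : G.μ {x | ∃ z ∈ Z, ∃ r ∈ Icc (θ₀ / 2) θ₀, x = G.ex z (sg (q₁ z) (q₂ z) r)} ≤
      ENNReal.ofReal κ * G.μ (Q.Ys (Kk * h) θ (θ + (1 - 9 * Λ * η) * σ)) := by
    refine Q.vol_x' ?_
    rintro _ ⟨z, hz, r, hr, rfl⟩
    obtain ⟨y'', hy''⟩ := Q.exists_df_y (G.ex z (sg (q₁ z) (q₂ z) r))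
    have hBz := hB z hz
    obtain ⟨-, y, rfl, hA, -⟩ := hZ z hz
    exact ⟨y'', G.stC Q p hK hA ht (h₁ _).1.1 (h₂ _).1.1 (h₁ _).2 (h₂ _).2 hBz hr hy'', hy''⟩
  have k1 := skp_real (by positivity) (by positivity) key
  have k2 := skp_real (a := 1) zero_le_one hκ0.le (by rw [ENNReal.ofReal_one, one_mul]; exact hX)
  set mZ := G.μ.real Z
  set mX := G.μ.real {x | ∃ z ∈ Z, ∃ r ∈ Icc (θ₀ / 2) θ₀, x = G.ex z (sg (q₁ z) (q₂ z) r)}
  set mY := G.μ.real (Q.Ys (Kk * h) θ (θ + (1 - 9 * Λ * η) * σ))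
  have hmZ : 0 ≤ mZ := measureReal_nonneg
  have hden : 10 * (8 * η * σ) / (B * h / σ) + 40 * Λ + Λ ≤ 81 * (η * σ ^ 2) / (B * h) := by
    have e : 10 * (8 * η * σ) / (B * h / σ) = 80 * (η * σ ^ 2) / (B * h) := by field_simp; ring
    rw [e, le_div_iff₀ (by positivity), add_mul, add_mul, div_mul_cancel₀ _ (by positivity)]
    have := p.h1
    have : Λ * B * h ≤ Λ * B ^ 2 * h := by
      have : B ≤ B ^ 2 := by nlinarith
      gcongr
    nlinarith [mul_pos (mul_pos (by linarith : 0 < Λ) (by linarith : 0 < B)) hh]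
  have k3 : c' * (cv / κ) * (B * h) / (1296 * η) ≤
      c' * (cv / κ) * (σ / 4) ^ 2 / (10 * (8 * η * σ) / (B * h / σ) + 40 * Λ + Λ) := by
    calc c' * (cv / κ) * (B * h) / (1296 * η) = c' * (cv / κ) * (σ / 4) ^ 2 / (81 * (η * σ ^ 2) / (B * h)) := by
          field_simp; ring
      _ ≤ _ := by gcongr
  have k4 : c' * (cv / κ) * (B * h) / (1296 * η) * mZ ≤ 38 * Λ * B * h * (κ * mY) := by
    calc _ ≤ _ := mul_le_mul_of_nonneg_right k3 hmZ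
      _ ≤ 38 * Λ * B * h * mX := k1
      _ ≤ _ := by
        rw [one_mul] at k2
        exact mul_le_mul_of_nonneg_left k2 (by positivity)
  have hmY : 0 ≤ mY := measureReal_nonneg
  have e3 : c' * cv / (50000 * Λ * κ ^ 2) * mZ =
      (1296 * η / (50000 * Λ * κ * (B * h))) * (c' * (cv / κ) * (B * h) / (1296 * η) * mZ) := by
    field_simp
  rw [e3]
  calc _ ≤ (1296 * η / (50000 * Λ * κ * (B * h))) * (38 * Λ * B * h * (κ * mY)) := by gcongr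
    _ = (1296 * 38 / 50000) * (η * mY) := by field_simp
    _ ≤ η * mY := by nlinarith [mul_nonneg hη.le hmY]

theorem kp (hκ : 1 ≤ κ) : KP G.μ κ := by
  have : IsFiniteMeasure G.μ := ⟨G.fin.lt_top⟩
  obtain ⟨θ₀, cH, h0, h1, hcH, hH⟩ := G.harnack
  obtain ⟨c', hc', hC⟩ := G.crease_of h0 h1 hcH hH
  obtain ⟨t₀, cv, ht₀, ht₀', hcv, hcv1, hcol⟩ := G.colip_vol
  set Λ := G.K * G.D ^ 2 with hΛ
  have hΛ1 : 1 ≤ Λ := one_le_mul_of_one_le_of_one_le G.one_le_K (one_le_pow₀ G.one_le_D)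
  have hκ0 : 0 < κ := by linarith
  set B := 56 * Λ / θ₀ with hB
  have hB0 : 0 < B := by positivity
  have hBθ : 56 * Λ ≤ B * θ₀ := by rw [hB, div_mul_cancel₀ _ h0.ne']
  have hB1 : 1 ≤ B := by nlinarith
  set c₂ := c' * cv / (50000 * Λ * κ ^ 2) with hc₂
  have hc₂0 : 0 < c₂ := by positivity
  refine ⟨4000 * Λ * B, (1 + 2 / cv + 2 / (cv * c₂))⁻¹, 1 / (100 * B), ⌈9 * Λ⌉₊, by nlinarith, by positivity,
    by positivity, fun η hη hη' => ⟨t₀ * η / (10000 * Λ ^ 2 * B ^ 2), by positivity, fun Q h σ θ hh hσ hhσ => ?_⟩⟩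
  rcases (Q.Es h σ η θ).eq_empty_or_nonempty with he | ⟨y₀, a₀, b₀, -, -, -, ha₀, hb₀⟩
  · simp [he]
  have hσΛ : σ ≤ Λ := by
    have := (abs_le.1 (G.Φ_osc Q b₀ a₀)).2
    linarith
  have h3 : 10000 * Λ * B ^ 2 * h ≤ t₀ * (η * σ) := by
    rw [div_mul_eq_mul_div, le_div_iff₀ (by positivity)] at hhσ
    have : t₀ * η * σ ^ 2 ≤ Λ * (t₀ * (η * σ)) := by
      have : 0 < t₀ * η * σ := by positivity
      nlinarith
    refine le_of_mul_le_mul_left (a := Λ) ?_ (by linarith)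
    nlinarith
  have h4 : 10000 * Λ * B ^ 2 * h ≤ η * σ ^ 2 := by
    rw [div_mul_eq_mul_div, le_div_iff₀ (by positivity)] at hhσ
    have e1 : t₀ * η * σ ^ 2 ≤ η * σ ^ 2 := by
      have : 0 < η * σ ^ 2 := by positivity
      nlinarith
    have e2 : 10000 * Λ * B ^ 2 * h ≤ h * (10000 * Λ ^ 2 * B ^ 2) := by
      have : 0 < 10000 * Λ * B ^ 2 * h := by positivity
      nlinarith
    linarith
  have hησ : 0 < η * σ := by positivity
  have p : Par Λ B θ₀ h σ η := ⟨hΛ1, h0, h1, hBθ, hh, hσ, hη, by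
    rw [le_div_iff₀ (by positivity)] at hη'
    linarith, h4, by nlinarith⟩
  have hη1 := p.η_le
  have hBh : 0 < B * h := by positivity
  have hBh2 : 10000 * (B * h) ≤ t₀ * (η * σ) := by
    have : B * h ≤ Λ * B ^ 2 * h := by
      have : B ≤ Λ * B ^ 2 := by nlinarith
      gcongr
    linarith
  have hτ : 0 < B * h / σ := by positivity
  have hτ' : 4 * (B * h / σ) ≤ t₀ := by
    rw [← mul_div_assoc, div_le_iff₀ hσ]
    have : t₀ * (η * σ) ≤ t₀ * σ := by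
      have : η * σ ≤ σ := by nlinarith
      gcongr
    linarith
  obtain ⟨q₁, h₁⟩ := G.exists_sel Q (h / (η * σ)) (θ := θ + (1 + 2 * η) * σ) ⟨a₀, by nlinarith⟩
  obtain ⟨q₂, h₂⟩ := G.exists_sel Q 0 (θ := θ) ⟨a₀, ha₀⟩
  set Kk := 4000 * Λ * B with hKk
  have hK4 : 4 ≤ Kk := by nlinarith
  set GN := Q.Gs (Kk * h) ((1 + η) * σ) with hGN
  set Y := Q.Ys (Kk * h) θ (θ + (1 - (⌈9 * Λ⌉₊ : ℝ) * η) * σ) with hY
  have hceil : 9 * Λ ≤ (⌈9 * Λ⌉₊ : ℝ) := Nat.le_ceil _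
  have hF : MeasurableSet (Q.Es h σ η θ \ GN) :=
    (G.isClosed_Es Q h σ η θ).measurableSet.diff (G.isClosed_Gs Q _ _).measurableSet
  have hA : ∀ y ∈ Q.Es h σ η θ \ GN, StA G Q B h σ η θ y (q₁ y) := fun y hy =>
    G.stA Q p hK4 hy.1 hy.2 (h₁ y).1.1 (h₁ y).2
  obtain ⟨t, ht, F', hF', hm, hs⟩ := G.avg (fun z => (h₁ z).1) hF hτ (by linarith) (β := 8 * η * σ) (by positivity)
    fun y hy T hT => G.psi_le Q p (hA y hy) ⟨hT.1, by linarith [hT.2]⟩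
  have ht' : t ∈ Icc 0 (2 * (B * h / σ)) := ⟨by linarith [ht.1], ht.2⟩
  set Z := (fun y => G.ex y (t • q₁ y)) '' F' with hZ
  have hEY : Q.Es h σ η θ ⊆ Y := by
    rintro y ⟨a, b, e1, e2, e3, e4, e5⟩
    refine ⟨a, b, by nlinarith, by nlinarith, e4, ?_⟩
    nlinarith [mul_le_mul_of_nonneg_right (show (1 : ℝ) ≤ ⌈9 * Λ⌉₊ by linarith) hησ.le]
  have hZY : Z ⊆ Y := by
    rintro _ ⟨y, hy, rfl⟩
    have hAy := hA y (hF' hy)
    obtain ⟨a, e1, e2⟩ := hAy.inner t ht'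
    have hΛBh : 0 < Λ * B * h := by positivity
    refine ⟨a, G.ex y (q₁ y), by nlinarith, (hAy.df_tilt t ht').trans ?_, e1, le_trans ?_ hAy.Φ_ge⟩
    · have : Λ * h ≤ Λ * B * h := by
        have : Λ ≤ Λ * B := by nlinarith
        gcongr
      nlinarith
    · nlinarith [mul_le_mul_of_nonneg_right (show (2 : ℝ) ≤ ⌈9 * Λ⌉₊ by linarith) hησ.le]
  have k1 := G.skp_plateau hκ hc' hC hcv hcol Q p (Kk := Kk) le_rfl (by nlinarith) h₁ h₂ ht (Z := Z \ GN) (by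
    rintro _ ⟨⟨y, hy, rfl⟩, hN⟩
    exact ⟨hN, y, rfl, hA y (hF' hy), hs y hy⟩)
  have k2 : G.μ.real (Q.Ys (Kk * h) θ (θ + (1 - 9 * Λ * η) * σ)) ≤ G.μ.real Y :=
    measureReal_mono (skp_Ys_mono Q le_rfl (by nlinarith [mul_le_mul_of_nonneg_right hceil hησ.le]))
  have k3 := skp_real (b := 1) hcv.le zero_le_one
    (by simpa using hcol _ q₁ F' t (fun y _ => (h₁ y).1) ⟨ht'.1, by linarith [ht'.2]⟩)
  have k4 := skp_real (a := 1) (b := 2) zero_le_one zero_le_two (by simpa using hm)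
  have k5 : G.μ.real Z ≤ G.μ.real (Y ∩ GN) + G.μ.real (Z \ GN) :=
    (measureReal_mono fun z hz => by
      by_cases hN : z ∈ GN
      exacts [Or.inl ⟨hZY hz, hN⟩, Or.inr ⟨hz, hN⟩]).trans (measureReal_union_le _ _)
  have k6 : G.μ.real (Q.Es h σ η θ) ≤ G.μ.real (Y ∩ GN) + G.μ.real (Q.Es h σ η θ \ GN) :=
    (measureReal_mono fun z hz => by
      by_cases hN : z ∈ GN
      exacts [Or.inl ⟨hEY hz, hN⟩, Or.inr ⟨hz, hN⟩]).trans (measureReal_union_le _ _)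
  rw [← ofReal_measureReal (s := Q.Es h σ η θ), ← ofReal_measureReal (s := Y ∩ GN), ← ofReal_measureReal (s := Y),
    ← ENNReal.ofReal_mul (by positivity), ← ENNReal.ofReal_mul hη.le,
    ← ENNReal.ofReal_add measureReal_nonneg (by positivity)]
  refine ENNReal.ofReal_le_ofReal ?_
  rw [inv_mul_le_iff₀ (by positivity)]
  rw [← hc₂] at k1
  set a := G.μ.real (Y ∩ GN)
  set b := η * G.μ.real Y with hb
  have ha : 0 ≤ a := measureReal_nonneg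
  have hb0 : 0 ≤ b := by positivity
  have k7 : G.μ.real (Z \ GN) ≤ b / c₂ := by
    rw [le_div_iff₀ hc₂0]
    nlinarith [mul_le_mul_of_nonneg_left k2 hη.le]
  have k8 : G.μ.real F' ≤ (a + b / c₂) / cv := by
    rw [le_div_iff₀ hcv]
    linarith
  have e : 2 * ((a + b / c₂) / cv) = 2 / cv * a + 2 / (cv * c₂) * b := by field_simp
  have p1 : 0 ≤ 2 / cv * b := by positivity
  have p2 : 0 ≤ 2 / (cv * c₂) * a := by positivity
  nlinarith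

end Ge

end Crest.Agent.R226.S

end
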