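import Crest.Agent.R226.SSyn
import Crest.Agent.R226.LMain
import Crest.Agent.R226.Har

/-!
# rid 226 / SL: what part S uses from part L (helper85) and part Har (helper13)
-/

set_option autoImplicit false
set_option linter.unusedSectionVars false

open scoped Topology RealInnerProductSpace ENNReal NNReal
open Set Filter MeasureTheory Asymptotics
open Crest.Agent.R226.L

noncomputable section

namespace Crest.Agent.R226.S

variable {n : ℕ} {M : Type*} [MetricSpace M] [MeasurableSpace M]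

namespace Ge

variable (G : Ge n M)

theorem dasm [CompactSpace M] {z : M} {a b : E n} (ha : a ∈ MinS G.ex z) (hb : b ∈ MinS G.ex z) {s : ℝ}
    (hs : s ∈ Icc (0 : ℝ) 1) : sg a b s ∈ MinS G.ex z ∧ ∀ x : M,
      min (cst x (G.ex z a) - cst z (G.ex z a)) (cst x (G.ex z b) - cst z (G.ex z b)) ≤
        cst x (G.ex z (sg a b s)) - cst z (G.ex z (sg a b s)) := by
  obtain ⟨h1, h2⟩ := L.dasm G.g1 G.g2.pos_L.1 G.g2.pos_L.2 ha hb (q := sg a b s)
    (by rw [segment_eq_image]; exact ⟨s, hs, rfl⟩)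
  refine ⟨h1, fun x => ?_⟩
  rcases le_max_iff.1 (h2 x) with h | h
  · exact min_le_of_left_le (by linarith)
  · exact min_le_of_right_le (by linarith)

theorem inj_convex [CompactSpace M] (z : M) : Convex ℝ (InjS G.ex z) := by
  exact L.convex_injS G.g1 G.g2.pos_L.1 G.g2.pos_L.2 z

/-- local supports are global -/
theorem supp_of_local [CompactSpace M] {U : M → ℝ} (hU : IsCC U) {z : M} {p : E n} {C : ℝ}
    (hp : ∀ᶠ ξ in 𝓝 (0 : E n), U (G.ex z ξ) ≤ U z - ⟪p, ξ⟫ + C * ‖ξ‖ ^ 2) : Supp G.ex U z p := by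
  refine L.ct_of_super G.g1 G.g2.pos_L.1 G.g2.pos_L.2 hU z p fun ξ ε hε => ?_
  have h1 : Tendsto (fun h : ℝ => h • ξ) (𝓝 0) (𝓝 0) :=
    (continuous_id.smul continuous_const).tendsto' 0 0 (zero_smul ℝ ξ)
  have h2 : ∀ᶠ h in 𝓝 (0 : ℝ), C * ‖ξ‖ ^ 2 * h < ε :=
    ContinuousAt.eventually_lt (by fun_prop) continuousAt_const (by simpa using hε)
  filter_upwards [nhdsWithin_le_nhds (h1.eventually hp), nhdsWithin_le_nhds h2,
    self_mem_nhdsWithin] with h a1 a2 a3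
  have a4 := mul_lt_mul_of_pos_right a2 (show 0 < h from a3)
  rw [real_inner_smul_right, norm_smul, mul_pow, Real.norm_eq_abs, sq_abs] at a1
  linarith

theorem harnack : ∃ θ₀ c : ℝ, 0 < θ₀ ∧ θ₀ ≤ 1 / 4 ∧ 0 < c ∧ G.Harnack θ₀ c := by
  obtain ⟨Λ, hΛ⟩ := G.inner_lin
  obtain ⟨θ, κ, h1, h2, h3, h4⟩ := Har.harnack G.g2.pos_L.1 G.g2.pos_L.2 (abs_nonneg Λ) (R := G.D)
    (fun x u hu t ht ζ => by
      refine le_trans ?_ (hΛ x u hu t ht ζ)
      have := div_le_div_of_nonneg_right (le_abs_self Λ) (sub_pos.2 ht.2).le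
      nlinarith [sq_nonneg ‖ζ‖]) (by linarith [G.one_le_D]) fun x u hu => by
      rw [← show dist x (G.ex x u) = ‖u‖ from hu]
      exact G.dist_le _ _
  exact ⟨θ, κ, h1, by linarith, h3, h4⟩

theorem det_P_pos {z : M} {q : E n} (hq : q ∈ InjS G.ex z) : 0 < (G.P z q).det := by
  refine lt_of_le_of_ne (Har.det_nonneg (Har.P_symm G.g2 hq) (Har.P_nonneg G.g2 hq)) fun h0 => ?_
  have h1 : LinearMap.det (Har.W G.A G.c0 z q) * LinearMap.det (G.P z q : E n →ₗ[ℝ] E n) = 1 := by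
    rw [← LinearMap.det_comp, show Har.W G.A G.c0 z q ∘ₗ (G.P z q : E n →ₗ[ℝ] E n) = LinearMap.id from
      LinearMap.ext (Har.W_P G.g2 hq), LinearMap.det_id]
  rw [show LinearMap.det (G.P z q : E n →ₗ[ℝ] E n) = 0 from h0.symm, mul_zero] at h1
  exact zero_ne_one h1

end Ge

/-- bordered determinant -/
theorem blk_det_ge (n : ℕ) : ∃ c : ℝ, 0 < c ∧ ∀ (K S : E n →L[ℝ] E n) (e v : E n), (∀ u w, ⟪K u, w⟫ = ⟪u, K w⟫) →
    (∀ u w, ⟪S u, w⟫ = ⟪u, S w⟫) → (∀ u, 0 ≤ ⟪S u, u⟫) → (∀ u, ⟪u, e⟫ = 0 → ⟪S u, u⟫ / 2 ≤ ⟪K u, u⟫) →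
    c * S.det * ⟪v, e⟫ ^ 2 ≤ (blk K e).det * ⟪S v, v⟫ := by
  refine ⟨2 * (1 / 2) ^ n, by positivity, fun K S e v hK hS h0 hKS => ?_⟩
  have h1 := Har.det_border_ge (K := (K : E n →ₗ[ℝ] E n)) (S := (1 / 2 : ℝ) • (S : E n →ₗ[ℝ] E n)) hK
    (fun u w => by simp [inner_smul_left, inner_smul_right, hS])
    (fun u => by simpa [inner_smul_left] using h0 u) (e := e)
    (fun ξ hξ => by
      have := hKS ξ (by rwa [real_inner_comm])
      simp only [LinearMap.smul_apply, inner_smul_left, conj_trivial, ContinuousLinearMap.coe_coe]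
      linarith) (B := (blk K e : E n × ℝ →ₗ[ℝ] E n × ℝ)) (fun ξ ρ => by simp [blk]) v
  rw [LinearMap.det_smul, finrank_euclideanSpace_fin, real_inner_comm] at h1
  simp only [LinearMap.smul_apply, inner_smul_left, conj_trivial, ContinuousLinearMap.coe_coe] at h1
  simp only [ContinuousLinearMap.det]
  linarith

end Crest.Agent.R226.S

end
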