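import Crest.Agent.R226.SL

/-!
# rid 226 / SPot: potentials, elementary facts (prefix `sp_`)

`Φ` is `c`-concave: if `Φ z + Ψ y = cst z y` then `y` supports `Φ` at `z`; the same for `Ψ` (`cst_comm`).  Closedness: projection of a compact set.
`U k θ y` is a minimum over the compact set `{Φ ≤ θ}`; a point `x` attaining it supports `U k θ` at `y`.
-/

set_option autoImplicit false
set_option linter.unusedSectionVars false

open scoped Topology RealInnerProductSpace ENNReal NNReal
open Set Filter MeasureTheory Asymptotics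
open Crest.Agent.R226.L

noncomputable section

namespace Crest.Agent.R226.S

variable {n : ℕ} {M : Type*} [MetricSpace M] [MeasurableSpace M]

namespace Pot

variable {μ : Measure M} {κ : ℝ} (Q : Pot μ κ)

theorem df_nonneg (x y : M) : 0 ≤ Q.df x y := by
  have := Q.le x y
  unfold df
  linarith

theorem exists_df_y (x : M) : ∃ y, Q.df x y = 0 := by
  obtain ⟨y, hy⟩ := Q.ex_y x
  exact ⟨y, by unfold df; linarith⟩

theorem exists_df_x (y : M) : ∃ x, Q.df x y = 0 := by
  obtain ⟨x, hx⟩ := Q.ex_x y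
  exact ⟨x, by unfold df; linarith⟩

theorem isCC_Φ : IsCC Q.Φ := by
  intro z
  obtain ⟨y, hy⟩ := Q.ex_y z
  exact ⟨y, fun w => by linarith [Q.le w y]⟩

theorem isCC_Ψ : IsCC Q.Ψ := by
  intro z
  obtain ⟨x, hx⟩ := Q.ex_x z
  refine ⟨x, fun w => ?_⟩
  rw [cst_comm z x, cst_comm w x]
  linarith [Q.le x w]

/-- a support of `Φ` is a contact point -/
theorem df_eq_zero_of_ct {x y : M} (h : Ct Q.Φ x y) : Q.df x y = 0 := by
  obtain ⟨z, hz⟩ := Q.ex_x y
  have h1 := h z
  have h2 := Q.le x y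
  unfold df
  linarith

theorem Gs_mono {h h' σ σ' : ℝ} (hh : h ≤ h') (hσ : σ' ≤ σ) : Q.Gs h σ ⊆ Q.Gs h' σ' := by
  rintro y ⟨a, b, h1, h2, h3⟩
  exact ⟨a, b, h1.trans hh, h2.trans hh, by linarith⟩

theorem vol_y' {X Y : Set M} (h : ∀ y ∈ Y, ∃ x ∈ X, Q.df x y = 0) : μ Y ≤ ENNReal.ofReal κ * μ X := by
  refine Q.vol_y X Y fun y hy => ?_
  obtain ⟨x, hx, h0⟩ := h y hy
  exact ⟨x, hx, by unfold df at h0; linarith⟩

theorem vol_x' {X Y : Set M} (h : ∀ x ∈ X, ∃ y ∈ Y, Q.df x y = 0) : μ X ≤ ENNReal.ofReal κ * μ Y := by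
  refine Q.vol_x X Y fun x hx => ?_
  obtain ⟨y, hy, h0⟩ := h x hx
  exact ⟨y, hy, by unfold df at h0; linarith⟩

end Pot

namespace Ge

variable (G : Ge n M) {μ : Measure M} {κ : ℝ} (Q : Pot μ κ)

include G

theorem Φ_lip (x x' : M) : |Q.Φ x - Q.Φ x'| ≤ G.D * dist x x' := by
  exact G.isCC_lip Q.isCC_Φ x x'

theorem Φ_osc (x x' : M) : |Q.Φ x - Q.Φ x'| ≤ G.K * G.D ^ 2 := by
  have h1 := G.Φ_lip Q x x'
  have h2 := G.dist_le x x'
  have h3 := G.one_le_D
  have h4 := G.one_le_K
  have h5 : G.D * dist x x' ≤ G.D * G.D := mul_le_mul_of_nonneg_left h2 (by linarith)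
  nlinarith [mul_nonneg (sub_nonneg.2 h4) (sq_nonneg G.D)]

theorem df_lip (x y y' : M) : |Q.df x y - Q.df x y'| ≤ 2 * G.D * dist y y' := by
  have h1 := abs_le.1 (G.cst_lip x y y')
  have h2 := abs_le.1 (G.isCC_lip Q.isCC_Ψ y y')
  unfold Pot.df
  rw [abs_le]
  constructor <;> linarith [h1.1, h1.2, h2.1, h2.2]

theorem continuous_Φ : Continuous Q.Φ := by
  exact G.isCC_continuous Q.isCC_Φ

theorem continuous_df : Continuous fun p : M × M => Q.df p.1 p.2 := by
  exact (continuous_cst.sub ((G.continuous_Φ Q).comp continuous_fst)).sub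
    ((G.isCC_continuous Q.isCC_Ψ).comp continuous_snd)

theorem isClosed_Gs [CompactSpace M] (h σ : ℝ) : IsClosed (Q.Gs h σ) := by
  have ca : Continuous fun p : M × M × M => Q.df p.2.1 p.1 :=
    (G.continuous_df Q).comp (continuous_snd.fst.prodMk continuous_fst)
  have cb : Continuous fun p : M × M × M => Q.df p.2.2 p.1 :=
    (G.continuous_df Q).comp (continuous_snd.snd.prodMk continuous_fst)
  have c1 : Continuous fun p : M × M × M => Q.Φ p.2.1 := (G.continuous_Φ Q).comp continuous_snd.fst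
  have c2 : Continuous fun p : M × M × M => Q.Φ p.2.2 := (G.continuous_Φ Q).comp continuous_snd.snd
  have := isClosedMap_fst_of_compactSpace _ ((isClosed_le ca (continuous_const (y := h))).inter
    ((isClosed_le cb (continuous_const (y := h))).inter (isClosed_le (c1.add (continuous_const (y := σ))) c2)))
  convert this using 1
  ext y
  exact ⟨fun ⟨a, b, h⟩ => ⟨(y, a, b), h, rfl⟩, fun ⟨p, h, e⟩ => ⟨p.2.1, p.2.2, e ▸ h⟩⟩

theorem isClosed_Es [CompactSpace M] (h σ η θ : ℝ) : IsClosed (Q.Es h σ η θ) := by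
  have ca : Continuous fun p : M × M × M => Q.df p.2.1 p.1 :=
    (G.continuous_df Q).comp (continuous_snd.fst.prodMk continuous_fst)
  have cb : Continuous fun p : M × M × M => Q.df p.2.2 p.1 :=
    (G.continuous_df Q).comp (continuous_snd.snd.prodMk continuous_fst)
  have c1 : Continuous fun p : M × M × M => Q.Φ p.2.1 := (G.continuous_Φ Q).comp continuous_snd.fst
  have c2 : Continuous fun p : M × M × M => Q.Φ p.2.2 := (G.continuous_Φ Q).comp continuous_snd.snd
  have := isClosedMap_fst_of_compactSpace _ ((isClosed_le ca (continuous_const (y := h))).inter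
    ((isClosed_le cb (continuous_const (y := h))).inter
      ((isClosed_le (continuous_const (y := θ - η * σ)) c1).inter
        ((isClosed_le c1 (continuous_const (y := θ))).inter
          (isClosed_le (c1.add (continuous_const (y := σ))) c2)))))
  convert this using 1
  ext y
  exact ⟨fun ⟨a, b, h⟩ => ⟨(y, a, b), h, rfl⟩, fun ⟨p, h, e⟩ => ⟨p.2.1, p.2.2, e ▸ h⟩⟩

theorem isClosed_Ys [CompactSpace M] (H θ θ' : ℝ) : IsClosed (Q.Ys H θ θ') := by
  have ca : Continuous fun p : M × M × M => Q.df p.2.1 p.1 :=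
    (G.continuous_df Q).comp (continuous_snd.fst.prodMk continuous_fst)
  have cb : Continuous fun p : M × M × M => Q.df p.2.2 p.1 :=
    (G.continuous_df Q).comp (continuous_snd.snd.prodMk continuous_fst)
  have c1 : Continuous fun p : M × M × M => Q.Φ p.2.1 := (G.continuous_Φ Q).comp continuous_snd.fst
  have c2 : Continuous fun p : M × M × M => Q.Φ p.2.2 := (G.continuous_Φ Q).comp continuous_snd.snd
  have := isClosedMap_fst_of_compactSpace _ ((isClosed_le ca (continuous_const (y := H))).inter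
    ((isClosed_le cb (continuous_const (y := H))).inter
      ((isClosed_le c1 (continuous_const (y := θ))).inter (isClosed_le (continuous_const (y := θ')) c2))))
  convert this using 1
  ext y
  exact ⟨fun ⟨a, b, h⟩ => ⟨(y, a, b), h, rfl⟩, fun ⟨p, h, e⟩ => ⟨p.2.1, p.2.2, e ▸ h⟩⟩

theorem U_le [CompactSpace M] (k : ℝ) {θ : ℝ} {x : M} (hx : Q.Φ x ≤ θ) (y : M) :
    Q.U k θ y ≤ cst x y - (1 + k) * Q.Φ x := by
  have hc : IsCompact {x | Q.Φ x ≤ θ} := (isClosed_le (G.continuous_Φ Q) continuous_const).isCompact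
  have cf : Continuous fun x => cst x y - (1 + k) * Q.Φ x :=
    (continuous_cst.comp (continuous_id.prodMk continuous_const)).sub (continuous_const.mul (G.continuous_Φ Q))
  exact csInf_le (hc.bddBelow_image cf.continuousOn) ⟨x, hx, rfl⟩

theorem exists_sel [CompactSpace M] (k : ℝ) {θ : ℝ} (h : ∃ x, Q.Φ x ≤ θ) :
    ∃ q : M → E n, ∀ z, Supp G.ex (Q.U k θ) z (q z) ∧ Q.Att k θ z (G.ex z (q z)) := by
  have hc : IsCompact {x | Q.Φ x ≤ θ} := (isClosed_le (G.continuous_Φ Q) continuous_const).isCompact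
  have key : ∀ z, ∃ q : E n, Supp G.ex (Q.U k θ) z q ∧ Q.Att k θ z (G.ex z q) := fun z => by
    have cf : Continuous fun x => cst x z - (1 + k) * Q.Φ x :=
      (continuous_cst.comp (continuous_id.prodMk continuous_const)).sub (continuous_const.mul (G.continuous_Φ Q))
    obtain ⟨x, hx, e⟩ := hc.exists_sInf_image_eq h cf.continuousOn
    obtain ⟨q, hq, rfl⟩ := G.exists_min z x
    have e' : Q.U k θ z = cst (G.ex z q) z - (1 + k) * Q.Φ (G.ex z q) := e
    refine ⟨q, ⟨hq, fun w => ?_⟩, hx, e'⟩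
    have := G.U_le Q k hx w
    rw [cst_comm z, cst_comm w]
    linarith
  choose q hq using key
  exact ⟨q, hq⟩

end Ge

end Crest.Agent.R226.S

end
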