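import Crest.Agent.R226.SPot

/-!
# rid 226 / SSec1_x: proofs of `sec_convex`, `chord_sq`, `tilt_df`, `plateau` (used in `SSec`)
-/

set_option autoImplicit false
set_option linter.unusedSectionVars false

open scoped Topology RealInnerProductSpace ENNReal NNReal
open Set Filter MeasureTheory Asymptotics
open Crest.Agent.R226.L

noncomputable section

namespace Crest.Agent.R226.S

variable {n : ℕ} {M : Type*} [MetricSpace M] [MeasurableSpace M]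

namespace Ge

variable [CompactSpace M] (G : Ge n M) {μ : Measure M} {κ : ℝ} (Q : Pot μ κ)

theorem se_sec_convex {y : M} {a b : E n} (ha : a ∈ MinS G.ex y) (hb : b ∈ MinS G.ex y) {H : ℝ}
    (h1 : Q.df (G.ex y a) y ≤ H) (h2 : Q.df (G.ex y b) y ≤ H) {s : ℝ} (hs : s ∈ Icc (0 : ℝ) 1) :
    Q.df (G.ex y (sg a b s)) y ≤ H := by
  obtain ⟨w, hw⟩ := Q.exists_df_y (G.ex y (sg a b s))
  have h := (G.dasm ha hb hs).2 w
  have a1 := Q.le (G.ex y a) w
  have a2 := Q.le (G.ex y b) w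
  rw [cst_comm w, cst_comm w, cst_comm w, cst_comm y, cst_comm y, cst_comm y] at h
  unfold Pot.df at *
  rcases min_le_iff.1 h with h | h <;> linarith

theorem se_chord_sq {y : M} {a b : E n} (ha : a ∈ MinS G.ex y) (hb : b ∈ MinS G.ex y) {H : ℝ}
    (h1 : Q.df (G.ex y a) y ≤ H) (h2 : Q.df (G.ex y b) y ≤ H) :
    ∃ m, Q.df m y ≤ H ∧ Q.Φ m + ‖a - b‖ ^ 2 / 8 ≤ (Q.Φ (G.ex y a) + Q.Φ (G.ex y b)) / 2 + H := by
  have hs : (1 / 2 : ℝ) ∈ Icc (0 : ℝ) 1 := ⟨by norm_num, by norm_num⟩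
  refine ⟨_, G.se_sec_convex Q ha hb h1 h2 hs, ?_⟩
  have a1 := Q.le (G.ex y (sg a b (1 / 2))) y
  rw [cst_comm, G.cst_of_min (G.dasm ha hb hs).1, norm_sg_sq] at a1
  unfold Pot.df at h1 h2
  rw [cst_comm, G.cst_of_min ha] at h1
  rw [cst_comm, G.cst_of_min hb] at h2
  linarith

theorem se_tilt_df {y : M} {q : E n} (hq : q ∈ MinS G.ex y) {t : ℝ} (ht : t ∈ Icc (0 : ℝ) 1) (x : M) :
    (1 - t) * (Q.df x y - Q.df (G.ex y q) y) + t * (Q.Φ (G.ex y q) - Q.Φ x) ≤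
      Q.df x (G.ex y (t • q)) - Q.df (G.ex y q) (G.ex y (t • q)) := by
  have h := G.tilt hq ht x
  unfold Pot.df
  linarith

theorem se_plateau {k θ : ℝ} (hk : 0 < k) {y : M} {q : E n} (hq : q ∈ MinS G.ex y) (hA : Q.Att k θ y (G.ex y q))
    (hlt : Q.Φ (G.ex y q) < θ) : Q.df (G.ex y q) (G.ex y ((k / (1 + k)) • q)) = 0 := by
  have hk1 : 0 < 1 + k := by linarith
  have hp := G.rev_min hq
  have hc : Continuous fun ξ => Q.Φ (G.ex (G.ex y q) ξ) := (G.continuous_Φ Q).comp (G.g1.exp_cont _)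
  have hev : ∀ᶠ ξ in 𝓝 (0 : E n), Q.Φ (G.ex (G.ex y q) ξ) < θ :=
    hc.continuousAt.eventually_lt continuousAt_const (by simpa only [G.g1.exp_zero] using hlt)
  have h0 := G.cst_of_min hp
  rw [G.rev] at h0
  have hS := G.supp_of_local Q.isCC_Φ (z := G.ex y q) (p := (1 + k)⁻¹ • -G.vel y q) (C := (1 + k)⁻¹ * G.L) (by
    filter_upwards [hev] with ξ hξ
    have a1 := G.U_le Q k hξ.le y
    have a2 := G.g1.sc _ _ hp ξ
    rw [G.rev] at a2
    rw [hA.2, h0] at a1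
    have a3 : Q.Φ (G.ex (G.ex y q) ξ) - Q.Φ (G.ex y q) ≤ (1 + k)⁻¹ * (-⟪-G.vel y q, ξ⟫ + G.L * ‖ξ‖ ^ 2) := by
      rw [le_inv_mul_iff₀ hk1]; linarith
    rw [real_inner_smul_left]
    linarith)
  have h1 := Q.df_eq_zero_of_ct hS.2
  have e : 1 - (1 + k)⁻¹ = k / (1 + k) := by field_simp; ring
  rwa [G.rev_smul, e] at h1

end Ge

end Crest.Agent.R226.S

end
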