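import Crest.Agent.R226.SSec1_x

/-!
# rid 226 / SSec2_h: the outward estimate (helper79)
-/

set_option autoImplicit false
set_option linter.unusedSectionVars false

open scoped Topology RealInnerProductSpace ENNReal NNReal
open Set Filter MeasureTheory Asymptotics
open Crest.Agent.R226.L

noncomputable section

namespace Crest.Agent.R226.S

variable {n : ℕ} {M : Type*} [MetricSpace M] [MeasurableSpace M]

theorem seh_num {r H σ t Δ l fa f1 : ℝ} (hr0 : 0 ≤ r) (hr1 : r ≤ 1 / 4) (hH : 0 < H) (hσ : 32 * H ≤ σ) (ht : t * σ = 16 * H)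
    (l1 : σ / 2 ≤ Δ) (l2 : Δ ≤ 3 * σ) (l0 : 0 ≤ l) (l3 : l ≤ 20 * σ) (hfa : fa ≤ H)
    (h : 0 ≤ max ((1 - t) * f1 + t * (r * Δ + r * (1 - r) * l / 2))
      ((1 - t) * fa - t * ((1 / 2 - r) * Δ + (1 / 4 - r * (1 - r)) * l / 2))) : -f1 ≤ 128 * H := by
  have hσ0 : 0 < σ := by linarith
  have ht0 : 0 < t := by
    by_contra hc
    push Not at hc
    nlinarith
  have ht1 : t ≤ 1 / 2 := by
    by_contra hc
    push Not at hc
    nlinarith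
  have e1 : σ / 8 ≤ (1 / 2 - r) * Δ + (1 / 4 - r * (1 - r)) * l / 2 := by
    have a1 : 0 ≤ (1 / 4 - r * (1 - r)) * l := mul_nonneg (by nlinarith [sq_nonneg (r - 1 / 2)]) l0
    have a2 : 1 / 4 * (σ / 2) ≤ (1 / 2 - r) * Δ := mul_le_mul (by linarith) l1 (by linarith) (by linarith)
    linarith
  have e2 : r * Δ + r * (1 - r) * l / 2 ≤ 4 * σ := by
    have a1 : r * Δ ≤ 1 / 4 * (3 * σ) := mul_le_mul hr1 l2 (by linarith) (by norm_num)
    have a2 : r * (1 - r) * l ≤ 1 / 4 * (20 * σ) := mul_le_mul (by nlinarith [sq_nonneg (r - 1 / 2)]) l3 l0 (by norm_num)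
    linarith
  rcases le_max_iff.1 h with h | h
  · have a1 := mul_le_mul_of_nonneg_left e2 ht0.le
    have a2 : -((1 - t) * f1) ≤ 64 * H := by linarith
    by_contra hc
    push Not at hc
    nlinarith
  · have a1 := mul_le_mul_of_nonneg_left e1 ht0.le
    have a2 : (1 - t) * fa ≤ (1 - t) * H := mul_le_mul_of_nonneg_left hfa (by linarith)
    nlinarith

namespace Ge

variable [CompactSpace M] (G : Ge n M) {μ : Measure M} {κ : ℝ} (Q : Pot μ κ)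

theorem seh_outward {z y'' : M} {q₁ q₂ : E n} (h₁ : q₁ ∈ MinS G.ex z) (h₂ : q₂ ∈ MinS G.ex z) {r H σ : ℝ}
    (hr : r ∈ Icc (0 : ℝ) (1 / 4)) (hH : 0 < H) (hσ : 32 * H ≤ σ) (d1 : Q.df (G.ex z q₁) z ≤ H) (d2 : Q.df (G.ex z q₂) z ≤ H)
    (l1 : σ / 2 ≤ ‖q₁‖ ^ 2 / 2 - ‖q₂‖ ^ 2 / 2) (l2 : ‖q₁‖ ^ 2 / 2 - ‖q₂‖ ^ 2 / 2 ≤ 3 * σ) (l3 : ‖q₁ - q₂‖ ^ 2 ≤ 20 * σ)
    (h0 : Q.df (G.ex z (sg q₁ q₂ r)) y'' = 0) : Q.df (G.ex z q₁) y'' ≤ 129 * H := by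
  have hσ0 : 0 < σ := by linarith
  have hhalf : (1 / 2 : ℝ) ∈ Icc (0 : ℝ) 1 := ⟨by norm_num, by norm_num⟩
  have hm := (G.dasm h₁ h₂ hhalf).1
  have hx := (G.dasm h₁ h₂ (s := r) ⟨hr.1, by linarith [hr.2]⟩).1
  have hsg : sg q₁ (sg q₁ q₂ (1 / 2)) (2 * r) = sg q₁ q₂ r := by
    simp only [sg]
    module
  obtain ⟨p, hp, hpx⟩ := G.exists_min y'' (G.ex z (sg q₁ q₂ r))
  have ht : 16 * H / σ ∈ Icc (0 : ℝ) 1 := ⟨by positivity, by rw [div_le_one hσ0]; linarith⟩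
  have hd := (G.dasm h₁ hm (s := 2 * r) ⟨by linarith [hr.1], by linarith [hr.2]⟩).2 (G.ex y'' ((16 * H / σ) • p))
  rw [hsg] at hd
  have t1 := G.tilt hp ht (G.ex z q₁)
  have t2 := G.tilt hp ht (G.ex z (sg q₁ q₂ (1 / 2)))
  rw [hpx] at t1 t2
  have c1 := G.cst_of_min h₁
  have c2 := G.cst_of_min hm
  have c3 := G.cst_of_min hx
  rw [norm_sg_sq] at c2 c3
  have da := G.se_sec_convex Q h₁ h₂ d1 d2 hhalf
  have n1 := Q.df_nonneg (G.ex z (sg q₁ q₂ (1 / 2))) y''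
  have n2 := Q.df_nonneg (G.ex z (sg q₁ q₂ r)) z
  simp only [Pot.df] at *
  rw [cst_comm _ z] at d1 da n2
  simp only [cst_comm (G.ex y'' _)] at hd
  have key := seh_num (t := 16 * H / σ) (l := ‖q₁ - q₂‖ ^ 2)
    (fa := (cst z (G.ex z (sg q₁ q₂ (1 / 2))) - cst (G.ex z (sg q₁ q₂ (1 / 2))) y'') -
      (cst z (G.ex z (sg q₁ q₂ r)) - cst (G.ex z (sg q₁ q₂ r)) y''))
    (f1 := (cst z (G.ex z q₁) - cst (G.ex z q₁) y'') - (cst z (G.ex z (sg q₁ q₂ r)) - cst (G.ex z (sg q₁ q₂ r)) y''))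
    hr.1 hr.2 hH hσ (div_mul_cancel₀ _ hσ0.ne') l1 l2 (by positivity) l3 (by linarith) (by
      rcases min_le_iff.1 hd with hd | hd
      · refine le_max_of_le_left ?_
        rw [c1, c3] at hd ⊢
        linarith
      · refine le_max_of_le_right ?_
        rw [c2, c3] at hd ⊢
        linarith)
  linarith

end Ge

end Crest.Agent.R226.S

end
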