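import Crest.Agent.R226.SPot
import Crest.Agent.R226.SSec1_x
import Crest.Agent.R226.SSec2_h

/-!
# rid 226 / SSec: sections (prefix `se_`)

`sec_convex`: let `x_s = ex y (sg a b s)`, `df x_s y* = 0`.  `dasm` at `y` with the test point `y*`, and `Φ x_i ≤ cst x_i y* - Ψ y*`.
`chord_sq`: `m` the midpoint, `Φ m ≤ cst m y - Ψ y`, `norm_sg_sq`.  `tilt_df`: `tilt`.
`plateau`: `x` is a local minimum of `cst · y - (1+k) Φ` (`U_le` near `x`, continuity of `Φ` and `ex x`); with `p = -vel y q` (`rev`, `rev_min`, `sc`)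
`(1+k)(Φ (ex x ξ) - Φ x) ≤ -⟪p, ξ⟫ + L ‖ξ‖²`; `supp_of_local` for `p/(1+k)`, `rev_smul`, `df_eq_zero_of_ct`.
`outward`: let `x⁺ = ex z q₁`, `a' = ex z (sg q₁ q₂ (1/2))`, `f x' = cst x' z - cst x' y''`, so `df x' y'' = df x' z - df x z + f x - f x'`, in particular
`f a' - f x ≤ H` (`sec_convex`).  `p` minimising from `y''` to `x`, `y' = ex y'' (t' p)`, `t' = 16 H/σ ≤ 1/2`, `g x' = cst x' z - cst x' y'`.  `tilt` gives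
`g x' - g x ≤ (1-t')(f x' - f x) + t'(cst x' z - cst x z)`.  With `φ(s) = ‖sg q₁ q₂ s‖²/2` (`norm_sg_sq`): `φ(r) - φ(1/2) ≥ σ/8`, so `g a' < g x`; `x` is the point
`2r` of the chord from `q₁` to `sg q₁ q₂ (1/2)`, so `dasm` at `z` with test point `y'` gives `g x ≤ max (g x⁺) (g a')`, hence `g x ≤ g x⁺`; `φ(0) - φ(r) ≤ 4σ`;
so `f x - f x⁺ ≤ 2 t' 4σ = 128 H`.
-/

set_option autoImplicit false
set_option linter.unusedSectionVars false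

open scoped Topology RealInnerProductSpace ENNReal NNReal
open Set Filter MeasureTheory Asymptotics
open Crest.Agent.R226.L

noncomputable section

namespace Crest.Agent.R226.S

variable {n : ℕ} {M : Type*} [MetricSpace M] [MeasurableSpace M]

namespace Ge

variable [CompactSpace M] (G : Ge n M) {μ : Measure M} {κ : ℝ} (Q : Pot μ κ)

theorem sec_convex {y : M} {a b : E n} (ha : a ∈ MinS G.ex y) (hb : b ∈ MinS G.ex y) {H : ℝ}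
    (h1 : Q.df (G.ex y a) y ≤ H) (h2 : Q.df (G.ex y b) y ≤ H) {s : ℝ} (hs : s ∈ Icc (0 : ℝ) 1) :
    Q.df (G.ex y (sg a b s)) y ≤ H :=
  G.se_sec_convex Q ha hb h1 h2 hs

theorem chord_sq {y : M} {a b : E n} (ha : a ∈ MinS G.ex y) (hb : b ∈ MinS G.ex y) {H : ℝ}
    (h1 : Q.df (G.ex y a) y ≤ H) (h2 : Q.df (G.ex y b) y ≤ H) :
    ∃ m, Q.df m y ≤ H ∧ Q.Φ m + ‖a - b‖ ^ 2 / 8 ≤ (Q.Φ (G.ex y a) + Q.Φ (G.ex y b)) / 2 + H :=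
  G.se_chord_sq Q ha hb h1 h2

theorem tilt_df {y : M} {q : E n} (hq : q ∈ MinS G.ex y) {t : ℝ} (ht : t ∈ Icc (0 : ℝ) 1) (x : M) :
    (1 - t) * (Q.df x y - Q.df (G.ex y q) y) + t * (Q.Φ (G.ex y q) - Q.Φ x) ≤
      Q.df x (G.ex y (t • q)) - Q.df (G.ex y q) (G.ex y (t • q)) :=
  G.se_tilt_df Q hq ht x

theorem plateau {k θ : ℝ} (hk : 0 < k) {y : M} {q : E n} (hq : q ∈ MinS G.ex y) (hA : Q.Att k θ y (G.ex y q))
    (hlt : Q.Φ (G.ex y q) < θ) : Q.df (G.ex y q) (G.ex y ((k / (1 + k)) • q)) = 0 :=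
  G.se_plateau Q hk hq hA hlt

theorem outward {z y'' : M} {q₁ q₂ : E n} (h₁ : q₁ ∈ MinS G.ex z) (h₂ : q₂ ∈ MinS G.ex z) {r H σ : ℝ}
    (hr : r ∈ Icc (0 : ℝ) (1 / 4)) (hH : 0 < H) (hσ : 32 * H ≤ σ) (d1 : Q.df (G.ex z q₁) z ≤ H) (d2 : Q.df (G.ex z q₂) z ≤ H)
    (l1 : σ / 2 ≤ ‖q₁‖ ^ 2 / 2 - ‖q₂‖ ^ 2 / 2) (l2 : ‖q₁‖ ^ 2 / 2 - ‖q₂‖ ^ 2 / 2 ≤ 3 * σ) (l3 : ‖q₁ - q₂‖ ^ 2 ≤ 20 * σ)
    (h0 : Q.df (G.ex z (sg q₁ q₂ r)) y'' = 0) : Q.df (G.ex z q₁) y'' ≤ 129 * H :=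
  G.seh_outward Q h₁ h₂ hr hH hσ d1 d2 l1 l2 l3 h0

end Ge

end Crest.Agent.R226.S

end
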