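import Crest.Agent.R226.SPot

/-!
# rid 226 / SSum1_x: `Gs_subset`, `sum_classes` (primed copies used in `SSum.lean`)
-/

set_option autoImplicit false
set_option linter.unusedSectionVars false

open scoped Topology RealInnerProductSpace ENNReal NNReal
open Set Filter MeasureTheory Asymptotics
open Crest.Agent.R226.L

noncomputable section

namespace Crest.Agent.R226.S

variable {n : ℕ} {M : Type*} [MetricSpace M] [MeasurableSpace M]

/-- summing a family of sets along the first index at which a point is met -/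
theorem ssum1_abs (μ : Measure M) (Y : ℤ → Set M) (T : ℕ → Set M) (hY : ∀ k, MeasurableSet (Y k))
    (hT : ∀ i, MeasurableSet (T i)) (hb : ∀ y, ∃ b : ℤ, ∀ k, y ∈ Y k → b ≤ k)
    (hYT : ∀ (k : ℤ) (i : ℕ), Y k ∩ Y (k - i) ⊆ T i) {S : Set M} (hS : MeasurableSet S) :
    ∑' k : ℤ, μ (Y k ∩ S) ≤ ∑' i : ℕ, μ (T i ∩ S) := by
  set F : ℤ → Set M := fun k => Y k \ ⋃ j : {j : ℤ // j < k}, Y j with hF
  have hFm : ∀ k, MeasurableSet (F k) := fun k =>
    (hY k).diff (MeasurableSet.iUnion fun j => hY j)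
  have hFd : Pairwise (Function.onFun Disjoint F) := by
    intro k l hkl
    rw [Function.onFun, Set.disjoint_left]
    intro y hk hl
    rcases lt_or_gt_of_ne hkl with h | h
    · exact hl.2 (mem_iUnion.2 ⟨⟨k, h⟩, hk.1⟩)
    · exact hk.2 (mem_iUnion.2 ⟨⟨l, h⟩, hl.1⟩)
  have h1 : ∀ k : ℤ, Y k ∩ S ⊆ ⋃ i : ℕ, T i ∩ S ∩ F (k - i) := by
    intro k y hy
    obtain ⟨l, hl, hmin⟩ := Int.exists_least_of_bdd (P := fun k => y ∈ Y k) (hb y) ⟨k, hy.1⟩
    have hlk : l ≤ k := hmin k hy.1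
    have e : k - ((k - l).toNat : ℤ) = l := by
      rw [Int.toNat_of_nonneg (by omega)]; ring
    refine mem_iUnion.2 ⟨(k - l).toNat, ⟨hYT k _ ⟨hy.1, by rw [e]; exact hl⟩, hy.2⟩, ?_⟩
    rw [e]
    refine ⟨hl, fun h => ?_⟩
    obtain ⟨⟨j, hj⟩, hyj⟩ := mem_iUnion.1 h
    exact absurd (hmin j hyj) (not_le.2 hj)
  calc ∑' k : ℤ, μ (Y k ∩ S) ≤ ∑' k : ℤ, ∑' i : ℕ, μ (T i ∩ S ∩ F (k - i)) :=
        ENNReal.tsum_le_tsum fun k => (measure_mono (h1 k)).trans (measure_iUnion_le _)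
    _ = ∑' i : ℕ, ∑' k : ℤ, μ (T i ∩ S ∩ F (k - i)) := ENNReal.tsum_comm
    _ ≤ ∑' i : ℕ, μ (T i ∩ S) := by
        refine ENNReal.tsum_le_tsum fun i => ?_
        rw [← measure_iUnion]
        · exact measure_mono (iUnion_subset fun k => inter_subset_left)
        · intro k l hkl
          have : k - (i : ℤ) ≠ l - i := fun h => hkl (by omega)
          exact (hFd this).mono inter_subset_right inter_subset_right
        · exact fun k => ((hT i).inter hS).inter (hFm _)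

namespace Ge

variable [CompactSpace M] [BorelSpace M] (G : Ge n M) {κ : ℝ}

theorem Gs_subset' (Q : Pot G.μ κ) {h σ η : ℝ} (hσ : 0 < σ) (hη : 0 < η) :
    Q.Gs h σ ⊆ ⋃ k : ℤ, Q.Es h σ η (k * (η * σ)) := by
  rintro y ⟨a, b, ha, hb, hab⟩
  have hp : 0 < η * σ := mul_pos hη hσ
  refine mem_iUnion.2 ⟨⌈Q.Φ a / (η * σ)⌉, a, b, ha, hb, ?_, ?_, hab⟩
  · have := (Int.ceil_lt_add_one (Q.Φ a / (η * σ))).le
    have h2 := mul_le_mul_of_nonneg_right this hp.le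
    rw [add_mul, div_mul_cancel₀ _ hp.ne'] at h2
    linarith
  · have := Int.le_ceil (Q.Φ a / (η * σ))
    rwa [div_le_iff₀ hp] at this

theorem sum_classes' (Q : Pot G.μ κ) {H σ η : ℝ} (hσ : 0 < σ) (hη : 0 < η) (C : ℝ) {S : Set M}
    (hS : MeasurableSet S) :
    ∑' k : ℤ, G.μ (Q.Ys H (k * (η * σ)) (k * (η * σ) + (1 - C * η) * σ) ∩ S) ≤
      ∑' i : ℕ, G.μ (Q.Gs H ((1 + (i - C) * η) * σ) ∩ S) := by
  have hp : 0 < η * σ := mul_pos hη hσ
  refine ssum1_abs G.μ (fun k : ℤ => Q.Ys H (k * (η * σ)) (k * (η * σ) + (1 - C * η) * σ))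
    (fun i : ℕ => Q.Gs H ((1 + (i - C) * η) * σ)) (fun k => (G.isClosed_Ys Q _ _ _).measurableSet)
    (fun i => (G.isClosed_Gs Q _ _).measurableSet) (fun y => ?_) (fun k i => ?_) hS
  · refine ⟨⌈(Q.Φ y - G.K * G.D ^ 2) / (η * σ)⌉, fun k hk => ?_⟩
    obtain ⟨a, b, -, -, ha, -⟩ := hk
    rw [Int.ceil_le, div_le_iff₀ hp]
    have := (abs_le.1 (G.Φ_osc Q y a)).2
    linarith
  · rintro y ⟨⟨a, b, -, hb, -, hb2⟩, ⟨a', b', ha', -, ha2, -⟩⟩
    refine ⟨a', b, ha', hb, ?_⟩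
    push_cast at ha2
    nlinarith

end Ge

end Crest.Agent.R226.S

end
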