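import Mathlib

/-!
# rid 226 / SSum2_num: the numerical part of `SSum`
-/

set_option autoImplicit false

open scoped Topology ENNReal NNReal
open Set Filter

namespace Crest.Agent.R226.S

theorem ssum_bern {N : ℕ} (hN : 0 < N) (a : ℕ) {j : ℝ} (hj : 0 ≤ j) :
    (1 + j * (N : ℝ)⁻¹)⁻¹ ^ (a * N) ≤ (1 + j)⁻¹ ^ a := by
  have hN' : (0 : ℝ) < N := by exact_mod_cast hN
  have h1 : 1 + (N : ℝ) * (j * (N : ℝ)⁻¹) ≤ (1 + j * (N : ℝ)⁻¹) ^ N :=
    one_add_mul_le_pow (by have : 0 ≤ j * (N : ℝ)⁻¹ := by positivity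
                           linarith) N
  have h2 : (N : ℝ) * (j * (N : ℝ)⁻¹) = j := by field_simp
  rw [h2] at h1
  rw [mul_comm a N, pow_mul, inv_pow]
  exact pow_le_pow_left₀ (by positivity) (inv_anti₀ (by positivity) h1) a

theorem ssum_tsum {t w : ℕ → ℝ} (hw : Summable w) (hw0 : ∀ i, 0 ≤ w i) {k : ℝ} (hk : 0 ≤ k)
    (h : ∀ i, t i ≤ k * w i) : ∑' i, ENNReal.ofReal (t i) ≤ ENNReal.ofReal (k * ∑' i, w i) := by
  rw [← tsum_mul_left, ENNReal.ofReal_tsum_of_nonneg (fun i => mul_nonneg hk (hw0 i)) (hw.mul_left k)]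
  exact ENNReal.tsum_le_tsum fun i => ENNReal.ofReal_le_ofReal (h i)

/-- the numerical part -/
theorem ssum_num' (n C₄ : ℕ) {Kk c η₀ : ℝ} (hK : 1 ≤ Kk) (hc : 0 < c) (hη : 0 < η₀) :
    ∃ (η : ℝ) (A : ℕ), 0 < η ∧ η ≤ η₀ ∧ C₄ * η < 1 ∧ 2 * (n + 1) ≤ A ∧
      ENNReal.ofReal (2 * Kk ^ (n + 1)) *
        (∑' i : ℕ, ENNReal.ofReal ((max (1 + η) (1 + (i - C₄) * η))⁻¹ ^ A) +
          ENNReal.ofReal η * ∑' i : ℕ, ENNReal.ofReal ((1 + (i - C₄) * η)⁻¹ ^ A)) < ENNReal.ofReal c := by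
  have hL : 0 < 2 * Kk ^ (n + 1) := by positivity
  generalize 2 * Kk ^ (n + 1) = L at hL ⊢
  set w : ℕ → ℝ := fun i => (1 + max 1 ((i : ℝ) - C₄))⁻¹ ^ 2 with hwdef
  have hw0 : ∀ i, 0 ≤ w i := fun i => sq_nonneg _
  have hw : Summable w := by
    rw [← summable_nat_add_iff (C₄ + 1)]
    have h1 := (summable_nat_add_iff 2).2 (Real.summable_nat_pow_inv.2 (one_lt_two : 1 < 2))
    refine h1.congr fun i => ?_
    simp only [hwdef]
    rw [max_eq_right (by push_cast; linarith [Nat.cast_nonneg (α := ℝ) i]), inv_pow]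
    congr 2
    push_cast
    ring
  have hT : 0 ≤ ∑' i, w i := tsum_nonneg hw0
  obtain ⟨b, hb⟩ := exists_pow_lt_of_lt_one (show 0 < c / (2 * (L * ∑' i, w i + 1)) by positivity)
    (show (2 : ℝ)⁻¹ < 1 by norm_num)
  set B : ℝ := 4 * Real.exp (2 * C₄ * (b + 2 : ℕ)) with hB
  have hB1 : 1 ≤ B := by
    have := Real.one_le_exp (show (0 : ℝ) ≤ 2 * C₄ * (b + 2 : ℕ) by positivity)
    linarith
  obtain ⟨N, hN⟩ := exists_nat_gt (2 * C₄ + η₀⁻¹ + (n + 1) + 2 * (L * (B * ∑' i, w i)) / c)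
  have p1 : (0 : ℝ) ≤ C₄ := Nat.cast_nonneg _
  have p2 : 0 < η₀⁻¹ := by positivity
  have p3 : (0 : ℝ) < n + 1 := by positivity
  have p4 : 0 ≤ 2 * (L * (B * ∑' i, w i)) / c := by positivity
  have hN0 : (0 : ℝ) < N := by linarith
  have hN0' : 0 < N := by exact_mod_cast hN0
  have hC : (C₄ : ℝ) * (N : ℝ)⁻¹ ≤ 1 / 2 := by
    rw [← div_eq_mul_inv, div_le_iff₀ hN0]; linarith
  have hNi : 0 < (N : ℝ)⁻¹ := by positivity
  refine ⟨(N : ℝ)⁻¹, (b + 2) * N, hNi, ?_, by linarith, ?_, ?_⟩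
  · exact inv_le_of_inv_le₀ hη (by linarith)
  · have : n + 1 ≤ N := by exact_mod_cast (show ((n + 1 : ℕ) : ℝ) ≤ N by push_cast; linarith)
    exact Nat.mul_le_mul (by omega) this
  have k1 : ∀ i : ℕ, (1 + max 1 ((i : ℝ) - C₄) * (N : ℝ)⁻¹)⁻¹ ^ ((b + 2) * N) ≤ 2⁻¹ ^ b * w i := by
    intro i
    have h1 : (1 : ℝ) ≤ max 1 ((i : ℝ) - C₄) := le_max_left _ _
    refine (ssum_bern hN0' _ (by linarith)).trans ?_
    rw [pow_add]
    exact mul_le_mul_of_nonneg_right (pow_le_pow_left₀ (by positivity) (inv_anti₀ two_pos (by linarith)) b) (hw0 i)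
  have s1 := ssum_tsum (t := fun i : ℕ => (max (1 + (N : ℝ)⁻¹) (1 + (i - C₄) * (N : ℝ)⁻¹))⁻¹ ^ ((b + 2) * N))
    hw hw0 (k := 2⁻¹ ^ b) (by positivity) fun i => by
      refine le_trans (le_of_eq ?_) (k1 i)
      rw [max_mul_of_nonneg _ _ hNi.le, one_mul, add_max]
  have s2 := ssum_tsum (t := fun i : ℕ => (1 + (i - C₄) * (N : ℝ)⁻¹)⁻¹ ^ ((b + 2) * N))
    hw hw0 (k := B) (by positivity) fun i => by
      rcases le_or_gt i C₄ with hi | hi
      · have hi' : (i : ℝ) ≤ C₄ := by exact_mod_cast hi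
        have hwi : w i = 4⁻¹ := by
          simp only [hwdef]
          rw [max_eq_left (by linarith)]
          norm_num
        have h1 : (1 + (i - C₄) * (N : ℝ)⁻¹)⁻¹ ≤ Real.exp (2 * (C₄ * (N : ℝ)⁻¹)) := by
          have h2 : 0 ≤ (i : ℝ) * (N : ℝ)⁻¹ := by positivity
          have h3 : 0 ≤ (C₄ : ℝ) * (N : ℝ)⁻¹ := by positivity
          refine le_trans ?_ (Real.add_one_le_exp _)
          rw [inv_le_iff_one_le_mul₀ (by linarith)]
          nlinarith [mul_nonneg h2 h3]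
        have h0 : 0 ≤ (1 + (i - C₄) * (N : ℝ)⁻¹)⁻¹ := by
          have h2 : 0 ≤ (i : ℝ) * (N : ℝ)⁻¹ := by positivity
          exact inv_nonneg.2 (by linarith)
        refine (pow_le_pow_left₀ h0 h1 _).trans (le_of_eq ?_)
        rw [← Real.exp_nat_mul, hwi, hB, mul_assoc, mul_comm, mul_assoc]
        norm_num
        field_simp
      · have hi' : (1 : ℝ) ≤ i - C₄ := by
          have : ((C₄ + 1 : ℕ) : ℝ) ≤ i := by exact_mod_cast hi
          push_cast at this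
          linarith
        have h1 := k1 i
        rw [max_eq_right hi'] at h1
        exact h1.trans (mul_le_mul_of_nonneg_right ((pow_le_one₀ (by norm_num) (by norm_num)).trans hB1) (hw0 i))
  refine lt_of_le_of_lt (mul_le_mul_right (add_le_add s1 (mul_le_mul_right s2 _)) _) ?_
  rw [← ENNReal.ofReal_mul hNi.le, ← ENNReal.ofReal_add (by positivity) (by positivity),
    ← ENNReal.ofReal_mul hL.le, ENNReal.ofReal_lt_ofReal_iff hc]
  have e1 : L * (2⁻¹ ^ b * ∑' i, w i) ≤ c / 2 := by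
    rw [lt_div_iff₀ (by positivity)] at hb
    have : (0 : ℝ) < 2⁻¹ ^ b := by positivity
    nlinarith
  have e2 : L * ((N : ℝ)⁻¹ * (B * ∑' i, w i)) < c / 2 := by
    have h1 : 2 * (L * (B * ∑' i, w i)) / c < N := by linarith
    rw [div_lt_iff₀ hc] at h1
    have h2 : L * ((N : ℝ)⁻¹ * (B * ∑' i, w i)) = L * (B * ∑' i, w i) / N := by field_simp
    rw [h2, div_lt_iff₀ hN0]
    linarith
  linarith

end Crest.Agent.R226.S
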