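import Crest.Agent.R226.SSum1_x
import Crest.Agent.R226.SSum2_num

/-!
# rid 226 / SSum5_h: the maximiser argument (helper79)
-/

set_option autoImplicit false
set_option linter.unusedSectionVars false

open scoped Topology RealInnerProductSpace ENNReal NNReal
open Set Filter MeasureTheory Asymptotics
open Crest.Agent.R226.L

noncomputable section

namespace Crest.Agent.R226.S

variable {n : ℕ} {M : Type*} [MetricSpace M] [MeasurableSpace M]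

namespace Ge

variable [CompactSpace M] [BorelSpace M] (G : Ge n M) {κ : ℝ}

theorem ssh_contra (Q : Pot G.μ κ) {Kk c η h σ : ℝ} {C₄ A : ℕ} (hη : 0 < η) (hσ : 0 < σ) (hC : C₄ * η < 1)
    (hkp : ∀ θ : ℝ, ENNReal.ofReal c * G.μ (Q.Es h σ η θ) ≤
        G.μ (Q.Ys (Kk * h) θ (θ + (1 - C₄ * η) * σ) ∩ Q.Gs (Kk * h) ((1 + η) * σ)) +
          ENNReal.ofReal η * G.μ (Q.Ys (Kk * h) θ (θ + (1 - C₄ * η) * σ)))
    (hnum : ENNReal.ofReal (2 * Kk ^ (n + 1)) *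
        (∑' i : ℕ, ENNReal.ofReal ((max (1 + η) (1 + (i - C₄) * η))⁻¹ ^ A) +
          ENNReal.ofReal η * ∑' i : ℕ, ENNReal.ofReal ((1 + (i - C₄) * η)⁻¹ ^ A)) < ENNReal.ofReal c)
    (hmax : ∀ a : ℝ, 0 < a → G.μ (Q.Gs (Kk * h) (a * σ)) ≤
      ENNReal.ofReal (2 * Kk ^ (n + 1)) * (ENNReal.ofReal (a⁻¹ ^ A) * G.μ (Q.Gs h σ))) : G.μ (Q.Gs h σ) = 0 := by
  by_contra h0
  have hfin : G.μ (Q.Gs h σ) ≠ ∞ := ne_top_of_le_ne_top G.fin (measure_mono (subset_univ _))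
  have hpos : ∀ i : ℕ, 0 < 1 + ((i : ℝ) - C₄) * η := fun i => by
    have : 0 ≤ (i : ℝ) * η := by positivity
    linarith [sub_mul (i : ℝ) C₄ η]
  have s1 := G.sum_classes' Q (H := Kk * h) hσ hη C₄ (G.isClosed_Gs Q (Kk * h) ((1 + η) * σ)).measurableSet
  have s2 := G.sum_classes' Q (H := Kk * h) hσ hη C₄ MeasurableSet.univ
  simp only [inter_univ] at s2
  have b1 : ∀ i : ℕ, G.μ (Q.Gs (Kk * h) ((1 + (i - C₄) * η) * σ) ∩ Q.Gs (Kk * h) ((1 + η) * σ)) ≤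
      ENNReal.ofReal (2 * Kk ^ (n + 1)) *
        (ENNReal.ofReal ((max (1 + η) (1 + (i - C₄) * η))⁻¹ ^ A) * G.μ (Q.Gs h σ)) := fun i => by
    refine le_trans (measure_mono ?_) (hmax _ (lt_max_of_lt_left (by linarith)))
    rcases le_total (1 + η) (1 + ((i : ℝ) - C₄) * η) with e | e
    · rw [max_eq_right e]
      exact inter_subset_left
    · rw [max_eq_left e]
      exact inter_subset_right
  have key : ENNReal.ofReal c * G.μ (Q.Gs h σ) ≤ ENNReal.ofReal (2 * Kk ^ (n + 1)) *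
        (∑' i : ℕ, ENNReal.ofReal ((max (1 + η) (1 + (i - C₄) * η))⁻¹ ^ A) +
          ENNReal.ofReal η * ∑' i : ℕ, ENNReal.ofReal ((1 + (i - C₄) * η)⁻¹ ^ A)) * G.μ (Q.Gs h σ) := by
    calc ENNReal.ofReal c * G.μ (Q.Gs h σ) ≤ ENNReal.ofReal c * ∑' k : ℤ, G.μ (Q.Es h σ η (k * (η * σ))) :=
          mul_le_mul_right ((measure_mono (G.Gs_subset' Q hσ hη)).trans (measure_iUnion_le _)) _
      _ ≤ ∑' k : ℤ, (G.μ (Q.Ys (Kk * h) (k * (η * σ)) (k * (η * σ) + (1 - C₄ * η) * σ) ∩ Q.Gs (Kk * h) ((1 + η) * σ)) +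
          ENNReal.ofReal η * G.μ (Q.Ys (Kk * h) (k * (η * σ)) (k * (η * σ) + (1 - C₄ * η) * σ))) := by
          rw [← ENNReal.tsum_mul_left]
          exact ENNReal.tsum_le_tsum fun k => hkp _
      _ ≤ (∑' i : ℕ, ENNReal.ofReal (2 * Kk ^ (n + 1)) *
            (ENNReal.ofReal ((max (1 + η) (1 + (i - C₄) * η))⁻¹ ^ A) * G.μ (Q.Gs h σ))) +
          ENNReal.ofReal η * ∑' i : ℕ, ENNReal.ofReal (2 * Kk ^ (n + 1)) *
            (ENNReal.ofReal ((1 + (i - C₄) * η)⁻¹ ^ A) * G.μ (Q.Gs h σ)) := by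
          rw [ENNReal.tsum_add, ENNReal.tsum_mul_left]
          exact add_le_add (s1.trans (ENNReal.tsum_le_tsum b1))
            (mul_le_mul_right (s2.trans (ENNReal.tsum_le_tsum fun i => hmax _ (hpos i))) _)
      _ = _ := by
          simp only [ENNReal.tsum_mul_left, ENNReal.tsum_mul_right]
          ring
  exact absurd key (not_le.2 (ENNReal.mul_lt_mul_left h0 hfin hnum))

theorem ssh_bound (h : KP G.μ κ) : ∃ (A : ℕ) (C : ℝ), 1 ≤ A ∧ 0 ≤ C ∧ ∀ (Q : Pot G.μ κ) (h σ : ℝ), 0 < h → 0 < σ →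
    (G.μ (Q.Gs h σ)).toReal * σ ^ A ≤ C * h ^ (n + 1) := by
  have : IsFiniteMeasure G.μ := ⟨G.fin.lt_top⟩
  obtain ⟨Kk, c, η₀, C₄, hK, hc, hη₀, H⟩ := h
  obtain ⟨η, A, hη, hη', hC, hA, hnum⟩ := ssum_num' n C₄ hK hc hη₀
  obtain ⟨cη, hcη, H⟩ := H η hη hη'
  obtain ⟨B, rfl⟩ := Nat.exists_eq_add_of_le hA
  obtain ⟨Λ, hΛ⟩ : ∃ Λ, Λ = G.K * G.D ^ 2 := ⟨_, rfl⟩
  have hΛ1 : 1 ≤ Λ := hΛ ▸ one_le_mul_of_one_le_of_one_le G.one_le_K (one_le_pow₀ G.one_le_D)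
  obtain ⟨V, hV⟩ : ∃ V, V = (G.μ univ).toReal := ⟨_, rfl⟩
  have hV0 : 0 ≤ V := hV ▸ ENNReal.toReal_nonneg
  refine ⟨2 * (n + 1) + B, 2 * (V * Λ ^ B / cη ^ (n + 1)), by omega, by positivity, fun Q h₀ σ₀ hh₀ hσ₀ => ?_⟩
  obtain ⟨f, hf⟩ : ∃ f : ℝ → ℝ → ℝ, f = fun h σ => (G.μ (Q.Gs h σ)).toReal * σ ^ (2 * (n + 1) + B) / h ^ (n + 1) :=
    ⟨_, rfl⟩
  have hm : ∀ h σ, (G.μ (Q.Gs h σ)).toReal ≤ V := fun h σ =>
    hV ▸ ENNReal.toReal_mono G.fin (measure_mono (subset_univ _))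
  have hz : ∀ h σ, Λ < σ → f h σ = 0 := fun h σ hσ => by
    have : Q.Gs h σ = ∅ := eq_empty_of_forall_notMem fun y ⟨a, b, _, _, e⟩ => by
      have := (abs_le.1 (G.Φ_osc Q b a)).2
      linarith
    simp [hf, this]
  obtain ⟨S, hS⟩ : ∃ S : Set ℝ, S = {x | ∃ h σ, h₀ ≤ h ∧ 0 < σ ∧ x = f h σ} := ⟨_, rfl⟩
  have hbd : BddAbove S := by
    refine ⟨V * Λ ^ (2 * (n + 1) + B) / h₀ ^ (n + 1), ?_⟩
    rw [hS]
    rintro _ ⟨h, σ, h1, h2, rfl⟩
    rcases lt_or_ge Λ σ with e | e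
    · rw [hz h σ e]
      positivity
    · simp only [hf]
      gcongr
      exact hm h σ
  have hle : ∀ h σ, h₀ ≤ h → 0 < σ → f h σ ≤ sSup S := fun h σ h1 h2 => le_csSup hbd (hS ▸ ⟨h, σ, h1, h2, rfl⟩)
  suffices hs : sSup S ≤ 2 * (V * Λ ^ B / cη ^ (n + 1)) by
    have := (hle h₀ σ₀ le_rfl hσ₀).trans hs
    simp only [hf] at this
    rwa [div_le_iff₀ (by positivity)] at this
  by_contra hs
  push Not at hs
  have hC1 : 0 ≤ V * Λ ^ B / cη ^ (n + 1) := by positivity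
  obtain ⟨x, hx, hx'⟩ := exists_lt_of_lt_csSup (s := S) ⟨f h₀ σ₀, by rw [hS]; exact ⟨h₀, σ₀, le_rfl, hσ₀, rfl⟩⟩
    (show sSup S / 2 < sSup S by linarith)
  rw [hS] at hx
  obtain ⟨h, σ, h1, hσ, rfl⟩ := hx
  have hh : 0 < h := hh₀.trans_le h1
  have hσΛ : σ ≤ Λ := by
    by_contra e
    rw [hz h σ (not_le.1 e)] at hx'
    linarith
  have hsmall : h ≤ cη * σ ^ 2 := by
    by_contra e
    have e' := (not_le.1 e).le
    have : f h σ ≤ V * Λ ^ B / cη ^ (n + 1) := by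
      calc f h σ ≤ V * σ ^ (2 * (n + 1) + B) / (cη * σ ^ 2) ^ (n + 1) := by
            simp only [hf]
            gcongr
            exact hm h σ
        _ = V * σ ^ B / cη ^ (n + 1) := by
            rw [mul_pow, ← pow_mul, pow_add]
            field_simp
        _ ≤ _ := by gcongr
    linarith
  have h0 := G.ssh_contra Q hη hσ hC (fun θ => H Q h σ θ hh hσ hsmall) hnum fun a ha => by
    have e1 := hle (Kk * h) (a * σ) (by nlinarith) (by positivity)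
    have e2 : f (Kk * h) (a * σ) ≤ 2 * f h σ := by linarith
    simp only [hf] at e2
    rw [div_le_iff₀ (by positivity)] at e2
    rw [← ENNReal.ofReal_toReal (measure_ne_top G.μ (Q.Gs (Kk * h) (a * σ))),
      ← ENNReal.ofReal_toReal (measure_ne_top G.μ (Q.Gs h σ)), ← ENNReal.ofReal_mul (by positivity),
      ← ENNReal.ofReal_mul (by positivity)]
    refine ENNReal.ofReal_le_ofReal ?_
    rw [← le_div_iff₀ (by positivity)] at e2
    refine e2.trans (le_of_eq ?_)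
    rw [mul_pow, mul_pow, inv_pow]
    field_simp
  simp only [hf, h0, ENNReal.toReal_zero, zero_mul, zero_div] at hx'
  linarith

end Ge

end Crest.Agent.R226.S

end
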