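import Crest.Agent.R226.SSum4_g
import Crest.Agent.R226.SSum5_h
import Crest.Agent.R226.SPot
import Crest.Agent.R226.SSum1_x
import Crest.Agent.R226.SSum2_num

/-!
# rid 226 / SSum: from the key estimate to the power bound (prefix `ssum_`)

`m(h,σ) = μ (Gs h σ)` (finite).  `sum_classes`: classes `θ_k = k η σ`, `k ∈ ℤ`; `Gs h σ ⊆ ⋃ Es h σ η θ_k` (`k = ⌈Φ a/(ησ)⌉`).  `Y_k = Ys H θ_k (θ_k + (1 - C₄η)σ)` is closed.  If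
`y ∈ Y_k ∩ Y_{k-i}` then `y ∈ Gs H ((1 + (i - C₄)η)σ)` (inner point of `k - i`, outer point of `k`).  Every `y ∈ Y_k` has a smallest `k' ≤ k` with `y ∈ Y_{k'}` (`Φ` is bounded below);
the sets `Y_k ∩ {k_min = k - i}` are disjoint in `k` for fixed `i` and measurable, so for measurable `S`: `∑_k μ (Y_k ∩ S) ≤ ∑_i μ (Gs H ((1+(i-C₄)η)σ) ∩ S)`.
`gapBd_of_kp`: take `η = 1/N`, `A = a₀ N` (`a₀, N ∈ ℕ`).  Fix `h₀ > 0`, `S₀ = sup {m(h,σ) σ^A / h^(n+1) | h ≥ h₀, σ > 0}` is finite (`m = 0` for `σ > K D²`, `Φ_osc`).  If `S₀ > 0` take `(h,σ)`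
with value `≥ S₀/2`; then `m(Kk h, σ') ≤ 2 Kk^(n+1) (σ/σ')^A m(h,σ)` for all `σ' > 0`.  If `h ≤ cη σ²`, `KP` and `sum_classes` give
`c m ≤ 2 Kk^(n+1) m [ (C₄+1)(1+η)^(-A) + ∑_{i≥1} (1+iη)^(-A) + η ((C₄+1)(1-C₄η)^(-A) + ∑_{i≥1} (1+iη)^(-A)) ]`; Bernoulli `(1+i/N)^N ≥ 1+i` bounds the series by `4 · 2^(-a₀)` (`a₀ ≥ 2`),
`(1 - C₄/N)^(-a₀N) ≤ exp(2 C₄ a₀)` for `N ≥ 2C₄`.  Choose `a₀`, then `N` (also `N ≥ 1/η₀`, `a₀ N ≥ 2(n+1)`): contradiction.  So `h > cη σ²` and `S₀ ≤ C` independent of `h₀` and `Q`.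
Finally if `df a y, df b y ≤ h`, `σ = Φ b - Φ a > 0`, then `closedBall y (h/(2D)) ⊆ Gs (2h) σ` (`df_lip`), `ball` gives `c (h/(2D))^n σ^A ≤ C (2h)^(n+1)`, so `σ ≤ C' h^(1/A)`.
-/

set_option autoImplicit false
set_option linter.unusedSectionVars false

open scoped Topology RealInnerProductSpace ENNReal NNReal
open Set Filter MeasureTheory Asymptotics
open Crest.Agent.R226.L

noncomputable section

namespace Crest.Agent.R226.S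

variable {n : ℕ} {M : Type*} [MetricSpace M] [MeasurableSpace M]

namespace Ge

variable [CompactSpace M] [BorelSpace M] (G : Ge n M) {κ : ℝ}

theorem Gs_subset (Q : Pot G.μ κ) {h σ η : ℝ} (hσ : 0 < σ) (hη : 0 < η) :
    Q.Gs h σ ⊆ ⋃ k : ℤ, Q.Es h σ η (k * (η * σ)) :=
  G.Gs_subset' Q hσ hη

theorem sum_classes (Q : Pot G.μ κ) {H σ η : ℝ} (hσ : 0 < σ) (hη : 0 < η) (C : ℝ) {S : Set M} (hS : MeasurableSet S) :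
    ∑' k : ℤ, G.μ (Q.Ys H (k * (η * σ)) (k * (η * σ) + (1 - C * η) * σ) ∩ S) ≤
      ∑' i : ℕ, G.μ (Q.Gs H ((1 + (i - C) * η) * σ) ∩ S) :=
  G.sum_classes' Q hσ hη C hS

/-- the numerical part -/
theorem ssum_num (n C₄ : ℕ) {Kk c η₀ : ℝ} (hK : 1 ≤ Kk) (hc : 0 < c) (hη : 0 < η₀) :
    ∃ (η : ℝ) (A : ℕ), 0 < η ∧ η ≤ η₀ ∧ C₄ * η < 1 ∧ 2 * (n + 1) ≤ A ∧
      ENNReal.ofReal (2 * Kk ^ (n + 1)) *
        (∑' i : ℕ, ENNReal.ofReal ((max (1 + η) (1 + (i - C₄) * η))⁻¹ ^ A) +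
          ENNReal.ofReal η * ∑' i : ℕ, ENNReal.ofReal ((1 + (i - C₄) * η)⁻¹ ^ A)) < ENNReal.ofReal c :=
  ssum_num' n C₄ hK hc hη

/-- uniform bound for `m(h,σ) σ^A / h^(n+1)` -/
theorem bound_of_kp (h : KP G.μ κ) : ∃ (A : ℕ) (C : ℝ), 1 ≤ A ∧ 0 ≤ C ∧ ∀ (Q : Pot G.μ κ) (h σ : ℝ), 0 < h → 0 < σ →
    (G.μ (Q.Gs h σ)).toReal * σ ^ A ≤ C * h ^ (n + 1) :=
  G.ssh_bound h

theorem gapBd_of_kp (h : KP G.μ κ) : GapBd G.μ κ :=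
  G.gapBd_of_bound (G.bound_of_kp h)

end Ge

end Crest.Agent.R226.S

end
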