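import Crest.Agent.R226.SPot

/-!
# rid 226 / SSum: the power bound from the uniform measure bound (helper85)
-/

set_option autoImplicit false
set_option linter.unusedSectionVars false

open scoped Topology RealInnerProductSpace ENNReal NNReal
open Set Filter MeasureTheory Asymptotics
open Crest.Agent.R226.L

noncomputable section

namespace Crest.Agent.R226.S

variable {n : ℕ} {M : Type*} [MetricSpace M] [MeasurableSpace M]

namespace Ge

variable [CompactSpace M] [BorelSpace M] (G : Ge n M) {κ : ℝ}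

theorem gapBd_of_bound
    (H : ∃ (A : ℕ) (C : ℝ), 1 ≤ A ∧ 0 ≤ C ∧ ∀ (Q : Pot G.μ κ) (h σ : ℝ), 0 < h → 0 < σ →
      (G.μ (Q.Gs h σ)).toReal * σ ^ A ≤ C * h ^ (n + 1)) : GapBd G.μ κ := by
  obtain ⟨A, C, hA, hC, H⟩ := H
  obtain ⟨c, hc, hb⟩ := G.ball
  have hD : 0 < G.D := lt_of_lt_of_le one_pos G.one_le_D
  have hA0 : (0 : ℝ) < A := by exact_mod_cast hA
  have hA1 : (1 : ℝ) ≤ A := by exact_mod_cast hA
  set C' : ℝ := C * 2 ^ (n + 1) * (2 * G.D) ^ n / c with hC'
  have hC'0 : 0 ≤ C' := by positivity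
  refine ⟨(A : ℝ)⁻¹, C' ^ (A : ℝ)⁻¹, by positivity, inv_le_one_of_one_le₀ hA1, by positivity, ?_⟩
  intro Q h h0 h1 y a b ha hb'
  rcases le_or_gt (Q.Φ b - Q.Φ a) 0 with hσ | hσ
  · exact hσ.trans (by positivity)
  set σ := Q.Φ b - Q.Φ a with hσd
  have hr0 : 0 < h / (2 * G.D) := by positivity
  have hr1 : h / (2 * G.D) ≤ 1 := by
    rw [div_le_one (by positivity)]; linarith [G.one_le_D]
  have hsub : Metric.closedBall y (h / (2 * G.D)) ⊆ Q.Gs (2 * h) σ := by
    intro y' hy'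
    have hd : 2 * G.D * dist y' y ≤ h := by
      have := Metric.mem_closedBall.1 hy'
      rw [le_div_iff₀ (by positivity)] at this
      linarith
    have e1 := (abs_le.1 (G.df_lip Q a y' y)).2
    have e2 := (abs_le.1 (G.df_lip Q b y' y)).2
    exact ⟨a, b, by linarith, by linarith, by rw [hσd]; linarith⟩
  have hfin : G.μ (Q.Gs (2 * h) σ) ≠ ∞ := ne_top_of_le_ne_top G.fin (measure_mono (subset_univ _))
  have h2 : c * (h / (2 * G.D)) ^ n ≤ (G.μ (Q.Gs (2 * h) σ)).toReal :=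
    (ENNReal.ofReal_le_iff_le_toReal hfin).1 ((hb y _ hr0 hr1).trans (measure_mono hsub))
  have h3 := H Q (2 * h) σ (by positivity) hσ
  have h4 : c * (h / (2 * G.D)) ^ n * σ ^ A ≤ C * (2 * h) ^ (n + 1) :=
    (mul_le_mul_of_nonneg_right h2 (by positivity)).trans h3
  have h5 : σ ^ A ≤ C' * h := by
    have e : C * (2 * h) ^ (n + 1) = c * (h / (2 * G.D)) ^ n * (C' * h) := by
      rw [hC', div_pow, mul_pow 2 h, pow_succ h]; field_simp
    rw [e] at h4
    exact le_of_mul_le_mul_left h4 (by positivity)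
  rw [← Real.mul_rpow hC'0 h0.le]
  calc σ = (σ ^ A) ^ (A : ℝ)⁻¹ := (Real.pow_rpow_inv_natCast hσ.le (by omega)).symm
    _ ≤ (C' * h) ^ (A : ℝ)⁻¹ := Real.rpow_le_rpow (by positivity) h5 (by positivity)

end Ge

end Crest.Agent.R226.S

end
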