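import Crest.Agent.R226.SPot
import Crest.Agent.R226.SSum1_x
import Crest.Agent.R226.SSum2_num

/-!
# rid 226 / SSum: the uniform measure bound from the key estimate (helper85)
-/

set_option autoImplicit false
set_option linter.unusedSectionVars false

open scoped Topology RealInnerProductSpace ENNReal NNReal
open Set Filter MeasureTheory Asymptotics
open Crest.Agent.R226.L

noncomputable section

namespace Crest.Agent.R226.S

variable {n : ℕ} {M : Type*} [MetricSpace M] [MeasurableSpace M]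

namespace Ge

variable [CompactSpace M] [BorelSpace M] (G : Ge n M) {κ : ℝ}

theorem ssum5_le (Q : Pot G.μ κ) {h σ : ℝ} (hne : G.μ (Q.Gs h σ) ≠ 0) : σ ≤ G.K * G.D ^ 2 := by
  obtain ⟨y, a, b, -, -, hab⟩ := nonempty_of_measure_ne_zero hne
  linarith [(abs_le.1 (G.Φ_osc Q b a)).2]

theorem ssum5_contra (Q : Pot G.μ κ) {Kk c η h σ : ℝ} {C₄ A : ℕ} (hη : 0 < η) (hσ : 0 < σ) (hC : C₄ * η < 1)
    (hnum : ENNReal.ofReal (2 * Kk ^ (n + 1)) *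
        (∑' i : ℕ, ENNReal.ofReal ((max (1 + η) (1 + (i - C₄) * η))⁻¹ ^ A) +
          ENNReal.ofReal η * ∑' i : ℕ, ENNReal.ofReal ((1 + (i - C₄) * η)⁻¹ ^ A)) < ENNReal.ofReal c)
    (hkp : ∀ θ : ℝ, ENNReal.ofReal c * G.μ (Q.Es h σ η θ) ≤
        G.μ (Q.Ys (Kk * h) θ (θ + (1 - C₄ * η) * σ) ∩ Q.Gs (Kk * h) ((1 + η) * σ)) +
          ENNReal.ofReal η * G.μ (Q.Ys (Kk * h) θ (θ + (1 - C₄ * η) * σ)))
    (hb : ∀ t : ℝ, 0 < t → G.μ (Q.Gs (Kk * h) (t * σ)) ≤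
      ENNReal.ofReal (2 * Kk ^ (n + 1)) * ENNReal.ofReal (t⁻¹ ^ A) * G.μ (Q.Gs h σ)) :
    G.μ (Q.Gs h σ) = 0 := by
  by_contra hne
  have hfin : G.μ (Q.Gs h σ) ≠ ∞ := ne_top_of_le_ne_top G.fin (measure_mono (subset_univ _))
  have ht : ∀ i : ℕ, 0 < 1 + ((i : ℝ) - C₄) * η := fun i => by
    have : 0 ≤ (i : ℝ) * η := by positivity
    nlinarith
  have h1 : G.μ (Q.Gs h σ) ≤ ∑' k : ℤ, G.μ (Q.Es h σ η (k * (η * σ))) :=
    (measure_mono (G.Gs_subset' Q hσ hη)).trans (measure_iUnion_le _)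
  have s1 := G.sum_classes' Q (H := Kk * h) hσ hη (C₄ : ℝ) (G.isClosed_Gs Q (Kk * h) ((1 + η) * σ)).measurableSet
  have s2 := G.sum_classes' Q (H := Kk * h) hσ hη (C₄ : ℝ) MeasurableSet.univ
  simp only [inter_univ] at s2
  have t1 : ∑' i : ℕ, G.μ (Q.Gs (Kk * h) ((1 + (i - C₄) * η) * σ) ∩ Q.Gs (Kk * h) ((1 + η) * σ)) ≤
      ∑' i : ℕ, ENNReal.ofReal (2 * Kk ^ (n + 1)) * ENNReal.ofReal ((max (1 + η) (1 + (i - C₄) * η))⁻¹ ^ A) *
        G.μ (Q.Gs h σ) := ENNReal.tsum_le_tsum fun i => by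
    rcases le_total (1 + η) (1 + ((i : ℝ) - C₄) * η) with hi | hi
    · rw [max_eq_right hi]
      exact (measure_mono inter_subset_left).trans (hb _ (ht i))
    · rw [max_eq_left hi]
      exact (measure_mono inter_subset_right).trans (hb _ (by linarith))
  have t2 : ∑' i : ℕ, G.μ (Q.Gs (Kk * h) ((1 + (i - C₄) * η) * σ)) ≤
      ∑' i : ℕ, ENNReal.ofReal (2 * Kk ^ (n + 1)) * ENNReal.ofReal ((1 + (i - C₄) * η)⁻¹ ^ A) *
        G.μ (Q.Gs h σ) := ENNReal.tsum_le_tsum fun i => hb _ (ht i)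
  rw [ENNReal.tsum_mul_right, ENNReal.tsum_mul_left] at t1 t2
  have h2 : ENNReal.ofReal c * G.μ (Q.Gs h σ) ≤
      (ENNReal.ofReal (2 * Kk ^ (n + 1)) *
        (∑' i : ℕ, ENNReal.ofReal ((max (1 + η) (1 + (i - C₄) * η))⁻¹ ^ A) +
          ENNReal.ofReal η * ∑' i : ℕ, ENNReal.ofReal ((1 + (i - C₄) * η)⁻¹ ^ A))) * G.μ (Q.Gs h σ) := by
    calc ENNReal.ofReal c * G.μ (Q.Gs h σ)
        ≤ ENNReal.ofReal c * ∑' k : ℤ, G.μ (Q.Es h σ η (k * (η * σ))) := by gcongr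
      _ = ∑' k : ℤ, ENNReal.ofReal c * G.μ (Q.Es h σ η (k * (η * σ))) := ENNReal.tsum_mul_left.symm
      _ ≤ _ := ENNReal.tsum_le_tsum fun k => hkp _
      _ = _ := by rw [ENNReal.tsum_add, ENNReal.tsum_mul_left]
      _ ≤ _ := add_le_add (s1.trans t1) (mul_le_mul_right (s2.trans t2) _)
      _ = _ := by ring
  exact absurd h2 (not_le.2 (ENNReal.mul_lt_mul_left hne hfin hnum))

theorem bound_of_kp_b (h : KP G.μ κ) : ∃ (A : ℕ) (C : ℝ), 1 ≤ A ∧ 0 ≤ C ∧ ∀ (Q : Pot G.μ κ) (h σ : ℝ), 0 < h → 0 < σ →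
    (G.μ (Q.Gs h σ)).toReal * σ ^ A ≤ C * h ^ (n + 1) := by
  obtain ⟨Kk, c, η₀, C₄, hK, hc, hη₀, H⟩ := h
  obtain ⟨η, A, hη, hη1, hC, hA, hnum⟩ := ssum_num' n C₄ hK hc hη₀
  obtain ⟨cη, hcη, H⟩ := H η hη hη1
  obtain ⟨B, hB⟩ : ∃ B, B = G.K * G.D ^ 2 := ⟨_, rfl⟩
  obtain ⟨V, hV⟩ : ∃ V, V = (G.μ univ).toReal := ⟨_, rfl⟩
  have hV0 : 0 ≤ V := hV ▸ ENNReal.toReal_nonneg
  have hB0 : 0 ≤ B := by rw [hB]; have := G.one_le_K; positivity
  obtain ⟨j, hj⟩ := Nat.exists_eq_add_of_le hA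
  refine ⟨A, 2 * (V * B ^ j / cη ^ (n + 1)), by omega, by positivity, fun Q h₀ σ₀ hh₀ hσ₀ => ?_⟩
  have hfin : ∀ h σ, G.μ (Q.Gs h σ) ≠ ∞ := fun h σ => ne_top_of_le_ne_top G.fin (measure_mono (subset_univ _))
  have hmV : ∀ h σ, (G.μ (Q.Gs h σ)).toReal ≤ V := fun h σ =>
    hV ▸ ENNReal.toReal_mono G.fin (measure_mono (subset_univ _))
  have hmB : ∀ h σ (k : ℕ), 0 < σ → (G.μ (Q.Gs h σ)).toReal * σ ^ k ≤ V * B ^ k := fun h σ k hσ => by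
    by_cases h0 : G.μ (Q.Gs h σ) = 0
    · rw [h0]; simp only [ENNReal.toReal_zero, zero_mul]; positivity
    · exact mul_le_mul (hmV h σ) (pow_le_pow_left₀ hσ.le (hB ▸ G.ssum5_le Q h0) k) (by positivity) hV0
  set S : Set ℝ := {v | ∃ h σ, h₀ ≤ h ∧ 0 < σ ∧ v = (G.μ (Q.Gs h σ)).toReal * σ ^ A / h ^ (n + 1)} with hS
  have hbdd : BddAbove S := by
    refine ⟨V * B ^ A / h₀ ^ (n + 1), ?_⟩
    rintro v ⟨h, σ, hh, hσ, rfl⟩
    exact div_le_div₀ (by positivity) (hmB h σ A hσ) (by positivity) (pow_le_pow_left₀ hh₀.le hh _)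
  have hmem : ∀ h σ, h₀ ≤ h → 0 < σ → (G.μ (Q.Gs h σ)).toReal * σ ^ A / h ^ (n + 1) ≤ sSup S :=
    fun h σ hh hσ => le_csSup hbdd ⟨h, σ, hh, hσ, rfl⟩
  suffices hs : sSup S ≤ 2 * (V * B ^ j / cη ^ (n + 1)) by
    have := (hmem h₀ σ₀ le_rfl hσ₀).trans hs
    rwa [div_le_iff₀ (by positivity)] at this
  rcases le_or_gt (sSup S) 0 with h0 | h0
  · exact h0.trans (by positivity)
  obtain ⟨v, ⟨h, σ, hh, hσ, rfl⟩, hv⟩ := exists_lt_of_lt_csSup (s := S) ⟨_, h₀, σ₀, le_rfl, hσ₀, rfl⟩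
    (half_lt_self h0)
  have hh' : 0 < h := hh₀.trans_le hh
  rcases le_or_gt h (cη * σ ^ 2) with hle | hlt
  · exfalso
    have hz := G.ssum5_contra Q hη hσ hC hnum (fun θ => H Q h σ θ hh' hσ hle) fun t ht => by
      have h1 := hmem (Kk * h) (t * σ) (hh.trans (le_mul_of_one_le_left hh'.le hK)) (by positivity)
      have hK0 : 0 < Kk := by linarith
      rw [← ENNReal.ofReal_toReal (hfin h σ), ← ENNReal.ofReal_toReal (hfin (Kk * h) (t * σ)),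
        ← ENNReal.ofReal_mul (by positivity), ← ENNReal.ofReal_mul (by positivity)]
      refine ENNReal.ofReal_le_ofReal ?_
      have h2 : (G.μ (Q.Gs (Kk * h) (t * σ))).toReal * (t * σ) ^ A / (Kk * h) ^ (n + 1) ≤
          2 * ((G.μ (Q.Gs h σ)).toReal * σ ^ A / h ^ (n + 1)) := by linarith
      have e : 2 * ((G.μ (Q.Gs h σ)).toReal * σ ^ A / h ^ (n + 1)) =
          2 * Kk ^ (n + 1) * t⁻¹ ^ A * (G.μ (Q.Gs h σ)).toReal * (t * σ) ^ A / (Kk * h) ^ (n + 1) := by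
        rw [mul_pow t, mul_pow Kk, inv_pow]; field_simp
      rw [e, div_le_div_iff_of_pos_right (by positivity)] at h2
      exact le_of_mul_le_mul_right h2 (by positivity)
    rw [hz] at hv
    simp only [ENNReal.toReal_zero, zero_mul, zero_div] at hv
    linarith
  · have h1 : (G.μ (Q.Gs h σ)).toReal * σ ^ A / h ^ (n + 1) ≤ V * B ^ j / cη ^ (n + 1) := by
      have h2 := hmB h σ j hσ
      have h3 : (cη * σ ^ 2) ^ (n + 1) ≤ h ^ (n + 1) := pow_le_pow_left₀ (by positivity) hlt.le _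
      calc (G.μ (Q.Gs h σ)).toReal * σ ^ A / h ^ (n + 1)
          ≤ (G.μ (Q.Gs h σ)).toReal * σ ^ A / (cη * σ ^ 2) ^ (n + 1) :=
            div_le_div_of_nonneg_left (by positivity) (by positivity) h3
        _ = (G.μ (Q.Gs h σ)).toReal * σ ^ j / cη ^ (n + 1) := by
            rw [hj, mul_pow, ← pow_mul, pow_add]; field_simp
        _ ≤ _ := by gcongr
    linarith

end Ge

end Crest.Agent.R226.S

end
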