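import Crest.Agent.R226.SBasic

/-!
# rid 226 / SSyn1_x: first half of the synthetic lemmas of `SSyn` (primed names)
-/

set_option autoImplicit false
set_option linter.unusedSectionVars false

open scoped Topology RealInnerProductSpace ENNReal NNReal
open Set Filter MeasureTheory Asymptotics
open Crest.Agent.R226.L

noncomputable section

namespace Crest.Agent.R226.S

variable {n : ℕ} {M : Type*} [MetricSpace M] [MeasurableSpace M]

theorem ss1_dir {W : E n → ℝ} (hW : DifferentiableAt ℝ W 0) {p : E n} {C : ℝ}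
    (h : ∀ ζ, W ζ ≤ W 0 - ⟪p, ζ⟫ + C * ‖ζ‖ ^ 2) (v : E n) : fderiv ℝ W 0 v + ⟪p, v⟫ = 0 := by
  have h1 : HasDerivAt (fun t : ℝ => W (t • v)) (fderiv ℝ W 0 v) 0 := by
    have e := (hasDerivAt_id (0 : ℝ)).smul_const v
    rw [one_smul] at e
    exact hW.hasFDerivAt.comp_hasDerivAt_of_eq (0 : ℝ) e (by simp)
  have h2 := (h1.add ((hasDerivAt_id (0 : ℝ)).mul_const ⟪p, v⟫)).sub
    ((hasDerivAt_pow 2 (0 : ℝ)).const_mul (C * ‖v‖ ^ 2))
  have h3 := IsLocalMax.hasDerivAt_eq_zero (Eventually.of_forall fun t => ?_) h2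
  · simpa using h3
  · have := h (t • v)
    rw [real_inner_smul_right, norm_smul, mul_pow, Real.norm_eq_abs, sq_abs] at this
    simp only [Pi.sub_apply, Pi.add_apply, id, zero_smul]
    nlinarith

theorem eq_of_upper' {W : E n → ℝ} (hW : DifferentiableAt ℝ W 0) {p p' : E n} {C : ℝ}
    (h : ∀ ζ, W ζ ≤ W 0 - ⟪p, ζ⟫ + C * ‖ζ‖ ^ 2) (h' : ∀ ζ, W ζ ≤ W 0 - ⟪p', ζ⟫ + C * ‖ζ‖ ^ 2) : p = p' :=
  ext_inner_right ℝ fun v => by linarith [ss1_dir hW h v, ss1_dir hW h' v]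

namespace Ge

variable (G : Ge n M)

theorem ae_supp_unique' {U : M → ℝ} (hU : IsCC U) :
    ∀ᵐ z ∂G.μ, ∀ q q', Supp G.ex U z q → Supp G.ex U z q' → q = q' := by
  have hl : LipschitzWith ⟨G.D, zero_le_one.trans G.one_le_D⟩ U :=
    LipschitzWith.of_dist_le_mul fun x y => G.isCC_lip hU x y
  filter_upwards [G.uq1 U _ hl] with z hz q q' hq hq'
  refine eq_of_upper' hz (C := G.K) (fun ζ => ?_) fun ζ => ?_
  · rw [G.g1.exp_zero]; exact G.supp_upper hq ζ
  · rw [G.g1.exp_zero]; exact G.supp_upper hq' ζ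

theorem isCC_concaveOn' {U : M → ℝ} (hU : IsCC U) (z : M) (v : E n) :
    ConcaveOn ℝ univ fun t : ℝ => U (G.ex z (t • v)) - G.K * ‖v‖ ^ 2 * t ^ 2 := by
  have key : ∀ t₀ : ℝ, ∃ m : ℝ, ∀ t : ℝ, U (G.ex z (t • v)) - G.K * ‖v‖ ^ 2 * t ^ 2 ≤
      U (G.ex z (t₀ • v)) - G.K * ‖v‖ ^ 2 * t₀ ^ 2 + m * (t - t₀) := fun t₀ => by
    obtain ⟨u, h1, h2⟩ := G.exists_vel z v t₀
    obtain ⟨q, hq⟩ := G.isCC_supp hU (G.ex z (t₀ • v))
    refine ⟨-⟪q, u⟫ - 2 * (G.K * ‖v‖ ^ 2) * t₀, fun t => ?_⟩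
    have := G.supp_upper hq ((t - t₀) • u)
    rw [h2, add_sub_cancel, real_inner_smul_right, norm_smul, mul_pow, Real.norm_eq_abs, sq_abs, h1] at this
    linarith
  refine ⟨convex_univ, fun x _ y _ a b ha hb hab => ?_⟩
  obtain ⟨m, hm⟩ := key (a • x + b • y)
  have h1 := mul_le_mul_of_nonneg_left (hm x) ha
  have h2 := mul_le_mul_of_nonneg_left (hm y) hb
  simp only [smul_eq_mul] at h1 h2 ⊢
  generalize U (G.ex z ((a * x + b * y) • v)) - G.K * ‖v‖ ^ 2 * (a * x + b * y) ^ 2 = F at h1 h2 ⊢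
  obtain rfl : b = 1 - a := by linarith
  linarith

theorem nobranch' {y w x : M} {T : ℝ} (hT : T ∈ Ioo (0 : ℝ) 1) (h1 : dist y w = T * dist y x)
    (h2 : dist w x = (1 - T) * dist y x) : ∃ q ∈ MinS G.ex y, G.ex y q = x ∧ G.ex y (T • q) = w := by
  obtain ⟨p, hp, rfl⟩ := G.exists_min w y
  obtain ⟨p', hp', rfl⟩ := G.exists_min w x
  have hT0 := hT.1
  have hT1 : 0 < 1 - T := sub_pos.2 hT.2
  have hL := G.g1.L_pos
  have e1 : ‖p‖ = T * dist (G.ex w p) (G.ex w p') := by rw [← h1, dist_comm]; exact (show _ = ‖p‖ from hp).symm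
  have e2 : ‖p'‖ = (1 - T) * dist (G.ex w p) (G.ex w p') := by rw [← h2]; exact (show _ = ‖p'‖ from hp').symm
  have e3 : T⁻¹ • p + (1 - T)⁻¹ • p' = 0 := by
    refine eq_of_upper' (W := fun _ => 0) (differentiableAt_const _) (C := G.L / T + G.L / (1 - T)) (fun ζ => ?_)
      fun ζ => by rw [inner_zero_left, sub_zero, zero_add]; positivity
    have a1 := cst_split (G.ex w p) (G.ex w ζ) (G.ex w p') hT0 hT1
    have a2 := div_le_div_of_nonneg_right (G.g1.sc w p hp ζ) hT0.le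
    have a3 := div_le_div_of_nonneg_right (G.g1.sc w p' hp' ζ) hT1.le
    rw [add_sub_cancel, div_one, cst_comm (G.ex w p) (G.ex w ζ)] at a1
    have a4 := a1.trans (add_le_add a2 a3)
    rw [e1, e2, cst] at a4
    rw [inner_add_left, real_inner_smul_left, real_inner_smul_left]
    refine (sub_nonneg.2 a4).trans (le_of_eq ?_)
    field_simp
    ring
  have e4 : (1 - T⁻¹) • p = p' := by
    have := congrArg (fun u => (1 - T) • u) e3
    simp only [smul_add, smul_smul, smul_zero, mul_inv_cancel₀ hT1.ne', one_smul] at this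
    rw [← neg_eq_iff_add_eq_zero.2 this, ← neg_smul]
    congr 1
    field_simp
    ring
  have e5 : G.ex (G.ex w p) (T⁻¹ • -G.vel w p) = G.ex w p' := by rw [G.rev_smul, e4]
  refine ⟨T⁻¹ • -G.vel w p, ?_, e5, by rw [smul_smul, mul_inv_cancel₀ hT0.ne', one_smul, G.rev]⟩
  change dist _ _ = _
  rw [e5, norm_smul, norm_neg, G.g1.norm_vel, e1, Real.norm_of_nonneg (inv_nonneg.2 hT0.le),
    inv_mul_cancel_left₀ hT0.ne']

end Ge

end Crest.Agent.R226.S

end
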