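import Crest.Agent.R226.SBasic

/-!
# rid 226 / SSyn2_c: proofs of `colip`, `colip_vol`
-/

set_option autoImplicit false
set_option linter.unusedSectionVars false

open scoped Topology RealInnerProductSpace ENNReal NNReal
open Set Filter MeasureTheory Asymptotics
open Crest.Agent.R226.L

noncomputable section

namespace Crest.Agent.R226.S

variable {n : ℕ} {M : Type*} [MetricSpace M] [MeasurableSpace M]

namespace Ge

variable (G : Ge n M)

theorem colip' : ∃ t₀ : ℝ, 0 < t₀ ∧ t₀ ≤ 1 / 8 ∧ ∀ (U : M → ℝ) (y y' : M) (q q' : E n) (t : ℝ), Supp G.ex U y q →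
    Supp G.ex U y' q' → t ∈ Icc 0 t₀ → dist y y' ≤ 4 * G.K * dist (G.ex y (t • q)) (G.ex y' (t • q')) := by
  have hK := G.one_le_K
  have hD := G.one_le_D
  have hρ := G.ρ_pos
  refine ⟨min (1 / (8 * G.K)) (G.ρ / (4 * G.D)), lt_min (by positivity) (by positivity),
    (min_le_left _ _).trans (one_div_le_one_div_of_le (by norm_num) (by linarith)), ?_⟩
  intro U y y' q q' t hq hq' ht
  have t0 := ht.1
  have t1 : t * (8 * G.K) ≤ 1 := (le_div_iff₀ (by positivity)).1 (ht.2.trans (min_le_left _ _))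
  have t2 : t * (4 * G.D) ≤ G.ρ := (le_div_iff₀ (by positivity)).1 (ht.2.trans (min_le_right _ _))
  have t3 : t ∈ Icc (0 : ℝ) 1 := ⟨t0, by nlinarith⟩
  have hn : ∀ {z : M} {p : E n}, p ∈ MinS G.ex z → ‖t • p‖ ≤ G.ρ / 4 := by
    intro z p hp
    rw [norm_smul, Real.norm_of_nonneg t0]
    have := mul_le_mul_of_nonneg_left (G.norm_le_D hp) t0
    linarith
  have d1 : dist y (G.ex y (t • q)) ≤ G.ρ / 4 := (G.g1.dist_le _ _).trans (hn hq.1)
  have d2 : dist y' (G.ex y' (t • q')) ≤ G.ρ / 4 := (G.g1.dist_le _ _).trans (hn hq'.1)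
  have hw : 0 ≤ dist (G.ex y (t • q)) (G.ex y' (t • q')) := dist_nonneg
  rcases le_or_gt (dist y y') G.ρ with hd | hd
  · have key : ∀ {z z' : M} {p : E n}, Supp G.ex U z p → dist z z' ≤ G.ρ →
        t * (U z' - U z) - t * G.K * dist z z' ^ 2 + dist z z' ^ 2 / 4 ≤
          cst z' (G.ex z (t • p)) - cst z (G.ex z (t • p)) := by
      intro z z' p hp hzz
      obtain ⟨ξ, hξ, rfl⟩ := G.exists_min z z'
      have e : dist z (G.ex z ξ) = ‖ξ‖ := hξ
      rw [e] at hzz ⊢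
      have a1 := G.g1.lc z ξ (t • p) (hzz.trans G.ρ_le) ((hn hp.1).trans (by linarith [G.ρ_le]))
      have a2 := mul_le_mul_of_nonneg_left (G.supp_upper hp ξ) t0
      rw [real_inner_smul_left] at a1
      rw [G.cst_of_min (G.smul_mem_min hp.1 t3)]
      linarith
    have k1 := key hq hd
    have k2 := key hq' (z' := y) (by rwa [dist_comm])
    rw [dist_comm y' y] at k2
    have k3 := G.cross y y' _ _ hd (d1.trans (by linarith)) (d2.trans (by linarith))
    have k4 := mul_le_mul_of_nonneg_right t1 (sq_nonneg (dist y y'))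
    rcases (dist_nonneg (x := y) (y := y')).eq_or_lt with h0 | h0
    · rw [← h0]
      positivity
    · refine le_of_mul_le_mul_left ?_ h0
      linarith
  · have k1 := dist_triangle4 y (G.ex y (t • q)) (G.ex y' (t • q')) y'
    rw [dist_comm (G.ex y' (t • q')) y'] at k1
    nlinarith

theorem colip_vol' : ∃ t₀ c : ℝ, 0 < t₀ ∧ t₀ ≤ 1 / 8 ∧ 0 < c ∧ c ≤ 1 ∧
    ∀ (U : M → ℝ) (q : M → E n) (F : Set M) (t : ℝ), (∀ y ∈ F, Supp G.ex U y (q y)) → t ∈ Icc 0 t₀ →
      ENNReal.ofReal c * G.μ F ≤ G.μ ((fun y => G.ex y (t • q y)) '' F) := by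
  obtain ⟨t₀, h0, h1, h⟩ := G.colip'
  have hK := G.one_le_K
  have hK4 : (1 : ℝ) ≤ 4 * G.K := by linarith
  refine ⟨t₀, ((4 * G.K) ^ n)⁻¹, h0, h1, by positivity, inv_le_one_of_one_le₀ (one_le_pow₀ hK4), ?_⟩
  intro U q F t hq ht
  rcases F.eq_empty_or_nonempty with rfl | ⟨y0, -⟩
  · simp
  have : Nonempty M := ⟨y0⟩
  set f : M → M := fun y => G.ex y (t • q y) with hf
  set g := Function.invFunOn f F with hg
  have hl : ∀ a ∈ F, ∀ b ∈ F, dist a b ≤ 4 * G.K * dist (f a) (f b) := fun a ha b hb =>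
    h U a b (q a) (q b) t (hq a ha) (hq b hb) ht
  have g1 : ∀ w ∈ f '' F, g w ∈ F ∧ f (g w) = w := fun w hw => Function.invFunOn_pos hw
  have hC : (0 : ℝ) ≤ 4 * G.K := by linarith
  have hlip : LipschitzOnWith (NNReal.mk (4 * G.K) hC) g (f '' F) := by
    refine LipschitzOnWith.of_dist_le_mul fun w hw w' hw' => ?_
    have := hl _ (g1 w hw).1 _ (g1 w' hw').1
    rwa [(g1 w hw).2, (g1 w' hw').2] at this
  have hsub : F ⊆ g '' (f '' F) := by
    intro y hy
    have hw : f y ∈ f '' F := mem_image_of_mem f hy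
    refine ⟨f y, hw, ?_⟩
    have := hl _ (g1 _ hw).1 _ hy
    rw [(g1 _ hw).2, dist_self, mul_zero] at this
    exact dist_le_zero.1 this
  have k1 := (measure_mono hsub).trans (G.lipim g _ _ hlip)
  have e : (NNReal.mk (4 * G.K) hC : ℝ≥0∞) ^ n = ENNReal.ofReal ((4 * G.K) ^ n) := by
    rw [ENNReal.ofReal_pow hC, ENNReal.ofReal_eq_coe_nnreal hC]
  rw [e] at k1
  refine (mul_le_mul_right k1 _).trans (le_of_eq ?_)
  rw [← mul_assoc, ← ENNReal.ofReal_mul (by positivity), inv_mul_cancel₀ (by positivity), ENNReal.ofReal_one,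
    one_mul]

end Ge

end Crest.Agent.R226.S

end
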