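import Crest.Agent.R226.SBasic
import Crest.Agent.R226.SSyn1_x
import Crest.Agent.R226.SSyn2_c

/-!
# rid 226 / SSyn: synthetic lemmas (prefix for auxiliary lemmas: `ss_`)

Hints.  `eq_of_upper`: `ζ ↦ W ζ + ⟪p, ζ⟫ - C ‖ζ‖²` has a local maximum at 0, so the derivative of `W` is `-⟪p, ·⟫`.
`isCC_concaveOn`: `f t = U (ex z (t v)) - K ‖v‖² t²` has at every `t` an affine upper support (`exists_vel`, `supp_upper`).
`nobranch`: let `p`, `p'` be minimising from `w` to `y`, `x`.  `μ ↦ cst y (ex w μ) / T + cst (ex w μ) x / (1 - T)` is minimal at `μ = 0`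
(`cst_split`) and `sc` bounds it by `const - ⟪p / T + p' / (1-T), μ⟫ + C ‖μ‖²`, so `p' / (1-T) = - p / T`; `q = -vel w p / T`, `rev_smul`.
`colip`: if `d(y,y') ≤ ρ` add `lc` (at `y` with `η = t q`, `ξ` minimising from `y` to `y'`; same at `y'`) and `supp_upper`, compare with `cross`:
`(1/2 - 2 K t) d² ≤ K d d(w,w')`.  Otherwise `d(w,w') ≥ d - 2 t D ≥ d/2`.  `colip_vol`: `lipim` for a chosen inverse on the image.
-/

set_option autoImplicit false
set_option linter.unusedSectionVars false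

open scoped Topology RealInnerProductSpace ENNReal NNReal
open Set Filter MeasureTheory Asymptotics
open Crest.Agent.R226.L

noncomputable section

namespace Crest.Agent.R226.S

variable {n : ℕ} {M : Type*} [MetricSpace M] [MeasurableSpace M]

theorem eq_of_upper {W : E n → ℝ} (hW : DifferentiableAt ℝ W 0) {p p' : E n} {C : ℝ}
    (h : ∀ ζ, W ζ ≤ W 0 - ⟪p, ζ⟫ + C * ‖ζ‖ ^ 2) (h' : ∀ ζ, W ζ ≤ W 0 - ⟪p', ζ⟫ + C * ‖ζ‖ ^ 2) : p = p' := by
  exact eq_of_upper' hW h h'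

namespace Ge

variable (G : Ge n M)

/-- almost everywhere the supporting vector is unique (`uq1`, `isCC_lip`, `supp_upper`, `eq_of_upper`) -/
theorem ae_supp_unique {U : M → ℝ} (hU : IsCC U) : ∀ᵐ z ∂G.μ, ∀ q q', Supp G.ex U z q → Supp G.ex U z q' → q = q' := by
  exact G.ae_supp_unique' hU

/-- a `c`-concave function is semiconcave along geodesics -/
theorem isCC_concaveOn {U : M → ℝ} (hU : IsCC U) (z : M) (v : E n) :
    ConcaveOn ℝ univ fun t : ℝ => U (G.ex z (t • v)) - G.K * ‖v‖ ^ 2 * t ^ 2 := by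
  exact G.isCC_concaveOn' hU z v

theorem nobranch {y w x : M} {T : ℝ} (hT : T ∈ Ioo (0 : ℝ) 1) (h1 : dist y w = T * dist y x)
    (h2 : dist w x = (1 - T) * dist y x) : ∃ q ∈ MinS G.ex y, G.ex y q = x ∧ G.ex y (T • q) = w := by
  exact G.nobranch' hT h1 h2

theorem colip : ∃ t₀ : ℝ, 0 < t₀ ∧ t₀ ≤ 1 / 8 ∧ ∀ (U : M → ℝ) (y y' : M) (q q' : E n) (t : ℝ), Supp G.ex U y q →
    Supp G.ex U y' q' → t ∈ Icc 0 t₀ → dist y y' ≤ 4 * G.K * dist (G.ex y (t • q)) (G.ex y' (t • q')) := by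
  exact G.colip'

theorem colip_vol : ∃ t₀ c : ℝ, 0 < t₀ ∧ t₀ ≤ 1 / 8 ∧ 0 < c ∧ c ≤ 1 ∧
    ∀ (U : M → ℝ) (q : M → E n) (F : Set M) (t : ℝ), (∀ y ∈ F, Supp G.ex U y (q y)) → t ∈ Icc 0 t₀ →
      ENNReal.ofReal c * G.μ F ≤ G.μ ((fun y => G.ex y (t • q y)) '' F) := by
  exact G.colip_vol'

end Ge

end Crest.Agent.R226.S

end
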