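import Crest.Agent.R226.Vol2

/-!
# R226 / Vol3 (helper35): area inequalities for arbitrary sets
-/

set_option autoImplicit false
set_option linter.unusedSectionVars false

open MeasureTheory Set Filter Topology Metric Module
open scoped ENNReal NNReal

noncomputable section

namespace Crest.Agent.R226.Vol

variable {X : Type*} [MetricSpace X] [MeasurableSpace X] [BorelSpace X]
  {E : Type*} [NormedAddCommGroup E] [NormedSpace ℝ E] [FiniteDimensional ℝ E] [MeasurableSpace E] [BorelSpace E]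
  {μ : Measure X} {ν : Measure E} {K : ℝ≥0}

/-- a measurable hull on which a measurable condition persists -/
theorem exists_hull {g : X → ℝ≥0∞} {S Z : Set X} (hS : MeasurableSet S) (hg : AEMeasurable g (μ.restrict S))
    (hZ : Z ⊆ S) {I : Set ℝ≥0∞} (hI : MeasurableSet I) (h : ∀ z ∈ Z, g z ∈ I) :
    ∃ Z', MeasurableSet Z' ∧ Z ⊆ Z' ∧ Z' ⊆ S ∧ ∀ᵐ z ∂μ, z ∈ Z' → g z ∈ I := by
  obtain ⟨N, h1, h2, h3⟩ := exists_measurable_superset_of_null (ae_iff.1 hg.ae_eq_mk)
  refine ⟨S ∩ (hg.mk g ⁻¹' I ∪ N), hS.inter ((hg.measurable_mk hI).union h2), fun z hz => ⟨hZ hz, ?_⟩,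
    inter_subset_left, ?_⟩
  · by_cases hN : z ∈ N
    · exact Or.inr hN
    · have : g z = hg.mk g z := by_contra fun h' => hN (h1 h')
      exact Or.inl (by rw [mem_preimage, ← this]; exact h z hz)
  · filter_upwards [(ae_restrict_iff' hS).1 (measure_eq_zero_iff_ae_notMem.1 h3)] with z hz hz'
    have h4 := hz hz'.1
    have : g z = hg.mk g z := by_contra fun h' => h4 (h1 h')
    rw [this]
    exact hz'.2.resolve_right h4

/-- a map with invertible derivative does not send sets of positive measure to null sets -/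
theorem null_of_image_null (ν : Measure E) [ν.IsAddHaarMeasure] {f : E → E} {s : Set E} {f' : E → E →L[ℝ] E}
    (hf : ∀ x ∈ s, HasFDerivWithinAt f (f' x) s x) (hd : ∀ x ∈ s, (f' x).det ≠ 0) (h0 : ν (f '' s) = 0) : ν s = 0 := by
  rcases s.eq_empty_or_nonempty with rfl | hs
  · simp
  have key : ∀ A : E →L[ℝ] E, ∃ δ : ℝ≥0, δ ≠ 0 ∧ (A.det ≠ 0 → ∃ m : ℝ≥0, m ≠ 0 ∧ ∀ (t : Set E) (g : E → E),
      ApproximatesLinearOn g A t δ → (m : ℝ≥0∞) * ν t ≤ ν (g '' t)) := by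
    intro A
    by_cases hA : A.det = 0
    · exact ⟨1, one_ne_zero, fun h => absurd hA h⟩
    · obtain ⟨m, h1, h2⟩ := ENNReal.lt_iff_exists_nnreal_btwn.1 (ENNReal.ofReal_pos.2 (abs_pos.2 hA))
      obtain ⟨δ, h3, h4⟩ := ((mul_le_addHaar_image_of_lt_det ν A h2).and self_mem_nhdsWithin).exists
      exact ⟨δ, ne_of_gt h4, fun _ => ⟨m, by simpa using h1.ne', h3⟩⟩
  choose δ h1 h2 using key
  obtain ⟨t, A, -, -, a3, a4, a5⟩ := exists_partition_approximatesLinearOn_of_hasFDerivWithinAt f s f' hf δ h1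
  have : s ⊆ ⋃ k, s ∩ t k := fun x hx => by
    obtain ⟨k, hk⟩ := mem_iUnion.1 (a3 hx)
    exact mem_iUnion.2 ⟨k, hx, hk⟩
  refine measure_mono_null this (measure_iUnion_null fun k => ?_)
  obtain ⟨y, hy, e⟩ := a5 hs k
  obtain ⟨m, m0, hm⟩ := h2 (A k) (e ▸ hd y hy)
  have h3 := (hm _ _ (a4 k)).trans (measure_mono (image_mono inter_subset_left))
  rw [h0, nonpos_iff_eq_zero, mul_eq_zero] at h3
  exact h3.resolve_left (by simpa using m0)

namespace Atl

variable {exp : X → E → X} {N : ℕ} {U : Fin N → Set X} {φ : Fin N → X → E} {ψ : Fin N → E → X} [ν.IsAddHaarMeasure]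

theorem exists_chart_der (h : Atl μ ν exp N K U φ ψ) {T : Set X} {F : X → X} {D : X → E →L[ℝ] E} {i j : Fin N}
    (h2 : T ⊆ U i) (h3 : MapsTo F T (U j)) (hD : ∀ z ∈ T, HasD exp F (D z) T z) : ∃ A : X → E →L[ℝ] E, ∀ z ∈ T,
      HasFDerivWithinAt (fun w => φ j (F (ψ i w))) (A z) (φ i '' T) (φ i z) ∧
        |(A z).det| ≤ K ^ (2 * finrank ℝ E) * |(D z).det| ∧ |(D z).det| ≤ K ^ (2 * finrank ℝ E) * |(A z).det| := by
  have h4 : ∀ z, ∃ A : E →L[ℝ] E, z ∈ T → HasFDerivWithinAt (fun w => φ j (F (ψ i w))) A (φ i '' T) (φ i z) ∧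
      |A.det| ≤ K ^ (2 * finrank ℝ E) * |(D z).det| ∧ |(D z).det| ≤ K ^ (2 * finrank ℝ E) * |A.det| := by
    intro z
    by_cases hz : z ∈ T
    · obtain ⟨J, a1, a2, a3⟩ := (h.ch i).exists_equiv h.nrm (h2 hz) (h.der i z (h2 hz))
      obtain ⟨J', b1, b2, b3⟩ := (h.ch j).exists_equiv h.nrm (h3 hz) (h.der j _ (h3 hz))
      exact ⟨_, fun _ => ⟨(hD z hz).chart (h.ch i) (h.ch j) h.nrm h2 h3 hz a1 b1, det_comp3 J J' (D z) K.2 a2 a3 b2 b3⟩⟩
    · exact ⟨0, fun h' => absurd h' hz⟩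
  choose A hA using h4
  exact ⟨A, hA⟩

/-- sets on which the derivative is invertible and whose image is null are null -/
theorem null_of_image_null (h : Atl μ ν exp N K U φ ψ) {Z : Set X} {F : X → X} {D : X → E →L[ℝ] E}
    (hD : ∀ z ∈ Z, HasD exp F (D z) Z z) (hd : ∀ z ∈ Z, (D z).det ≠ 0) (h0 : μ (F '' Z) = 0) : μ Z = 0 := by
  have : Z ⊆ ⋃ p : Fin N × Fin N, (Z ∩ F ⁻¹' U p.2) ∩ U p.1 := fun x hx => by
    obtain ⟨i, hi⟩ := h.cov x
    obtain ⟨j, hj⟩ := h.cov (F x)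
    exact mem_iUnion.2 ⟨(i, j), ⟨hx, hj⟩, hi⟩
  refine measure_mono_null this (measure_iUnion_null fun ⟨i, j⟩ => ?_)
  obtain ⟨T, hT⟩ : ∃ T, T = (Z ∩ F ⁻¹' U j) ∩ U i := ⟨_, rfl⟩
  have h1 : T ⊆ Z := hT ▸ fun x hx => hx.1.1
  have h2 : T ⊆ U i := hT ▸ inter_subset_right
  have h3 : MapsTo F T (U j) := hT ▸ fun x hx => hx.1.2
  rw [← hT]
  obtain ⟨A, hA⟩ := h.exists_chart_der h2 h3 fun z hz => (hD z (h1 hz)).mono h1
  have h4 : ν (φ i '' T) = 0 := by
    refine Vol.null_of_image_null ν (f := fun w => φ j (F (ψ i w))) (f' := fun w => A (ψ i w)) ?_ ?_ ?_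
    · rintro _ ⟨z, hz, rfl⟩
      rw [(h.ch i).inv z (h2 hz)]
      exact (hA z hz).1
    · rintro _ ⟨z, hz, rfl⟩ e
      rw [(h.ch i).inv z (h2 hz)] at e
      have := (hA z hz).2.2
      rw [e, abs_zero, mul_zero, abs_nonpos_iff] at this
      exact hd z (h1 hz) this
    · have e : (fun w => φ j (F (ψ i w))) '' (φ i '' T) = φ j '' (F '' T) := by
        rw [image_image, image_image]
        exact image_congr fun z hz => by rw [(h.ch i).inv z (h2 hz)]
      have := (h.ch j).m2' h3.image_subset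
      rwa [measure_mono_null (image_mono h1) h0, mul_zero, nonpos_iff_eq_zero, ← e] at this
  simpa [h4] using (h.ch i).m1' h2

/-- the Jacobian is comparable with a measurable function -/
theorem exists_meas (h : Atl μ ν exp N K U φ ψ) {S : Set X} {F : X → X} {D : X → E →L[ℝ] E} (hm : MeasurableSet S)
    (hD : ∀ z ∈ S, HasD exp F (D z) S z) : ∃ g : X → ℝ≥0∞, AEMeasurable g (μ.restrict S) ∧ ∀ z ∈ S,
      g z ≤ (K ^ (2 * finrank ℝ E) : ℝ≥0) * ENNReal.ofReal |(D z).det| ∧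
        ENNReal.ofReal |(D z).det| ≤ (K ^ (2 * finrank ℝ E) : ℝ≥0) * g z := by
  obtain ⟨e, hp⟩ := h.pieces hm fun z hz => (hD z hz).cont h.nrm
  have key : ∀ p : Fin N × Fin N, ∃ g : X → ℝ≥0∞, AEMeasurable g (μ.restrict ((S ∩ F ⁻¹' U p.2) ∩ U p.1)) ∧
      ∀ z ∈ (S ∩ F ⁻¹' U p.2) ∩ U p.1, g z ≤ (K ^ (2 * finrank ℝ E) : ℝ≥0) * ENNReal.ofReal |(D z).det| ∧
        ENNReal.ofReal |(D z).det| ≤ (K ^ (2 * finrank ℝ E) : ℝ≥0) * g z := by
    rintro ⟨i, j⟩
    obtain ⟨T, hT⟩ : ∃ T, T = (S ∩ F ⁻¹' U j) ∩ U i := ⟨_, rfl⟩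
    have hTm : MeasurableSet T := hT ▸ hp (i, j)
    have h1 : T ⊆ S := hT ▸ fun x hx => hx.1.1
    have h2 : T ⊆ U i := hT ▸ inter_subset_right
    have h3 : MapsTo F T (U j) := hT ▸ fun x hx => hx.1.2
    rw [← hT]
    obtain ⟨A, hA⟩ := h.exists_chart_der h2 h3 fun z hz => (hD z (h1 hz)).mono h1
    have h4 : AEMeasurable (fun w => ENNReal.ofReal |(A (ψ i w)).det|) (ν.restrict (φ i '' T)) := by
      refine aemeasurable_ofReal_abs_det_fderivWithin ν (f := fun w => φ j (F (ψ i w))) ((h.ch i).meas_image h2 hTm) ?_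
      rintro _ ⟨z, hz, rfl⟩
      rw [(h.ch i).inv z (h2 hz)]
      exact (hA z hz).1
    refine ⟨_, (h4.mono_ac (Measure.absolutelyContinuous_of_le_smul ((h.ch i).map_le h2 hTm))).comp_aemeasurable
      ((h.ch i).aem h2 hTm), fun z hz => ?_⟩
    simp only [Function.comp, (h.ch i).inv z (h2 hz)]
    constructor <;> rw [← ENNReal.ofReal_coe_nnreal, ← ENNReal.ofReal_mul (NNReal.coe_nonneg _)]
    exacts [ENNReal.ofReal_le_ofReal (hA z hz).2.1, ENNReal.ofReal_le_ofReal (hA z hz).2.2]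
  choose g h1 h2 using key
  refine ⟨fun z => ⨆ p, ((S ∩ F ⁻¹' U p.2) ∩ U p.1).indicator (g p) z, AEMeasurable.iSup fun p => ?_, fun z hz =>
    ⟨iSup_le fun p => ?_, ?_⟩⟩
  · rw [aemeasurable_indicator_iff (hp p), Measure.restrict_restrict (hp p),
      inter_eq_self_of_subset_left fun x hx => hx.1.1]
    exact h1 p
  · by_cases hz' : z ∈ (S ∩ F ⁻¹' U p.2) ∩ U p.1
    · rw [indicator_of_mem hz']
      exact (h2 p z hz').1
    · simp [hz']
  · obtain ⟨p, hp'⟩ := mem_iUnion.1 (e ▸ hz)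
    refine (h2 p z hp').2.trans (mul_le_mul_right (le_iSup_of_le p ?_) _)
    rw [indicator_of_mem hp']

/-- the area inequalities for arbitrary subsets `Z` of a measurable set on which `F` is differentiable; for the lower bound
injectivity is only needed off a null set of values -/
theorem area_sup (h : Atl μ ν exp N K U φ ψ) : ∃ C : ℝ, 1 ≤ C ∧ ∀ (S Z : Set X) (F : X → X) (D : X → E →L[ℝ] E) (b : ℝ),
    MeasurableSet S → Z ⊆ S → (∀ z ∈ S, HasD exp F (D z) S z) →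
      (0 ≤ b → (∀ z ∈ Z, |(D z).det| ≤ b) → μ (F '' Z) ≤ ENNReal.ofReal (C * b) * μ Z) ∧
      ∀ N₀ : Set X, μ N₀ = 0 → (∀ z ∈ S, ∀ z' ∈ S, F z = F z' → F z ∉ N₀ → z = z') → 0 < b →
        (∀ z ∈ Z, b ≤ |(D z).det|) → ENNReal.ofReal b * μ Z ≤ ENNReal.ofReal C * μ (F '' Z) := by
  obtain ⟨C, hC, H⟩ := h.area
  obtain ⟨L, hL⟩ : ∃ L : ℝ≥0, L = K ^ (2 * finrank ℝ E) := ⟨_, rfl⟩
  have e1 : ENNReal.ofReal (max 1 ((C : ℝ) * L * L)) = (max 1 (C * L * L) : ℝ≥0) := by
    rw [← ENNReal.ofReal_coe_nnreal]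
    simp
  have e2 : (C : ℝ≥0∞) * L * L ≤ (max 1 (C * L * L) : ℝ≥0) := by exact_mod_cast le_max_right _ _
  refine ⟨max 1 (C * L * L), le_max_left _ _, fun S Z F D b hm hZ hD => ?_⟩
  obtain ⟨g, hg, hg'⟩ := h.exists_meas hm hD
  rw [← hL] at hg'
  refine ⟨fun hb hle => ?_, fun N₀ h0 hi hb hle => ?_⟩
  · obtain ⟨Z', a1, a2, a3, a4⟩ := exists_hull hm hg hZ (I := Iic (L * ENNReal.ofReal b)) measurableSet_Iic
      fun z hz => (hg' z (hZ hz)).1.trans (mul_le_mul_right (ENNReal.ofReal_le_ofReal (hle z hz)) _)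
    have b1 : MeasurableSet (Z' ∩ toMeasurable μ Z) := a1.inter (measurableSet_toMeasurable _ _)
    have b2 : Z' ∩ toMeasurable μ Z ⊆ S := inter_subset_left.trans a3
    calc μ (F '' Z) ≤ μ (F '' (Z' ∩ toMeasurable μ Z)) :=
          measure_mono (image_mono (subset_inter a2 (subset_toMeasurable _ _)))
      _ ≤ C * ∫⁻ z in Z' ∩ toMeasurable μ Z, ENNReal.ofReal |(D z).det| ∂μ :=
          (H _ F D b1 fun z hz => (hD z (b2 hz)).mono b2).1
      _ ≤ C * ∫⁻ _ in Z' ∩ toMeasurable μ Z, L * (L * ENNReal.ofReal b) ∂μ := by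
          refine mul_le_mul_right (lintegral_mono_ae ((ae_restrict_iff' b1).2 ?_)) _
          filter_upwards [a4] with z hz hz'
          exact (hg' z (b2 hz')).2.trans (mul_le_mul_right (hz hz'.1) _)
      _ ≤ C * (L * (L * ENNReal.ofReal b) * μ Z) := by
          rw [setLIntegral_const, ← measure_toMeasurable Z]
          gcongr
          exact inter_subset_right
      _ = C * L * L * ENNReal.ofReal b * μ Z := by ring
      _ ≤ _ := by
          rw [ENNReal.ofReal_mul (by positivity), e1]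
          gcongr
  · obtain ⟨N₁, n1, n2, n3⟩ := exists_measurable_superset_of_null h0
    have hF : ContinuousOn F S := fun z hz => (hD z hz).cont h.nrm
    have c1 : μ (Z ∩ F ⁻¹' N₁) = 0 := by
      refine h.null_of_image_null (D := D) (fun z hz => (hD z (hZ hz.1)).mono (inter_subset_left.trans hZ))
        (fun z hz e => ?_) (measure_mono_null (image_subset_iff.2 inter_subset_right) n3)
      have := hle z hz.1
      rw [e, abs_zero] at this
      exact absurd hb this.not_gt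
    obtain ⟨Z', a1, a2, a3, a4⟩ := exists_hull hm (hg.const_mul L) hZ (I := Ici (ENNReal.ofReal b)) measurableSet_Ici
      fun z hz => (ENNReal.ofReal_le_ofReal (hle z hz)).trans (hg' z (hZ hz)).2
    obtain ⟨T, hT⟩ : ∃ T, T = Z' ∩ (S ∩ F ⁻¹' (toMeasurable μ (F '' Z) \ N₁)) := ⟨_, rfl⟩
    have b1 : MeasurableSet T := hT ▸ a1.inter (Chart.meas_pre hm hF ((measurableSet_toMeasurable _ _).diff n2))
    have b2 : T ⊆ S := hT ▸ inter_subset_left.trans a3
    have b3 : μ Z ≤ μ T := by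
      have : Z ⊆ T ∪ Z ∩ F ⁻¹' N₁ := fun z hz => by
        by_cases h' : F z ∈ N₁
        · exact Or.inr ⟨hz, h'⟩
        · exact Or.inl (hT ▸ ⟨a2 hz, hZ hz, subset_toMeasurable _ _ ⟨z, hz, rfl⟩, h'⟩)
      simpa [c1] using (measure_mono this).trans (measure_union_le (μ := μ) _ _)
    have b4 : InjOn F T := fun z hz z' hz' e => hi z (b2 hz) z' (b2 hz') e fun h' => (hT ▸ hz).2.2.2 (n1 h')
    calc ENNReal.ofReal b * μ Z ≤ ∫⁻ _ in T, ENNReal.ofReal b ∂μ := by
          rw [setLIntegral_const]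
          gcongr
      _ ≤ ∫⁻ z in T, L * (L * ENNReal.ofReal |(D z).det|) ∂μ := by
          refine lintegral_mono_ae ((ae_restrict_iff' b1).2 ?_)
          filter_upwards [a4] with z hz hz'
          exact le_trans (hz (hT ▸ hz').1) (mul_le_mul_right (hg' z (b2 hz')).1 _)
      _ ≤ L * (L * (C * μ (F '' T))) := by
          rw [lintegral_const_mul' _ _ ENNReal.coe_ne_top, lintegral_const_mul' _ _ ENNReal.coe_ne_top]
          gcongr
          exact (H _ F D b1 fun z hz => (hD z (b2 hz)).mono b2).2 b4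
      _ ≤ L * (L * (C * μ (F '' Z))) := by
          rw [← measure_toMeasurable (F '' Z)]
          gcongr
          exact image_subset_iff.2 fun z hz => (hT ▸ hz).2.2.1
      _ = C * L * L * μ (F '' Z) := by ring
      _ ≤ _ := by
          rw [e1]
          gcongr

end Atl

end Crest.Agent.R226.Vol

end
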