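import Crest.Agent.R226.Vol3
import Crest.Agent.R226.QD

/-!
# R226 / Vol4 (helper35): calculus lemmas for `JAC` (gradients of the cost and supergradients in normal coordinates)
-/

set_option autoImplicit false
set_option linter.unusedSectionVars false
set_option maxSynthPendingDepth 3

open Set Filter Topology Metric MeasureTheory Asymptotics
open scoped InnerProductSpace ContDiff NNReal

noncomputable section

namespace Crest.Agent.R226.Vol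

open Crest.Agent.R226.L Crest.Agent.R226.Q

variable {M : Type*} [MetricSpace M] {E : Type} [NormedAddCommGroup E] [InnerProductSpace ℝ E] [FiniteDimensional ℝ E]
  {ex : M → E → M} {vel : M → E → E} {L1 δ c0 L : ℝ} {z : M} {v : E}

/-- the gradient of the cost in the first variable -/
def gr (ex : M → E → M) (z : M) (v : E) (w : E × E) : E :=
  sharp E ((fderiv ℝ (hx ex z v) w).comp (ContinuousLinearMap.inl ℝ E E))

theorem inner_gr (w : E × E) (u : E) : ⟪gr ex z v w, u⟫_ℝ = fderiv ℝ (hx ex z v) w (u, 0) := inner_sharp _ _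

theorem gr_has (h0 : GeoS0 ex vel) (hv : v ∈ InjS ex z) : ∀ᶠ w in 𝓝 ((0, 0) : E × E),
    HasFDerivAt (fun ζ => cst (ex z ζ) (ex (ex z v) w.2)) (innerSL ℝ (gr ex z v w)) w.1 := by
  filter_upwards [(qd_smooth h0 hv).eventually (by simp)] with w hw
  have h1 := HasFDerivAt.comp w.1 (g := hx ex z v) (f := fun ζ => (ζ, w.2))
    (hw.differentiableAt (by simp)).hasFDerivAt (hasFDerivAt_prodMk_left w.1 w.2)
  refine h1.congr_fderiv (ContinuousLinearMap.ext fun u => ?_)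
  rw [innerSL_apply_apply, inner_gr]
  rfl

theorem gr_zero (h1 : Geo1 ex vel L1 δ) (h0 : GeoS0 ex vel) (hv : v ∈ InjS ex z) : gr ex z v (0, 0) = -v := by
  refine ext_inner_right ℝ fun u => ?_
  have h2 := (gr_has h0 hv).self_of_nhds
  simp only [h1.exp_zero] at h2
  rw [inner_neg_left, ← fderiv_k1 h1 h0 hv u]
  exact (congrArg (fun B => B u) h2.fderiv).symm

theorem gr_strict (h1 : Geo1 ex vel L1 δ) (h0 : GeoS0 ex vel) (hv : v ∈ InjS ex z) {R : E →L[ℝ] E}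
    (hR : ∀ u μ, Kop ex z v μ u = -⟪Wop c0 ex z v u, R μ⟫_ℝ) :
    HasStrictFDerivAt (gr ex z v) ((Aop ex z v).comp (ContinuousLinearMap.fst ℝ E E) -
      ((Wop c0 ex z v).comp R).comp (ContinuousLinearMap.snd ℝ E E)) (0, 0) := by
  have hs := qd_smooth h0 hv
  have h2 : HasStrictFDerivAt (fderiv ℝ (hx ex z v)) (fderiv ℝ (fderiv ℝ (hx ex z v)) (0, 0)) (0, 0) :=
    (hs.fderiv_right (m := 1) (by norm_num)).hasStrictFDerivAt (by simp)
  have h3 := ((sharp E).comp ((ContinuousLinearMap.compL ℝ E (E × E) ℝ).flip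
    (ContinuousLinearMap.inl ℝ E E))).hasStrictFDerivAt.comp (0, 0) h2
  refine h3.congr_fderiv (ContinuousLinearMap.ext fun w => ext_inner_right ℝ fun u => ?_)
  obtain ⟨ζ, μ⟩ := w
  have e1 : fderiv ℝ (fderiv ℝ (hx ex z v)) (0, 0) (ζ, 0) (u, 0) = ⟪Aop ex z v ζ, u⟫_ℝ := by
    rw [inner_Aop, ← qd_inl h1 z v]
    exact (fderiv2_comp_clm (ContinuousLinearMap.inl ℝ E E) (p := 0) hs ζ u).symm
  have e2 : ((ζ, μ) : E × E) = (ζ, 0) + (0, μ) := by simp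
  have e3 : fderiv ℝ (fderiv ℝ (hx ex z v)) (0, 0) (ζ, μ) (u, 0) = ⟪Aop ex z v ζ, u⟫_ℝ + Kop ex z v μ u := by
    rw [e2, map_add, add_apply, e1, Kop]
  refine (inner_sharp _ _).trans (e3.trans ?_)
  simp only [hR, sub_apply, ContinuousLinearMap.comp_apply, ContinuousLinearMap.coe_fst',
    ContinuousLinearMap.coe_snd', inner_sub_right, Wop_symm h0 hv, real_inner_comm u]
  ring

/-- uniform upper quadratic bound -/
theorem gr_quad {F : Type} [NormedAddCommGroup F] [NormedSpace ℝ F] {f : E → F → ℝ} {G : E × F → E} {G' : E × F →L[ℝ] E}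
    (hG : HasStrictFDerivAt G G' (0, 0))
    (hf : ∀ᶠ w in 𝓝 ((0, 0) : E × F), HasFDerivAt (fun ζ => f ζ w.2) (innerSL ℝ (G w)) w.1) :
    ∃ C : ℝ, 0 ≤ C ∧ ∀ᶠ p in 𝓝 (((0, 0), 0) : (E × F) × E),
      f (p.1.1 + p.2) p.1.2 ≤ f p.1.1 p.1.2 + ⟪G p.1, p.2⟫_ℝ + C * ‖p.2‖ ^ 2 := by
  obtain ⟨C, s, hs, hl⟩ := hG.exists_lipschitzOnWith
  obtain ⟨r, hr, h⟩ := Metric.eventually_nhds_iff_ball.1 (hf.and hs)
  refine ⟨C, C.2, ?_⟩
  filter_upwards [ball_mem_nhds _ (half_pos hr)] with ⟨⟨ζ, μ⟩, η⟩ hp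
  rw [mem_ball, Prod.dist_eq, Prod.dist_eq, max_lt_iff, max_lt_iff, dist_zero_right, dist_zero_right,
    dist_zero_right] at hp
  have hb : ∀ x ∈ closedBall ζ ‖η‖, (x, μ) ∈ ball ((0, 0) : E × F) r := fun x hx => by
    rw [mem_ball, Prod.dist_eq, max_lt_iff, dist_zero_right, dist_zero_right]
    have := norm_le_of_mem_closedBall hx
    constructor <;> linarith [hp.1.1, hp.1.2, hp.2]
  have hζ : ζ ∈ closedBall ζ ‖η‖ := mem_closedBall_self (norm_nonneg _)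
  have h2 := (convex_closedBall ζ ‖η‖).norm_image_sub_le_of_norm_hasFDerivWithin_le' (f := fun x => f x μ)
    (f' := fun x => innerSL ℝ (G (x, μ))) (φ := innerSL ℝ (G (ζ, μ))) (C := C * ‖η‖)
    (fun x hx => (h _ (hb x hx)).1.hasFDerivWithinAt) (fun x hx => by
      rw [← map_sub, innerSL_apply_norm, ← dist_eq_norm]
      refine (hl.dist_le_mul _ (h _ (hb x hx)).2 _ (h _ (hb ζ hζ)).2).trans ?_
      rw [dist_prod_same_right]
      exact mul_le_mul_of_nonneg_left hx C.2) hζ (y := ζ + η) (by simp)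
  rw [add_sub_cancel_left, innerSL_apply_apply, Real.norm_eq_abs] at h2
  have := (abs_le.1 h2).2
  simp only
  linarith

/-- at a point with a second order expansion the supergradients have a first order expansion -/
theorem superg_der {u : E → ℝ} {q : E} {H : E →L[ℝ] E} {a C : ℝ} (hs : ∀ x y, ⟪H x, y⟫_ℝ = ⟪x, H y⟫_ℝ)
    (hu : (fun ζ => u ζ - (a - ⟪q, ζ⟫_ℝ + ⟪H ζ, ζ⟫_ℝ / 2)) =o[𝓝 0] fun ζ : E => ‖ζ‖ ^ 2) {p : E → E} (h0 : p 0 = -q)
    (hC : 0 ≤ C) (hp : ∀ᶠ w in 𝓝 ((0, 0) : E × E), u (w.1 + w.2) ≤ u w.1 + ⟪p w.1, w.2⟫_ℝ + C * ‖w.2‖ ^ 2) :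
    HasFDerivAt p H 0 := by
  rw [hasFDerivAt_iff_isLittleO_nhds_zero, isLittleO_iff]
  intro ε hε
  obtain ⟨s, hs'⟩ : ∃ s : ℝ, s = min 1 (ε / (2 * (C + ‖H‖ + 1))) := ⟨_, rfl⟩
  have s0 : 0 < s := by rw [hs']; positivity
  have s1 : s ≤ 1 := hs' ▸ min_le_left _ _
  have s2 : s * (2 * (C + ‖H‖ + 1)) ≤ ε := (le_div_iff₀ (by positivity)).1 (hs' ▸ min_le_right _ _)
  have h1 := hu.bound (c := ε * s / 10) (by positivity)
  have h2 : Tendsto (fun w : E × E => w.1 + w.2) (𝓝 (0, 0)) (𝓝 0) :=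
    (continuous_fst.add continuous_snd).tendsto' _ _ (by simp)
  obtain ⟨r, hr, h⟩ := Metric.eventually_nhds_iff_ball.1
    (hp.and ((h2.eventually h1).and ((continuous_fst.tendsto' ((0, 0) : E × E) 0 rfl).eventually h1)))
  filter_upwards [ball_mem_nhds 0 hr] with ζ hζ
  rw [zero_add, h0]
  obtain ⟨b, hb⟩ : ∃ b, b = p ζ - -q - H ζ := ⟨_, rfl⟩
  rw [← hb]
  rcases (norm_nonneg b).eq_or_lt with b0 | b0
  · rw [← b0]; positivity
  rcases (norm_nonneg ζ).eq_or_lt with z0 | z0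
  · rw [hb, norm_eq_zero.1 z0.symm, h0]
    simp
  obtain ⟨η, hη⟩ : ∃ η, η = -(s * ‖ζ‖ / ‖b‖) • b := ⟨_, rfl⟩
  have n1 : ‖η‖ = s * ‖ζ‖ := by
    rw [hη, norm_smul, norm_neg, Real.norm_of_nonneg (by positivity)]
    field_simp
  have n2 : ⟪b, η⟫_ℝ = -(s * (‖ζ‖ * ‖b‖)) := by
    rw [hη, real_inner_smul_right, real_inner_self_eq_norm_sq]
    field_simp
  rw [mem_ball_zero_iff] at hζ
  obtain ⟨a1, a2, a3⟩ := h (ζ, η) (by
    rw [mem_ball, Prod.dist_eq, max_lt_iff, dist_zero_right, dist_zero_right, n1]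
    exact ⟨hζ, (mul_le_of_le_one_left z0.le s1).trans_lt hζ⟩)
  simp only [Real.norm_eq_abs, abs_pow, abs_norm] at a1 a2 a3
  have a4 : ‖ζ + η‖ ^ 2 ≤ (2 * ‖ζ‖) ^ 2 := by
    have := norm_add_le ζ η
    have := mul_le_of_le_one_left z0.le s1
    gcongr
    linarith
  have a5 : -(‖H‖ * ‖η‖ ^ 2) ≤ ⟪H η, η⟫_ℝ := by
    have := (abs_le.1 (abs_real_inner_le_norm (H η) η)).1
    have := mul_le_mul_of_nonneg_right (H.le_opNorm η) (norm_nonneg η)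
    nlinarith
  have a6 : ⟪H η, ζ⟫_ℝ = ⟪H ζ, η⟫_ℝ := by rw [hs, real_inner_comm]
  rw [← mul_assoc, ← n1] at n2
  have n3 : ⟪b, η⟫_ℝ = ⟪p ζ, η⟫_ℝ + ⟪q, η⟫_ℝ - ⟪H ζ, η⟫_ℝ := by
    rw [hb, inner_sub_left, inner_sub_left, inner_neg_left, sub_neg_eq_add]
  rw [map_add, inner_add_left, inner_add_right, inner_add_right, inner_add_right, a6] at a2
  have a7 := mul_le_mul_of_nonneg_left a4 (show 0 ≤ ε * s / 10 by positivity)
  have a8 : s * ‖ζ‖ * ‖b‖ ≤ (C + ‖H‖) * (s * ‖ζ‖) ^ 2 + ε * s / 2 * ‖ζ‖ ^ 2 := by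
    have := (abs_le.1 a2).1
    have := (abs_le.1 a3).2
    have := mul_nonneg (norm_nonneg H) (sq_nonneg ‖η‖)
    rw [← n1]
    linarith
  have a9 : (C + ‖H‖) * (s * ‖ζ‖) ^ 2 ≤ ε * s / 2 * ‖ζ‖ ^ 2 := by
    have : (C + ‖H‖) * s ≤ ε / 2 := by nlinarith
    calc _ = (C + ‖H‖) * s * (s * ‖ζ‖ ^ 2) := by ring
      _ ≤ ε / 2 * (s * ‖ζ‖ ^ 2) := by gcongr
      _ = _ := by ring
  refine le_of_mul_le_mul_left ?_ (mul_pos s0 z0)
  nlinarith

/-- the gradient of the cost in normal coordinates at another point -/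
theorem inner_eq_of_trans (h1 : Geo1 ex vel L1 δ) {z' : M} {τ : E → E} {T : E →L[ℝ] E} (hT : HasFDerivAt τ T 0)
    (hτ : ∀ᶠ ξ in 𝓝 (0 : E), ex z (τ ξ) = ex z' ξ) {w p : E} (hw : w ∈ MinS ex z')
    (hp : HasFDerivAt (fun ζ => cst (ex z ζ) (ex z' w)) (innerSL ℝ p) (τ 0)) (ξ : E) : ⟪w, ξ⟫_ℝ = -⟪p, T ξ⟫_ℝ := by
  have hk : HasFDerivAt (fun ξ => cst (ex z' ξ) (ex z' w)) _ 0 :=
    (hp.comp 0 hT).congr_of_eventuallyEq (hτ.mono fun ξ h => by simp only [Function.comp, h])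
  have a1 : HasFDerivAt (fun ζ : E => ⟪w, ζ⟫_ℝ) (innerSL ℝ w) 0 := (innerSL ℝ w).hasFDerivAt
  have a2 : HasFDerivAt (fun ζ : E => ‖ζ‖ ^ 2) _ 0 := (hasFDerivAt_id (0 : E)).norm_sq
  have a3 := ((a1.const_sub (‖w‖ ^ 2 / 2)).add (a2.const_mul L1)).sub hk
  have hmin : IsLocalMin (fun ζ : E => ‖w‖ ^ 2 / 2 - ⟪w, ζ⟫_ℝ + L1 * ‖ζ‖ ^ 2 - cst (ex z' ζ) (ex z' w)) 0 := by
    refine Eventually.of_forall fun ζ => ?_
    have := h1.sc z' w hw ζ
    have e : cst (ex z' 0) (ex z' w) = ‖w‖ ^ 2 / 2 := kx_zero h1 hw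
    simp only [e, inner_zero_right, norm_zero]
    nlinarith
  have z2 := congrArg (fun l : E →L[ℝ] ℝ => l ξ) (hmin.hasFDerivAt_eq_zero a3)
  simp at z2
  linarith

/-- supports at a point of differentiability are unique -/
theorem supp_unique (h1 : Geo1 ex vel L1 δ) {U : M → ℝ} {q w : E}
    (hU : HasFDerivAt (fun ζ => U (ex z ζ)) (innerSL ℝ (-q)) 0) (hw : w ∈ MinS ex z) (hc : Ct U z (ex z w)) :
    w = q := by
  have a1 : HasFDerivAt (fun ζ : E => ⟪w, ζ⟫_ℝ) (innerSL ℝ w) 0 := (innerSL ℝ w).hasFDerivAt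
  have a2 : HasFDerivAt (fun ζ : E => ‖ζ‖ ^ 2) _ 0 := (hasFDerivAt_id (0 : E)).norm_sq
  have a3 := ((a2.const_mul L1).sub a1).sub hU
  have hmin : IsLocalMin (fun ζ : E => L1 * ‖ζ‖ ^ 2 - ⟪w, ζ⟫_ℝ - U (ex z ζ)) 0 := by
    refine Eventually.of_forall fun ζ => ?_
    have := h1.sc z w hw ζ
    have e : cst (ex z 0) (ex z w) = ‖w‖ ^ 2 / 2 := kx_zero h1 hw
    have := hc (ex z ζ)
    simp only [h1.exp_zero, inner_zero_right, norm_zero] at e ⊢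
    nlinarith
  refine ext_inner_right ℝ fun ξ => ?_
  have z2 := congrArg (fun l : E →L[ℝ] ℝ => l ξ) (hmin.hasFDerivAt_eq_zero a3)
  simp at z2
  linarith

theorem tendsto_supp [CompactSpace M] (h1 : Geo1 ex vel L1 δ) {U : M → ℝ} {F : M → M} {q : E}
    (hU : HasFDerivAt (fun ζ => U (ex z ζ)) (innerSL ℝ (-q)) 0) (hF : ∀ x, Ct U x (F x)) :
    Tendsto F (𝓝 z) (𝓝 (ex z q)) := by
  refine tendsto_nhds_of_unique_mapClusterPt fun y hy => ?_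
  obtain ⟨w, rfl, hw⟩ := h1.surj z y
  rw [supp_unique h1 hU hw fun x => ?_]
  have h2 : ∃ᶠ p in 𝓝 (z, ex z w), p.2 = F p.1 := by
    rw [nhds_prod_eq, frequently_iff]
    intro s hs
    obtain ⟨a, ha, b, hb, h3⟩ := mem_prod_iff.1 hs
    obtain ⟨x, h4, h5⟩ := ((mapClusterPt_iff_frequently.1 hy b hb).and_eventually ha).exists
    exact ⟨(x, F x), h3 ⟨h5, h4⟩, rfl⟩
  have h3 : IsClosed {p : M × M | cst p.1 p.2 - cst x p.2 + U x ≤ U z + cst p.1 (F z) - cst z (F z)} := by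
    unfold cst
    exact isClosed_le (by fun_prop) (by fun_prop)
  have h4 := h3.mem_of_frequently_of_tendsto (h2.mono fun p hp => by
    have a1 := hF p.1 x
    have a2 := hF z p.1
    rw [mem_ofPred_eq, id, hp]
    linarith) tendsto_id
  rw [mem_ofPred_eq] at h4
  linarith

theorem hasFDerivAt_of_tay {u : E → ℝ} {q : E} {H : E →L[ℝ] E}
    (hu : (fun ζ => u ζ - (u 0 - ⟪q, ζ⟫_ℝ + ⟪H ζ, ζ⟫_ℝ / 2)) =o[𝓝 0] fun ζ : E => ‖ζ‖ ^ 2) :
    HasFDerivAt u (innerSL ℝ (-q)) 0 := by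
  have h1 : (fun ζ : E => ‖ζ‖ ^ 2) =o[𝓝 0] fun ζ : E => ζ := isLittleO_norm_pow_id one_lt_two
  have h2 : (fun ζ : E => ⟪H ζ, ζ⟫_ℝ / 2) =O[𝓝 0] fun ζ : E => ‖ζ‖ ^ 2 := by
    refine IsBigO.of_bound ‖H‖ (Eventually.of_forall fun ζ => ?_)
    have := abs_real_inner_le_norm (H ζ) ζ
    have := mul_le_mul_of_nonneg_right (H.le_opNorm ζ) (norm_nonneg ζ)
    have := abs_nonneg ⟪H ζ, ζ⟫_ℝ
    simp only [Real.norm_eq_abs, abs_div, abs_pow, abs_norm, abs_two]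
    nlinarith
  rw [hasFDerivAt_iff_isLittleO_nhds_zero]
  refine ((hu.isBigO.add h2).trans_isLittleO h1).congr_left fun ζ => ?_
  simp only [zero_add, innerSL_apply_apply, inner_neg_left]
  ring

/-- the supports near a point with a second order expansion -/
theorem exists_grad [CompactSpace M] (h1 : Geo1 ex vel L1 δ) (hs : GeoS ex vel c0 L) {U : M → ℝ} {F : M → M} {q : E}
    {H : E →L[ℝ] E} (hq : q ∈ InjS ex z) (hH : ∀ x y, ⟪H x, y⟫_ℝ = ⟪x, H y⟫_ℝ)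
    (hU : (fun ζ => U (ex z ζ) - (U z - ⟪q, ζ⟫_ℝ + ⟪H ζ, ζ⟫_ℝ / 2)) =o[𝓝 0] fun ζ : E => ‖ζ‖ ^ 2)
    (hF : ∀ x, Ct U x (F x)) : ∃ p : E → E, p 0 = -q ∧ HasFDerivAt p H 0 ∧
      ∀ᶠ ζ in 𝓝 (0 : E), HasFDerivAt (fun ξ => cst (ex z ξ) (F (ex z ζ))) (innerSL ℝ (p ζ)) ζ := by
  have h0 := hs.toGeoS0
  have h2 := tendsto_supp h1 (hasFDerivAt_of_tay (u := fun ζ => U (ex z ζ)) (by simpa only [h1.exp_zero] using hU)) hF
  have h3 : F z = ex z q := tendsto_nhds_unique (tendsto_pure_nhds F z) (h2.mono_left (pure_le_nhds z))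
  choose m m1 m2 using fun ζ => h1.surj (ex z q) (F (ex z ζ))
  have m0 : m 0 = 0 := by rw [← norm_eq_zero, ← m2, h1.exp_zero, h3, dist_self]
  have m3 : Tendsto m (𝓝 0) (𝓝 0) := by
    rw [tendsto_zero_iff_norm_tendsto_zero]
    simp only [← m2, dist_comm (ex z q)]
    exact tendsto_iff_dist_tendsto_zero.1 (h2.comp ((h1.exp_cont z).tendsto' 0 z (h1.exp_zero z)))
  have m4 : Tendsto (fun ζ => (ζ, m ζ)) (𝓝 0) (𝓝 (0, 0)) := tendsto_id.prodMk_nhds m3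
  obtain ⟨R, -, -, hR⟩ := hs.mixed z q hq
  obtain ⟨C, hC, h4⟩ := gr_quad (f := fun ζ μ => cst (ex z ζ) (ex (ex z q) μ)) (gr_strict h1 h0 hq hR) (gr_has h0 hq)
  have p0 : gr ex z q (0, m 0) = -q := by rw [m0, gr_zero h1 h0 hq]
  refine ⟨fun ζ => gr ex z q (ζ, m ζ), p0, superg_der hH hU p0 hC ?_, ?_⟩
  · have m5 : Tendsto (fun w : E × E => ((w.1, m w.1), w.2)) (𝓝 (0, 0)) (𝓝 ((0, 0), 0)) :=
      (m4.comp (continuous_fst.tendsto' _ _ rfl)).prodMk_nhds (continuous_snd.tendsto' _ _ rfl)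
    filter_upwards [m5.eventually h4] with w hw
    simp only [m1] at hw
    have := hF (ex z w.1) (ex z (w.1 + w.2))
    linarith
  · filter_upwards [m4.eventually (gr_has h0 hq)] with ζ hζ
    simpa only [m1] using hζ

section atl

variable [MeasurableSpace M] [BorelSpace M] [MeasurableSpace E] [BorelSpace E] {μ : Measure M} {ν : Measure E}
  {N : ℕ} {K : ℝ≥0} {U : Fin N → Set M} {φ : Fin N → M → E} {ψ : Fin N → E → M}

/-- change of normal coordinates -/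
theorem Atl.trans (h : Atl μ ν ex N K U φ ψ) (hC : ∀ i, ∀ x ∈ U i, ContDiffAt ℝ 1 (fun ζ => φ i (ex x ζ)) 0) (z : M) :
    ∀ᶠ ζ in 𝓝 (0 : E), ∃ (τ : E → E) (T : E →L[ℝ] E), τ 0 = ζ ∧ HasFDerivAt τ T 0 ∧
      ∀ᶠ ξ in 𝓝 (0 : E), ex z (τ ξ) = ex (ex z ζ) ξ := by
  have := FiniteDimensional.complete ℝ E
  obtain ⟨i, hi⟩ := h.cov z
  have hc := h.ch i
  obtain ⟨J, hJ, -⟩ := hc.exists_equiv h.nrm hi (h.der i z hi)
  have h1 := (hC i z hi).hasStrictFDerivAt' hJ one_ne_zero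
  have h2 := ((hC i z hi).to_localInverse hJ one_ne_zero).eventually (by simp)
  have hU : ∀ x ∈ U i, ∀ᶠ ξ in 𝓝 (0 : E), ex x ξ ∈ U i := fun x hx => h.nrm.tendsto x (hc.op.mem_nhds hx)
  have h3 := (h1.eventually_right_inverse.and (h1.localInverse_tendsto.eventually (hU z hi))).eventually_nhds
  filter_upwards [h1.continuousAt.eventually (h2.and h3), h1.eventually_left_inverse, hU z hi] with ζ ⟨a1, a2⟩ a3 a4
  have a5 := h.der i _ a4
  have a6 : φ i (ex (ex z ζ) 0) = φ i (ex z ζ) := by rw [h.nrm.zero]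
  refine ⟨fun ξ => h1.localInverse _ _ _ (φ i (ex (ex z ζ) ξ)), _, by simpa only [a6] using a3,
    (DifferentiableAt.comp (g := h1.localInverse _ _ _) 0 (a6 ▸ a1.differentiableAt one_ne_zero) a5).hasFDerivAt, ?_⟩
  filter_upwards [a5.continuousAt.eventually (a6 ▸ a2), hU _ a4] with ξ b1 b2
  exact hc.injOn b1.2 b2 b1.1

/-- `ex y` is Lipschitz near `0` -/
theorem Atl.exp_lip (h : Atl μ ν ex N K U φ ψ) (hC : ∀ i, ∀ x ∈ U i, ContDiffAt ℝ 1 (fun ζ => φ i (ex x ζ)) 0) (y : M) :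
    ∃ C : ℝ, 0 ≤ C ∧ ∃ s ∈ 𝓝 (0 : E), ∀ a ∈ s, ∀ b ∈ s, dist (ex y a) (ex y b) ≤ C * ‖a - b‖ := by
  obtain ⟨i, hi⟩ := h.cov y
  obtain ⟨C, s, hs, hl⟩ := (hC i y hi).exists_lipschitzOnWith
  refine ⟨K * C, by positivity, s ∩ ex y ⁻¹' U i, inter_mem hs (h.nrm.tendsto y ((h.ch i).op.mem_nhds hi)),
    fun a ha b hb => ((h.ch i).alip _ ha.2 _ hb.2).trans ?_⟩
  rw [mul_assoc, ← dist_eq_norm]
  exact mul_le_mul_of_nonneg_left (hl.dist_le_mul a ha.1 b hb.1) K.2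

end atl

end Crest.Agent.R226.Vol

end
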